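import Vale.Agent.P340.Ty
import Mathlib.Data.Countable.Basic
import Mathlib.Data.Nat.Pairing
import Mathlib.Tactic.Ring

/-! The ambient saturated context `Θ`. Variable `K` has type `Θ K`, which only mentions
variables below `K`; every type of `Θ` is the type of arbitrarily large variables. -/

namespace Vale.Agent.P340

universe u
variable {S : Type u}

open Term

structure Amb (P : Spec S) where
  Θ : ℕ → Term S
  lower : ∀ K, FVlt K (Θ K)
  lowTy : ∀ x, ∃ s, ∀ (G σ : ℕ → Term S),
    (∀ y < x, Ty P G (σ y) ((Θ y).subst σ)) → Ty P G ((Θ x).subst σ) (.sort s)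
  sat : ∀ T s n, Ty P Θ T (.sort s) → ∃ p, n ≤ p ∧ Θ p = T
  wn : ∀ M A, Ty P Θ M A → WN M

variable {P : Spec S}

/-- officially valid lists -/
inductive OV (P : Spec S) : List (Term S) → Prop
  | nil : OV P []
  | cons {Γ : List (Term S)} {A : Term S} {s : S} :
      OV P Γ → Typed P Γ A (.sort s) → OV P (A :: Γ)

theorem Typed.ov {Γ : List (Term S)} {M A : Term S} (h : Typed P Γ M A) : OV P Γ := by
  induction h with
  | ax _ => exact .nil
  | var h ih => exact .cons ih h
  | weak _ h _ ih => exact .cons ih h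
  | pi _ _ _ ih _ => exact ih
  | lam _ _ _ ih => exact ih
  | app _ _ ih _ => exact ih
  | conv _ _ _ ih _ => exact ih

theorem Typed.exists_ax {Γ : List (Term S)} {M A : Term S} (h : Typed P Γ M A) :
    ∃ s₁ s₂, P.ax s₁ s₂ := by
  induction h with
  | ax h => exact ⟨_, _, h⟩
  | var _ ih => exact ih
  | weak _ _ ih _ => exact ih
  | pi _ _ _ ih _ => exact ih
  | lam _ _ ih _ => exact ih
  | app _ _ ih _ => exact ih
  | conv _ _ _ ih _ => exact ih

theorem OV.ax {Γ : List (Term S)} (h : OV P Γ) {s₁ s₂ : S} (hax : P.ax s₁ s₂) :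
    Typed P Γ (.sort s₁) (.sort s₂) := by
  induction h with
  | nil => exact .ax hax
  | cons _ hA ih => exact Typed.weak ih hA

theorem Typed.pi_dom {Γ : List (Term S)} {M T : Term S} (h : Typed P Γ M T) :
    ∀ A B, M = .pi A B → ∃ s, Typed P Γ A (.sort s) := by
  induction h with
  | ax _ => intro A B e; cases e
  | var _ _ => intro A B e; cases e
  | @weak Γ M B A s h hA ih _ =>
    intro A' B' e
    cases M with
    | pi A0 B0 =>
      obtain ⟨s', hs⟩ := ih A0 B0 rfl
      simp only [Term.shift, rename_pi, Term.pi.injEq] at e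
      obtain ⟨rfl, -⟩ := e
      exact ⟨s', Typed.weak hs hA⟩
    | var n => cases e
    | sort s => cases e
    | app _ _ => cases e
    | lam _ _ => cases e
  | pi h _ _ _ _ => intro A B e; cases e; exact ⟨_, h⟩
  | lam _ _ _ _ => intro A B e; cases e
  | app _ _ _ _ => intro A B e; cases e
  | conv _ _ _ ih _ => exact ih

theorem typed_up {G τ : ℕ → Term S} {Δ : List (Term S)} {A : Term S} {s : S} {K : ℕ}
    (hA : Typed P Δ (A.subst τ) (.sort s))
    (hτ : ∀ x < K, Typed P Δ (τ x) ((G x).subst τ)) :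
    ∀ x < K, Typed P (A.subst τ :: Δ) (upSub τ x) ((ccons A G x).subst (upSub τ)) := by
  intro x hx
  cases x with
  | zero => simpa using Typed.var hA
  | succ x => simpa using Typed.weak (hτ x (by omega)) hA

/-- An internal derivation uses finitely many variables. -/
theorem Ty.official {G : ℕ → Term S} {M A : Term S} (h : Ty P G M A) :
    ∃ K₀, ∀ (Δ : List (Term S)) (τ : ℕ → Term S), OV P Δ →
      (∀ x < K₀, Typed P Δ (τ x) ((G x).subst τ)) → Typed P Δ (M.subst τ) (A.subst τ) := by
  induction h with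
  | ax h => exact ⟨0, fun Δ τ hΔ _ => hΔ.ax h⟩
  | var x => exact ⟨x + 1, fun Δ τ _ h => h x (by omega)⟩
  | pi _ _ hr ih1 ih2 =>
    obtain ⟨K1, h1⟩ := ih1
    obtain ⟨K2, h2⟩ := ih2
    refine ⟨K1 + K2, fun Δ τ hΔ hτ => ?_⟩
    have a := h1 Δ τ hΔ (fun x hx => hτ x (by omega))
    have b := h2 _ _ (.cons hΔ a) (fun x hx => typed_up a hτ x (by omega))
    exact Typed.pi a b hr
  | lam _ _ ih1 ih2 =>
    obtain ⟨K1, h1⟩ := ih1
    obtain ⟨K2, h2⟩ := ih2
    refine ⟨K1 + K2, fun Δ τ hΔ hτ => ?_⟩
    have c := h2 Δ τ hΔ (fun x hx => hτ x (by omega))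
    obtain ⟨s, a⟩ := c.pi_dom _ _ rfl
    have b := h1 _ _ (.cons hΔ a) (fun x hx => typed_up a hτ x (by omega))
    exact Typed.lam b c
  | app _ _ ih1 ih2 =>
    obtain ⟨K1, h1⟩ := ih1
    obtain ⟨K2, h2⟩ := ih2
    refine ⟨K1 + K2, fun Δ τ hΔ hτ => ?_⟩
    have a := h1 Δ τ hΔ (fun x hx => hτ x (by omega))
    have b := h2 Δ τ hΔ (fun x hx => hτ x (by omega))
    rw [inst_subst]
    exact Typed.app a b
  | conv _ _ c ih1 ih2 =>
    obtain ⟨K1, h1⟩ := ih1
    obtain ⟨K2, h2⟩ := ih2
    refine ⟨K1 + K2, fun Δ τ hΔ hτ => ?_⟩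
    have a := h1 Δ τ hΔ (fun x hx => hτ x (by omega))
    have b := h2 Δ τ hΔ (fun x hx => hτ x (by omega))
    exact Typed.conv a b (c.subst τ)

theorem rename_congr_free {M : Term S} {ξ ζ : ℕ → ℕ} (h : ∀ x, Free x M → ξ x = ζ x) :
    M.rename ξ = M.rename ζ := by
  rw [rename_eq_subst, rename_eq_subst]
  exact subst_congr_free (fun x hx => by rw [h x hx])

/-- an injective code of terms -/
def Term.code (f : S → ℕ) : Term S → ℕ
  | .var n => Nat.pair 0 n
  | .sort s => Nat.pair 1 (f s)
  | .app M N => Nat.pair 2 (Nat.pair (M.code f) (N.code f))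
  | .lam M N => Nat.pair 3 (Nat.pair (M.code f) (N.code f))
  | .pi M N => Nat.pair 4 (Nat.pair (M.code f) (N.code f))

theorem code_injective {f : S → ℕ} (hf : Function.Injective f) :
    Function.Injective (Term.code f) := by
  intro M
  induction M with
  | var n => intro N e; cases N <;> simp_all [Term.code, Nat.pair_eq_pair]
  | sort s =>
    intro N e; cases N <;> simp [Term.code, Nat.pair_eq_pair] at e
    rw [hf e]
  | app M1 M2 ih1 ih2 =>
    intro N e; cases N <;> simp [Term.code, Nat.pair_eq_pair] at e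
    rw [ih1 e.1, ih2 e.2]
  | lam M1 M2 ih1 ih2 =>
    intro N e; cases N <;> simp [Term.code, Nat.pair_eq_pair] at e
    rw [ih1 e.1, ih2 e.2]
  | pi M1 M2 ih1 ih2 =>
    intro N e; cases N <;> simp [Term.code, Nat.pair_eq_pair] at e
    rw [ih1 e.1, ih2 e.2]

theorem exists_enum [Countable S] :
    ∃ e : ℕ → Term S, ∀ T n, ∃ p, n ≤ p ∧ e p = T := by
  obtain ⟨f, hf⟩ := exists_injective_nat S
  have : Countable (Term S) := (code_injective hf).countable
  have : Nonempty (Term S) := ⟨.var 0⟩
  obtain ⟨g, hg⟩ := exists_surjective_nat (Term S)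
  refine ⟨fun n => g n.unpair.1, fun T n => ?_⟩
  obtain ⟨a, rfl⟩ := hg T
  exact ⟨Nat.pair a n, Nat.right_le_pair _ _, by simp⟩

/-- reading the variables below `K` as de Bruijn indices of a list of length `K` -/
def rv (K i : ℕ) : ℕ := K - 1 - i

open Classical in
/-- the declaration made at stage `K` -/
noncomputable def pick (P : Spec S) (e : ℕ → Term S) (s₁ : S) (K : ℕ) (D : List (Term S)) :
    Term S :=
  if FVlt K (e K) ∧ ∃ s, Typed P D ((e K).rename (rv K)) (.sort s) then e K else .sort s₁

/-- the official telescopes -/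
noncomputable def tele (P : Spec S) (e : ℕ → Term S) (s₁ : S) : ℕ → List (Term S)
  | 0 => []
  | K + 1 => (pick P e s₁ K (tele P e s₁ K)).rename (rv K) :: tele P e s₁ K

/-- the ambient context -/
noncomputable def theta (P : Spec S) (e : ℕ → Term S) (s₁ : S) (K : ℕ) : Term S :=
  pick P e s₁ K (tele P e s₁ K)

section
variable {e : ℕ → Term S} {s₁ s₂ : S}

theorem tele_succ (K : ℕ) :
    tele P e s₁ (K + 1) = (theta P e s₁ K).rename (rv K) :: tele P e s₁ K := rfl

theorem tele_length (K : ℕ) : (tele P e s₁ K).length = K := by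
  induction K with
  | zero => rfl
  | succ K ih => simp [tele_succ, ih]

theorem theta_lower (K : ℕ) : FVlt K (theta P e s₁ K) := by
  unfold theta pick
  split_ifs with h
  · exact h.1
  · intro x hx; simp at hx

theorem theta_typed_of_ov (hax : P.ax s₁ s₂) {K : ℕ} (h : OV P (tele P e s₁ K)) :
    ∃ s, Typed P (tele P e s₁ K) ((theta P e s₁ K).rename (rv K)) (.sort s) := by
  unfold theta pick
  split_ifs with h'
  · exact h'.2
  · exact ⟨s₂, h.ax hax⟩

theorem tele_ov (hax : P.ax s₁ s₂) (K : ℕ) : OV P (tele P e s₁ K) := by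
  induction K with
  | zero => exact .nil
  | succ K ih =>
    obtain ⟨s, hs⟩ := theta_typed_of_ov hax ih
    exact .cons ih hs

theorem rename_rv_shift {T : Term S} {K : ℕ} (h : FVlt K T) :
    (T.rename (rv K)).shift = T.rename (rv (K + 1)) := by
  rw [Term.shift, rename_rename]
  exact rename_congr_free (fun x hx => by have := h x hx; simp only [rv]; omega)

theorem tele_var (hax : P.ax s₁ s₂) (K : ℕ) : ∀ x < K,
    Typed P (tele P e s₁ K) (.var (rv K x)) ((theta P e s₁ x).rename (rv K)) := by
  induction K with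
  | zero => intro x hx; omega
  | succ K ih =>
    intro x hx
    obtain ⟨s, hs⟩ := theta_typed_of_ov (e := e) hax (tele_ov hax K)
    rw [tele_succ]
    rcases Nat.lt_succ_iff_lt_or_eq.1 hx with h | rfl
    · have := Typed.weak (ih x h) hs
      rw [rename_rv_shift ((theta_lower x).mono h.le), shift_var] at this
      have e1 : rv (K + 1) x = rv K x + 1 := by simp only [rv]; omega
      rw [e1]; exact this
    · have := Typed.var hs
      rw [rename_rv_shift (theta_lower x)] at this
      have e1 : rv (x + 1) x = 0 := by simp only [rv]; omega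
      rw [e1]; exact this

theorem theta_official (hax : P.ax s₁ s₂) {M A : Term S} (h : Ty P (theta P e s₁) M A) :
    ∃ K₀, ∀ K, K₀ ≤ K → Typed P (tele P e s₁ K) (M.rename (rv K)) (A.rename (rv K)) := by
  obtain ⟨K₀, hK⟩ := h.official
  refine ⟨K₀, fun K hle => ?_⟩
  rw [rename_eq_subst, rename_eq_subst]
  refine hK _ _ (tele_ov hax K) (fun x hx => ?_)
  rw [← rename_eq_subst]
  exact tele_var hax K x (by omega)

theorem ctxOf_tele (G : ℕ → Term S) (K : ℕ) : ∀ j < K,
    ctxOf (tele P e s₁ K) G j = (theta P e s₁ (rv K j)).rename (rv K) := by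
  induction K with
  | zero => intro j hj; omega
  | succ K ih =>
    intro j hj
    have e0 : ctxOf (tele P e s₁ (K + 1)) G =
        ccons ((theta P e s₁ K).rename (rv K)) (ctxOf (tele P e s₁ K) G) := rfl
    rw [e0]
    cases j with
    | zero =>
      have e1 : rv (K + 1) 0 = K := by simp [rv]
      rw [ccons_zero, e1, rename_rv_shift (theta_lower K)]
    | succ j =>
      have e1 : rv (K + 1) (j + 1) = rv K j := by simp only [rv]; omega
      rw [ccons_succ, ih j (by omega), e1,
        rename_rv_shift ((theta_lower _).mono (by simp only [rv]; omega))]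

theorem rename_rv_subst {T : Term S} {K : ℕ} (h : FVlt K T) (σ : ℕ → Term S) :
    (T.rename (rv K)).subst (fun i => σ (rv K i)) = T.subst σ := by
  rw [subst_rename]
  refine subst_congr_free (fun x hx => ?_)
  have := h x hx
  congr 1; simp only [rv]; omega

end

/-- Construction of the ambient context. Idea: `Term S` is countable; enumerate all terms with
infinite repetition; build official telescopes `Δ K` (lists of length `K`) and read variable `i`
of `Θ` as de Bruijn index `K - 1 - i` of `Δ K`; at stage `K` declare the `K`-th term of the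
enumeration if its translation is officially a type in `Δ K` and its variables are below `K`,
and otherwise declare the sort `s₁`. An internal derivation over `Θ` uses finitely many
variables, hence translates to an official derivation in `Δ K` for all large `K`. -/
theorem exists_amb [Finite S] (hwn : WeaklyNormalizing P) {s₁ s₂ : S} (hax : P.ax s₁ s₂) :
    Nonempty (Amb P) := by
  obtain ⟨e, he⟩ := exists_enum (S := S)
  refine ⟨⟨theta P e s₁, theta_lower, fun x => ?_, fun T s n h => ?_, fun M A h => ?_⟩⟩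
  · obtain ⟨s, hs⟩ := theta_typed_of_ov (e := e) hax (tele_ov hax x)
    refine ⟨s, fun G σ hσ => ?_⟩
    have := hs.ty_subst (G := G) (G' := G) (σ := fun i => σ (rv x i)) (fun j hj => by
      rw [tele_length] at hj
      have hlt : rv x j < x := by simp only [rv]; omega
      rw [ctxOf_tele G x j hj, rename_rv_subst ((theta_lower _).mono hlt.le)]
      exact hσ _ hlt)
    rwa [rename_rv_subst (theta_lower x), subst_sort] at this
  · obtain ⟨K₀, hK⟩ := theta_official hax h
    obtain ⟨n₀, hn₀⟩ := exists_fvlt T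
    obtain ⟨p, hp, hT⟩ := he T (n + K₀ + n₀)
    refine ⟨p, by omega, ?_⟩
    unfold theta pick
    rw [if_pos, hT]
    rw [hT]
    exact ⟨hn₀.mono (by omega), s, hK p (by omega)⟩
  · obtain ⟨K₀, hK⟩ := theta_official hax h
    exact wn_rename.1 (hwn _ ⟨_, _, Or.inl (hK K₀ le_rfl)⟩)

namespace Amb
variable (E : Amb P)

theorem valid : Valid P E.Θ := by
  intro x
  obtain ⟨s, hs⟩ := E.lowTy x
  exact ⟨s, by simpa using hs E.Θ var (fun y _ => by simpa using Ty.var y)⟩

theorem wn_type {M A : Term S} (h : Ty P E.Θ M A) : WN A := by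
  rcases h.type_valid E.valid with ⟨s, rfl⟩ | ⟨s, hs⟩
  · exact (normal_sort s).wn
  · exact E.wn _ _ hs

theorem exists_next (k : ℕ) (τ : ℕ → Term S) : ∃ q,
    (∀ y < k, Ty P E.Θ (τ y) ((E.Θ y).subst τ)) → E.Θ q = (E.Θ k).subst τ := by
  by_cases h : ∀ y < k, Ty P E.Θ (τ y) ((E.Θ y).subst τ)
  · obtain ⟨s, hs⟩ := E.lowTy k
    obtain ⟨q, -, hq⟩ := E.sat _ s 0 (hs E.Θ τ h)
    exact ⟨q, fun _ => hq⟩
  · exact ⟨0, fun h' => (h h').elim⟩

/-- the approximations of the extension -/
noncomputable def approx (p : ℕ) (σ : ℕ → Term S) : ℕ → ℕ → Term S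
  | 0 => σ
  | k + 1 => fun y => if y = k ∧ p ≤ k then
      var (Classical.choose (E.exists_next k (approx p σ k))) else approx p σ k y

theorem approx_succ_ne (p : ℕ) (σ : ℕ → Term S) {k y : ℕ} (h : y ≠ k ∨ k < p) :
    E.approx p σ (k + 1) y = E.approx p σ k y := by
  simp only [approx]
  rw [if_neg]; omega

theorem approx_low (p : ℕ) (σ : ℕ → Term S) (k : ℕ) {y : ℕ} (h : y < p) :
    E.approx p σ k y = σ y := by
  induction k with
  | zero => rfl
  | succ k ih => rw [approx_succ_ne _ _ _ (by omega), ih]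

theorem approx_stable (p : ℕ) (σ : ℕ → Term S) {y k : ℕ} (h : y < k) :
    E.approx p σ k y = E.approx p σ (y + 1) y := by
  induction k with
  | zero => omega
  | succ k ih =>
    rcases Nat.lt_succ_iff_lt_or_eq.1 h with h' | rfl
    · rw [approx_succ_ne _ _ _ (by omega), ih h']
    · rfl

theorem approx_typed (p : ℕ) (σ : ℕ → Term S)
    (h : ∀ y < p, Ty P E.Θ (σ y) ((E.Θ y).subst σ)) (k : ℕ) :
    ∀ y < k, Ty P E.Θ (E.approx p σ k y) ((E.Θ y).subst (E.approx p σ k)) := by
  induction k with
  | zero => intro y hy; omega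
  | succ k ih =>
    intro y hy
    have e1 : (E.Θ y).subst (E.approx p σ (k + 1)) = (E.Θ y).subst (E.approx p σ k) :=
      subst_congr_free (fun x hx => by
        have := E.lower y x hx
        exact approx_succ_ne _ _ _ (by omega))
    rw [e1]
    rcases Nat.lt_succ_iff_lt_or_eq.1 hy with h' | rfl
    · rw [approx_succ_ne _ _ _ (by omega)]; exact ih y h'
    · by_cases hp : y < p
      · rw [approx_low _ _ _ _ hp]
        have e2 : (E.Θ y).subst (E.approx p σ y) = (E.Θ y).subst σ :=
          subst_congr_free (fun x hx => by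
            have := E.lower y x hx
            exact approx_low _ _ _ _ (by omega))
        rw [e2]; exact h y hp
      · have e2 : E.approx p σ (y + 1) y =
            var (Classical.choose (E.exists_next y (E.approx p σ y))) := by
          simp only [approx]
          rw [if_pos]; exact ⟨trivial, by omega⟩
        have e3 := Classical.choose_spec (E.exists_next y (E.approx p σ y)) ih
        rw [e2]
        generalize Classical.choose (E.exists_next y (E.approx p σ y)) = q at e3 ⊢
        rw [← e3]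
        exact Ty.var _

/-- A substitution typed below `p` extends to a total typed one, by variables. -/
theorem ext (p : ℕ) (σ : ℕ → Term S)
    (h : ∀ y < p, Ty P E.Θ (σ y) ((E.Θ y).subst σ)) :
    ∃ σ', TS P E.Θ E.Θ σ' ∧ (∀ y < p, σ' y = σ y) ∧ ∀ y, p ≤ y → ∃ q, σ' y = var q := by
  refine ⟨fun y => E.approx p σ (y + 1) y, fun y => ?_, fun y hy => E.approx_low _ _ _ hy,
    fun y hy => ⟨Classical.choose (E.exists_next y (E.approx p σ y)), ?_⟩⟩
  · have e1 : (E.Θ y).subst (fun y => E.approx p σ (y + 1) y) =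
        (E.Θ y).subst (E.approx p σ (y + 1)) :=
      subst_congr_free (fun x hx => by
        have := E.lower y x hx
        exact (E.approx_stable p σ (by omega)).symm)
    rw [e1]
    exact E.approx_typed p σ h (y + 1) y (by omega)
  · simp only [approx]
    rw [if_pos]; exact ⟨trivial, hy⟩

theorem embed_ctx {Γ : List (Term S)} (h : OV P Γ) (G : ℕ → Term S) :
    ∃ ξ : ℕ → ℕ, ∀ x < Γ.length,
      Ty P E.Θ (var (ξ x)) ((ctxOf Γ G x).subst (fun n => var (ξ n))) := by
  induction h with
  | nil => exact ⟨id, fun x hx => by simp at hx⟩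
  | @cons Γ A s _ hA ih =>
    obtain ⟨ξ, hξ⟩ := ih
    have a := hA.ty_subst hξ
    obtain ⟨p, -, hp⟩ := E.sat _ s 0 a
    refine ⟨scons p ξ, fun x hx => ?_⟩
    have e0 : ctxOf (A :: Γ) G = ccons A (ctxOf Γ G) := rfl
    rw [e0]
    cases x with
    | zero =>
      rw [ccons_zero, shift_subst]
      simp only [scons_succ, scons_zero]
      rw [← hp]; exact Ty.var p
    | succ x =>
      rw [ccons_succ, shift_subst]
      simp only [scons_succ]
      exact hξ x (by simpa using hx)

/-- Official judgments embed into `Θ` by a renaming. -/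
theorem embed {Γ : List (Term S)} {M A : Term S} (h : Typed P Γ M A) :
    ∃ ξ : ℕ → ℕ, Ty P E.Θ (M.rename ξ) (A.rename ξ) := by
  obtain ⟨ξ, hξ⟩ := E.embed_ctx h.ov E.Θ
  refine ⟨ξ, ?_⟩
  rw [rename_eq_subst, rename_eq_subst]
  exact h.ty_subst hξ

theorem nf_ty {M A : Term S} (h : Ty P E.Θ M A) : Ty P E.Θ (nf M) A :=
  h.red E.valid (E.wn _ _ h).red_nf

end Amb

/-- If every term typed in an ambient context is strongly normalizing then so is the system
(finite case). -/
theorem sn_of_amb [Finite S] (hwn : WeaklyNormalizing P)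
    (h : ∀ (E : Amb P) (M A : Term S), Ty P E.Θ M A → SN M) : StronglyNormalizing P := by
  rintro M ⟨Γ, A, hM | hM⟩
  · obtain ⟨s₁, s₂, hax⟩ := hM.exists_ax
    obtain ⟨E⟩ := exists_amb hwn hax
    obtain ⟨ξ, hξ⟩ := E.embed hM
    exact (h E _ _ hξ).of_rename
  · obtain ⟨s₁, s₂, hax⟩ := hM.exists_ax
    obtain ⟨E⟩ := exists_amb hwn hax
    obtain ⟨ξ, hξ⟩ := E.embed hM
    refine SN.of_rename (ξ := ξ) ?_
    rcases hξ.type_valid E.valid with ⟨s, hs⟩ | ⟨s, hs⟩
    · rw [hs]
      rintro ⟨f, h0, hf⟩
      have := hf 0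
      rw [h0] at this
      cases this
    · exact h E _ _ hs

end Vale.Agent.P340
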