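import Vale.Agent.P340.BGraph

/-! Safe terms. `Safe G Pr M (some D)`: `M : D` and, in the positions seen by the interpretation,
the redexes of `M` have a signed type and the heads of unsigned type are in `Pr`.
`Safe G Pr T none`: the same for a type `T` of level at most `j`. -/

namespace Vale.Agent.P340

universe u
variable {S : Type u} {P : Spec S} [Finite S]

/-- lift a set of variables under a binder (the bound variable is not in the set) -/
def upPr (Pr : ℕ → Prop) : ℕ → Prop
  | 0 => False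
  | n + 1 => Pr n

namespace Amb
variable (E : Amb P) (j : ℕ)

/-- types of `Θ` that lead to a sort of level `j` along codomains -/
inductive KindAt : Term S → Prop
  | sort {D s} : E.NN j {s} → Conv D (.sort s) → KindAt D
  | pi {D A B a} : Conv D (.pi A B) → Ty P E.Θ a A → KindAt (B.inst a) → KindAt D

/-- no instance of `D` is a kind -/
def NoKind (G : ℕ → Term S) (D : Term S) : Prop :=
  ∀ σ, TS P G E.Θ σ → ¬ E.KindAt j (D.subst σ)

/-- no instance of `T` is in the component -/
def Ign (G : ℕ → Term S) (T : Term S) : Prop :=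
  ∀ σ, TS P G E.Θ σ → ¬ E.NN j (prof P E.Θ (T.subst σ))

/-- the profile is signed if it may be the profile of a kind -/
def Fine (I : Set S) : Prop := E.Rr j I → E.Qs j I

inductive Safe : (ℕ → Term S) → (ℕ → Prop) → Term S → Option (Term S) → Prop
  | irr {G Pr M D₀ D} : Ty P G M D₀ → Conv D₀ D → E.NoKind j G D → Safe G Pr M (some D)
  | neu {G Pr M D₀ D x} : HeadVar x M → Pr x → Ty P G M D₀ → Conv D₀ D → Safe G Pr M (some D)
  | var {G Pr x D} : E.Qs j (prof P G (G x)) → Conv (G x) D → Safe G Pr (.var x) (some D)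
  | lam {G Pr A M B D s} : Conv (.pi A B) D → Ty P G (.pi A B) (.sort s) →
      Ty P (ccons A G) M B → E.Fine j (prof P G A) →
      Safe (ccons A G) (upPr Pr) M (some B) → Safe G Pr (.lam A M) (some D)
  | app {G Pr M N A B D s} : Safe G Pr M (some (.pi A B)) → Ty P G (.pi A B) (.sort s) →
      Safe G Pr N (some A) → Conv (B.inst N) D → Safe G Pr (.app M N) (some D)
  | ty {G Pr M D s} : Ty P G M (.sort s) → Conv (.sort s) D → Safe G Pr M none →
      Safe G Pr M (some D)
  | ign {G Pr T} : E.Ign j G T → Safe G Pr T none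
  | sort {G Pr s} : Safe G Pr (.sort s) none
  | pi {G Pr A B s} : Ty P G (.pi A B) (.sort s) →
      (E.Fine j (prof P G A) ∨ E.Ign j (ccons A G) B) → Safe G Pr A none →
      Safe (ccons A G) (upPr Pr) B none → Safe G Pr (.pi A B) none
  | tm {G Pr T s} : E.NN j {s} → Safe G Pr T (some (.sort s)) → Safe G Pr T none

/-- valid contexts that map to `Θ` -/
def Emb (G : ℕ → Term S) : Prop := Valid P G ∧ ∃ σ, TS P G E.Θ σ

/-- the variables outside `Pr` whose type may be a kind have a signed type -/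
def CtxOK (G : ℕ → Term S) (Pr : ℕ → Prop) : Prop :=
  ∀ x, ¬ Pr x → E.Fine j (prof P G (G x))

variable {E j} {G G' : ℕ → Term S} {Pr Pr' : ℕ → Prop} {M N A B D D' T : Term S}
  {o : Option (Term S)}

theorem emb_theta (E : Amb P) : E.Emb E.Θ := by
  exact ⟨E.valid, Term.var, TS.id _⟩

/-- use `E.sat` -/
theorem Emb.ccons {s : S} (h : E.Emb G) (hA : Ty P G A (.sort s)) : E.Emb (ccons A G) := by
  obtain ⟨hv, σ, hσ⟩ := h
  obtain ⟨p, -, hp⟩ := E.sat _ s 0 (hA.subst hσ)
  exact ⟨hv.ccons hA, scons (Term.var p) σ, hσ.scons (by rw [← hp]; exact Ty.var p)⟩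

omit [Finite S] in
theorem Emb.node {s : S} (h : E.Emb G) (hA : Ty P G A (.sort s)) : E.Node (prof P G A) := by
  obtain ⟨-, σ, hσ⟩ := h
  exact node_prof_of hσ ⟨s, mem_prof hA⟩

omit [Finite S] in
theorem Emb.back (hG : Valid P G) (h : E.Emb G') {τ : ℕ → Term S} (hτ : TS P G G' τ) :
    E.Emb G := by
  obtain ⟨-, σ, hσ⟩ := h
  exact ⟨hG, _, hτ.comp hσ⟩

omit [Finite S] in
theorem bS_ts_ren {ξ : ℕ → ℕ} (hξ : ∀ x, G' (ξ x) = (G x).rename ξ) :
    TS P G G' fun x => .var (ξ x) := by
  intro x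
  rw [← rename_eq_subst, ← hξ]
  exact .var _

theorem bS_upPr_ren {ξ : ℕ → ℕ} (hPr : ∀ x, Pr x → Pr' (ξ x)) :
    ∀ x, upPr Pr x → upPr Pr' (upRen ξ x) := by
  intro x hx
  cases x with
  | zero => exact hx.elim
  | succ x => exact hPr x hx

omit [Finite S] in
theorem bS_upPr_sub {τ : ℕ → Term S} (hPr : ∀ x, Pr x → ∃ y, HeadVar y (τ x) ∧ Pr' y) :
    ∀ x, upPr Pr x → ∃ y, HeadVar y (upSub τ x) ∧ upPr Pr' y := by
  intro x hx
  cases x with
  | zero => exact hx.elim
  | succ x =>
    obtain ⟨y, hy, hp⟩ := hPr x hx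
    exact ⟨y + 1, hy.rename Nat.succ, hp⟩

theorem KindAt.conv (h : E.KindAt j D) (c : Conv D D') : E.KindAt j D' := by
  cases h with
  | sort h k => exact .sort h (c.symm.trans k)
  | pi k ha h => exact .pi (c.symm.trans k) ha h

theorem KindAt.rr (h : E.KindAt j D) (hne : (prof P E.Θ D).Nonempty) :
    E.Rr j (prof P E.Θ D) := by
  induction h with
  | @sort D s h k =>
    refine ⟨_, .refl, node_prof hne, s, h, fun t ht => ?_⟩
    rwa [k.prof_eq, prof_sort E.valid] at ht
  | @pi D A B a k ha _ ih =>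
    rw [k.prof_eq] at hne ⊢
    have r := pr_pi_inst E.valid ha B
    obtain ⟨h1, h2⟩ := pr_nonempty r hne
    exact (ih h2).of_pr (node_prof hne) (node_prof h1) r

theorem noKind_of_not_rr (hne : (prof P G D).Nonempty) (h : ¬ E.Rr j (prof P G D)) :
    E.NoKind j G D := by
  intro σ hσ k
  exact h ((k.rr (hne.mono (prof_subst hσ D))).of_subset (node_prof_of hσ hne) (prof_subst hσ D))

theorem noKind_sort {s : S} (h : ¬ E.NN j {s}) : E.NoKind j G (.sort s) := by
  intro σ _ k
  rw [subst_sort] at k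
  cases k with
  | sort h' c => exact h (c.sort_inj ▸ h')
  | pi c _ _ => exact c.sort_pi

theorem noKind_pi {s : S} (hT : Ty P G (.pi A B) (.sort s)) (h : E.NoKind j (ccons A G) B) :
    E.NoKind j G (.pi A B) := by
  intro σ hσ k
  rw [subst_pi] at k
  cases k with
  | sort _ c => exact c.symm.sort_pi
  | @pi _ A' B' a c ha k =>
    obtain ⟨s₁, s₂, hA, -, -⟩ := hT.gen_pi_sort
    obtain ⟨c1, c2⟩ := c.pi_inj
    have ha' : Ty P E.Θ a (A.subst σ) := .conv ha (hA.subst hσ) c1.symm
    refine h _ (hσ.scons ha') (k.conv ?_)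
    rw [← upSub_inst]
    exact c2.symm.inst Conv.rfl

theorem NoKind.inst (h : E.NoKind j G (.pi A B)) (hN : Ty P G N A) : E.NoKind j G (B.inst N) := by
  intro σ hσ k
  rw [inst_subst] at k
  exact h σ hσ (.pi Conv.rfl (hN.subst hσ) k)

theorem NoKind.conv (h : E.NoKind j G D) (c : Conv D D') : E.NoKind j G D' := by
  exact fun σ hσ k => h σ hσ (k.conv (c.subst σ).symm)

theorem NoKind.subst (h : E.NoKind j G D) {τ : ℕ → Term S} (hτ : TS P G G' τ) :
    E.NoKind j G' (D.subst τ) := by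
  intro σ hσ k
  rw [subst_subst] at k
  exact h _ (hτ.comp hσ) k

theorem ign_of_low (hne : (prof P G T).Nonempty) (h : E.idx (prof P G T) < j) : E.Ign j G T := by
  intro σ hσ k
  have h1 := idx_le_of_subset (node_prof_of hσ hne) k.1 (prof_subst hσ T)
  have h2 := k.2
  omega

theorem Ign.conv {T' : Term S} (h : E.Ign j G T) (c : Conv T T') : E.Ign j G T' := by
  intro σ hσ k
  rw [← (c.subst σ).prof_eq] at k
  exact h σ hσ k

theorem Ign.subst (h : E.Ign j G T) {τ : ℕ → Term S} (hτ : TS P G G' τ) :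
    E.Ign j G' (T.subst τ) := by
  intro σ hσ k
  rw [subst_subst] at k
  exact h _ (hτ.comp hσ) k

theorem Fine.of_subset {I J : Set S} (h : E.Fine j I) (hI : E.Node I) (s : I ⊆ J) :
    E.Fine j J := by
  exact fun hJ => (h (hJ.of_subset hI s)).of_subset s hJ

theorem CtxOK.ccons {s : S} (h : E.CtxOK j G Pr) (hG : E.Emb G) (hA : Ty P G A (.sort s))
    (hq : E.Fine j (prof P G A)) : E.CtxOK j (ccons A G) (upPr Pr) := by
  intro x hx
  cases x with
  | zero => exact hq.of_subset (hG.node hA) (prof_weak _ _)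
  | succ x =>
    obtain ⟨t, ht⟩ := hG.1 x
    exact (h x hx).of_subset (hG.node ht) (prof_weak _ _)

theorem Safe.typed (h : E.Safe j G Pr M (some D)) : ∃ D₀, Conv D₀ D ∧ Ty P G M D₀ := by
  generalize ho : some D = o at h
  induction h generalizing D with
  | irr h c _ => cases ho; exact ⟨_, c, h⟩
  | neu _ _ h c => cases ho; exact ⟨_, c, h⟩
  | var _ c => cases ho; exact ⟨_, c, .var _⟩
  | lam c hT hM _ _ _ => cases ho; exact ⟨_, c, .lam hM hT⟩
  | app _ hT _ c ih1 ih2 =>
    cases ho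
    obtain ⟨D1, c1, h1⟩ := ih1 rfl
    obtain ⟨D2, c2, h2⟩ := ih2 rfl
    obtain ⟨s₁, s₂, hA, -, -⟩ := hT.gen_pi_sort
    exact ⟨_, c, .app (.conv h1 hT c1) (.conv h2 hA c2)⟩
  | ty h c _ _ => cases ho; exact ⟨_, c, h⟩
  | ign => cases ho
  | sort => cases ho
  | pi => cases ho
  | tm => cases ho

theorem Safe.conv (h : E.Safe j G Pr M (some D)) (c : Conv D D') :
    E.Safe j G Pr M (some D') := by
  cases h with
  | irr h k hn => exact .irr h (k.trans c) (hn.conv c)
  | neu hx hp h k => exact .neu hx hp h (k.trans c)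
  | var hq k => exact .var hq (k.trans c)
  | lam k hT hM hq h => exact .lam (k.trans c) hT hM hq h
  | app h1 hT h2 k => exact .app h1 hT h2 (k.trans c)
  | ty h k h' => exact .ty h (k.trans c) h'

/-- a variable is safe as soon as its type is fine or it is in `Pr` -/
theorem safe_var (hG : Valid P G) (x : ℕ) (h : ¬ Pr x → E.Fine j (prof P G (G x))) :
    E.Safe j G Pr (.var x) (some (G x)) := by
  by_cases hp : Pr x
  · exact .neu .var hp (.var x) Conv.rfl
  · by_cases hr : E.Rr j (prof P G (G x))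
    · exact .var (h hp hr) Conv.rfl
    · obtain ⟨s, hs⟩ := hG x
      exact .irr (.var x) Conv.rfl (noKind_of_not_rr ⟨s, mem_prof hs⟩ hr)

/-- Profiles grow (`prof_subst`, `Fine.of_subset`, `Qs.of_subset`, `safe_var`). -/
theorem Safe.rename (h : E.Safe j G Pr M o) (hG : Valid P G) (hG' : E.Emb G') {ξ : ℕ → ℕ}
    (hξ : ∀ x, G' (ξ x) = (G x).rename ξ) (hPr : ∀ x, Pr x → Pr' (ξ x)) :
    E.Safe j G' Pr' (M.rename ξ) (o.map (Term.rename ξ)) := by
  induction h generalizing G' ξ Pr' with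
  | irr h c hn =>
    refine .irr (h.rename hξ) (c.rename ξ) ?_
    rw [rename_eq_subst]
    exact hn.subst (bS_ts_ren hξ)
  | neu hx hp h c => exact .neu (hx.rename ξ) (hPr _ hp) (h.rename hξ) (c.rename ξ)
  | @var G Pr x D hq c =>
    refine (safe_var hG'.1 (ξ x) fun _ => ?_).conv (by rw [hξ]; exact c.rename ξ)
    rw [hξ, rename_eq_subst]
    exact Fine.of_subset (fun _ => hq) hq.rr.node (prof_subst (bS_ts_ren hξ) _)
  | @lam G Pr A M B D s c hT hM hq _ ih =>
    obtain ⟨s₁, s₂, hA, -, -⟩ := hT.gen_pi_sort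
    refine .lam (c.rename ξ) (hT.rename hξ) (hM.rename (ty_upRen hξ A)) ?_
      (ih (hG.ccons hA) (hG'.ccons (hA.rename hξ)) (ty_upRen hξ A) (bS_upPr_ren hPr))
    rw [rename_eq_subst]
    exact hq.of_subset ((Emb.back hG hG' (bS_ts_ren hξ)).node hA) (prof_subst (bS_ts_ren hξ) _)
  | app _ hT _ c ih1 ih2 =>
    refine .app (ih1 hG hG' hξ hPr) (hT.rename hξ) (ih2 hG hG' hξ hPr) ?_
    rw [← inst_rename]
    exact c.rename ξ
  | ty h c _ ih => exact .ty (h.rename hξ) (c.rename ξ) (ih hG hG' hξ hPr)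
  | ign hi =>
    refine .ign ?_
    rw [rename_eq_subst]
    exact hi.subst (bS_ts_ren hξ)
  | sort => exact .sort
  | @pi G Pr A B s hT hq _ _ ih1 ih2 =>
    obtain ⟨s₁, s₂, hA, -, -⟩ := hT.gen_pi_sort
    refine .pi (hT.rename hξ) ?_ (ih1 hG hG' hξ hPr)
      (ih2 (hG.ccons hA) (hG'.ccons (hA.rename hξ)) (ty_upRen hξ A) (bS_upPr_ren hPr))
    rcases hq with hq | hq
    · left
      rw [rename_eq_subst]
      exact hq.of_subset ((Emb.back hG hG' (bS_ts_ren hξ)).node hA) (prof_subst (bS_ts_ren hξ) _)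
    · right
      rw [rename_eq_subst B]
      exact hq.subst (bS_ts_ren (ty_upRen hξ A))
  | tm hs _ ih => exact .tm hs (ih hG hG' hξ hPr)

theorem bS_up_safe {s : S} (hG : E.Emb G) (hc : E.CtxOK j G Pr) (hG' : E.Emb G')
    {τ : ℕ → Term S} (hA : Ty P G' (A.subst τ) (.sort s))
    (hq : E.Fine j (prof P G' (A.subst τ)))
    (hS : ∀ x, ¬ Pr x → E.Qs j (prof P G (G x)) →
      E.Safe j G' Pr' (τ x) (some ((G x).subst τ))) :
    ∀ x, ¬ upPr Pr x → E.Qs j (prof P (ccons A G) (ccons A G x)) →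
      E.Safe j (ccons (A.subst τ) G') (upPr Pr') (upSub τ x)
        (some ((ccons A G x).subst (upSub τ))) := by
  intro x hx hq'
  cases x with
  | zero =>
    rw [ccons_zero, shift_subst_upSub]
    exact safe_var (hG'.1.ccons hA) 0 fun _ => hq.of_subset (hG'.node hA) (prof_weak _ _)
  | succ x =>
    rw [ccons_succ, shift_subst_upSub]
    obtain ⟨t, ht⟩ := hG.1 x
    have h1 := hc x hx (hq'.rr.of_subset (hG.node ht) (prof_weak _ _))
    exact (hS x hx h1).rename (ξ := Nat.succ) hG'.1 (hG'.ccons hA) (fun _ => rfl) fun _ h => h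

/-- Under a binder, if the profile of `(G x).shift` in `ccons A G` is signed then it is in `Rr`,
so is the smaller `prof P G (G x)`, which is signed by `CtxOK`. In the `pi` case with `Ign`, use
`ign` for the codomain instead of the induction hypothesis. -/
theorem Safe.subst (h : E.Safe j G Pr M o) (hG : Valid P G) (hc : E.CtxOK j G Pr)
    (hG' : E.Emb G') {τ : ℕ → Term S}
    (hτ : TS P G G' τ) (hPr : ∀ x, Pr x → ∃ y, HeadVar y (τ x) ∧ Pr' y)
    (hS : ∀ x, ¬ Pr x → E.Qs j (prof P G (G x)) →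
      E.Safe j G' Pr' (τ x) (some ((G x).subst τ))) :
    E.Safe j G' Pr' (M.subst τ) (o.map (Term.subst τ)) := by
  induction h generalizing G' τ Pr' with
  | irr h c hn => exact .irr (h.subst hτ) (c.subst τ) (hn.subst hτ)
  | neu hx hp h c =>
    obtain ⟨y, hy, hp'⟩ := hPr _ hp
    exact .neu (hx.subst hy) hp' (h.subst hτ) (c.subst τ)
  | @var G Pr x D hq c =>
    by_cases hp : Pr x
    · obtain ⟨y, hy, hp'⟩ := hPr _ hp
      exact .neu hy hp' (hτ x) (c.subst τ)
    · exact (hS x hp hq).conv (c.subst τ)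
  | @lam G Pr A M B D s c hT hM hq _ ih =>
    obtain ⟨s₁, s₂, hA, -, -⟩ := hT.gen_pi_sort
    have he := Emb.back hG hG' hτ
    have hq' : E.Fine j (prof P G' (A.subst τ)) := hq.of_subset (he.node hA) (prof_subst hτ _)
    exact .lam (c.subst τ) (hT.subst hτ) (hM.subst (hτ.up A)) hq'
      (ih (hG.ccons hA) (hc.ccons he hA hq) (hG'.ccons (hA.subst hτ)) (hτ.up A)
        (bS_upPr_sub hPr) (bS_up_safe he hc hG' (hA.subst hτ) hq' hS))
  | app _ hT _ c ih1 ih2 =>
    refine .app (ih1 hG hc hG' hτ hPr hS) (hT.subst hτ) (ih2 hG hc hG' hτ hPr hS) ?_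
    rw [← inst_subst]
    exact c.subst τ
  | ty h c _ ih => exact .ty (h.subst hτ) (c.subst τ) (ih hG hc hG' hτ hPr hS)
  | ign hi => exact .ign (hi.subst hτ)
  | sort => exact .sort
  | @pi G Pr A B s hT hq _ _ ih1 ih2 =>
    obtain ⟨s₁, s₂, hA, -, -⟩ := hT.gen_pi_sort
    rcases hq with hq | hq
    · have he := Emb.back hG hG' hτ
      have hq' : E.Fine j (prof P G' (A.subst τ)) := hq.of_subset (he.node hA) (prof_subst hτ _)
      exact .pi (hT.subst hτ) (Or.inl hq') (ih1 hG hc hG' hτ hPr hS)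
        (ih2 (hG.ccons hA) (hc.ccons he hA hq) (hG'.ccons (hA.subst hτ)) (hτ.up A)
          (bS_upPr_sub hPr) (bS_up_safe he hc hG' (hA.subst hτ) hq' hS))
    · exact .pi (hT.subst hτ) (Or.inr (hq.subst (hτ.up A))) (ih1 hG hc hG' hτ hPr hS)
        (.ign (hq.subst (hτ.up A)))
  | tm hs _ ih => exact .tm hs (ih hG hc hG' hτ hPr hS)

theorem Safe.inst {s : S} (h : E.Safe j (ccons A G) (upPr Pr) M o) (hG : E.Emb G)
    (hc : E.CtxOK j G Pr) (hA : Ty P G A (.sort s)) (hq : E.Fine j (prof P G A))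
    (hN : E.Safe j G Pr N (some A)) :
    E.Safe j G Pr (M.inst N) (o.map (fun B => B.inst N)) := by
  obtain ⟨D₀, c, hN'⟩ := hN.typed
  refine h.subst (hG.1.ccons hA) (hc.ccons hG hA hq) hG (TS.single (.conv hN' hA c)) ?_ ?_
  · intro x hx
    cases x with
    | zero => exact hx.elim
    | succ x => exact ⟨x, .var, hx⟩
  · intro x hx _
    cases x with
    | zero => simpa using hN
    | succ x => simpa using safe_var hG.1 x (hc x)

theorem Safe.ctx_conv {s : S} {A' : Term S} (h : E.Safe j (ccons A G) (upPr Pr) M o)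
    (hG : E.Emb G) (hc : E.CtxOK j G Pr) (hA : Ty P G A (.sort s)) (hq : E.Fine j (prof P G A))
    (k : Step A A') : E.Safe j (ccons A' G) (upPr Pr) M o := by
  have hA' := hA.step hG.1 k
  have hq' : E.Fine j (prof P G A') := by rw [← k.conv.prof_eq]; exact hq
  have hc' := hc.ccons hG hA' hq'
  have := h.subst (Pr' := upPr Pr) (hG.1.ccons hA) (hc.ccons hG hA hq) (hG.ccons hA')
    (TS.ctx_conv hA k.conv) (fun x hx => ⟨x, .var, hx⟩) (fun x _ _ => by
      rw [subst_id]
      refine (safe_var (hG.1.ccons hA') x (hc' x)).conv ?_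
      cases x with
      | zero => exact k.conv.symm.shift
      | succ x => exact Conv.rfl)
  cases o <;> simpa using this

/-- inversion -/
theorem Safe.lam_inv {A₁ : Term S} (h : E.Safe j G Pr (.lam A₁ M) (some (.pi A B))) :
    E.NoKind j G (.pi A B) ∨ ∃ B₁ s, Conv (.pi A₁ B₁) (.pi A B) ∧
      Ty P G (.pi A₁ B₁) (.sort s) ∧ Ty P (ccons A₁ G) M B₁ ∧ E.Fine j (prof P G A₁) ∧
      E.Safe j (ccons A₁ G) (upPr Pr) M (some B₁) := by
  cases h with
  | irr _ _ hn => exact Or.inl hn
  | neu hx => cases hx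
  | lam c hT hM hq h => exact Or.inr ⟨_, _, c, hT, hM, hq, h⟩
  | ty _ c _ => exact c.sort_pi.elim

theorem Safe.step (h : E.Safe j G Pr M o) (hG : E.Emb G) (hc : E.CtxOK j G Pr) {M' : Term S}
    (k : Step M M') : E.Safe j G Pr M' o := by
  induction h generalizing M' with
  | irr h c hn => exact .irr (h.step hG.1 k) c hn
  | neu hx hp h c => exact .neu (hx.step k) hp (h.step hG.1 k) c
  | var => cases k
  | lam c hT hM hq h ih =>
    obtain ⟨s₁, s₂, hA, -, -⟩ := hT.gen_pi_sort
    cases k with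
    | lamL _ k =>
      exact .lam ((Step.piL _ k).conv.symm.trans c) (hT.step hG.1 (.piL _ k))
        (hM.ctx_conv hA k.conv) (by rw [← k.conv.prof_eq]; exact hq) (h.ctx_conv hG hc hA hq k)
    | lamR _ k =>
      exact .lam c hT (hM.step (hG.1.ccons hA) k) hq (ih (hG.ccons hA) (hc.ccons hG hA hq) k)
  | app h1 hT h2 c ih1 ih2 =>
    cases k with
    | beta A₁ M₁ _ =>
      obtain ⟨s₁, s₂, hA, -, -⟩ := hT.gen_pi_sort
      rcases h1.lam_inv with hn | ⟨B₁, s', c', hT', hM', hq, h⟩
      · obtain ⟨D1, c1, t1⟩ := h1.typed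
        obtain ⟨D2, c2, t2⟩ := h2.typed
        have t3 := Ty.conv t2 hA c2
        exact .irr ((Ty.app (.conv t1 hT c1) t3).step hG.1 (.beta _ _ _)) c ((hn.inst t3).conv c)
      · obtain ⟨t₁, t₂, hA₁, -, -⟩ := hT'.gen_pi_sort
        obtain ⟨e1, e2⟩ := c'.pi_inj
        exact Safe.conv (h.inst hG hc hA₁ hq (h2.conv e1.symm)) ((e2.inst Conv.rfl).trans c)
    | appL _ k => exact .app (ih1 hG hc k) hT h2 c
    | appR _ k => exact .app h1 hT (ih2 hG hc k) ((Conv.inst Conv.rfl k.conv.symm).trans c)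
  | ty h c _ ih => exact .ty (h.step hG.1 k) c (ih hG hc k)
  | ign hi => exact .ign (hi.conv k.conv)
  | sort => cases k
  | pi hT hq h1 h2 ih1 ih2 =>
    obtain ⟨s₁, s₂, hA, -, -⟩ := hT.gen_pi_sort
    cases k with
    | piL _ k =>
      rcases hq with hq | hq
      · exact .pi (hT.step hG.1 (.piL _ k)) (Or.inl (by rw [← k.conv.prof_eq]; exact hq))
          (ih1 hG hc k) (h2.ctx_conv hG hc hA hq k)
      · have hq' := hq.subst (TS.ctx_conv hA k.conv)
        rw [subst_id] at hq'
        exact .pi (hT.step hG.1 (.piL _ k)) (Or.inr hq') (ih1 hG hc k) (.ign hq')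
    | piR _ k =>
      rcases hq with hq | hq
      · exact .pi (hT.step hG.1 (.piR _ k)) (Or.inl hq) h1
          (ih2 (hG.ccons hA) (hc.ccons hG hA hq) k)
      · exact .pi (hT.step hG.1 (.piR _ k)) (Or.inr (hq.conv k.conv)) h1 (.ign (hq.conv k.conv))
  | tm hs _ ih => exact .tm hs (ih hG hc k)

/-- along a neutral term the signs propagate from the type of the head -/
theorem qs_neutral (hG : E.Emb G) (hc : E.CtxOK j G Pr) {x : ℕ} (hx : HeadVar x M) (hp : ¬ Pr x)
    (h : Ty P G M D) : E.Fine j (prof P G D) := by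
  induction hx generalizing D with
  | var => rw [h.gen_var.prof_eq]; exact hc x hp
  | app N _ ih =>
    obtain ⟨A, B, hM, hN, c⟩ := h.gen_app
    rw [c.prof_eq]
    intro hr
    obtain ⟨s, hT⟩ := hM.pi_valid hG.1
    obtain ⟨s₁, s₂, hA, -, -⟩ := hT.gen_pi_sort
    have r := pr_pi_inst hG.1 hN B
    exact (ih hM (hr.of_pr (hG.node hT) (hG.node hA) r)).right (hG.node hA) r hr

theorem bS_neutral_type (hG : E.Emb G) (hn : Normal M)
    (h0 : ∀ D, Ty P G M D → ∃ x, HeadVar x M)
    (h1 : ∀ D, Ty P G M D → E.Safe j G Pr M (some D)) (hne : (prof P G M).Nonempty)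
    (hi : E.idx (prof P G M) ≤ j) : E.Safe j G Pr M none := by
  obtain ⟨s, hs⟩ := hne
  have hT := has_prof_normal hG.1 hn s hs
  obtain ⟨x, hx⟩ := h0 _ hT
  by_cases hl : E.idx (prof P G M) < j
  · exact .ign (ign_of_low ⟨s, hs⟩ hl)
  · have hN : E.NN j (prof P G M) := ⟨hG.node hT, by omega⟩
    rw [prof_neutral hG.1 hx hT] at hN
    exact .tm hN (h1 _ hT)

/-- Normal terms are safe. Structural induction on `M` (generalizing `G`, `Pr`, `D`); for sorts
and products prove the second part first (`Ty.conv_sort`, `noKind_sort` or `ty`), for neutral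
terms the first part first (`prof_neutral`, `ign` or `tm`). For an application with head outside
`Pr` whose type is in `Rr`, the function type is signed (`qs_neutral`) and the domain is fine
(`Qs.left`). For an abstraction, if the codomain profile is not in `Rr` use `noKind_pi`. In the
product case, if the codomain profile is not low then it is in `NN j` and the domain profile is
`Entry` or not in `Rr`. -/
theorem safe_normal (hG : E.Emb G) (hc : E.CtxOK j G Pr) (hn : Normal M) :
    (∀ D, Ty P G M D → (((prof P G D).Nonempty ∧ E.Fine j (prof P G D)) ∨ ∃ x, HeadVar x M) →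
      E.Safe j G Pr M (some D)) ∧
    ((prof P G M).Nonempty → E.idx (prof P G M) ≤ j → E.Safe j G Pr M none) := by
  induction M generalizing G Pr with
  | var x =>
    have h1 : ∀ D, Ty P G (.var x) D → E.Safe j G Pr (.var x) (some D) := fun D h =>
      (safe_var hG.1 x (hc x)).conv h.gen_var.symm
    exact ⟨fun D h _ => h1 D h, bS_neutral_type hG hn (fun _ _ => ⟨x, .var⟩) h1⟩
  | sort s =>
    refine ⟨fun D h _ => ?_, fun _ _ => .sort⟩
    obtain ⟨s₂, a, c⟩ := h.gen_sort
    exact .ty (.ax a) c.symm .sort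
  | app M N ihM ihN =>
    have h0 : ∀ D, Ty P G (.app M N) D → ∃ x, HeadVar x (.app M N) := fun D h => by
      rcases h.normal_shape hn with ⟨_, e⟩ | ⟨_, _, e⟩ | ⟨_, _, e⟩ | hx
      · cases e
      · cases e
      · cases e
      · exact hx
    have h1 : ∀ D, Ty P G (.app M N) D → E.Safe j G Pr (.app M N) (some D) := by
      intro D h
      obtain ⟨x, hx⟩ := h0 D h
      by_cases hp : Pr x
      · exact .neu hx hp h Conv.rfl
      · have hx' : HeadVar x M := by cases hx; assumption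
        obtain ⟨A, B, hM, hN, c⟩ := h.gen_app
        obtain ⟨s, hT⟩ := hM.pi_valid hG.1
        obtain ⟨s₁, s₂, hA, hB, -⟩ := hT.gen_pi_sort
        by_cases hr : E.Rr j (prof P G (B.inst N))
        · have r := pr_pi_inst hG.1 hN B
          have hq := qs_neutral hG hc hx' hp hM (hr.of_pr (hG.node hT) (hG.node hA) r)
          exact .app ((ihM hG hc hn.app_left).1 _ hM (Or.inr ⟨x, hx'⟩)) hT
            ((ihN hG hc hn.app_right).1 _ hN
              (Or.inl ⟨⟨s₁, mem_prof hA⟩, fun hJ => hq.left r hJ hr⟩)) c.symm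
        · exact .irr h Conv.rfl
            ((noKind_of_not_rr ⟨s₂, mem_prof (hB.inst hN)⟩ hr).conv c.symm)
    exact ⟨fun D h _ => h1 D h, bS_neutral_type hG hn h0 h1⟩
  | lam A M _ ihM =>
    constructor
    · intro D h hD
      obtain ⟨B, s, hM, hT, c⟩ := h.gen_lam
      obtain ⟨s₁, s₂, hA, hB, -⟩ := hT.gen_pi_sort
      rcases hD with ⟨-, hD⟩ | ⟨x, hx⟩
      · rw [c.prof_eq] at hD
        by_cases hr : E.Rr j (prof P (ccons A G) B)
        · have r := pr_pi hG.1 A B
          have hq := hD (hr.of_pr (hG.node hT) (hG.node hA) r)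
          have hf : E.Fine j (prof P G A) := fun hJ => hq.left r hJ hr
          exact .lam c.symm hT hM hf ((ihM (hG.ccons hA) (hc.ccons hG hA hf)
            (normal_lam.1 hn).2).1 _ hM
              (Or.inl ⟨⟨s₂, mem_prof hB⟩, fun _ => hq.right (hG.node hA) r hr⟩))
        · exact .irr h Conv.rfl
            ((noKind_pi hT (noKind_of_not_rr ⟨s₂, mem_prof hB⟩ hr)).conv c.symm)
      · cases hx
    · rintro ⟨s, hs⟩ _
      obtain ⟨B, t, -, -, c⟩ := (has_prof_normal hG.1 hn s hs).gen_lam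
      exact c.sort_pi.elim
  | pi A B ihA ihB =>
    have h2 : (prof P G (.pi A B)).Nonempty → E.idx (prof P G (.pi A B)) ≤ j →
        E.Safe j G Pr (.pi A B) none := by
      rintro ⟨s, hs⟩ hi
      have hT := has_prof_normal hG.1 hn s hs
      obtain ⟨s₁, s₂, hA, hB, -⟩ := hT.gen_pi_sort
      have r := pr_pi hG.1 A B
      have hG' := hG.ccons hA
      obtain ⟨i1, i2⟩ := idx_le_of_pr (hG.node hT) (hG.node hA) (hG'.node hB) r
      have sA := (ihA hG hc (normal_pi.1 hn).1).2 ⟨s₁, mem_prof hA⟩ (by omega)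
      by_cases hl : E.idx (prof P (ccons A G) B) < j
      · have hi := ign_of_low ⟨s₂, mem_prof hB⟩ hl
        exact .pi hT (Or.inr hi) sA (.ign hi)
      · have hf : E.Fine j (prof P G A) := fun hJ => Or.inl (Entry.q
          ⟨hJ, _, _, ⟨hG'.node hB, by omega⟩, ⟨hG.node hT, by omega⟩, r⟩)
        exact .pi hT (Or.inl hf) sA ((ihB hG' (hc.ccons hG hA hf) (normal_pi.1 hn).2).2
          ⟨s₂, mem_prof hB⟩ (by omega))
    refine ⟨fun D h _ => ?_, h2⟩
    obtain ⟨s₁, s₂, s₃, hA, hB, r, c⟩ := h.gen_pi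
    have hT : Ty P G (.pi A B) (.sort s₃) := .pi hA hB r
    by_cases hs : E.NN j {s₃}
    · refine .ty hT c.symm (h2 ⟨s₃, mem_prof hT⟩ ?_)
      have := idx_le_of_subset hs.1 (hG.node hT) (Set.singleton_subset_iff.2 (mem_prof hT))
      have := hs.2
      omega
    · exact .irr hT c.symm ((noKind_sort hs).conv c.symm)

end Amb
end Vale.Agent.P340
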