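import Vale.Agent.P340.BDefs
import Vale.Agent.P340.BSafe

/-! The boundedness lemma: the interpretation of a safe term only depends on a bounded truncation
of the values of sign plus. -/

namespace Vale.Agent.P340

universe u
variable {S : Type u} {P : Spec S} [Finite S]

namespace Amb.BV
variable {E : Amb P} {j : ℕ} (W : E.BV j)

/-- closeness of two values of type `X` -/
def CloseAt (k n : ℕ) (X : Term S) (d d' : W.V) : Prop :=
  (E.Minus j (prof P E.Θ X) → d = d' ∧ W.Lk k d) ∧
  (E.Plus j (prof P E.Θ X) → W.Close n d d') ∧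
  (¬ E.Plus j (prof P E.Θ X) → d = d')

/-- closeness of two valid paths of `D` -/
inductive CloseP (k n : ℕ) : Term S → W.Path → W.Path → Prop
  | nil {D} : W.VP D [] → CloseP k n D [] []
  | cons {D A B a d d' p p'} : Conv D (.pi A B) → Ty P E.Θ a A → E.TagOK j A (W.tag d) →
      E.TagOK j A (W.tag d') → W.CloseAt k n A d d' → CloseP k n (B.inst a) p p' →
      CloseP k n D ((a, d) :: p) ((a, d') :: p')

/-- environments for `G`: typed, null on `Pr`, of finite level at the types of sign minus -/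
structure EO (G : ℕ → Term S) (Pr : ℕ → Prop) (σ : ℕ → Term S) (v : ℕ → W.V) : Prop where
  ts : TS P G E.Θ σ
  null : ∀ x, Pr x → W.tag (v x) = .null
  minus : ∀ x, E.Minus j (prof P E.Θ ((G x).subst σ)) → ∃ k, W.Lk k (v x)

/-- the paths on which a safe term is observed -/
def Obs (o : Option (Term S)) (σ : ℕ → Term S) (p : W.Path) : Prop :=
  match o with
  | none => p = []
  | some D => W.VP (D.subst σ) p

def ObsC (k n : ℕ) (o : Option (Term S)) (σ : ℕ → Term S) (p p' : W.Path) : Prop :=
  match o with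
  | none => p = [] ∧ p' = []
  | some D => W.CloseP k n (D.subst σ) p p'

variable {W} {G : ℕ → Term S} {Pr : ℕ → Prop} {M N A D : Term S} {o : Option (Term S)}

theorem VP.kindAt {p : W.Path} (h : W.VP D p) : E.KindAt j D := by
  induction p generalizing D with
  | nil => obtain ⟨s, h1, h2⟩ := h; exact .sort h1 h2
  | cons z p ih => obtain ⟨A, B, h1, h2, -, h4⟩ := h; exact .pi h1 h2 (ih h4)

theorem EO.scons {σ : ℕ → Term S} {v : ℕ → W.V} (h : W.EO G Pr σ v) {a : Term S} {d : W.V}
    (ha : Ty P E.Θ a (A.subst σ)) (hd : E.TagOK j (A.subst σ) (W.tag d)) :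
    W.EO (ccons A G) (upPr Pr) (scons a σ) (scons d v) := by
  refine ⟨h.ts.scons ha, fun x hx => ?_, fun x hx => ?_⟩
  · cases x with
    | zero => exact hx.elim
    | succ x => exact h.null x hx
  · cases x with
    | zero =>
      rw [ccons_zero, shift_subst_scons] at hx
      obtain ⟨m, hm⟩ := hd.2.2.2 hx
      exact ⟨m, Or.inr ⟨m, le_rfl, hm⟩⟩
    | succ x =>
      rw [ccons_succ, shift_subst_scons] at hx
      exact h.minus x hx

section Aux
variable {k k' n n' : ℕ} {X X' D' : Term S} {d d' : W.V} {p p' : W.Path}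

theorem Lk.mono (h : W.Lk k d) (hk : k ≤ k') : W.Lk k' d := by
  rcases h with h | ⟨m, h1, h2⟩
  · exact Or.inl h
  · exact Or.inr ⟨m, h1.trans hk, h2⟩

theorem CloseAt.mono (h : W.CloseAt k n X d d') (hk : k ≤ k') (hn : n' ≤ n) :
    W.CloseAt k' n' X d d' :=
  ⟨fun hm => ⟨(h.1 hm).1, (h.1 hm).2.mono hk⟩, fun hp => (h.2.1 hp).mono hn, h.2.2⟩

theorem CloseAt.conv (h : W.CloseAt k n X d d') (c : Conv X X') : W.CloseAt k n X' d d' := by
  unfold CloseAt at h ⊢
  rwa [← c.prof_eq]

theorem closeAt_self (h : E.Minus j (prof P E.Θ X) → W.Lk k d) : W.CloseAt k n X d d :=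
  ⟨fun hm => ⟨rfl, h hm⟩, fun _ _ _ => rfl, fun _ => rfl⟩

theorem CloseP.mono (h : W.CloseP k n D p p') (hk : k ≤ k') (hn : n' ≤ n) :
    W.CloseP k' n' D p p' := by
  induction h with
  | nil h => exact .nil h
  | cons c ha t1 t2 hc _ ih => exact .cons c ha t1 t2 (hc.mono hk hn) ih

theorem CloseP.conv (h : W.CloseP k n D p p') (c : Conv D D') : W.CloseP k n D' p p' := by
  cases h with
  | nil h => exact .nil (h.conv c)
  | cons c' ha t1 t2 hc hp => exact .cons (c.symm.trans c') ha t1 t2 hc hp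

theorem CloseP.vp (h : W.CloseP k n D p p') : W.VP D p := by
  induction h with
  | nil h => exact h
  | cons c ha t1 _ _ _ ih => exact ⟨_, _, c, ha, t1, ih⟩

theorem CloseP.apps_eq (h : W.CloseP k n D p p') (a : Term S) : apps a p = apps a p' := by
  induction h generalizing a with
  | nil h => rfl
  | cons _ _ _ _ _ _ ih => exact ih _

theorem CloseP.trunc_eq (h : W.CloseP k n D p p') (hn : n' ≤ n) :
    W.truncP n' p = W.truncP n' p' := by
  induction h with
  | nil h => rfl
  | @cons D A B a d d' p p' _ _ t1 t2 hc _ ih =>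
    have : W.trunc n' d = W.trunc n' d' := by
      by_cases hp : E.Plus j (prof P E.Θ A)
      · exact (close_iff_trunc (t1.2.2.1 hp) (t2.2.2.1 hp)).mp ((hc.2.1 hp).mono hn)
      · rw [hc.2.2 hp]
    unfold truncP at ih ⊢
    rw [List.map_cons, List.map_cons, ih, this]

/-- propagation of the signs along a valid path -/
theorem sign_step {b : Bool} {B a : Term S} (hq : E.Q j b (prof P E.Θ D)) (c : Conv D (.pi A B))
    (ha : Ty P E.Θ a A) (hp : W.VP (B.inst a) p) :
    E.Q j b (prof P E.Θ (B.inst a)) ∧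
      (E.Rr j (prof P E.Θ A) → E.Q j (!b) (prof P E.Θ A)) := by
  rw [c.prof_eq] at hq
  have r := pr_pi_inst E.valid ha B
  obtain ⟨h1, h2⟩ := pr_nonempty r hq.rr.node.1
  have h3 := hp.rr h2
  exact ⟨hq.right (node_prof h1) r h3, fun h => hq.left r h h3⟩

theorem CloseP.eq_of_plus (h : W.CloseP k n D p p') (hq : E.Q j true (prof P E.Θ D)) :
    p = p' ∧ ∀ z ∈ p, E.tlt j (W.tag z.2) (.ev (k + 1)) := by
  induction h with
  | nil h => exact ⟨rfl, fun z hz => by cases hz⟩
  | @cons D A B a d d' p p' c ha t1 t2 hc hp ih =>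
    obtain ⟨s1, s2⟩ := sign_step hq c ha hp.vp
    obtain ⟨e1, e2⟩ := ih s1
    have hnp : ¬ E.Plus j (prof P E.Θ A) := fun h => h.2 (s2 h.1.rr)
    refine ⟨by rw [e1, hc.2.2 hnp], fun z hz => ?_⟩
    rcases List.mem_cons.mp hz with rfl | hz
    · change E.tlt j (W.tag d) _
      by_cases h1 : E.Qs j (prof P E.Θ A)
      · by_cases h2 : E.Q j true (prof P E.Θ A)
        · rw [t1.2.1 ⟨h2, s2 h1.rr⟩]; trivial
        · rcases (hc.1 ⟨h2, s2 h1.rr⟩).2 with h3 | ⟨m, h3, h4⟩
          · rw [h3]; trivial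
          · rw [h4]; exact Nat.lt_succ_of_le h3
      · rw [t1.1 h1]; trivial
    · exact e2 z hz

theorem trunc_of_not_plus (h : E.TagOK j A (W.tag d)) (hp : ¬ E.Plus j (prof P E.Θ A)) :
    W.trunc n d = d := by
  unfold trunc
  rw [if_neg]
  intro ht
  by_cases h1 : E.Q j true (prof P E.Θ A)
  · by_cases h2 : E.Q j false (prof P E.Θ A)
    · rw [h.2.1 ⟨h1, h2⟩] at ht; cases ht
    · exact hp ⟨h1, h2⟩
  · by_cases h2 : E.Q j false (prof P E.Θ A)
    · obtain ⟨m, hm⟩ := h.2.2.2 ⟨h1, h2⟩
      rw [hm] at ht; cases ht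
    · rw [h.1 (fun h3 => h3.elim h1 h2)] at ht; cases ht

theorem closeP_of_trunc (hq : E.Q j false (prof P E.Θ D)) (h : W.VP D p) (h' : W.VP D p')
    (e : W.truncP n p = W.truncP n p') : W.CloseP k n D p p' := by
  induction p generalizing D p' with
  | nil =>
    cases p' with
    | nil => exact .nil h
    | cons z p' => simp [truncP] at e
  | cons z p ih =>
    cases p' with
    | nil => simp [truncP] at e
    | cons z' p' =>
      obtain ⟨a, d⟩ := z
      obtain ⟨a', d'⟩ := z'
      simp only [truncP, List.map_cons, List.cons.injEq, Prod.mk.injEq] at e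
      obtain ⟨⟨rfl, e1⟩, e2⟩ := e
      obtain ⟨A, B, c, ha, t1, hp⟩ := h
      obtain ⟨A', B', c', -, t2, hp'⟩ := h'
      obtain ⟨c1, c2⟩ := (c'.symm.trans c).pi_inj
      have t2' := t2.conv c1
      obtain ⟨s1, s2⟩ := sign_step hq c ha hp
      refine .cons c ha t1 t2' ⟨fun hm => (hm.1 (s2 hm.2.rr)).elim, fun hp => ?_, fun hp => ?_⟩
        (ih s1 hp (hp'.conv (c2.inst Conv.rfl)) e2)
      · exact (close_iff_trunc (t1.2.2.1 hp) (t2'.2.2.1 hp)).mpr e1
      · rwa [trunc_of_not_plus t1 hp, trunc_of_not_plus t2' hp] at e1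

theorem closeP_self_plus (hq : E.Q j true (prof P E.Θ D)) (h : W.VP D p)
    (ht : ∀ z ∈ p, E.tlt j (W.tag z.2) (.ev k)) : W.CloseP k n D p p := by
  induction p generalizing D with
  | nil => exact .nil h
  | cons z p ih =>
    obtain ⟨a, d⟩ := z
    obtain ⟨A, B, c, ha, t1, hp⟩ := h
    obtain ⟨s1, -⟩ := sign_step hq c ha hp
    refine .cons c ha t1 t1 (closeAt_self fun hm => ?_)
      (ih s1 hp fun z hz => ht z (List.mem_cons_of_mem _ hz))
    obtain ⟨m, hm⟩ := t1.2.2.2 hm
    have := ht (a, d) List.mem_cons_self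
    change E.tlt j (W.tag d) _ at this
    rw [hm] at this
    exact Or.inr ⟨m, Nat.le_of_lt this, hm⟩

theorem canon_unsigned (h : ¬ E.Qs j (prof P E.Θ A)) (f : W.Path → Set (MT S)) :
    W.canon A f = W.null := by
  unfold canon
  rw [if_neg (fun h1 => h (Or.inl h1.1)), if_neg (fun h1 => h (Or.inl h1)),
    if_neg (fun h1 => h (Or.inr h1))]

end Aux

/-- PLAN. Induction on `Safe`; `CloseAt`, `CloseP` are monotone in `k` and antitone in `n`, and
`CloseP` gives two valid paths with the same terms.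
* `irr`: no valid path (`VP.kindAt`). `neu`: `O_head_null`.
* `var x`, `n = k + 1`: the instance `X` of `G x` is signed. The arguments along the path have the
  opposite sign or are unsigned (`Q.left`, `Q.right`). If `X` has sign minus only, `v x = v' x` is
  null or has tag `od m`, `m ≤ k`, and `truncP m p = truncP m p'` (`close_iff_trunc`,
  `Close.mono`). Otherwise no argument has sign plus only, so `p = p'`; if `X` has sign plus only
  the tags of the arguments are below `ev (k+1)`.
* `lam`: extend the environments (`Conv.pi_inj`, `Ty.conv`).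
* `app M N`: let `nN`, `nM` be the bounds of the hypotheses, `k' = max k (nN k)`,
  `n = max (nN k) (max (nM k') (nN (max k (nM k'))))`. The new argument is close at
  `(k', nM k')`: `dom_spec`, `canon_tagOK`; a valid path all of whose arguments of sign minus
  only have level `≤ k` is close to itself; `canon_congr` when the domain is not of sign plus
  only; `lk_canon` (apply the hypothesis to `v, v`; paths with the same truncation are close);
  `close_canon` for sign plus only.
* `ty`, `tm`: the only valid path is `[]`. `ign`: `O_out`. `pi`: if the instance of the codomain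
  is not in `NN j` use `O_out`; otherwise the instance of the domain is `Entry` or not in `Rr`, so
  it is not of sign minus only and `d` is close to itself. -/
theorem bounded (h : E.Safe j G Pr M o) (hG : Valid P G) (k : ℕ) : ∃ n, ∀ σ v v',
    TS P G E.Θ σ → (∀ x, Pr x → W.tag (v x) = .null ∧ W.tag (v' x) = .null) →
    (∀ x, Free x M → W.CloseAt k n ((G x).subst σ) (v x) (v' x)) →
    ∀ p p', W.ObsC k n o σ p p' → W.O M σ v p = W.O M σ v' p' := by
  induction h generalizing k with
  | irr _ _ hk =>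
    exact ⟨0, fun σ v v' hσ _ _ p p' hp => (hk σ hσ (CloseP.vp hp).kindAt).elim⟩
  | neu hx hPr _ _ =>
    refine ⟨0, fun σ v v' _ h0 _ p p' hp => ?_⟩
    rw [O_head_null hx (h0 _ hPr).1, O_head_null hx (h0 _ hPr).2, CloseP.apps_eq hp]
  | @var G Pr x D hq c =>
    refine ⟨k + 1, fun σ v v' hσ _ hc p p' hp => ?_⟩
    have hp' : W.CloseP k (k + 1) ((G x).subst σ) p p' := CloseP.conv hp (c.subst σ).symm
    have hsub := prof_subst hσ (G x)
    have hq' : E.Qs j (prof P E.Θ ((G x).subst σ)) :=
      hq.of_subset hsub (hp'.vp.rr (hq.rr.node.1.mono hsub))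
    have hx := hc x rfl
    have e : W.obsV (v x) p = W.obsV (v' x) p' := by
      by_cases h1 : E.Q j true (prof P E.Θ ((G x).subst σ))
      · obtain ⟨rfl, e2⟩ := hp'.eq_of_plus h1
        by_cases h2 : E.Plus j (prof P E.Θ ((G x).subst σ))
        · exact hx.2.1 h2 p e2
        · rw [hx.2.2 h2]
      · obtain ⟨e1, e2⟩ := hx.1 ⟨h1, hq'.resolve_left h1⟩
        rw [← e1]
        unfold obsV
        rcases e2 with e2 | ⟨m, hm, e2⟩
        · rw [e2]
        · rw [e2]
          simp only
          rw [hp'.trunc_eq (Nat.le_succ_of_le hm)]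
    simp only [O]
    rw [e, hp'.apps_eq]
  | @lam G Pr A M B D s c hT _ _ _ ih =>
    obtain ⟨s₁, s₂, hA, -, -⟩ := hT.gen_pi_sort
    obtain ⟨n, hn⟩ := ih (hG.ccons hA) k
    refine ⟨n, fun σ v v' hσ h0 hc p p' hp => ?_⟩
    change W.CloseP k n (D.subst σ) p p' at hp
    generalize hD : D.subst σ = D' at hp
    cases hp with
    | nil _ => simp only [O]
    | @cons _ A' B' a d d' p p' c' ha _ _ hd hp =>
      subst hD
      obtain ⟨c1, c2⟩ := ((c.subst σ).trans c').pi_inj
      simp only [O]
      refine hn _ _ _ (hσ.scons (Ty.conv ha (hA.subst hσ) c1.symm)) (fun x hx => ?_)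
        (fun x hx => ?_) p p' ?_
      · cases x with
        | zero => exact hx.elim
        | succ x => exact h0 x hx
      · cases x with
        | zero => rw [ccons_zero, shift_subst_scons]; exact hd.conv c1.symm
        | succ x => rw [ccons_succ, shift_subst_scons]; exact hc x (Or.inr hx)
      · change W.CloseP k n (B.subst (scons a σ)) p p'
        rw [← upSub_inst]
        exact hp.conv (c2.symm.inst Conv.rfl)
  | @app G Pr M N A B D s hM hT hN c ihM ihN =>
    choose nM hnM using ihM hG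
    choose nN hnN using ihN hG
    obtain ⟨s₁, s₂, hA, -, -⟩ := hT.gen_pi_sort
    obtain ⟨D₁, c1, t1⟩ := hM.typed
    obtain ⟨D₂, c2, t2⟩ := hN.typed
    have tM := Ty.conv t1 hT c1
    have tN := Ty.conv t2 hA c2
    refine ⟨max (nN k) (max (nM (max k (nN k))) (nN (max k (nM (max k (nN k)))))),
      fun σ v v' hσ h0 hc p p' hp => ?_⟩
    have cd : Conv (E.dom (M.subst σ)) (A.subst σ) := dom_spec (tM.subst hσ)
    simp only [O]
    rw [canon_congr (g := W.O N σ v) cd (fun _ _ => rfl),
      canon_congr (g := W.O N σ v') cd (fun _ _ => rfl)]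
    refine hnM (max k (nN k)) σ v v' hσ h0
      (fun x hx => (hc x (Or.inl hx)).mono (by omega) (by omega)) _ _ ?_
    have hcN : ∀ x, Free x N → W.CloseAt k (nN k) ((G x).subst σ) (v x) (v' x) :=
      fun x hx => (hc x (Or.inr hx)).mono le_rfl (by omega)
    have e : ¬ E.Plus j (prof P E.Θ (A.subst σ)) →
        W.canon (A.subst σ) (W.O N σ v) = W.canon (A.subst σ) (W.O N σ v') := by
      intro hnp
      by_cases hq : E.Q j false (prof P E.Θ (A.subst σ))
      · exact canon_congr Conv.rfl fun q hq' =>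
          hnN k σ v v' hσ h0 hcN q q (closeP_of_trunc hq hq' hq' rfl)
      · have : ¬ E.Qs j (prof P E.Θ (A.subst σ)) := fun h => h.elim (fun h1 => hnp ⟨h1, hq⟩) hq
        rw [canon_unsigned this, canon_unsigned this]
    refine CloseP.cons Conv.rfl (E.nf_ty (tN.subst hσ)) (canon_tagOK W _ _) (canon_tagOK W _ _)
      ⟨fun hm => ⟨e fun h => hm.1 h.1, ?_⟩, fun hpl => ?_, e⟩ ?_
    · refine (lk_canon (n := nN k) hm fun q q' hq hq' ht => ?_).mono (by omega)
      exact hnN k σ v v hσ (fun x hx => ⟨(h0 x hx).1, (h0 x hx).1⟩)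
        (fun x hx => closeAt_self fun h => ((hcN x hx).1 h).2) q q'
        (closeP_of_trunc hm.2 hq hq' ht)
    · refine close_canon hpl fun q hq ht => ?_
      exact hnN (max k (nM (max k (nN k)))) σ v v' hσ h0
        (fun x hx => (hc x (Or.inr hx)).mono (by omega) (by omega)) q q
        ((closeP_self_plus hpl.1 hq ht).mono (by omega) le_rfl)
    · refine (CloseP.conv hp ?_).mono (by omega) (by omega)
      refine (c.subst σ).symm.trans ?_
      rw [inst_subst]
      exact Conv.inst Conv.rfl (conv_nf _)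
  | @ty G Pr M D s _ c _ ih =>
    obtain ⟨n, hn⟩ := ih hG k
    refine ⟨n, fun σ v v' hσ h0 hc p p' hp => hn σ v v' hσ h0 hc p p' ?_⟩
    change W.CloseP k n (D.subst σ) p p' at hp
    generalize hD : D.subst σ = D' at hp
    cases hp with
    | nil _ => exact ⟨rfl, rfl⟩
    | cons c' => subst hD; exact ((c.subst σ).trans c').sort_pi.elim
  | ign hi =>
    refine ⟨0, fun σ v v' hσ _ _ p p' hp => ?_⟩
    obtain ⟨rfl, rfl⟩ := hp
    rw [O_out (hi σ hσ), O_out (hi σ hσ)]
  | sort =>
    refine ⟨0, fun σ v v' hσ _ _ p p' hp => ?_⟩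
    obtain ⟨rfl, rfl⟩ := hp
    simp only [O]
  | @pi G Pr A B s hT _ _ _ ihA ihB =>
    obtain ⟨s₁, s₂, hA, -, -⟩ := hT.gen_pi_sort
    obtain ⟨nA, hnA⟩ := ihA hG k
    obtain ⟨nB, hnB⟩ := ihB (hG.ccons hA) k
    refine ⟨max nA nB, fun σ v v' hσ h0 hc p p' hp => ?_⟩
    obtain ⟨rfl, rfl⟩ := hp
    simp only [O]
    split_ifs with hNN
    · have eA := hnA σ v v' hσ h0 (fun x hx => (hc x (Or.inl hx)).mono le_rfl (by omega)) [] []
        ⟨rfl, rfl⟩
      have eB : ∀ u ∈ W.O A σ v' [], ∀ d, W.O B (scons u.er σ) (scons d v) [] =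
          W.O B (scons u.er σ) (scons d v') [] := by
        intro u hu d
        have hu' : Ty P E.Θ u.er (A.subst σ) := ((O_cand W A σ v' []).sub hu).1.ty (hA.subst hσ)
        by_cases hB : E.NN j (prof P E.Θ (B.subst (scons u.er σ)))
        · refine hnB _ _ _ (hσ.scons hu') (fun x hx => ?_) (fun x hx => ?_) [] [] ⟨rfl, rfl⟩
          · cases x with
            | zero => exact hx.elim
            | succ x => exact h0 x hx
          · cases x with
            | zero =>
              rw [ccons_zero, shift_subst_scons]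
              refine closeAt_self fun hm => (hm.1 (Entry.q ⟨hm.2.rr, _, _, hB, hNN, ?_⟩)).elim
              rw [← upSub_inst]
              exact pr_pi_inst E.valid hu' _
            | succ x =>
              rw [ccons_succ, shift_subst_scons]
              exact (hc x (Or.inr hx)).mono le_rfl (by omega)
        · rw [O_out hB, O_out hB]
      rw [eA]
      congr 1
      funext u Y
      refine propext (and_congr_right fun hu => exists_congr fun d => ?_)
      rw [eB u hu d]
    · rfl
  | @tm G Pr T s hs _ ih =>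
    obtain ⟨n, hn⟩ := ih hG k
    refine ⟨n, fun σ v v' hσ h0 hc p p' hp => ?_⟩
    obtain ⟨rfl, rfl⟩ := hp
    exact hn σ v v' hσ h0 hc [] [] (CloseP.nil ⟨s, hs, Conv.rfl⟩)

/-- take for `k` a bound of the levels of the free variables -/
theorem bdd_of_safe (h : E.Safe j G Pr N (some A)) (hG : Valid P G) {σ : ℕ → Term S}
    {v : ℕ → W.V} (he : W.EO G Pr σ v) (hA : E.Minus j (prof P E.Θ (A.subst σ))) :
    ∃ n, W.Bdd (A.subst σ) (W.O N σ v) n := by
  obtain ⟨K, hK⟩ := exists_fvlt N
  have h1 : ∀ K, ∃ k, ∀ x, x < K → E.Minus j (prof P E.Θ ((G x).subst σ)) → W.Lk k (v x) := by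
    intro K
    induction K with
    | zero => exact ⟨0, fun x hx => by omega⟩
    | succ K ih =>
      obtain ⟨k, hk⟩ := ih
      by_cases hm : E.Minus j (prof P E.Θ ((G K).subst σ))
      · obtain ⟨k', hk'⟩ := he.minus K hm
        refine ⟨max k k', fun x hx hx' => ?_⟩
        rcases Nat.lt_succ_iff_lt_or_eq.mp hx with h2 | rfl
        · exact (hk x h2 hx').mono (by omega)
        · exact hk'.mono (by omega)
      · refine ⟨k, fun x hx hx' => ?_⟩
        rcases Nat.lt_succ_iff_lt_or_eq.mp hx with h2 | rfl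
        · exact hk x h2 hx'
        · exact (hm hx').elim
  obtain ⟨k, hk⟩ := h1 K
  obtain ⟨n, hn⟩ := bounded (W := W) h hG k
  exact ⟨n, fun p p' hp hp' e => hn σ v v he.ts (fun x hx => ⟨he.null x hx, he.null x hx⟩)
    (fun x hx => closeAt_self (hk x (hK x hx))) p p' (closeP_of_trunc hA.2 hp hp' e)⟩

end Amb.BV
end Vale.Agent.P340
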