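import Vale.Agent.P340.Syntax

/-! The memory calculus: reduction keeps the erased arguments in `mem` nodes. A term whose
embedding has a normal form in the memory calculus is strongly normalizing. -/

namespace Vale.Agent.P340

universe u
variable {S : Type u}

inductive MT (S : Type u) : Type u
  | var : ℕ → MT S
  | sort : S → MT S
  | app : MT S → MT S → MT S
  | lam : MT S → MT S → MT S
  | pi : MT S → MT S → MT S
  | mem : MT S → MT S → MT S

namespace MT

/-- forget the memory -/
def er : MT S → Term S
  | var n => .var n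
  | sort s => .sort s
  | app t u => .app t.er u.er
  | lam A t => .lam A.er t.er
  | pi A t => .pi A.er t.er
  | mem t _ => t.er

def emb : Term S → MT S
  | .var n => var n
  | .sort s => sort s
  | .app t u => app (emb t) (emb u)
  | .lam A t => lam (emb A) (emb t)
  | .pi A t => pi (emb A) (emb t)

def rename (ξ : ℕ → ℕ) : MT S → MT S
  | var n => var (ξ n)
  | sort s => sort s
  | app M N => app (M.rename ξ) (N.rename ξ)
  | lam A M => lam (A.rename ξ) (M.rename (upRen ξ))
  | pi A B => pi (A.rename ξ) (B.rename (upRen ξ))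
  | mem M N => mem (M.rename ξ) (N.rename ξ)

def up (σ : ℕ → MT S) : ℕ → MT S
  | 0 => var 0
  | n + 1 => (σ n).rename Nat.succ

def subst (σ : ℕ → MT S) : MT S → MT S
  | var n => σ n
  | sort s => sort s
  | app M N => app (M.subst σ) (N.subst σ)
  | lam A M => lam (A.subst σ) (M.subst (up σ))
  | pi A B => pi (A.subst σ) (B.subst (up σ))
  | mem M N => mem (M.subst σ) (N.subst σ)

def inst (M N : MT S) : MT S := M.subst (scons N var)

/-- free variables, memory included -/
def Free : ℕ → MT S → Prop
  | x, var n => x = n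
  | _, sort _ => False
  | x, app M N => Free x M ∨ Free x N
  | x, lam A M => Free x A ∨ Free (x + 1) M
  | x, pi A B => Free x A ∨ Free (x + 1) B
  | x, mem M N => Free x M ∨ Free x N

def FVlt (n : ℕ) (t : MT S) : Prop := ∀ x, Free x t → x < n

/-- a variable applied to arguments -/
inductive Head (x : ℕ) : MT S → Prop
  | var : Head x (var x)
  | app {t : MT S} (u : MT S) : Head x t → Head x (app t u)

inductive Step : MT S → MT S → Prop
  | beta (A M N : MT S) : Step (app (lam A M) N) (mem (mem (M.inst N) N) A)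
  | perm (t u N : MT S) : Step (app (mem t u) N) (mem (app t N) u)
  | appL {M M'} (N) : Step M M' → Step (app M N) (app M' N)
  | appR (M) {N N'} : Step N N' → Step (app M N) (app M N')
  | lamL {M M'} (N) : Step M M' → Step (lam M N) (lam M' N)
  | lamR (M) {N N'} : Step N N' → Step (lam M N) (lam M N')
  | piL {M M'} (N) : Step M M' → Step (pi M N) (pi M' N)
  | piR (M) {N N'} : Step N N' → Step (pi M N) (pi M N')
  | memL {M M'} (N) : Step M M' → Step (mem M N) (mem M' N)
  | memR (M) {N N'} : Step N N' → Step (mem M N) (mem M N')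

abbrev Red : MT S → MT S → Prop := Relation.ReflTransGen Step

def Normal (t : MT S) : Prop := ∀ t', ¬ Step t t'

@[simp] theorem er_var (n : ℕ) : (var n : MT S).er = .var n := rfl
@[simp] theorem er_sort (s : S) : (sort s : MT S).er = .sort s := rfl
@[simp] theorem er_app (t u : MT S) : (app t u).er = .app t.er u.er := rfl
@[simp] theorem er_lam (t u : MT S) : (lam t u).er = .lam t.er u.er := rfl
@[simp] theorem er_pi (t u : MT S) : (pi t u).er = .pi t.er u.er := rfl
@[simp] theorem er_mem (t u : MT S) : (mem t u).er = t.er := rfl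

@[simp] theorem up_zero (σ : ℕ → MT S) : up σ 0 = var 0 := rfl
@[simp] theorem up_succ (σ : ℕ → MT S) (n : ℕ) : up σ (n + 1) = (σ n).rename Nat.succ := rfl
@[simp] theorem rename_var (ξ : ℕ → ℕ) (n : ℕ) : (var n : MT S).rename ξ = var (ξ n) := rfl
@[simp] theorem rename_sort (ξ : ℕ → ℕ) (s : S) : (sort s).rename ξ = sort s := rfl
@[simp] theorem rename_app (ξ : ℕ → ℕ) (M N : MT S) :
    (app M N).rename ξ = app (M.rename ξ) (N.rename ξ) := rfl
@[simp] theorem rename_lam (ξ : ℕ → ℕ) (A M : MT S) :
    (lam A M).rename ξ = lam (A.rename ξ) (M.rename (upRen ξ)) := rfl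
@[simp] theorem rename_pi (ξ : ℕ → ℕ) (A B : MT S) :
    (pi A B).rename ξ = pi (A.rename ξ) (B.rename (upRen ξ)) := rfl
@[simp] theorem rename_mem (ξ : ℕ → ℕ) (M N : MT S) :
    (mem M N).rename ξ = mem (M.rename ξ) (N.rename ξ) := rfl
@[simp] theorem subst_var (σ : ℕ → MT S) (n : ℕ) : (var n : MT S).subst σ = σ n := rfl
@[simp] theorem subst_sort (σ : ℕ → MT S) (s : S) : (sort s).subst σ = sort s := rfl
@[simp] theorem subst_app (σ : ℕ → MT S) (M N : MT S) :
    (app M N).subst σ = app (M.subst σ) (N.subst σ) := rfl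
@[simp] theorem subst_lam (σ : ℕ → MT S) (A M : MT S) :
    (lam A M).subst σ = lam (A.subst σ) (M.subst (up σ)) := rfl
@[simp] theorem subst_pi (σ : ℕ → MT S) (A B : MT S) :
    (pi A B).subst σ = pi (A.subst σ) (B.subst (up σ)) := rfl
@[simp] theorem subst_mem (σ : ℕ → MT S) (M N : MT S) :
    (mem M N).subst σ = mem (M.subst σ) (N.subst σ) := rfl
@[simp] theorem free_var (x n : ℕ) : Free x (var n : MT S) ↔ x = n := Iff.rfl
@[simp] theorem free_sort (x : ℕ) (s : S) : Free x (sort s) ↔ False := Iff.rfl
@[simp] theorem free_app (x : ℕ) (M N : MT S) : Free x (app M N) ↔ Free x M ∨ Free x N := Iff.rfl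
@[simp] theorem free_lam (x : ℕ) (A M : MT S) :
    Free x (lam A M) ↔ Free x A ∨ Free (x + 1) M := Iff.rfl
@[simp] theorem free_pi (x : ℕ) (A B : MT S) :
    Free x (pi A B) ↔ Free x A ∨ Free (x + 1) B := Iff.rfl
@[simp] theorem free_mem (x : ℕ) (M N : MT S) : Free x (mem M N) ↔ Free x M ∨ Free x N := Iff.rfl

@[simp] theorem er_emb (M : Term S) : (emb M).er = M := by
  induction M <;> simp [emb, *]

theorem er_rename (t : MT S) (ξ : ℕ → ℕ) : (t.rename ξ).er = t.er.rename ξ := by
  induction t generalizing ξ <;> simp [*]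

theorem er_subst (t : MT S) (σ : ℕ → MT S) :
    (t.subst σ).er = t.er.subst (fun n => (σ n).er) := by
  have h : ∀ σ : ℕ → MT S, (fun n => (up σ n).er) = upSub (fun n => (σ n).er) := by
    intro σ; funext n; cases n
    · rfl
    · simp [er_rename, Term.shift]
  induction t generalizing σ <;> simp [*]

theorem er_inst (t u : MT S) : (t.inst u).er = t.er.inst u.er := by
  rw [inst, er_subst, Term.inst]; congr 1; funext n; cases n <;> rfl

theorem emb_rename (M : Term S) (ξ : ℕ → ℕ) : emb (M.rename ξ) = (emb M).rename ξ := by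
  induction M generalizing ξ <;> simp [emb, *]

theorem emb_subst (M : Term S) (σ : ℕ → Term S) :
    emb (M.subst σ) = (emb M).subst (fun n => emb (σ n)) := by
  have h : ∀ σ : ℕ → Term S, (fun n => emb (upSub σ n)) = up (fun n => emb (σ n)) := by
    intro σ; funext n; cases n
    · rfl
    · simp [emb_rename, Term.shift]
  induction M generalizing σ <;> simp [emb, *]

theorem emb_inst (M N : Term S) : emb (M.inst N) = (emb M).inst (emb N) := by
  rw [Term.inst, emb_subst, inst]; congr 1; funext n; cases n <;> rfl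

theorem rename_rename (M : MT S) (ξ ζ : ℕ → ℕ) :
    (M.rename ξ).rename ζ = M.rename (fun n => ζ (ξ n)) := by
  have h : ∀ ξ ζ : ℕ → ℕ, (fun n => upRen ζ (upRen ξ n)) = upRen (fun n => ζ (ξ n)) := by
    intro ξ ζ; funext n; cases n <;> rfl
  induction M generalizing ξ ζ <;> simp [*]

theorem subst_rename (M : MT S) (ξ : ℕ → ℕ) (σ : ℕ → MT S) :
    (M.rename ξ).subst σ = M.subst (fun n => σ (ξ n)) := by
  have h : ∀ (ξ : ℕ → ℕ) (σ : ℕ → MT S),
      (fun n => up σ (upRen ξ n)) = up (fun n => σ (ξ n)) := by
    intro ξ σ; funext n; cases n <;> rfl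
  induction M generalizing ξ σ <;> simp [*]

theorem rename_subst (M : MT S) (σ : ℕ → MT S) (ξ : ℕ → ℕ) :
    (M.subst σ).rename ξ = M.subst (fun n => (σ n).rename ξ) := by
  have h : ∀ (ξ : ℕ → ℕ) (σ : ℕ → MT S),
      (fun n => (up σ n).rename (upRen ξ)) = up (fun n => (σ n).rename ξ) := by
    intro ξ σ; funext n; cases n
    · rfl
    · simp [rename_rename]
  induction M generalizing ξ σ <;> simp [*]

theorem up_comp (σ τ : ℕ → MT S) :
    (fun n => (up σ n).subst (up τ)) = up (fun n => (σ n).subst τ) := by
  funext n; cases n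
  · rfl
  · simp [subst_rename, rename_subst]

@[simp] theorem up_var : up (var : ℕ → MT S) = var := by
  funext n; cases n <;> rfl

theorem up_ren (ξ : ℕ → ℕ) :
    up (fun n => (var (ξ n) : MT S)) = fun n => var (upRen ξ n) := by
  funext n; cases n <;> rfl

theorem rename_eq_subst (t : MT S) (ξ : ℕ → ℕ) : t.rename ξ = t.subst (fun n => var (ξ n)) := by
  induction t generalizing ξ <;> simp [*, up_ren]

theorem subst_subst (t : MT S) (σ τ : ℕ → MT S) :
    (t.subst σ).subst τ = t.subst (fun n => (σ n).subst τ) := by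
  induction t generalizing σ τ <;> simp [*, up_comp]

@[simp] theorem subst_id (t : MT S) : t.subst var = t := by
  induction t <;> simp [*]

theorem up_inst (t u : MT S) (σ : ℕ → MT S) : (t.subst (up σ)).inst u = t.subst (scons u σ) := by
  rw [inst, subst_subst]; congr 1; funext n; cases n
  · rfl
  · simp [subst_rename]

theorem inst_subst (t u : MT S) (σ : ℕ → MT S) :
    (t.inst u).subst σ = (t.subst (up σ)).inst (u.subst σ) := by
  rw [up_inst, inst, subst_subst]; congr 1; funext n; cases n <;> rfl

theorem inst_rename (B N : MT S) (ξ : ℕ → ℕ) :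
    (B.inst N).rename ξ = (B.rename (upRen ξ)).inst (N.rename ξ) := by
  simp only [rename_eq_subst, inst_subst, up_ren]

theorem inst_var_eq_rename (t : MT S) (p : ℕ) :
    t.inst (var p) = t.rename (scons p (fun n => n)) := by
  rw [rename_eq_subst, inst]; congr 1; funext n; cases n <;> rfl

theorem exists_fvlt (t : MT S) : ∃ n, FVlt n t := by
  induction t with
  | var n => exact ⟨n + 1, fun x hx => by simp at hx; omega⟩
  | sort s => exact ⟨0, fun x hx => by simp at hx⟩
  | app M N ih1 ih2 =>
    obtain ⟨a, ha⟩ := ih1; obtain ⟨b, hb⟩ := ih2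
    exact ⟨a + b, fun x hx => by
      rcases hx with h | h
      · have := ha x h; omega
      · have := hb _ h; omega⟩
  | lam M N ih1 ih2 =>
    obtain ⟨a, ha⟩ := ih1; obtain ⟨b, hb⟩ := ih2
    exact ⟨a + b, fun x hx => by
      rcases hx with h | h
      · have := ha x h; omega
      · have := hb _ h; omega⟩
  | pi M N ih1 ih2 =>
    obtain ⟨a, ha⟩ := ih1; obtain ⟨b, hb⟩ := ih2
    exact ⟨a + b, fun x hx => by
      rcases hx with h | h
      · have := ha x h; omega
      · have := hb _ h; omega⟩
  | mem M N ih1 ih2 =>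
    obtain ⟨a, ha⟩ := ih1; obtain ⟨b, hb⟩ := ih2
    exact ⟨a + b, fun x hx => by
      rcases hx with h | h
      · have := ha x h; omega
      · have := hb _ h; omega⟩

theorem Free.of_er {t : MT S} {x : ℕ} (h : P340.Free x t.er) : Free x t := by
  induction t generalizing x with
  | var n => exact h
  | sort s => exact h
  | app M N ih1 ih2 => exact h.imp ih1 ih2
  | lam M N ih1 ih2 => exact h.imp ih1 ih2
  | pi M N ih1 ih2 => exact h.imp ih1 ih2
  | mem M N ih1 _ => exact Or.inl (ih1 h)

theorem free_emb {M : Term S} {x : ℕ} : Free x (emb M) ↔ P340.Free x M := by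
  induction M generalizing x <;> simp [emb, *]

theorem subst_congr_free {t : MT S} {σ τ : ℕ → MT S} (h : ∀ x, Free x t → σ x = τ x) :
    t.subst σ = t.subst τ := by
  induction t generalizing σ τ with
  | var n => exact h n rfl
  | sort s => rfl
  | app M N ih1 ih2 =>
    simp [ih1 (fun x hx => h x (Or.inl hx)), ih2 (fun x hx => h x (Or.inr hx))]
  | mem M N ih1 ih2 =>
    simp [ih1 (fun x hx => h x (Or.inl hx)), ih2 (fun x hx => h x (Or.inr hx))]
  | lam M N ih1 ih2 =>
    have : N.subst (up σ) = N.subst (up τ) := ih2 (fun x hx => by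
      cases x with
      | zero => rfl
      | succ x => simp [h x (Or.inr hx)])
    simp [ih1 (fun x hx => h x (Or.inl hx)), this]
  | pi M N ih1 ih2 =>
    have : N.subst (up σ) = N.subst (up τ) := ih2 (fun x hx => by
      cases x with
      | zero => rfl
      | succ x => simp [h x (Or.inr hx)])
    simp [ih1 (fun x hx => h x (Or.inl hx)), this]

/-- Opening a binder with a fresh parameter `p` and then substituting. -/
theorem open_subst {t : MT S} {p : ℕ} {σ σ' : ℕ → MT S}
    (ht : ∀ x, Free (x + 1) t → x < p) (h : ∀ x < p, σ' x = σ x) :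
    (t.inst (var p)).subst σ' = (t.subst (up σ)).inst (σ' p) := by
  rw [inst_subst, up_inst, up_inst]; apply subst_congr_free; intro x hx
  cases x with
  | zero => rfl
  | succ x => exact h x (ht x hx)

theorem Head.subst {x y : ℕ} {t : MT S} {σ : ℕ → MT S} (h : Head x t) (k : σ x = MT.var y) :
    Head y (t.subst σ) := by
  induction h with
  | var => rw [subst_var, k]; exact .var
  | app u _ ih => exact .app _ ih

theorem Head.er {x : ℕ} {t : MT S} (h : Head x t) : HeadVar x t.er := by
  induction h with
  | var => exact .var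
  | app u _ ih => exact .app _ ih

theorem Step.er {t t' : MT S} (h : Step t t') : P340.Red t.er t'.er := by
  induction h with
  | beta A M N =>
    simp only [er_app, er_lam, er_mem, er_inst]
    exact .single (P340.Step.beta _ _ _)
  | perm t u N => exact .refl
  | appL N _ ih => exact P340.Red.app ih .refl
  | appR M _ ih => exact P340.Red.app .refl ih
  | lamL N _ ih => exact P340.Red.lam ih .refl
  | lamR M _ ih => exact P340.Red.lam .refl ih
  | piL N _ ih => exact P340.Red.pi ih .refl
  | piR M _ ih => exact P340.Red.pi .refl ih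
  | memL N _ ih => exact ih
  | memR M _ _ => exact .refl

theorem Red.er {t t' : MT S} (h : Red t t') : P340.Red t.er t'.er := by
  induction h with
  | refl => exact .refl
  | tail _ h2 ih => exact ih.trans h2.er

theorem Step.subst {t t' : MT S} (h : Step t t') (σ : ℕ → MT S) :
    Step (t.subst σ) (t'.subst σ) := by
  induction h generalizing σ with
  | beta A M N =>
    simp only [subst_app, subst_lam, subst_mem, inst_subst]
    exact Step.beta _ _ _
  | perm t u N => exact Step.perm _ _ _
  | appL N _ ih => exact Step.appL _ (ih σ)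
  | appR M _ ih => exact Step.appR _ (ih σ)
  | lamL M _ ih => exact Step.lamL _ (ih σ)
  | lamR A _ ih => exact Step.lamR _ (ih _)
  | piL B _ ih => exact Step.piL _ (ih σ)
  | piR A _ ih => exact Step.piR _ (ih _)
  | memL N _ ih => exact Step.memL _ (ih σ)
  | memR M _ ih => exact Step.memR _ (ih σ)

theorem Step.rename {M N : MT S} (h : Step M N) (ξ : ℕ → ℕ) :
    Step (M.rename ξ) (N.rename ξ) := by
  simp only [rename_eq_subst]; exact h.subst _

theorem free_rename {x : ℕ} {M : MT S} {ξ : ℕ → ℕ} :
    Free x (M.rename ξ) ↔ ∃ y, Free y M ∧ ξ y = x := by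
  have key : ∀ (N : MT S) (ξ : ℕ → ℕ) (x : ℕ),
      (∃ y, Free y N ∧ upRen ξ y = x + 1) ↔ ∃ y, Free (y + 1) N ∧ ξ y = x := by
    intro N ξ x
    constructor
    · rintro ⟨y, h1, h2⟩
      cases y with
      | zero => simp at h2
      | succ y => exact ⟨y, h1, by simpa using h2⟩
    · rintro ⟨y, h1, h2⟩; exact ⟨y + 1, h1, by simp [h2]⟩
  induction M generalizing x ξ with
  | var n => simp [eq_comm]
  | sort s => simp
  | app M N ih1 ih2 => simp [ih1, ih2, or_and_right, exists_or]
  | lam M N ih1 ih2 => simp [ih1, ih2, or_and_right, exists_or, key]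
  | pi M N ih1 ih2 => simp [ih1, ih2, or_and_right, exists_or, key]
  | mem M N ih1 ih2 => simp [ih1, ih2, or_and_right, exists_or]

theorem free_subst {x : ℕ} {M : MT S} {σ : ℕ → MT S} :
    Free x (M.subst σ) ↔ ∃ y, Free y M ∧ Free x (σ y) := by
  have key : ∀ (N : MT S) (σ : ℕ → MT S) (x : ℕ),
      (∃ y, Free y N ∧ Free (x + 1) (up σ y)) ↔ ∃ y, Free (y + 1) N ∧ Free x (σ y) := by
    intro N σ x
    constructor
    · rintro ⟨y, h1, h2⟩
      cases y with
      | zero => simp at h2
      | succ y =>
        refine ⟨y, h1, ?_⟩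
        simp only [up_succ, free_rename] at h2
        obtain ⟨z, hz, e⟩ := h2
        obtain rfl : z = x := by simpa using e
        exact hz
    · rintro ⟨y, h1, h2⟩
      exact ⟨y + 1, h1, by simp only [up_succ, free_rename]; exact ⟨x, h2, rfl⟩⟩
  induction M generalizing x σ with
  | var n => simp
  | sort s => simp
  | app M N ih1 ih2 => simp [ih1, ih2, or_and_right, exists_or]
  | lam M N ih1 ih2 => simp [ih1, ih2, or_and_right, exists_or, key]
  | pi M N ih1 ih2 => simp [ih1, ih2, or_and_right, exists_or, key]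
  | mem M N ih1 ih2 => simp [ih1, ih2, or_and_right, exists_or]

theorem free_inst {x : ℕ} {B N : MT S} (h : Free x (B.inst N)) :
    Free (x + 1) B ∨ Free x N := by
  rw [inst, free_subst] at h
  obtain ⟨y, h1, h2⟩ := h
  cases y with
  | zero => exact Or.inr h2
  | succ y => simp at h2; subst h2; exact Or.inl h1

theorem Step.free {M N : MT S} (h : Step M N) {x : ℕ} (hx : Free x N) : Free x M := by
  induction h generalizing x with
  | beta A M N =>
    rcases hx with (h | h) | h
    · rcases free_inst h with h | h <;> simp [h]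
    · simp [h]
    · simp [h]
  | perm t u N => rcases hx with (h | h) | h <;> simp [h]
  | appL N _ ih => exact hx.imp ih id
  | appR M _ ih => exact hx.imp id ih
  | lamL M _ ih => exact hx.imp ih id
  | lamR A _ ih => exact hx.imp id ih
  | piL B _ ih => exact hx.imp ih id
  | piR A _ ih => exact hx.imp id ih
  | memL B _ ih => exact hx.imp ih id
  | memR A _ ih => exact hx.imp id ih

theorem Red.free {t t' : MT S} (h : Red t t') {x : ℕ} (hx : Free x t') : Free x t := by
  induction h with
  | refl => exact hx
  | tail _ h2 ih => exact ih (h2.free hx)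

theorem Step.of_rename {M : MT S} {ξ : ℕ → ℕ} {N : MT S} (h : Step (M.rename ξ) N) :
    ∃ M', Step M M' ∧ N = M'.rename ξ := by
  induction M generalizing ξ N with
  | var n => cases h
  | sort s => cases h
  | app M1 M2 ih1 ih2 =>
    simp only [rename_app] at h
    generalize hM : M1.rename ξ = M1' at h
    cases h with
    | beta A M N =>
      cases M1 <;> simp at hM
      obtain ⟨rfl, rfl⟩ := hM
      exact ⟨_, Step.beta _ _ _, by simp only [rename_mem, inst_rename]⟩
    | perm t u N =>
      cases M1 <;> simp at hM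
      obtain ⟨rfl, rfl⟩ := hM
      exact ⟨_, Step.perm _ _ _, rfl⟩
    | appL N h =>
      subst hM
      obtain ⟨M', h1, rfl⟩ := ih1 h
      exact ⟨_, Step.appL _ h1, rfl⟩
    | appR M h =>
      subst hM
      obtain ⟨M', h1, rfl⟩ := ih2 h
      exact ⟨_, Step.appR _ h1, rfl⟩
  | lam M1 M2 ih1 ih2 =>
    cases h with
    | lamL N h => obtain ⟨M', h1, rfl⟩ := ih1 h; exact ⟨_, Step.lamL _ h1, rfl⟩
    | lamR N h => obtain ⟨M', h1, rfl⟩ := ih2 h; exact ⟨_, Step.lamR _ h1, rfl⟩
  | pi M1 M2 ih1 ih2 =>
    cases h with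
    | piL N h => obtain ⟨M', h1, rfl⟩ := ih1 h; exact ⟨_, Step.piL _ h1, rfl⟩
    | piR N h => obtain ⟨M', h1, rfl⟩ := ih2 h; exact ⟨_, Step.piR _ h1, rfl⟩
  | mem M1 M2 ih1 ih2 =>
    cases h with
    | memL N h => obtain ⟨M', h1, rfl⟩ := ih1 h; exact ⟨_, Step.memL _ h1, rfl⟩
    | memR N h => obtain ⟨M', h1, rfl⟩ := ih2 h; exact ⟨_, Step.memR _ h1, rfl⟩

theorem Red.of_rename {t t' : MT S} {ξ : ℕ → ℕ} (h : Red (t.rename ξ) t') :
    ∃ t₀, Red t t₀ ∧ t' = t₀.rename ξ := by
  induction h with
  | refl => exact ⟨t, .refl, rfl⟩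
  | tail _ h2 ih =>
    obtain ⟨M', h1, rfl⟩ := ih
    obtain ⟨M'', h3, rfl⟩ := h2.of_rename
    exact ⟨M'', h1.tail h3, rfl⟩

theorem normal_rename {t : MT S} {ξ : ℕ → ℕ} : Normal (t.rename ξ) ↔ Normal t := by
  exact ⟨fun h _ k => h _ (k.rename ξ), fun h _ k => by
    obtain ⟨M', h1, -⟩ := k.of_rename; exact h _ h1⟩

theorem Red.map {f : MT S → MT S} (hf : ∀ a b, Step a b → Step (f a) (f b)) {M N : MT S}
    (h : Red M N) : Red (f M) (f N) := by
  induction h with
  | refl => exact .refl
  | tail _ h2 ih => exact ih.tail (hf _ _ h2)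

theorem Red.app {t t' u u' : MT S} (h : Red t t') (k : Red u u') : Red (app t u) (app t' u') := by
  exact (Red.map (f := fun M => MT.app M u) (fun _ _ h => Step.appL _ h) h).trans
    (Red.map (f := fun N => MT.app t' N) (fun _ _ h => Step.appR _ h) k)
theorem Red.lam {t t' u u' : MT S} (h : Red t t') (k : Red u u') : Red (lam t u) (lam t' u') := by
  exact (Red.map (f := fun M => MT.lam M u) (fun _ _ h => Step.lamL _ h) h).trans
    (Red.map (f := fun N => MT.lam t' N) (fun _ _ h => Step.lamR _ h) k)
theorem Red.pi {t t' u u' : MT S} (h : Red t t') (k : Red u u') : Red (pi t u) (pi t' u') := by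
  exact (Red.map (f := fun M => MT.pi M u) (fun _ _ h => Step.piL _ h) h).trans
    (Red.map (f := fun N => MT.pi t' N) (fun _ _ h => Step.piR _ h) k)
theorem Red.mem {t t' u u' : MT S} (h : Red t t') (k : Red u u') : Red (mem t u) (mem t' u') := by
  exact (Red.map (f := fun M => MT.mem M u) (fun _ _ h => Step.memL _ h) h).trans
    (Red.map (f := fun N => MT.mem t' N) (fun _ _ h => Step.memR _ h) k)

/-! ### Confluence -/

inductive Par : MT S → MT S → Prop
  | var (n : ℕ) : Par (.var n) (.var n)
  | sort (s : S) : Par (.sort s) (.sort s)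
  | app {M M' N N'} : Par M M' → Par N N' → Par (.app M N) (.app M' N')
  | lam {M M' N N'} : Par M M' → Par N N' → Par (.lam M N) (.lam M' N')
  | pi {M M' N N'} : Par M M' → Par N N' → Par (.pi M N) (.pi M' N')
  | mem {M M' N N'} : Par M M' → Par N N' → Par (.mem M N) (.mem M' N')
  | beta {A A' M M' N N'} : Par A A' → Par M M' → Par N N' →
      Par (.app (.lam A M) N) (.mem (.mem (M'.inst N') N') A')
  | perm {t t' u u' N N'} : Par t t' → Par u u' → Par N N' →
      Par (.app (.mem t u) N) (.mem (.app t' N') u')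

theorem Par.refl (M : MT S) : Par M M := by
  induction M with
  | var n => exact .var n
  | sort s => exact .sort s
  | app _ _ a b => exact .app a b
  | lam _ _ a b => exact .lam a b
  | pi _ _ a b => exact .pi a b
  | mem _ _ a b => exact .mem a b

theorem Step.par {M N : MT S} (h : Step M N) : Par M N := by
  induction h with
  | beta A M N => exact .beta (.refl _) (.refl _) (.refl _)
  | perm A M N => exact .perm (.refl _) (.refl _) (.refl _)
  | appL N _ ih => exact .app ih (.refl _)
  | appR M _ ih => exact .app (.refl _) ih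
  | lamL M _ ih => exact .lam ih (.refl _)
  | lamR A _ ih => exact .lam (.refl _) ih
  | piL B _ ih => exact .pi ih (.refl _)
  | piR A _ ih => exact .pi (.refl _) ih
  | memL B _ ih => exact .mem ih (.refl _)
  | memR A _ ih => exact .mem (.refl _) ih

theorem Par.red {M N : MT S} (h : Par M N) : Red M N := by
  induction h with
  | var n => exact .refl
  | sort s => exact .refl
  | app _ _ a b => exact Red.app a b
  | lam _ _ a b => exact Red.lam a b
  | pi _ _ a b => exact Red.pi a b
  | mem _ _ a b => exact Red.mem a b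
  | beta _ _ _ a b c => exact (Red.app (Red.lam a b) c).tail (Step.beta _ _ _)
  | perm _ _ _ a b c => exact (Red.app (Red.mem a b) c).tail (Step.perm _ _ _)

theorem Par.rename {M N : MT S} (h : Par M N) (ξ : ℕ → ℕ) : Par (M.rename ξ) (N.rename ξ) := by
  induction h generalizing ξ with
  | var n => exact .var _
  | sort s => exact .sort s
  | app _ _ a b => exact .app (a _) (b _)
  | lam _ _ a b => exact .lam (a _) (b _)
  | pi _ _ a b => exact .pi (a _) (b _)
  | mem _ _ a b => exact .mem (a _) (b _)
  | beta _ _ _ a b c =>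
    simp only [rename_app, rename_lam, rename_mem, inst_rename]
    exact .beta (a _) (b _) (c _)
  | perm _ _ _ a b c => exact .perm (a _) (b _) (c _)

theorem Par.subst {M N : MT S} (h : Par M N) {σ τ : ℕ → MT S} (k : ∀ x, Par (σ x) (τ x)) :
    Par (M.subst σ) (N.subst τ) := by
  have hup : ∀ {σ τ : ℕ → MT S}, (∀ x, Par (σ x) (τ x)) → ∀ x, Par (up σ x) (up τ x) := by
    intro σ τ h x; cases x
    · exact .var _
    · exact (h _).rename _
  induction h generalizing σ τ with
  | var n => exact k n
  | sort s => exact .sort s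
  | app _ _ a b => exact .app (a k) (b k)
  | lam _ _ a b => exact .lam (a k) (b (hup k))
  | pi _ _ a b => exact .pi (a k) (b (hup k))
  | mem _ _ a b => exact .mem (a k) (b k)
  | beta _ _ _ a b c =>
    simp only [subst_app, subst_lam, subst_mem, inst_subst]
    exact .beta (a k) (b (hup k)) (c k)
  | perm _ _ _ a b c => exact .perm (a k) (b k) (c k)

theorem Par.inst {M M' N N' : MT S} (h : Par M M') (k : Par N N') :
    Par (M.inst N) (M'.inst N') :=
  h.subst (fun x => by cases x; exacts [k, .var _])

/-- complete development -/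
def dev : MT S → MT S
  | .var n => .var n
  | .sort s => .sort s
  | .app (.lam A M) N => .mem (.mem (M.dev.inst N.dev) N.dev) A.dev
  | .app (.mem t u) N => .mem (.app t.dev N.dev) u.dev
  | .app M N => .app M.dev N.dev
  | .lam A M => .lam A.dev M.dev
  | .pi A M => .pi A.dev M.dev
  | .mem A M => .mem A.dev M.dev

theorem Par.triangle {M N : MT S} (h : Par M N) : Par N M.dev := by
  induction h with
  | var n => exact .var n
  | sort s => exact .sort s
  | @app M M' N N' h1 _ a b =>
    cases h1 with
    | lam h3 h4 =>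
      simp only [dev] at a ⊢
      cases a with
      | lam a1 a2 => exact .beta a1 a2 b
    | mem h3 h4 =>
      simp only [dev] at a ⊢
      cases a with
      | mem a1 a2 => exact .perm a1 a2 b
    | var n => exact .app a b
    | sort s => exact .app a b
    | app _ _ => simp only [dev]; exact .app a b
    | pi _ _ => exact .app a b
    | beta _ _ _ => simp only [dev]; exact .app a b
    | perm _ _ _ => simp only [dev]; exact .app a b
  | lam _ _ a b => exact .lam a b
  | pi _ _ a b => exact .pi a b
  | mem _ _ a b => exact .mem a b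
  | beta _ _ _ a b c => simp only [dev]; exact .mem (.mem (b.inst c) c) a
  | perm _ _ _ a b c => simp only [dev]; exact .mem (.app a c) b

theorem Red.confluent {M N K : MT S} (h : Red M N) (k : Red M K) :
    ∃ L, Red N L ∧ Red K L := by
  have e : ∀ {M N : MT S}, Red M N → Relation.ReflTransGen Par M N := by
    intro M N h
    induction h with
    | refl => exact .refl
    | tail _ h2 ih => exact ih.tail h2.par
  have e' : ∀ {M N : MT S}, Relation.ReflTransGen Par M N → Red M N := by
    intro M N h
    induction h with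
    | refl => exact .refl
    | tail _ h2 ih => exact ih.trans h2.red
  have := Relation.church_rosser (r := (Par : MT S → MT S → Prop))
    (fun a b c hb hc => ⟨a.dev, .single hb.triangle, .single hc.triangle⟩) (e h) (e k)
  obtain ⟨L, h1, h2⟩ := this
  exact ⟨L, e' h1, e' h2⟩

theorem Normal.red_eq {M N : MT S} (h : Normal M) (k : Red M N) : N = M := by
  rcases k.cases_head with rfl | ⟨c, h1, -⟩
  · rfl
  · exact (h _ h1).elim

/-! ### Counting the memory -/

def cnt : MT S → ℕ
  | .var _ => 0
  | .sort _ => 0
  | .app M N => M.cnt + N.cnt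
  | .lam A M => A.cnt + M.cnt
  | .pi A M => A.cnt + M.cnt
  | .mem M N => M.cnt + N.cnt + 1

theorem cnt_le_subst (M : MT S) (σ : ℕ → MT S) : M.cnt ≤ (M.subst σ).cnt := by
  induction M generalizing σ with
  | var n => exact Nat.zero_le _
  | sort s => exact Nat.le_refl _
  | app _ _ a b => exact Nat.add_le_add (a _) (b _)
  | lam _ _ a b => exact Nat.add_le_add (a _) (b _)
  | pi _ _ a b => exact Nat.add_le_add (a _) (b _)
  | mem _ _ a b => exact Nat.succ_le_succ (Nat.add_le_add (a _) (b _))

theorem cnt_beta (A M N : MT S) :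
    (app (lam A M) N).cnt < (mem (mem (M.inst N) N) A).cnt := by
  have := cnt_le_subst M (scons N var)
  simp only [cnt, inst]
  omega

theorem Step.cnt_le {M N : MT S} (h : Step M N) : M.cnt ≤ N.cnt := by
  induction h with
  | beta A M N => exact (cnt_beta A M N).le
  | _ => simp only [cnt]; omega

theorem Red.cnt_le {M N : MT S} (h : Red M N) : M.cnt ≤ N.cnt := by
  induction h with
  | refl => exact Nat.le_refl _
  | tail _ h2 ih => exact ih.trans h2.cnt_le

theorem lift_beta {t : MT S} {A M : Term S} (h : t.er = .lam A M) (u : MT S) :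
    ∃ t', Red (app t u) t' ∧ t'.er = M.inst u.er ∧ (app t u).cnt < t'.cnt := by
  induction t with
  | var n => cases h
  | sort s => cases h
  | app _ _ _ _ => cases h
  | pi _ _ _ _ => cases h
  | lam a m _ _ =>
    cases h
    exact ⟨_, .single (Step.beta a m u), er_inst m u, cnt_beta a m u⟩
  | mem t w ih _ =>
    obtain ⟨t', h1, h2, h3⟩ := ih h
    refine ⟨mem t' w, .head (Step.perm t w u) (Red.mem h1 .refl), h2, ?_⟩
    simp only [cnt] at h3 ⊢
    omega

theorem lift_step {t : MT S} {M' : Term S} (h : P340.Step t.er M') :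
    ∃ t', Red t t' ∧ t'.er = M' ∧ t.cnt < t'.cnt := by
  induction t generalizing M' with
  | var n => cases h
  | sort s => cases h
  | app t u ih1 ih2 =>
    simp only [er_app] at h
    generalize ht : t.er = T at h
    cases h with
    | beta A M N => exact lift_beta ht u
    | appL N h =>
      subst ht
      obtain ⟨t', h1, rfl, h3⟩ := ih1 h
      exact ⟨app t' u, Red.app h1 .refl, rfl, Nat.add_lt_add_right h3 _⟩
    | appR M h =>
      subst ht
      obtain ⟨u', h1, rfl, h3⟩ := ih2 h
      exact ⟨app t u', Red.app .refl h1, rfl, Nat.add_lt_add_left h3 _⟩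
  | lam t u ih1 ih2 =>
    cases h with
    | lamL N h =>
      obtain ⟨t', h1, rfl, h3⟩ := ih1 h
      exact ⟨lam t' u, Red.lam h1 .refl, rfl, Nat.add_lt_add_right h3 _⟩
    | lamR M h =>
      obtain ⟨u', h1, rfl, h3⟩ := ih2 h
      exact ⟨lam t u', Red.lam .refl h1, rfl, Nat.add_lt_add_left h3 _⟩
  | pi t u ih1 ih2 =>
    cases h with
    | piL N h =>
      obtain ⟨t', h1, rfl, h3⟩ := ih1 h
      exact ⟨pi t' u, Red.pi h1 .refl, rfl, Nat.add_lt_add_right h3 _⟩
    | piR M h =>
      obtain ⟨u', h1, rfl, h3⟩ := ih2 h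
      exact ⟨pi t u', Red.pi .refl h1, rfl, Nat.add_lt_add_left h3 _⟩
  | mem t u ih1 _ =>
    obtain ⟨t', h1, h2, h3⟩ := ih1 h
    exact ⟨mem t' u, Red.mem h1 .refl, h2, Nat.succ_lt_succ (Nat.add_lt_add_right h3 _)⟩

/-- Main result of this file. Idea: `Step` is confluent (parallel reduction, complete
development with `dev (app (lam A M) N) = mem (mem (M.dev.inst N.dev) N.dev) A.dev` and
`dev (app (mem t u) N) = mem (app t.dev N.dev) u.dev`); the number of `mem` nodes never
decreases along `Step`; a beta step of `t.er` lifts to `Red t t'` with strictly more `mem`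
nodes (move the `mem` nodes at the head of the function out with `perm`, then `beta`). Hence the
length of the reductions of `M` is bounded by the number of `mem` nodes of the normal form. -/
theorem sn_of_normal {M : Term S} {t : MT S} (h : Red (emb M) t) (hn : Normal t) : SN M := by
  rintro ⟨f, h0, hf⟩
  have key : ∀ n, ∃ s, Red (emb M) s ∧ s.er = f n ∧ n ≤ s.cnt := by
    intro n
    induction n with
    | zero => exact ⟨emb M, .refl, by rw [er_emb, h0], Nat.zero_le _⟩
    | succ n ih =>
      obtain ⟨s, h1, h2, h3⟩ := ih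
      obtain ⟨s', k1, k2, k3⟩ := lift_step (t := s) (h2 ▸ hf n)
      exact ⟨s', h1.trans k1, k2, by omega⟩
  obtain ⟨s, h1, -, h3⟩ := key (t.cnt + 1)
  obtain ⟨L, a, b⟩ := h1.confluent h
  rw [hn.red_eq b] at a
  have := a.cnt_le
  omega

end MT
end Vale.Agent.P340
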