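import Vale.Agent.P340.Graph
import Vale.Agent.P340.Mem

/-! `NJ j t T`: the memory term `t` of type `T` (over `Θ`) only has applications whose function
is neutral or has a type of level `< j`. Candidates at level `j`. -/

namespace Vale.Agent.P340

universe u
variable {S : Type u} {P : Spec S} [Finite S]

namespace Amb
variable (E : Amb P)

/-- typing up to conversion of the type -/
def Tyc (M T : Term S) : Prop := ∃ T₀, Conv T₀ T ∧ Ty P E.Θ M T₀

inductive NJ (j : ℕ) : MT S → Term S → Prop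
  | var (x : ℕ) : NJ j (.var x) (E.Θ x)
  | sort {s₁ s₂ : S} : P.ax s₁ s₂ → NJ j (.sort s₁) (.sort s₂)
  | pi {A B : MT S} {s₁ s₂ s₃ : S} (p : ℕ) : MT.FVlt p (.pi A B) → E.Θ p = A.er →
      NJ j A (.sort s₁) → NJ j (B.inst (.var p)) (.sort s₂) →
      Ty P E.Θ (.pi A.er B.er) (.sort s₃) → NJ j (.pi A B) (.sort s₃)
  | lam {A M : MT S} {B : Term S} {s₁ s : S} (p : ℕ) : MT.FVlt p (.lam A M) →
      FVlt p (.pi A.er B) → E.Θ p = A.er →
      NJ j A (.sort s₁) → NJ j (M.inst (.var p)) (B.inst (.var p)) →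
      Ty P E.Θ (.pi A.er B) (.sort s) → Ty P E.Θ (.lam A.er M.er) (.pi A.er B) →
      NJ j (.lam A M) (.pi A.er B)
  | app {t u : MT S} {A B : Term S} {s : S} : NJ j t (.pi A B) → NJ j u A →
      Ty P E.Θ (.pi A B) (.sort s) →
      ((∃ x, MT.Head x t) ∨ E.idx (prof P E.Θ (.pi A B)) < j) →
      NJ j (.app t u) (B.inst u.er)
  | mem {t u : MT S} {T U : Term S} : NJ j t T → NJ j u U → NJ j (.mem t u) T
  | conv {t : MT S} {T T' : Term S} : NJ j t T → Conv T T' → NJ j t T'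

/-- typed terms that reduce to an `NJ j` term -/
def WNc (j : ℕ) (T : Term S) : Set (MT S) :=
  {t | E.Tyc t.er T ∧ ∃ t', MT.Red t t' ∧ E.NJ j t' T}

/-- typed terms that reduce to a neutral `NJ j` term -/
def Neu (j : ℕ) (T : Term S) : Set (MT S) :=
  {t | E.Tyc t.er T ∧ ∃ t', MT.Red t t' ∧ E.NJ j t' T ∧ ∃ x, MT.Head x t'}

structure Cand (j : ℕ) (T : Term S) (X : Set (MT S)) : Prop where
  sub : X ⊆ E.WNc j T
  neu : E.Neu j T ⊆ X
  back : ∀ t t', MT.Step t t' → E.Tyc t.er T → t' ∈ X → t ∈ X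
  mem : ∀ t u U, t ∈ X → u ∈ E.WNc j U → MT.mem t u ∈ X

/-- the arrow construction: `F u X` says that `app t u` must be in `X` -/
def Arr (j : ℕ) (T : Term S) (F : MT S → Set (MT S) → Prop) : Set (MT S) :=
  {t | t ∈ E.WNc j T ∧ ∀ u X, F u X → MT.app t u ∈ X}

/-- the least candidate containing `Z ∩ WNc` -/
def cl (j : ℕ) (T : Term S) (Z : Set (MT S)) : Set (MT S) :=
  {t | ∀ X, E.Cand j T X → Z ∩ E.WNc j T ⊆ X → t ∈ X}

variable {E} {j : ℕ} {T T' A B M : Term S} {t u : MT S} {X : Set (MT S)}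

theorem Tyc.conv (h : E.Tyc M T) (c : Conv T T') : E.Tyc M T' := by
  obtain ⟨T₀, c₀, h⟩ := h
  exact ⟨T₀, c₀.trans c, h⟩

theorem Tyc.ty {s : S} (h : E.Tyc M T) (hT : Ty P E.Θ T (.sort s)) : Ty P E.Θ M T := by
  obtain ⟨T₀, c₀, h⟩ := h
  exact Ty.conv h hT c₀

theorem Tyc.ty_sort {s : S} (h : E.Tyc M (.sort s)) : Ty P E.Θ M (.sort s) := by
  obtain ⟨T₀, c₀, h⟩ := h
  exact h.conv_sort E.valid c₀

theorem Tyc.red {M' : Term S} (h : E.Tyc M T) (k : Red M M') : E.Tyc M' T := by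
  obtain ⟨T₀, c₀, h⟩ := h
  exact ⟨T₀, c₀, h.red E.valid k⟩

/-- a typed product convertible with the given one -/
theorem Tyc.pi_ex (h : E.Tyc M (.pi A B)) : ∃ A' B' s, Conv A A' ∧ Conv B B' ∧
    Ty P E.Θ M (.pi A' B') ∧ Ty P E.Θ (.pi A' B') (.sort s) := by
  obtain ⟨T₀, c₀, h⟩ := h
  obtain ⟨L, a, b⟩ := c₀.join
  obtain ⟨A', B', rfl, h1, h2⟩ := b.pi_inv
  have hM := h.red_type E.valid a
  obtain ⟨s, hs⟩ := hM.pi_valid E.valid
  exact ⟨A', B', s, h1.conv, h2.conv, hM, hs⟩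

/-- no side condition: the actual type of `M` is typed and reduces to a product -/
theorem Tyc.app {N : Term S} (h : E.Tyc M (.pi A B)) (k : E.Tyc N A) :
    E.Tyc (.app M N) (B.inst N) := by
  obtain ⟨A', B', s, a, b, hM, hs⟩ := h.pi_ex
  obtain ⟨s₁, s₂, hA, -, -⟩ := hs.gen_pi_sort
  exact ⟨_, Conv.inst b.symm Conv.rfl, Ty.app hM ((k.conv a).ty hA)⟩

theorem NJ.tyc (h : E.NJ j t T) : E.Tyc t.er T := by
  induction h with
  | var x => exact ⟨_, Conv.rfl, Ty.var x⟩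
  | sort h => exact ⟨_, Conv.rfl, Ty.ax h⟩
  | pi p _ _ _ _ h _ _ => exact ⟨_, Conv.rfl, h⟩
  | lam p _ _ _ _ _ _ h _ _ => exact ⟨_, Conv.rfl, h⟩
  | app _ _ _ _ ih1 ih2 => exact ih1.app ih2
  | mem _ _ ih _ => exact ih
  | conv _ c ih => exact ih.conv c

theorem wnc_conv (c : Conv T T') : E.WNc j T = E.WNc j T' := by
  ext t
  constructor
  · rintro ⟨h, t', r, n⟩; exact ⟨h.conv c, t', r, n.conv c⟩
  · rintro ⟨h, t', r, n⟩; exact ⟨h.conv c.symm, t', r, n.conv c.symm⟩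

theorem neu_conv (c : Conv T T') : E.Neu j T = E.Neu j T' := by
  ext t
  constructor
  · rintro ⟨h, t', r, n, x⟩; exact ⟨h.conv c, t', r, n.conv c, x⟩
  · rintro ⟨h, t', r, n, x⟩; exact ⟨h.conv c.symm, t', r, n.conv c.symm, x⟩

theorem Cand.conv (h : E.Cand j T X) (c : Conv T T') : E.Cand j T' X := by
  refine ⟨?_, ?_, fun t t' k ht h' => h.back t t' k (ht.conv c.symm) h', h.mem⟩
  · rw [← wnc_conv c]; exact h.sub
  · rw [← neu_conv c]; exact h.neu

theorem Cand.back_red (h : E.Cand j T X) {t' : MT S} (k : MT.Red t t') (ht : E.Tyc t.er T)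
    (h' : t' ∈ X) : t ∈ X := by
  induction k using Relation.ReflTransGen.head_induction_on with
  | refl => exact h'
  | head k _ ih => exact h.back _ _ k ht (ih (ht.red k.er))

theorem cand_wnc (E : Amb P) (j : ℕ) (T : Term S) : E.Cand j T (E.WNc j T) := by
  refine ⟨fun _ h => h, ?_, ?_, ?_⟩
  · rintro t ⟨h, t', r, n, -⟩; exact ⟨h, t', r, n⟩
  · rintro t t' k ht ⟨-, t'', r, n⟩; exact ⟨ht, t'', r.head k, n⟩
  · rintro t u U ⟨h, t', r, n⟩ ⟨-, u', r', n'⟩
    exact ⟨h, .mem t' u', r.mem r', n.mem n'⟩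

theorem var_neu (E : Amb P) (j x : ℕ) : MT.var x ∈ E.Neu j (E.Θ x) := by
  exact ⟨⟨_, Conv.rfl, Ty.var x⟩, .var x, .refl, NJ.var x, x, .var⟩

/-- the application rule without the typing side condition -/
theorem NJ.app' (ht : E.NJ j t (.pi A B)) (hu : E.NJ j u A)
    (hl : (∃ x, MT.Head x t) ∨ E.idx (prof P E.Θ (.pi A B)) < j) :
    E.NJ j (.app t u) (B.inst u.er) := by
  obtain ⟨A', B', s, a, b, -, hs⟩ := ht.tyc.pi_ex
  refine (NJ.app (ht.conv (a.pi b)) (hu.conv a) hs ?_).conv (Conv.inst b.symm Conv.rfl)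
  rwa [← (a.pi b).prof_eq]

theorem neu_app (ht : t ∈ E.Neu j (.pi A B)) (hu : u ∈ E.WNc j A) :
    MT.app t u ∈ E.Neu j (B.inst u.er) := by
  obtain ⟨h, t', r, n, x, hx⟩ := ht
  obtain ⟨k, u', r', n'⟩ := hu
  exact ⟨h.app k, .app t' u', r.app r', (n.app' n' (Or.inl ⟨x, hx⟩)).conv
    (Conv.inst Conv.rfl r'.er.conv.symm), x, hx.app u'⟩

theorem wnc_app_low (ht : t ∈ E.WNc j (.pi A B)) (hu : u ∈ E.WNc j A)
    (hl : E.idx (prof P E.Θ (.pi A B)) < j) : MT.app t u ∈ E.WNc j (B.inst u.er) := by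
  obtain ⟨h, t', r, n⟩ := ht
  obtain ⟨k, u', r', n'⟩ := hu
  exact ⟨h.app k, .app t' u', r.app r', (n.app' n' (Or.inr hl)).conv
    (Conv.inst Conv.rfl r'.er.conv.symm)⟩

theorem cand_arr {F : MT S → Set (MT S) → Prop} (c : Conv T (.pi A B))
    (hF : ∀ u X, F u X → u ∈ E.WNc j A ∧ E.Cand j (B.inst u.er) X) :
    E.Cand j T (E.Arr j T F) := by
  refine ⟨fun _ h => h.1, ?_, ?_, ?_⟩
  · intro t ht
    refine ⟨(cand_wnc E j T).neu ht, fun u X h => (hF u X h).2.neu (neu_app ?_ (hF u X h).1)⟩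
    rwa [← neu_conv c]
  · rintro t t' k ht ⟨h1, h2⟩
    refine ⟨(cand_wnc E j T).back t t' k ht h1, fun u X h => ?_⟩
    exact (hF u X h).2.back _ _ (MT.Step.appL u k) ((ht.conv c).app (hF u X h).1.1) (h2 u X h)
  · rintro t w U ⟨h1, h2⟩ hw
    refine ⟨(cand_wnc E j T).mem t w U h1 hw, fun u X h => ?_⟩
    exact (hF u X h).2.back _ _ (MT.Step.perm t w u) ((h1.1.conv c).app (hF u X h).1.1)
      ((hF u X h).2.mem _ w U (h2 u X h) hw)

theorem cand_cl (E : Amb P) (j : ℕ) (T : Term S) (Z : Set (MT S)) : E.Cand j T (E.cl j T Z) := by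
  refine ⟨fun t h => h _ (cand_wnc E j T) Set.inter_subset_right, fun t h X hX _ => hX.neu h,
    fun t t' k ht h X hX hZ => hX.back t t' k ht (h X hX hZ),
    fun t u U h hu X hX hZ => hX.mem t u U (h X hX hZ) hu⟩

theorem cl_mono {Z Z' : Set (MT S)} (h : Z ⊆ Z') : E.cl j T Z ⊆ E.cl j T Z' := by
  intro t ht X hX hZ
  exact ht X hX (fun u hu => hZ ⟨h hu.1, hu.2⟩)

theorem Cand.cl_eq (h : E.Cand j T X) : E.cl j T X = X := by
  ext t
  exact ⟨fun ht => ht X h Set.inter_subset_left, fun ht Y _ hY => hY ⟨ht, h.sub ht⟩⟩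

theorem cl_empty_sub (h : E.Cand j T X) : E.cl j T ∅ ⊆ X := by
  intro t ht
  exact ht X h (fun u hu => hu.1.elim)

theorem cl_conv (c : Conv T T') (Z : Set (MT S)) : E.cl j T Z = E.cl j T' Z := by
  ext t
  constructor
  · intro ht X hX hZ
    exact ht X (hX.conv c.symm) (by rwa [wnc_conv c])
  · intro ht X hX hZ
    exact ht X (hX.conv c) (by rwa [← wnc_conv c])

theorem NJ.pi_dom {a b : MT S} (h : E.NJ j (.pi a b) T) : ∃ s, E.NJ j a (.sort s) := by
  generalize hM : MT.pi a b = L at h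
  induction h with
  | pi p _ _ h _ _ _ _ => cases hM; exact ⟨_, h⟩
  | conv _ _ ih => exact ih hM
  | _ => cases hM

theorem ts_scons {G : ℕ → Term S} {ξ : ℕ → ℕ} {p : ℕ}
    (hξ : TS P G E.Θ (fun x => .var (ξ x))) (hp : E.Θ p = A.rename ξ) :
    TS P (ccons A G) E.Θ (fun x => .var (scons p ξ x)) := by
  have h : Ty P E.Θ (.var p) (A.subst (fun x => .var (ξ x))) := by
    rw [← rename_eq_subst, ← hp]; exact Ty.var p
  have e : (fun x => (Term.var (scons p ξ x) : Term S)) =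
      scons (Term.var p) (fun x => .var (ξ x)) := by
    funext x; cases x <;> rfl
  rw [e]
  exact hξ.scons h

theorem emb_open (B : Term S) (ξ : ℕ → ℕ) (p : ℕ) :
    (MT.emb (B.rename (upRen ξ))).inst (.var p) = MT.emb (B.rename (scons p ξ)) := by
  rw [← upRen_inst_var, MT.emb_inst]; rfl

theorem ty_rename {G : ℕ → Term S} {ξ : ℕ → ℕ} (h : Ty P G M A)
    (hξ : TS P G E.Θ (fun x => .var (ξ x))) : Ty P E.Θ (M.rename ξ) (A.rename ξ) := by
  rw [rename_eq_subst, rename_eq_subst]; exact h.subst hξ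

theorem nj_top_aux (hj : ∀ I, E.idx I < j) {G : ℕ → Term S} (h : Ty P G M A) :
    ∀ ξ : ℕ → ℕ, TS P G E.Θ (fun x => .var (ξ x)) →
      E.NJ j (MT.emb (M.rename ξ)) (A.rename ξ) := by
  induction h with
  | ax h => intro ξ _; exact NJ.sort h
  | var x =>
    intro ξ hξ
    rw [rename_eq_subst (_ : Term S) ξ, rename_eq_subst (_ : Term S) ξ]
    exact (NJ.var (ξ x)).conv (hξ x).gen_var.symm
  | @pi G A B s₁ s₂ s₃ h1 h2 r ih1 ih2 =>
    intro ξ hξ
    obtain ⟨n, hn⟩ := MT.exists_fvlt (MT.emb ((Term.pi A B).rename ξ))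
    obtain ⟨p, hp, e⟩ := E.sat _ s₁ n (ty_rename h1 hξ)
    refine NJ.pi (s₁ := s₁) (s₂ := s₂) p (fun x hx => lt_of_lt_of_le (hn x hx) hp)
      (by rw [MT.er_emb]; exact e) (ih1 ξ hξ) ?_ ?_
    · rw [emb_open]; exact ih2 _ (ts_scons hξ e)
    · rw [MT.er_emb, MT.er_emb]; exact ty_rename (Ty.pi h1 h2 r) hξ
  | @lam G A M B s h1 h2 ih1 ih2 =>
    intro ξ hξ
    obtain ⟨n, hn⟩ := MT.exists_fvlt (MT.emb ((Term.lam A M).rename ξ))
    obtain ⟨m, hm⟩ := exists_fvlt ((Term.pi A B).rename ξ)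
    obtain ⟨s₁, s₂, hA, -, -⟩ := h2.gen_pi_sort
    obtain ⟨p, hp, e⟩ := E.sat _ s₁ (n + m) (ty_rename hA hξ)
    obtain ⟨s', hs'⟩ := NJ.pi_dom (ih2 ξ hξ)
    have := NJ.lam (E := E) (j := j) (A := MT.emb (A.rename ξ))
      (M := MT.emb (M.rename (upRen ξ))) (B := B.rename (upRen ξ)) (s₁ := s') (s := s) p
      (fun x hx => lt_of_lt_of_le (hn x hx) (by omega))
      (by rw [MT.er_emb]; exact hm.mono (by omega))
      (by rw [MT.er_emb]; exact e) hs'
      (by rw [emb_open, upRen_inst_var]; exact ih1 _ (ts_scons hξ e))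
      (by rw [MT.er_emb]; exact ty_rename h2 hξ)
      (by rw [MT.er_emb, MT.er_emb]; exact ty_rename (Ty.lam h1 h2) hξ)
    rw [MT.er_emb] at this
    exact this
  | @app G M N A B h1 h2 ih1 ih2 =>
    intro ξ hξ
    have := NJ.app' (ih1 ξ hξ) (ih2 ξ hξ) (Or.inr (hj _))
    rw [MT.er_emb] at this
    rw [inst_rename]
    exact this
  | conv _ _ c ih _ => intro ξ hξ; exact (ih ξ hξ).conv (c.rename ξ)

/-- Start: by induction on `Ty P G M A`, for every `ξ` with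
`TS P G E.Θ (fun x => var (ξ x))`, `NJ j (emb (M.rename ξ)) (A.rename ξ)`; binders are opened
with a parameter given by `E.sat`. -/
theorem nj_top (hj : ∀ I, E.idx I < j) (h : Ty P E.Θ M A) : E.NJ j (MT.emb M) A := by
  simpa using nj_top_aux hj h (fun n => n) (TS.id _)

/-- End. -/
theorem NJ.normal (h : E.NJ 0 t T) : MT.Normal t := by
  induction h with
  | var x => intro _ k; cases k
  | sort _ => intro _ k; cases k
  | pi p _ _ _ _ _ ih1 ih2 =>
    rw [MT.inst_var_eq_rename, MT.normal_rename] at ih2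
    intro _ k
    cases k with
    | piL _ k => exact ih1 _ k
    | piR _ k => exact ih2 _ k
  | lam p _ _ _ _ _ _ _ ih1 ih2 =>
    rw [MT.inst_var_eq_rename, MT.normal_rename] at ih2
    intro _ k
    cases k with
    | lamL _ k => exact ih1 _ k
    | lamR _ k => exact ih2 _ k
  | app _ _ _ hl ih1 ih2 =>
    obtain ⟨x, hx⟩ := hl.resolve_right (Nat.not_lt_zero _)
    intro _ k
    cases k with
    | beta => cases hx
    | perm => cases hx
    | appL _ k => exact ih1 _ k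
    | appR _ k => exact ih2 _ k
  | mem _ _ ih1 ih2 =>
    intro _ k
    cases k with
    | memL _ k => exact ih1 _ k
    | memR _ k => exact ih2 _ k
  | conv _ _ ih => exact ih

end Amb
end Vale.Agent.P340
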