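import Mathlib.Tactic.Common
import Mathlib.Data.Set.Basic
import Mathlib.Order.WellFounded

/-! A universe of values stratified along a well-founded relation on tags: a value of tag `a` is a
table on the paths whose values have tags below `a`.

Construction: `F a` is defined by well-founded recursion as the type
`List (X × Σ b : {b // r b a}, F b) → Set Y`; `V = Σ a, F a`; with the injection
`ι a : (Σ b : {b // r b a}, F b) → V` put `abs a f = ⟨a, fun q => f (q.map (Prod.map id (ι a)))⟩`
and `obs ⟨a, g⟩ p = {y | ∃ q, q.map (Prod.map id (ι a)) = p ∧ y ∈ g q}` (up to casts along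
`WellFounded.fix_eq`). -/

namespace Vale.Agent.P340

universe u

structure ValSys {W : Type u} (r : W → W → Prop) (X Y : Type u) where
  V : Type u
  tag : V → W
  obs : V → List (X × V) → Set Y
  abs : W → (List (X × V) → Set Y) → V
  tag_abs : ∀ a f, tag (abs a f) = a
  obs_abs : ∀ a f p, (∀ z ∈ p, r (tag z.2) a) → obs (abs a f) p = f p
  abs_ext : ∀ a f g, (∀ p, (∀ z ∈ p, r (tag z.2) a) → f p = g p) → abs a f = abs a g

theorem exists_valSys {W : Type u} (r : W → W → Prop) (wf : WellFounded r) (X Y : Type u) :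
    Nonempty (ValSys r X Y) := by
  obtain ⟨F, hF⟩ : ∃ F : W → Type u,
      ∀ a, F a = (List (X × Σ b : {b // r b a}, F b.1) → Set Y) :=
    ⟨wf.fix (C := fun _ => Type u)
      (fun a G => List (X × Σ b : {b // r b a}, G b.1 b.2) → Set Y), fun a => wf.fix_eq _ a⟩
  let ι : ∀ a, (X × Σ b : {b // r b a}, F b.1) → X × (Σ a, F a) :=
    fun a z => (z.1, ⟨z.2.1.1, z.2.2⟩)
  have hsurj : ∀ a (p : List (X × Σ a, F a)), (∀ z ∈ p, r z.2.1 a) →
      ∃ q : List (X × Σ b : {b // r b a}, F b.1), q.map (ι a) = p := by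
    intro a p
    induction p with
    | nil => exact fun _ => ⟨[], rfl⟩
    | cons z p ih =>
      intro h
      obtain ⟨q, hq⟩ := ih fun w hw => h w (List.mem_cons_of_mem _ hw)
      exact ⟨(z.1, ⟨⟨z.2.1, h z List.mem_cons_self⟩, z.2.2⟩) :: q, by
        rw [List.map_cons, hq]⟩
  refine ⟨⟨Σ a, F a, Sigma.fst,
    fun v p => {y | ∃ q, List.map (ι v.1) q = p ∧ y ∈ cast (hF v.1) v.2 q},
    fun a f => ⟨a, cast (hF a).symm fun q => f (q.map (ι a))⟩, fun _ _ => rfl, ?_, ?_⟩⟩
  · intro a f p hp
    ext y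
    simp only [Set.mem_ofPred_eq, cast_cast, cast_eq]
    constructor
    · rintro ⟨q, rfl, hy⟩
      exact hy
    · intro hy
      obtain ⟨q, rfl⟩ := hsurj a p hp
      exact ⟨q, rfl, hy⟩
  · intro a f g h
    have e : (fun q : List (X × Σ b : {b // r b a}, F b.1) => f (q.map (ι a))) =
        fun q => g (q.map (ι a)) := by
      funext q
      apply h
      intro z hz
      obtain ⟨w, -, rfl⟩ := List.mem_map.1 hz
      exact w.2.1.2
    rw [e]

end Vale.Agent.P340
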