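import Vale.Agent.P340.BGraph
import Vale.Agent.P340.Val
import Vale.Agent.P340.NJ

/-! Case B: values, valid paths, canonical values and the interpretation `O` of raw terms. -/

namespace Vale.Agent.P340

universe u
variable {S : Type u} {P : Spec S} [Finite S]

inductive Tag (S : Type u) : Type u
  | null
  | r (T : Term S)
  | ev (n : ℕ)
  | od (n : ℕ)
  | top

namespace Amb

def tlt (E : Amb P) (j : ℕ) : Tag S → Tag S → Prop
  | .null, .null => False
  | .null, _ => True
  | .r _, .null => False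
  | .r A, .r D => E.Prec j A D
  | .r _, _ => True
  | .ev m, .od n => m ≤ n
  | .od m, .ev n => m < n
  | .ev _, .top => True
  | .od _, .top => True
  | _, _ => False

theorem wf_tlt {E : Amb P} {j : ℕ} (h : WellFounded (E.Prec j)) : WellFounded (E.tlt j) := by
  have a0 : Acc (E.tlt j) .null := ⟨_, fun y hy => by cases y <;> exact hy.elim⟩
  have a1 : ∀ A, Acc (E.tlt j) (.r A) := by
    intro A
    induction A using h.induction with
    | _ A ih =>
      refine ⟨_, fun y hy => ?_⟩
      cases y with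
      | null => exact a0
      | r B => exact ih B hy
      | ev n => exact hy.elim
      | od n => exact hy.elim
      | top => exact hy.elim
  have a2 : ∀ n, Acc (E.tlt j) (.ev n) ∧ Acc (E.tlt j) (.od n) := by
    intro n
    induction n using Nat.strong_induction_on with
    | _ n ih =>
      have e : Acc (E.tlt j) (.ev n) := by
        refine ⟨_, fun y hy => ?_⟩
        cases y with
        | null => exact a0
        | r B => exact a1 B
        | ev m => exact hy.elim
        | od m => exact (ih m hy).2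
        | top => exact hy.elim
      refine ⟨e, ⟨_, fun y hy => ?_⟩⟩
      cases y with
      | null => exact a0
      | r B => exact a1 B
      | ev m =>
        rcases Nat.lt_or_eq_of_le hy with k | rfl
        · exact (ih m k).1
        · exact e
      | od m => exact hy.elim
      | top => exact hy.elim
  refine ⟨fun x => ?_⟩
  cases x with
  | null => exact a0
  | r B => exact a1 B
  | ev m => exact (a2 m).1
  | od m => exact (a2 m).2
  | top =>
    refine ⟨_, fun y hy => ?_⟩
    cases y with
    | null => exact a0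
    | r B => exact a1 B
    | ev m => exact (a2 m).1
    | od m => exact (a2 m).2
    | top => exact hy.elim

abbrev BV (E : Amb P) (j : ℕ) := ValSys (E.tlt j) (Term S) (MT S)

/-- only the sign plus -/
def Plus (E : Amb P) (j : ℕ) (J : Set S) : Prop := E.Q j true J ∧ ¬ E.Q j false J
/-- only the sign minus -/
def Minus (E : Amb P) (j : ℕ) (J : Set S) : Prop := ¬ E.Q j true J ∧ E.Q j false J

/-- the tag of the values passed as arguments of type `A` -/
def TagOK (E : Amb P) (j : ℕ) (A : Term S) (τ : Tag S) : Prop :=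
  (¬ E.Qs j (prof P E.Θ A) → τ = .null) ∧ (E.R2 j (prof P E.Θ A) → τ = .r (nf A)) ∧
  (E.Plus j (prof P E.Θ A) → τ = .top) ∧ (E.Minus j (prof P E.Θ A) → ∃ n, τ = .od n)

/-- a domain of a product type of a term convertible with `m` -/
noncomputable def dom (E : Amb P) (m : Term S) : Term S :=
  @Classical.epsilon _ ⟨.var 0⟩ (fun A => ∃ B M', Conv m M' ∧ Ty P E.Θ M' (.pi A B))

theorem dom_conv (E : Amb P) {m m' : Term S} (c : Conv m m') : E.dom m = E.dom m' := by
  unfold dom
  congr 1
  funext A
  apply propext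
  constructor
  · rintro ⟨B, M', a, b⟩
    exact ⟨B, M', c.symm.trans a, b⟩
  · rintro ⟨B, M', a, b⟩
    exact ⟨B, M', c.trans a, b⟩

theorem dom_spec {E : Amb P} {m A B : Term S} (h : Ty P E.Θ m (.pi A B)) : Conv (E.dom m) A := by
  obtain ⟨B', M', a, b⟩ := @Classical.epsilon_spec _
    (fun A => ∃ B M', Conv m M' ∧ Ty P E.Θ M' (.pi A B)) ⟨A, B, m, Conv.rfl, h⟩
  exact (Ty.dom_unique E.valid (E.wn _ _ h) a h b).symm

open Classical in
noncomputable def clamp (E : Amb P) (j : ℕ) (T : Term S) (X : Set (MT S)) : Set (MT S) :=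
  if E.NN j (prof P E.Θ T) ∧ E.Cand j T X then X else E.WNc j T

end Amb

def apps {V : Type u} (a : Term S) (p : List (Term S × V)) : Term S :=
  p.foldl (fun a z => .app a z.1) a

@[simp] theorem apps_nil {V : Type u} (a : Term S) : apps a ([] : List (Term S × V)) = a := rfl
@[simp] theorem apps_cons {V : Type u} (a : Term S) (z : Term S × V) (p : List (Term S × V)) :
    apps a (z :: p) = apps (.app a z.1) p := rfl

theorem apps_conv {V : Type u} {a a' : Term S} (c : Conv a a') (p : List (Term S × V)) :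
    Conv (apps a p) (apps a' p) := by
  induction p generalizing a a' with
  | nil => exact c
  | cons z p ih => exact ih (c.app Conv.rfl)

namespace Amb.BV
variable {E : Amb P} {j : ℕ} (W : E.BV j)

abbrev Path := List (Term S × W.V)

def null : W.V := W.abs .null (fun _ => ∅)

/-- valid paths of a kind -/
def VP : Term S → W.Path → Prop
  | D, [] => ∃ s₀, E.NN j {s₀} ∧ Conv D (.sort s₀)
  | D, z :: p => ∃ A B, Conv D (.pi A B) ∧ Ty P E.Θ z.1 A ∧ E.TagOK j A (W.tag z.2) ∧
      VP (B.inst z.1) p

open Classical in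
noncomputable def trunc (n : ℕ) (d : W.V) : W.V :=
  if W.tag d = .top then W.abs (.ev n) (W.obs d) else d

noncomputable def truncP (n : ℕ) (p : W.Path) : W.Path := p.map (fun z => (z.1, W.trunc n z.2))

noncomputable def obsV (d : W.V) (p : W.Path) : Set (MT S) :=
  match W.tag d with
  | .null => ∅
  | .od n => W.obs d (W.truncP n p)
  | _ => W.obs d p

/-- `f` only depends on the truncation at level `n` of the valid paths of `A` -/
def Bdd (A : Term S) (f : W.Path → Set (MT S)) (n : ℕ) : Prop :=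
  ∀ p p', W.VP A p → W.VP A p' → W.truncP n p = W.truncP n p' → f p = f p'

open Classical in
noncomputable def lev (A : Term S) (f : W.Path → Set (MT S)) : ℕ :=
  if h : ∃ n, W.Bdd A f n then Nat.find h else 0

def mask (A : Term S) (f : W.Path → Set (MT S)) (p : W.Path) : Set (MT S) :=
  {y | W.VP A p ∧ y ∈ f p}

open Classical in
/-- the value of type `A` that represents `f` -/
noncomputable def canon (A : Term S) (f : W.Path → Set (MT S)) : W.V :=
  if E.R2 j (prof P E.Θ A) then W.abs (.r (nf A)) (W.mask A f)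
  else if E.Q j true (prof P E.Θ A) then W.abs .top (W.mask A f)
  else if E.Q j false (prof P E.Θ A) then
    W.abs (.od (W.lev A f)) (fun q => {y | ∃ p, W.VP A p ∧ W.truncP (W.lev A f) p = q ∧ y ∈ f p})
  else W.null

open Classical in
/-- the interpretation of a raw term, observed along a path -/
noncomputable def O : Term S → (ℕ → Term S) → (ℕ → W.V) → W.Path → Set (MT S)
  | .var x, σ, v, p => E.clamp j (apps (σ x) p) (W.obsV (v x) p)
  | .sort s, _, _, p => E.WNc j (apps (.sort s) p)
  | .app M N, σ, v, p =>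
      O M σ v ((nf (N.subst σ), W.canon (E.dom (M.subst σ)) (O N σ v)) :: p)
  | .lam A M, σ, _, [] => E.WNc j ((Term.lam A M).subst σ)
  | .lam _ M, σ, v, z :: p => O M (scons z.1 σ) (scons z.2 v) p
  | .pi A B, σ, v, [] =>
      if E.NN j (prof P E.Θ ((Term.pi A B).subst σ)) then
        E.Arr j ((Term.pi A B).subst σ) (fun u Y => u ∈ O A σ v [] ∧
          ∃ d, E.TagOK j (A.subst σ) (W.tag d) ∧ Y = O B (scons u.er σ) (scons d v) [])
      else E.WNc j ((Term.pi A B).subst σ)
  | .pi A B, σ, _, z :: p => E.WNc j (apps ((Term.pi A B).subst σ) (z :: p))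

/-- `d` and `d'` agree on the paths of level `< n` -/
def Close (n : ℕ) (d d' : W.V) : Prop :=
  ∀ q : W.Path, (∀ z ∈ q, E.tlt j (W.tag z.2) (.ev n)) → W.obsV d q = W.obsV d' q

/-- `d` only looks at truncations of level `≤ k` -/
def Lk (k : ℕ) (d : W.V) : Prop := W.tag d = .null ∨ ∃ m ≤ k, W.tag d = .od m

variable {W} {A A' B D D' M T T' : Term S} {p q : W.Path} {f g : W.Path → Set (MT S)}
  {σ σ' : ℕ → Term S} {v v' : ℕ → W.V} {X : Set (MT S)}

theorem _root_.Vale.Agent.P340.Amb.TagOK.conv {τ : Tag S} (h : E.TagOK j A τ) (c : Conv A A') :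
    E.TagOK j A' τ := by
  unfold TagOK at h ⊢
  rw [← c.prof_eq, ← c.nf_eq]
  exact h

theorem _root_.Vale.Agent.P340.Amb.clamp_conv (c : Conv T T') (X : Set (MT S)) :
    E.clamp j T X = E.clamp j T' X := by
  have e : E.Cand j T X ↔ E.Cand j T' X := ⟨fun h => h.conv c, fun h => h.conv c.symm⟩
  unfold clamp
  rw [c.prof_eq, e, wnc_conv c]

theorem _root_.Vale.Agent.P340.Amb.clamp_self (h : E.Cand j T X)
    (ho : ¬ E.NN j (prof P E.Θ T) → X = E.WNc j T) : E.clamp j T X = X := by
  unfold clamp
  split_ifs with k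
  · rfl
  · exact (ho (fun k' => k ⟨k', h⟩)).symm

@[simp] theorem tag_null : W.tag W.null = .null := W.tag_abs _ _

theorem obsV_null {d : W.V} (h : W.tag d = .null) (p : W.Path) : W.obsV d p = ∅ := by
  unfold obsV
  rw [h]

theorem obsV_r {d : W.V} (h : W.tag d = .r T) (p : W.Path) : W.obsV d p = W.obs d p := by
  unfold obsV
  rw [h]

theorem obsV_top {d : W.V} (h : W.tag d = .top) (p : W.Path) : W.obsV d p = W.obs d p := by
  unfold obsV
  rw [h]

theorem obsV_od {d : W.V} {n : ℕ} (h : W.tag d = .od n) (p : W.Path) :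
    W.obsV d p = W.obs d (W.truncP n p) := by
  unfold obsV
  rw [h]

theorem _root_.Vale.Agent.P340.Amb.tlt_ev_top {τ : Tag S} {n : ℕ} (h : E.tlt j τ (.ev n)) :
    E.tlt j τ .top := by
  cases τ with
  | null => trivial
  | r T => trivial
  | ev m => trivial
  | od m => trivial
  | top => exact h.elim

theorem _root_.Vale.Agent.P340.Amb.tlt_ev_mono {τ : Tag S} {m n : ℕ} (h : E.tlt j τ (.ev m))
    (hm : m ≤ n) : E.tlt j τ (.ev n) := by
  cases τ with
  | null => trivial
  | r T => trivial
  | ev k => exact h.elim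
  | od k => exact lt_of_lt_of_le (show k < m from h) hm
  | top => exact h.elim

theorem _root_.Vale.Agent.P340.Amb.clamp_cand (T : Term S) (X : Set (MT S)) :
    E.Cand j T (E.clamp j T X) := by
  unfold clamp
  split_ifs with k
  · exact k.2
  · exact cand_wnc E j T

theorem conv_app_nf {V : Type u} (M N : Term S) (σ : ℕ → Term S) (p : List (Term S × V)) :
    Conv (apps ((Term.app M N).subst σ) p) (apps (.app (M.subst σ) (nf (N.subst σ))) p) :=
  apps_conv (Conv.app Conv.rfl (conv_nf _)) p

theorem conv_lam_cons {V : Type u} (A M : Term S) (σ : ℕ → Term S) (z : Term S × V)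
    (p : List (Term S × V)) :
    Conv (apps ((Term.lam A M).subst σ) (z :: p)) (apps (M.subst (scons z.1 σ)) p) := by
  rw [apps_cons, ← upSub_inst]
  exact apps_conv (Conv.beta _ _ _) p

theorem VP.conv (h : W.VP D p) (c : Conv D D') : W.VP D' p := by
  cases p with
  | nil =>
    obtain ⟨s₀, a, b⟩ := h
    exact ⟨s₀, a, c.symm.trans b⟩
  | cons z p =>
    obtain ⟨A, B, a, b⟩ := h
    exact ⟨A, B, c.symm.trans a, b⟩

theorem VP.rr (h : W.VP D p) (hne : (prof P E.Θ D).Nonempty) : E.Rr j (prof P E.Θ D) := by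
  induction p generalizing D with
  | nil =>
    obtain ⟨s₀, a, b⟩ := h
    refine ⟨_, .refl, node_prof hne, s₀, a, fun s hs => ?_⟩
    rw [b.prof_eq, prof_sort E.valid] at hs
    exact hs
  | cons z p ih =>
    obtain ⟨A, B, a, b, -, d⟩ := h
    have r := pr_pi_inst E.valid b B
    rw [← a.prof_eq] at r
    obtain ⟨n1, n2⟩ := pr_nonempty r hne
    exact (ih d n2).of_pr (node_prof hne) (node_prof n1) r

/-- arguments of a valid path of a type with both signs -/
theorem VP.tags_r2 (h : W.VP D p) (hD : E.R2 j (prof P E.Θ D)) :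
    ∀ z ∈ p, E.tlt j (W.tag z.2) (.r (nf D)) := by
  have key : ∀ (p : W.Path) (D : Term S), W.VP D p → E.R2 j (prof P E.Θ D) → ∀ z ∈ p,
      W.tag z.2 = .null ∨ ∃ A', W.tag z.2 = .r (nf A') ∧ E.Below j A' D := by
    intro p
    induction p with
    | nil => intro D _ _ z hz; cases hz
    | cons z₀ p ih =>
      rintro D ⟨A, B, a, b, t, d⟩ hD z hz
      have r := pr_pi_inst E.valid b B
      rw [← a.prof_eq] at r
      obtain ⟨n1, n2⟩ := pr_nonempty r hD.1.rr.node.1
      have rK := d.rr n2
      rcases List.mem_cons.1 hz with rfl | hz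
      · by_cases q : E.Qs j (prof P E.Θ A)
        · exact Or.inr ⟨A, t.2.1 ⟨hD.2.left r q.rr rK, hD.1.left r q.rr rK⟩,
            .left a b rK q.rr Conv.rfl⟩
        · exact Or.inl (t.1 q)
      · rcases ih _ d ⟨hD.1.right (node_prof n1) r rK, hD.2.right (node_prof n1) r rK⟩ z hz with
          k | ⟨A', k1, k2⟩
        · exact Or.inl k
        · exact Or.inr ⟨A', k1, .right a b rK k2⟩
  intro z hz
  rcases key p D h hD z hz with k | ⟨A', k1, k2⟩
  · rw [k]; trivial
  · rw [k1]
    exact ⟨by rw [← (conv_nf D).prof_eq]; exact hD, k2.conv (conv_nf D) (conv_nf A')⟩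

theorem VP.tags_plus (h : W.VP D p) (hD : E.Q j true (prof P E.Θ D)) :
    ∀ z ∈ p, W.tag z.2 = .null ∨ (∃ T, W.tag z.2 = .r T) ∨ ∃ n, W.tag z.2 = .od n := by
  induction p generalizing D with
  | nil => intro z hz; cases hz
  | cons z₀ p ih =>
    obtain ⟨A, B, a, b, t, d⟩ := h
    intro z hz
    have r := pr_pi_inst E.valid b B
    rw [← a.prof_eq] at r
    obtain ⟨n1, n2⟩ := pr_nonempty r hD.rr.node.1
    have rK := d.rr n2
    rcases List.mem_cons.1 hz with rfl | hz
    · by_cases q : E.Qs j (prof P E.Θ A)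
      · have q1 : E.Q j false (prof P E.Θ A) := hD.left r q.rr rK
        by_cases q2 : E.Q j true (prof P E.Θ A)
        · exact Or.inr (Or.inl ⟨_, t.2.1 ⟨q2, q1⟩⟩)
        · exact Or.inr (Or.inr (t.2.2.2 ⟨q2, q1⟩))
      · exact Or.inl (t.1 q)
    · exact ih d (hD.right (node_prof n1) r rK) z hz

theorem VP.tags_minus (h : W.VP D p) (hD : E.Q j false (prof P E.Θ D)) :
    ∀ z ∈ p, W.tag z.2 = .null ∨ (∃ T, W.tag z.2 = .r T) ∨ W.tag z.2 = .top := by
  induction p generalizing D with
  | nil => intro z hz; cases hz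
  | cons z₀ p ih =>
    obtain ⟨A, B, a, b, t, d⟩ := h
    intro z hz
    have r := pr_pi_inst E.valid b B
    rw [← a.prof_eq] at r
    obtain ⟨n1, n2⟩ := pr_nonempty r hD.rr.node.1
    have rK := d.rr n2
    rcases List.mem_cons.1 hz with rfl | hz
    · by_cases q : E.Qs j (prof P E.Θ A)
      · have q1 : E.Q j true (prof P E.Θ A) := hD.left r q.rr rK
        by_cases q2 : E.Q j false (prof P E.Θ A)
        · exact Or.inr (Or.inl ⟨_, t.2.1 ⟨q1, q2⟩⟩)
        · exact Or.inr (Or.inr (t.2.2.1 ⟨q1, q2⟩))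
      · exact Or.inl (t.1 q)
    · exact ih d (hD.right (node_prof n1) r rK) z hz

theorem canon_tagOK (W : E.BV j) (A : Term S) (f : W.Path → Set (MT S)) :
    E.TagOK j A (W.tag (W.canon A f)) := by
  unfold canon
  split_ifs with h1 h2 h3
  · rw [W.tag_abs]
    exact ⟨fun k => (k (Or.inl h1.1)).elim, fun _ => rfl, fun k => (k.2 h1.2).elim,
      fun k => (k.1 h1.1).elim⟩
  · rw [W.tag_abs]
    exact ⟨fun k => (k (Or.inl h2)).elim, fun k => (h1 k).elim, fun _ => rfl,
      fun k => (k.1 h2).elim⟩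
  · rw [W.tag_abs]
    exact ⟨fun k => (k (Or.inr h3)).elim, fun k => (h1 k).elim, fun k => (h2 k.1).elim,
      fun _ => ⟨_, rfl⟩⟩
  · rw [tag_null]
    exact ⟨fun _ => rfl, fun k => (h1 k).elim, fun k => (h2 k.1).elim, fun k => (h3 k.2).elim⟩

theorem canon_congr (c : Conv A A') (h : ∀ p, W.VP A p → f p = g p) :
    W.canon A f = W.canon A' g := by
  have e : ∀ p, W.VP A p ↔ W.VP A' p := fun p => ⟨fun k => k.conv c, fun k => k.conv c.symm⟩
  have e1 : W.mask A f = W.mask A' g := by
    funext p
    ext y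
    constructor
    · rintro ⟨a, b⟩
      exact ⟨(e p).1 a, h p a ▸ b⟩
    · rintro ⟨a, b⟩
      exact ⟨(e p).2 a, (h p ((e p).2 a)).symm ▸ b⟩
  have e2 : W.Bdd A f = W.Bdd A' g := by
    funext n
    apply propext
    constructor
    · intro k p p' a b d
      rw [← h p ((e p).2 a), ← h p' ((e p').2 b)]
      exact k p p' ((e p).2 a) ((e p').2 b) d
    · intro k p p' a b d
      rw [h p a, h p' b]
      exact k p p' ((e p).1 a) ((e p').1 b) d
  have e3 : W.lev A f = W.lev A' g := by
    unfold lev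
    rw [e2]
  have e4 : ∀ L, (fun q => {y | ∃ p, W.VP A p ∧ W.truncP L p = q ∧ y ∈ f p}) =
      fun q => {y | ∃ p, W.VP A' p ∧ W.truncP L p = q ∧ y ∈ g p} := by
    intro L
    funext q
    ext y
    constructor
    · rintro ⟨p, a, b, d⟩
      exact ⟨p, (e p).1 a, b, h p a ▸ d⟩
    · rintro ⟨p, a, b, d⟩
      exact ⟨p, (e p).2 a, b, (h p ((e p).2 a)).symm ▸ d⟩
  unfold canon
  rw [e1, e3, e4, c.prof_eq, c.nf_eq]

theorem obsV_canon (hA : E.Qs j (prof P E.Θ A))
    (hb : E.Minus j (prof P E.Θ A) → ∃ n, W.Bdd A f n) (hp : W.VP A p) :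
    W.obsV (W.canon A f) p = f p := by
  have em : W.mask A f p = f p := by
    ext y
    exact ⟨fun k => k.2, fun k => ⟨hp, k⟩⟩
  unfold canon
  split_ifs with h1 h2 h3
  · rw [obsV_r (W.tag_abs _ _), W.obs_abs _ _ _ (hp.tags_r2 h1), em]
  · rw [obsV_top (W.tag_abs _ _), W.obs_abs, em]
    intro z hz
    rcases hp.tags_plus h2 z hz with k | ⟨T, k⟩ | ⟨n, k⟩ <;> rw [k] <;> trivial
  · have hex := hb ⟨h2, h3⟩
    have hL : W.Bdd A f (W.lev A f) := by
      unfold lev
      rw [dif_pos hex]
      classical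
      exact Nat.find_spec hex
    rw [obsV_od (W.tag_abs _ _), W.obs_abs]
    · ext y
      constructor
      · rintro ⟨p', a, b, d⟩
        exact hL p' p a hp b ▸ d
      · intro d
        exact ⟨p, hp, rfl, d⟩
    · intro z hz
      obtain ⟨z', hz', rfl⟩ := List.mem_map.1 hz
      show E.tlt j (W.tag (W.trunc _ z'.2)) _
      unfold trunc
      rcases hp.tags_minus h3 z' hz' with k | ⟨T, k⟩ | k
      · rw [if_neg (by rw [k]; intro e; cases e), k]; trivial
      · rw [if_neg (by rw [k]; intro e; cases e), k]; trivial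
      · rw [if_pos k, W.tag_abs]
        exact le_refl (W.lev A f)
  · exact (hA.elim h2 h3).elim

theorem lk_canon {n : ℕ} (hA : E.Minus j (prof P E.Θ A)) (hb : W.Bdd A f n) :
    W.Lk n (W.canon A f) := by
  unfold canon
  rw [if_neg (fun k => hA.1 k.1), if_neg hA.1, if_pos hA.2]
  refine Or.inr ⟨_, ?_, W.tag_abs _ _⟩
  unfold lev
  rw [dif_pos ⟨n, hb⟩]
  classical
  exact Nat.find_min' _ hb

theorem close_canon {n : ℕ} (hA : E.Plus j (prof P E.Θ A))
    (h : ∀ q, W.VP A q → (∀ z ∈ q, E.tlt j (W.tag z.2) (.ev n)) → f q = g q) :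
    W.Close n (W.canon A f) (W.canon A g) := by
  intro q hq
  have ht : ∀ z ∈ q, E.tlt j (W.tag z.2) .top := fun z hz => tlt_ev_top (hq z hz)
  unfold canon
  rw [if_neg (fun k => hA.2 k.2), if_pos hA.1, if_neg (fun k => hA.2 k.2), if_pos hA.1,
    obsV_top (W.tag_abs _ _), obsV_top (W.tag_abs _ _), W.obs_abs _ _ _ ht, W.obs_abs _ _ _ ht]
  ext y
  constructor
  · rintro ⟨a, b⟩
    exact ⟨a, h q a hq ▸ b⟩
  · rintro ⟨a, b⟩
    exact ⟨a, (h q a hq).symm ▸ b⟩

theorem Close.mono {m n : ℕ} {d d' : W.V} (h : W.Close n d d') (hm : m ≤ n) : W.Close m d d' := by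
  intro q hq
  exact h q (fun z hz => tlt_ev_mono (hq z hz) hm)

theorem close_iff_trunc {n : ℕ} {d d' : W.V} (hd : W.tag d = .top) (hd' : W.tag d' = .top) :
    W.Close n d d' ↔ W.trunc n d = W.trunc n d' := by
  unfold trunc Close
  rw [if_pos hd, if_pos hd']
  simp only [obsV_top hd, obsV_top hd']
  constructor
  · intro h
    exact W.abs_ext _ _ _ h
  · intro h q hq
    rw [← W.obs_abs (.ev n) (W.obs d) q hq, h, W.obs_abs _ _ _ hq]

theorem O_cand (W : E.BV j) (M : Term S) (σ : ℕ → Term S) (v : ℕ → W.V) (p : W.Path) :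
    E.Cand j (apps (M.subst σ) p) (W.O M σ v p) := by
  induction M generalizing σ v p with
  | var x => exact clamp_cand _ _
  | sort s => exact cand_wnc E j _
  | app M N ih _ => exact (ih σ v _).conv (conv_app_nf M N σ p).symm
  | lam A M _ ih =>
    cases p with
    | nil => exact cand_wnc E j _
    | cons z p => exact (ih _ _ p).conv (conv_lam_cons A M σ z p).symm
  | pi A B ih1 ih2 =>
    cases p with
    | nil =>
      rw [O]
      split_ifs
      · refine cand_arr (A := A.subst σ) (B := B.subst (upSub σ)) Conv.rfl ?_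
        rintro u Y ⟨hu, d, -, rfl⟩
        refine ⟨(ih1 σ v []).sub hu, ?_⟩
        rw [upSub_inst]
        exact ih2 _ _ []
      · exact cand_wnc E j _
    | cons z p => exact cand_wnc E j _

theorem O_out (h : ¬ E.NN j (prof P E.Θ (apps (M.subst σ) p))) :
    W.O M σ v p = E.WNc j (apps (M.subst σ) p) := by
  induction M generalizing σ v p with
  | var x =>
    rw [O, clamp, if_neg (fun k => h k.1)]
    rfl
  | sort s => rfl
  | app M N ih _ =>
    have c := conv_app_nf M N σ p
    rw [O, wnc_conv c]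
    exact ih (by rw [c.prof_eq] at h; exact h)
  | lam A M _ ih =>
    cases p with
    | nil => rfl
    | cons z p =>
      have c := conv_lam_cons A M σ z p
      rw [O, wnc_conv c]
      exact ih (by rw [c.prof_eq] at h; exact h)
  | pi A B =>
    cases p with
    | nil => rw [apps_nil] at h; rw [O, if_neg h]; rfl
    | cons z p => rfl

theorem O_rename (M : Term S) (ξ : ℕ → ℕ) (σ : ℕ → Term S) (v : ℕ → W.V) :
    W.O (M.rename ξ) σ v = W.O M (fun x => σ (ξ x)) (fun x => v (ξ x)) := by
  have su : ∀ {α : Type u} (a : α) (f : ℕ → α) (ξ : ℕ → ℕ),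
      (fun n => scons a f (upRen ξ n)) = scons a (fun n => f (ξ n)) := by
    intro α a f ξ
    funext n
    cases n <;> rfl
  induction M generalizing ξ σ v with
  | var x => rfl
  | sort s => rfl
  | app M N ih1 ih2 =>
    funext p
    rw [rename_app, O, O, ih1, ih2, subst_rename, subst_rename]
  | lam A M _ ih =>
    funext p
    cases p with
    | nil =>
      rw [rename_lam, O, O, ← rename_lam, subst_rename]
    | cons z p => rw [rename_lam, O, O, ih, su, su]
  | pi A B ih1 ih2 =>
    funext p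
    cases p with
    | nil =>
      rw [rename_pi, O, O, ← rename_pi, subst_rename, subst_rename]
      simp only [ih1, ih2, su]
    | cons z p => rw [rename_pi, O, O, ← rename_pi, subst_rename]

theorem O_congr (h : ∀ x, Free x M → Conv (σ x) (σ' x) ∧ v x = v' x) :
    W.O M σ v = W.O M σ' v' := by
  have up : ∀ {B : Term S} {σ σ' : ℕ → Term S} {v v' : ℕ → W.V},
      (∀ x, Free (x + 1) B → Conv (σ x) (σ' x) ∧ v x = v' x) → ∀ (a : Term S) (d : W.V) (x : ℕ),
      Free x B → Conv (scons a σ x) (scons a σ' x) ∧ scons d v x = scons d v' x := by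
    intro B σ σ' v v' h a d x hx
    cases x with
    | zero => exact ⟨Conv.rfl, rfl⟩
    | succ x => exact h x hx
  induction M generalizing σ σ' v v' with
  | var x =>
    funext p
    obtain ⟨a, b⟩ := h x rfl
    rw [O, O, b, clamp_conv (apps_conv a p)]
  | sort s => rfl
  | app M N ih1 ih2 =>
    funext p
    have c1 : Conv (M.subst σ) (M.subst σ') := Conv.subst_args (fun x hx => (h x (Or.inl hx)).1)
    have c2 : Conv (N.subst σ) (N.subst σ') := Conv.subst_args (fun x hx => (h x (Or.inr hx)).1)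
    rw [O, O, ih1 (fun x hx => h x (Or.inl hx)), ih2 (fun x hx => h x (Or.inr hx)),
      c2.nf_eq, E.dom_conv c1]
  | lam A M _ ih =>
    funext p
    cases p with
    | nil =>
      rw [O, O]
      exact wnc_conv (Conv.subst_args (fun x hx => (h x hx).1))
    | cons z p => rw [O, O, ih (up (fun x hx => h x (Or.inr hx)) z.1 z.2)]
  | pi A B ih1 ih2 =>
    funext p
    have c : Conv ((Term.pi A B).subst σ) ((Term.pi A B).subst σ') :=
      Conv.subst_args (fun x hx => (h x hx).1)
    cases p with
    | nil =>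
      have cA : Conv (A.subst σ) (A.subst σ') :=
        Conv.subst_args (fun x hx => (h x (Or.inl hx)).1)
      have e1 : W.O A σ v = W.O A σ' v' := ih1 (fun x hx => h x (Or.inl hx))
      have e2 : ∀ (a : Term S) (d : W.V),
          W.O B (scons a σ) (scons d v) = W.O B (scons a σ') (scons d v') :=
        fun a d => ih2 (up (fun x hx => h x (Or.inr hx)) a d)
      have e3 : ∀ τ, E.TagOK j (A.subst σ) τ ↔ E.TagOK j (A.subst σ') τ :=
        fun τ => ⟨fun k => k.conv cA, fun k => k.conv cA.symm⟩
      rw [O, O, c.prof_eq]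
      simp only [e1, e2, e3, Arr, wnc_conv c]
    | cons z p =>
      rw [O, O]
      exact wnc_conv (apps_conv c _)

theorem O_head_null {x : ℕ} (h : HeadVar x M) (hx : W.tag (v x) = .null) (p : W.Path) :
    W.O M σ v p = E.clamp j (apps (M.subst σ) p) ∅ := by
  induction h generalizing p with
  | var => rw [O, obsV_null hx]; rfl
  | @app M N _ ih => rw [O, ih, clamp_conv (conv_app_nf M N σ p)]; rfl

end Amb.BV
end Vale.Agent.P340
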