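import Vale.Agent.P340.Graph

/-! The graph of kinds above the component `NN j`, signs, the forbidden configuration, and the
well-founded order on the types with both signs. -/

namespace Vale.Agent.P340

universe u
variable {S : Type u} {P : Spec S} [Finite S]

namespace Amb
variable (E : Amb P) (j : ℕ)

/-- profiles of sorts whose inhabitants can be types of level `j` -/
def Base (J : Set S) : Prop := E.Node J ∧ ∃ s₀, E.NN j {s₀} ∧ ∀ s ∈ J, P.ax s₀ s

/-- profiles of types that can become kinds `Π x⃗. s₀` -/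
def Rr (J : Set S) : Prop := ∃ J', Relation.ReflTransGen (E.Edge true) J J' ∧ E.Base j J'

def HE : Bool → Set S → Set S → Prop
  | true, I, K => E.Edge true I K ∧ E.Rr j K
  | false, I, J => E.Node I ∧ E.Node J ∧ E.Rr j J ∧ ∃ K, E.Node K ∧ E.Rr j K ∧ PR P J K I

/-- kinds over which one quantifies at level `j` -/
def Entry (J : Set S) : Prop := E.Rr j J ∧ ∃ K I, E.NN j K ∧ E.NN j I ∧ PR P J K I

/-- `J` has the sign `b` -/
def Q (b : Bool) (J : Set S) : Prop := ∃ J₀, E.Entry j J₀ ∧ SP (E.HE j) b J₀ J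

def Qs (J : Set S) : Prop := E.Q j true J ∨ E.Q j false J
def R2 (J : Set S) : Prop := E.Q j true J ∧ E.Q j false J

/-- the forbidden configuration: polymorphism over a cycle of kinds with both signs -/
def Forb : Prop := ∃ (t : S) (Vp Kp Ip I J J' : Set S), E.R2 j {t} ∧
  Reach (E.HE j) {t} Ip ∧ Reach (E.HE j) Kp {t} ∧ Reach (E.HE j) {t} I ∧ E.HE j false I J ∧
  Reach (E.HE j) J {t} ∧ E.Node Vp ∧ E.Node Kp ∧ E.Node Ip ∧ PR P Vp Kp Ip ∧
  Relation.ReflTransGen (E.Edge true) Vp J' ∧ E.Node J' ∧ ∀ s ∈ J', P.ax t s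

/-- `Below A' D`: `A'` is a domain met after some steps into codomains of `D` -/
inductive Below : Term S → Term S → Prop
  | left {D A B a A'} : Conv D (.pi A B) → Ty P E.Θ a A → E.Rr j (prof P E.Θ (B.inst a)) →
      E.Rr j (prof P E.Θ A) → Conv A' A → Below A' D
  | right {D A B a A'} : Conv D (.pi A B) → Ty P E.Θ a A → E.Rr j (prof P E.Θ (B.inst a)) →
      Below A' (B.inst a) → Below A' D

def Prec (A' D : Term S) : Prop := E.R2 j (prof P E.Θ D) ∧ E.Below j A' D

variable {E j} {I J K : Set S} {b : Bool}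

theorem Rr.node (h : E.Rr j J) : E.Node J := by
  obtain ⟨J', p, b⟩ := h
  rcases p.cases_head with rfl | ⟨c, e, -⟩
  · exact b.1
  · exact e.src

theorem Rr.back (h : E.Rr j K) (e : E.Edge true I K) : E.Rr j I := by
  obtain ⟨J', p, b⟩ := h
  exact ⟨J', p.head e, b⟩

theorem Rr.of_subset (h : E.Rr j K) (hI : E.Node I) (s : I ⊆ K) : E.Rr j I := by
  exact h.back ⟨hI, h.node, Or.inl s⟩

theorem Rr.of_pr (h : E.Rr j K) (hI : E.Node I) (hJ : E.Node J) (r : PR P J K I) : E.Rr j I := by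
  exact h.back ⟨hI, h.node, Or.inr ⟨J, hJ, r⟩⟩

theorem HE.edge (h : E.HE j b I J) : E.Edge b I J := by
  cases b
  · obtain ⟨hI, hJ, -, K, hK, -, r⟩ := h
    exact ⟨hI, hJ, K, hK, r⟩
  · exact h.1

theorem HE.rr (h : E.HE j b I J) : E.Rr j I ∧ E.Rr j J := by
  cases b
  · obtain ⟨hI, hJ, rJ, K, -, rK, r⟩ := h
    exact ⟨rK.of_pr hI hJ r, rJ⟩
  · exact ⟨h.2.back h.1, h.2⟩

theorem Q.rr (h : E.Q j b J) : E.Rr j J := by
  obtain ⟨J₀, e, p⟩ := h
  have h0 := e.1
  clear e
  induction p with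
  | refl a => exact h0
  | step h1 _ ih => exact ih h1.rr.2

theorem Qs.rr (h : E.Qs j J) : E.Rr j J := by
  rcases h with h | h <;> exact h.rr

theorem Entry.q (h : E.Entry j J) : E.Q j true J := by
  exact ⟨J, h, .refl J⟩

theorem Q.path {b' : Bool} (h : E.Q j b I) (p : SP (E.HE j) b' I J) : E.Q j (b == b') J := by
  obtain ⟨J₀, e, q⟩ := h
  exact ⟨J₀, e, q.trans p⟩

theorem R2.reach (h : E.R2 j I) (p : Reach (E.HE j) I J) : E.R2 j J := by
  obtain ⟨b, p⟩ := p
  cases b
  · exact ⟨h.2.path p, h.1.path p⟩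
  · exact ⟨h.1.path p, h.2.path p⟩

theorem Q.of_subset (h : E.Q j b I) (s : I ⊆ J) (hJ : E.Rr j J) : E.Q j b J := by
  have e : E.HE j true I J := ⟨⟨h.rr.node, hJ.node, Or.inl s⟩, hJ⟩
  have k := h.path (SP.single e)
  cases b <;> exact k

theorem Q.right (h : E.Q j b I) (hJ : E.Node J) (r : PR P J K I) (hK : E.Rr j K) :
    E.Q j b K := by
  have e : E.HE j true I K := ⟨⟨h.rr.node, hK.node, Or.inr ⟨J, hJ, r⟩⟩, hK⟩
  have k := h.path (SP.single e)
  cases b <;> exact k

theorem Q.left (h : E.Q j b I) (r : PR P J K I) (hJ : E.Rr j J) (hK : E.Rr j K) :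
    E.Q j (!b) J := by
  have e : E.HE j false I J := ⟨h.rr.node, hJ.node, hJ, K, hK.node, hK, r⟩
  have k := h.path (SP.single e)
  cases b <;> exact k

theorem Qs.of_subset (h : E.Qs j I) (s : I ⊆ J) (hJ : E.Rr j J) : E.Qs j J := by
  rcases h with h | h
  · exact Or.inl (h.of_subset s hJ)
  · exact Or.inr (h.of_subset s hJ)

theorem Qs.right (h : E.Qs j I) (hJ : E.Node J) (r : PR P J K I) (hK : E.Rr j K) :
    E.Qs j K := by
  rcases h with h | h
  · exact Or.inl (h.right hJ r hK)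
  · exact Or.inr (h.right hJ r hK)

theorem Qs.left (h : E.Qs j I) (r : PR P J K I) (hJ : E.Rr j J) (hK : E.Rr j K) :
    E.Qs j J := by
  rcases h with h | h
  · exact Or.inr (h.left r hJ hK)
  · exact Or.inl (h.left r hJ hK)

theorem Below.conv {A' A'' D D' : Term S} (h : E.Below j A' D) (c : Conv D D')
    (c' : Conv A' A'') : E.Below j A'' D' := by
  induction h generalizing D' with
  | left h1 h2 h3 h4 h5 => exact .left (c.symm.trans h1) h2 h3 h4 (c'.symm.trans h5)
  | right h1 h2 h3 _ ih => exact .right (c.symm.trans h1) h2 h3 (ih Conv.rfl c')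

end Amb
end Vale.Agent.P340
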