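import Vale.Agent.P340.BBound

/-! Substitution lemma and invariance under reduction for the interpretation of safe terms. -/

namespace Vale.Agent.P340

universe u
variable {S : Type u} {P : Spec S} [Finite S]

namespace Amb.BV
variable {E : Amb P} {j : ℕ} {W : E.BV j}
variable {G : ℕ → Term S} {Pr : ℕ → Prop} {M N A D : Term S} {o : Option (Term S)}

theorem safe_ty {s : S} (h : E.Safe j G Pr M (some D)) (hD : Ty P G D (.sort s)) : Ty P G M D := by
  obtain ⟨D₀, c, h⟩ := h.typed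
  exact h.conv hD c

theorem vp_sort {s : S} {p : W.Path} (h : W.VP D p) (c : Conv (.sort s) D) : p = [] := by
  cases p with
  | nil => rfl
  | cons z p =>
    obtain ⟨A, B, c', -⟩ := h
    exact (c.trans c').sort_pi.elim

theorem vp_cons {B : Term S} {s : S} {σ : ℕ → Term S} {z : Term S × W.V} {p : W.Path}
    (hA : Ty P G A (.sort s)) (hσ : TS P G E.Θ σ) (c : Conv (.pi A B) D)
    (h : W.VP (D.subst σ) (z :: p)) :
    Ty P E.Θ z.1 (A.subst σ) ∧ E.TagOK j (A.subst σ) (W.tag z.2) ∧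
      W.VP (B.subst (scons z.1 σ)) p := by
  obtain ⟨A', B', c', h1, h2, h3⟩ := h
  obtain ⟨e1, e2⟩ := Conv.pi_inj ((c.subst σ).trans c')
  refine ⟨h1.conv (hA.subst hσ) e1.symm, h2.conv e1.symm, ?_⟩
  rw [← upSub_inst]
  exact VP.conv h3 (e2.symm.inst Conv.rfl)

theorem vp_app {B : Term S} {σ : ℕ → Term S} {p : W.Path} (hM : Ty P G M (.pi A B))
    (hN : Ty P G N A) (hσ : TS P G E.Θ σ) (c : Conv (B.inst N) D) (h : W.VP (D.subst σ) p)
    (f : W.Path → Set (MT S)) :
    W.VP ((Term.pi A B).subst σ) ((nf (N.subst σ), W.canon (E.dom (M.subst σ)) f) :: p) := by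
  refine ⟨A.subst σ, B.subst (upSub σ), Conv.rfl, E.nf_ty (hN.subst hσ),
    (W.canon_tagOK _ f).conv (dom_spec (hM.subst hσ)), VP.conv h ?_⟩
  refine (c.subst σ).symm.trans ?_
  rw [inst_subst]
  exact Conv.inst Conv.rfl (conv_nf _)

theorem O_out_eq {M' : Term S} {σ σ' : ℕ → Term S} {v v' : ℕ → W.V}
    (c : Conv (M.subst σ) (M'.subst σ')) (h : ¬ E.NN j (prof P E.Θ (M'.subst σ'))) :
    W.O M σ v [] = W.O M' σ' v' [] := by
  rw [O_out (p := []) (M := M') h, O_out (p := []) (M := M) (by rwa [apps_nil, c.prof_eq])]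
  exact wnc_conv c

theorem O_pi_congr {A' B B' : Term S} {σ σ' : ℕ → Term S} {v v' : ℕ → W.V}
    (c : Conv ((Term.pi A B).subst σ) ((Term.pi A' B').subst σ'))
    (hA : W.O A σ v [] = W.O A' σ' v' [])
    (hB : ∀ a d, E.Tyc a (A.subst σ) → E.TagOK j (A.subst σ) (W.tag d) →
      W.O B (scons a σ) (scons d v) [] = W.O B' (scons a σ') (scons d v') []) :
    W.O (.pi A B) σ v [] = W.O (.pi A' B') σ' v' [] := by
  have cA : Conv (A.subst σ) (A'.subst σ') := (Conv.pi_inj c).1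
  simp only [O]
  rw [← c.prof_eq, ← wnc_conv c]
  split_ifs with hn
  · unfold Arr
    rw [← wnc_conv c, ← hA]
    ext t
    simp only [Set.mem_ofPred_eq]
    refine and_congr_right (fun _ => forall_congr' fun u => forall_congr' fun X => ?_)
    refine imp_congr_left (and_congr_right fun hu => exists_congr fun d => ?_)
    have hu' : E.Tyc u.er (A.subst σ) := ((W.O_cand A σ v []).sub hu).1
    constructor
    · rintro ⟨h1, h2⟩; exact ⟨h1.conv cA, h2.trans (hB _ _ hu' h1)⟩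
    · rintro ⟨h1, h2⟩
      exact ⟨h1.conv cA.symm, h2.trans (hB _ _ hu' (h1.conv cA.symm)).symm⟩
  · rfl

theorem up_hc {τ σ₁ σ' : ℕ → Term S} (hc : ∀ x, Conv (σ₁ x) ((τ x).subst σ')) (a : Term S) :
    ∀ x, Conv (scons a σ₁ x) ((upSub τ x).subst (scons a σ')) := by
  intro x
  cases x with
  | zero => exact Conv.rfl
  | succ x => rw [upSub_succ, shift_subst_scons]; exact hc x

theorem up_hPr {τ : ℕ → Term S} {v₁ v' : ℕ → W.V}
    (hPr : ∀ x, Pr x → W.tag (v₁ x) = .null ∧ ∃ y, HeadVar y (τ x) ∧ W.tag (v' y) = .null)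
    (d : W.V) : ∀ x, upPr Pr x → W.tag (scons d v₁ x) = .null ∧
      ∃ y, HeadVar y (upSub τ x) ∧ W.tag (scons d v' y) = .null := by
  intro x hx
  cases x with
  | zero => exact hx.elim
  | succ x =>
    obtain ⟨h1, y, h2, h3⟩ := hPr x hx
    exact ⟨h1, y + 1, h2.rename Nat.succ, h3⟩

theorem up_hv (hG : Valid P G) (hk : E.CtxOK j G Pr) {τ σ₁ σ' : ℕ → Term S} {v₁ v' : ℕ → W.V}
    (hσ : TS P G E.Θ σ₁)
    (hv : ∀ x, ¬ Pr x → E.Qs j (prof P G (G x)) → ∀ q, W.VP ((G x).subst σ₁) q →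
      W.O (τ x) σ' v' q = W.O (.var x) σ₁ v₁ q) (A a : Term S) (d : W.V) :
    ∀ x, ¬ upPr Pr x → E.Qs j (prof P (ccons A G) (ccons A G x)) →
      ∀ q, W.VP ((ccons A G x).subst (scons a σ₁)) q →
      W.O (upSub τ x) (scons a σ') (scons d v') q =
        W.O (.var x) (scons a σ₁) (scons d v₁) q := by
  intro x hx hq q hp
  cases x with
  | zero => rfl
  | succ x =>
    rw [ccons_succ] at hq hp
    rw [shift_subst_scons] at hp
    obtain ⟨s, hs⟩ := hG x
    have hr : E.Rr j (prof P G (G x)) :=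
      hq.rr.of_subset (node_prof_of hσ ⟨s, mem_prof hs⟩) (prof_weak _ _)
    rw [upSub_succ, Term.shift, O_rename]
    exact hv x hx (hk x hx hr) q hp

/-- Induction on `Safe`. Under binders use `upSub τ`, `O_rename`. In the `app` case use
`dom_conv`, `dom_spec`, `canon_congr`, `canon_tagOK`, `Amb.nf_ty`. Under a binder, a signed
profile of `(G x).shift` is in `Rr`, so is the smaller `prof P G (G x)`, signed by `CtxOK`; in the
`pi` case with `Ign` use `O_out` for the codomain. -/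
theorem O_subst (h : E.Safe j G Pr M o) (hG : Valid P G) (hk : E.CtxOK j G Pr) {τ σ₁ σ' : ℕ → Term S}
    {v₁ v' : ℕ → W.V} (hσ : TS P G E.Θ σ₁) (hc : ∀ x, Conv (σ₁ x) ((τ x).subst σ'))
    (hPr : ∀ x, Pr x → W.tag (v₁ x) = .null ∧ ∃ y, HeadVar y (τ x) ∧ W.tag (v' y) = .null)
    (hv : ∀ x, ¬ Pr x → E.Qs j (prof P G (G x)) → ∀ q, W.VP ((G x).subst σ₁) q →
      W.O (τ x) σ' v' q = W.O (.var x) σ₁ v₁ q)
    {p : W.Path} (hp : W.Obs o σ₁ p) : W.O (M.subst τ) σ' v' p = W.O M σ₁ v₁ p := by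
  have cv : ∀ {τ σ₁ σ' : ℕ → Term S}, (∀ x, Conv (σ₁ x) ((τ x).subst σ')) →
      ∀ T : Term S, Conv ((T.subst τ).subst σ') (T.subst σ₁) := by
    intro τ σ₁ σ' hc T
    rw [subst_subst]
    exact Conv.subst_args (fun x _ => (hc x).symm)
  induction h generalizing τ σ₁ σ' v₁ v' p with
  | irr _ _ hn => exact (hn σ₁ hσ (VP.kindAt hp)).elim
  | neu hx hP _ _ =>
    obtain ⟨h1, y, h2, h3⟩ := hPr _ hP
    rw [O_head_null hx h1, O_head_null (hx.subst h2) h3]
    exact clamp_conv (apps_conv (cv hc _) p) _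
  | @var G Pr x D hq c =>
    by_cases hP : Pr x
    · obtain ⟨h1, y, h2, h3⟩ := hPr _ hP
      rw [O_head_null (HeadVar.var (x := x)) h1, O_head_null (HeadVar.var.subst h2) h3]
      exact clamp_conv (apps_conv (cv hc _) p) _
    · exact hv x hP hq p (VP.conv hp (c.subst σ₁).symm)
  | @lam G Pr A M B D s c hT _ hq _ ih =>
    cases p with
    | nil => exact wnc_conv (cv hc (.lam A M))
    | cons z p =>
      obtain ⟨s₁, s₂, hA, -, -⟩ := hT.gen_pi_sort
      obtain ⟨ha, -, hp'⟩ := vp_cons hA hσ c hp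
      exact ih (hG.ccons hA) (hk.ccons ⟨hG, σ₁, hσ⟩ hA hq) (hσ.scons ha) (up_hc hc _)
        (up_hPr hPr _) (up_hv hG hk hσ hv _ _ _) hp'
  | @app G Pr M N A B D s hM hT hN c ih1 ih2 =>
    have hM' := safe_ty hM hT
    obtain ⟨s₁, s₂, hA, -, -⟩ := hT.gen_pi_sort
    have hN' := safe_ty hN hA
    have e : W.canon (E.dom ((M.subst τ).subst σ')) (W.O (N.subst τ) σ' v') =
        W.canon (E.dom (M.subst σ₁)) (W.O N σ₁ v₁) := by
      rw [E.dom_conv (cv hc M)]
      exact canon_congr Conv.rfl (fun q hq =>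
        ih2 hG hk hσ hc hPr hv (VP.conv hq (dom_spec (hM'.subst hσ))))
    show W.O (M.subst τ) σ' v' ((nf ((N.subst τ).subst σ'),
      W.canon (E.dom ((M.subst τ).subst σ')) (W.O (N.subst τ) σ' v')) :: p) = _
    rw [e, (cv hc N).nf_eq]
    exact ih1 hG hk hσ hc hPr hv (vp_app hM' hN' hσ c hp _)
  | ty _ c _ ih => exact ih hG hk hσ hc hPr hv (vp_sort hp (c.subst σ₁))
  | ign hi =>
    obtain rfl : p = [] := hp
    exact O_out_eq (cv hc _) (hi σ₁ hσ)
  | sort => rfl
  | @pi G Pr A B s hT hq _ _ ih1 ih2 =>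
    obtain rfl : p = [] := hp
    obtain ⟨s₁, s₂, hA, -, -⟩ := hT.gen_pi_sort
    refine (O_pi_congr (cv hc (.pi A B)).symm (ih1 hG hk hσ hc hPr hv rfl).symm
      (fun a d ha _ => Eq.symm ?_)).symm
    have ha' := ha.ty (hA.subst hσ)
    rcases hq with hq | hi
    · exact ih2 (hG.ccons hA) (hk.ccons ⟨hG, σ₁, hσ⟩ hA hq) (hσ.scons ha') (up_hc hc _)
        (up_hPr hPr _) (up_hv hG hk hσ hv _ _ _) rfl
    · exact O_out_eq (cv (up_hc hc a) B) (hi _ (hσ.scons ha'))
  | @tm G Pr T s hs _ ih =>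
    obtain rfl : p = [] := hp
    exact ih hG hk hσ hc hPr hv ⟨s, hs, Conv.rfl⟩

/-- The canonical value of a safe argument represents it faithfully (`obsV_canon`,
`bdd_of_safe`, `clamp_self`, `O_cand`, `O_out`); combine with `O_subst` for `τ = single N`. -/
theorem O_inst {s : S} (h : E.Safe j (ccons A G) (upPr Pr) M o) (hG : Valid P G)
    (hk : E.CtxOK j G Pr) (hA : Ty P G A (.sort s)) (hq : E.Fine j (prof P G A))
    (hN : E.Safe j G Pr N (some A)) {σ : ℕ → Term S} {v : ℕ → W.V}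
    (he : W.EO G Pr σ v) {a A' : Term S} (ha : Ty P E.Θ a (A.subst σ))
    (hc : Conv a (N.subst σ)) (hA' : Conv A' (A.subst σ))
    {p : W.Path} (hp : W.Obs o (scons a σ) p) :
    W.O (M.inst N) σ v p = W.O M (scons a σ) (scons (W.canon A' (W.O N σ v)) v) p := by
  rw [canon_congr (g := W.O N σ v) hA' (fun _ _ => rfl)]
  refine O_subst h (hG.ccons hA) (hk.ccons ⟨hG, σ, he.ts⟩ hA hq) (he.ts.scons ha)
    (fun x => ?_) (fun x hx => ?_) (fun x _ hs q hq' => ?_) hp
  · cases x with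
    | zero => exact hc
    | succ x => exact Conv.rfl
  · cases x with
    | zero => exact hx.elim
    | succ x => exact ⟨he.null x hx, x, HeadVar.var, he.null x hx⟩
  · cases x with
    | zero =>
      have hsub := prof_subst (he.ts.scons ha) (ccons A G 0)
      rw [ccons_zero, shift_subst_scons] at hq' hsub
      have hQ : E.Qs j (prof P E.Θ (A.subst σ)) :=
        hs.of_subset hsub (hq'.rr ⟨s, mem_prof (hA.subst he.ts)⟩)
      show W.O N σ v q = E.clamp j (apps a q) (W.obsV (W.canon (A.subst σ) (W.O N σ v)) q)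
      rw [obsV_canon hQ (bdd_of_safe hN hG he) hq']
      have c := apps_conv hc q
      refine (clamp_self ((W.O_cand N σ v q).conv c.symm) (fun hn => ?_)).symm
      rw [O_out (by rwa [← c.prof_eq]), wnc_conv c]
    | succ x => rfl

/-- Induction on `Safe`; the redex case uses `Safe.lam_inv` and `O_inst`. -/
theorem O_step (h : E.Safe j G Pr M o) (hG : Valid P G) (hk : E.CtxOK j G Pr) {σ : ℕ → Term S}
    {v : ℕ → W.V} (he : W.EO G Pr σ v) {M' : Term S} (k : Step M M') {p : W.Path} (hp : W.Obs o σ p) :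
    W.O M σ v p = W.O M' σ v p := by
  induction h generalizing σ v M' p with
  | irr _ _ hn => exact (hn σ he.ts (VP.kindAt hp)).elim
  | neu hx hP _ _ =>
    rw [O_head_null hx (he.null _ hP), O_head_null (hx.step k) (he.null _ hP)]
    exact clamp_conv (apps_conv (k.subst σ).conv p) _
  | var _ _ => cases k
  | @lam G Pr A M B D s c hT _ hq _ ih =>
    cases p with
    | nil =>
      have c' := (k.subst σ).conv
      cases k <;> exact wnc_conv c'
    | cons z p =>
      cases k with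
      | lamL _ k => rfl
      | lamR _ k =>
        obtain ⟨s₁, s₂, hA, -, -⟩ := hT.gen_pi_sort
        obtain ⟨ha, ht, hp'⟩ := vp_cons hA he.ts c hp
        exact ih (hG.ccons hA) (hk.ccons ⟨hG, σ, he.ts⟩ hA hq) (he.scons ha ht) k hp'
  | @app G Pr M N A B D s hM hT hN c ih1 ih2 =>
    have hM' := safe_ty hM hT
    obtain ⟨s₁, s₂, hA, -, -⟩ := hT.gen_pi_sort
    have hN' := safe_ty hN hA
    have hvp := vp_app hM' hN' he.ts c hp (W.O N σ v)
    cases k with
    | beta A₀ M₀ _ =>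
      rcases hM.lam_inv with hn | ⟨B₁, s', c₁, hT₁, -, hq, hS⟩
      · exact (hn σ he.ts (VP.kindAt hvp)).elim
      · obtain ⟨t₁, t₂, hA₀, -, -⟩ := hT₁.gen_pi_sort
        obtain ⟨ha, -, hp'⟩ := vp_cons hA₀ he.ts c₁ hvp
        exact (O_inst hS hG hk hA₀ hq (hN.conv c₁.pi_inj.1.symm) he ha (conv_nf _).symm
          ((dom_spec (hM'.subst he.ts)).trans (c₁.pi_inj.1.symm.subst σ)) hp').symm
    | @appL _ M' _ k =>
      show _ = W.O M' σ v ((nf (N.subst σ), W.canon (E.dom (M'.subst σ)) (W.O N σ v)) :: p)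
      rw [← E.dom_conv (k.subst σ).conv]
      exact ih1 hG hk he k hvp
    | @appR _ _ N' k =>
      show W.O M σ v ((nf (N.subst σ), W.canon (E.dom (M.subst σ)) (W.O N σ v)) :: p) =
        W.O M σ v ((nf (N'.subst σ), W.canon (E.dom (M.subst σ)) (W.O N' σ v)) :: p)
      rw [(k.subst σ).conv.nf_eq, canon_congr (g := W.O N' σ v) Conv.rfl (fun q hq =>
        ih2 hG hk he k (VP.conv hq (dom_spec (hM'.subst he.ts))))]
  | ty _ c _ ih => exact ih hG hk he k (vp_sort hp (c.subst σ))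
  | ign hi =>
    obtain rfl : p = [] := hp
    exact (O_out_eq (k.subst σ).conv.symm (hi σ he.ts)).symm
  | sort => cases k
  | @pi G Pr A B s hT hq _ _ ih1 ih2 =>
    obtain rfl : p = [] := hp
    obtain ⟨s₁, s₂, hA, -, -⟩ := hT.gen_pi_sort
    have c' := (k.subst σ).conv
    cases k with
    | piL _ k => exact O_pi_congr c' (ih1 hG hk he k rfl) (fun _ _ _ _ => rfl)
    | piR _ k =>
      refine O_pi_congr c' rfl (fun a d ha hd => ?_)
      have ha' := ha.ty (hA.subst he.ts)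
      rcases hq with hq | hi
      · exact ih2 (hG.ccons hA) (hk.ccons ⟨hG, σ, he.ts⟩ hA hq) (he.scons ha' hd) k rfl
      · exact (O_out_eq (k.subst _).conv.symm (hi _ (he.ts.scons ha'))).symm
  | @tm G Pr T s hs _ ih =>
    obtain rfl : p = [] := hp
    exact ih hG hk he k ⟨s, hs, Conv.rfl⟩

theorem O_red (h : E.Safe j G Pr M o) (hG : E.Emb G) (hk : E.CtxOK j G Pr) {σ : ℕ → Term S}
    {v : ℕ → W.V} (he : W.EO G Pr σ v) {M' : Term S} (k : Red M M') {p : W.Path} (hp : W.Obs o σ p) :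
    W.O M σ v p = W.O M' σ v p := by
  have key : E.Safe j G Pr M' o ∧ W.O M σ v p = W.O M' σ v p := by
    induction k with
    | refl => exact ⟨h, rfl⟩
    | tail _ k ih => exact ⟨ih.1.step hG hk k, ih.2.trans (O_step ih.1 hG.1 hk he k hp)⟩
  exact key.2

end Amb.BV
end Vale.Agent.P340
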