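import Vale.Agent.P340.BGraph

/-! Well-foundedness of the order `Prec` on the types with both signs. -/

namespace Vale.Agent.P340

universe u
variable {S : Type u} {P : Spec S} [Finite S]

open Term

namespace Amb
variable {E : Amb P} {j : ℕ}

theorem R2.rr {I : Set S} (h : E.R2 j I) : E.Rr j I := h.1.rr

theorem R2.node {I : Set S} (h : E.R2 j I) : E.Node I := h.rr.node

theorem he_true_of_pr {I J K : Set S} (hI : E.Node I) (hJ : E.Node J) (hK : E.Rr j K)
    (r : PR P J K I) : E.HE j true I K :=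
  ⟨⟨hI, hK.node, Or.inr ⟨J, hJ, r⟩⟩, hK⟩

theorem he_false_of_pr {I J K : Set S} (hI : E.Node I) (hJ : E.Rr j J) (hK : E.Rr j K)
    (r : PR P J K I) : E.HE j false I J :=
  ⟨hI, hJ.node, hJ, K, hK.node, hK, r⟩

theorem he_true_of_subset {I K : Set S} (hI : E.Node I) (hK : E.Rr j K) (s : I ⊆ K) :
    E.HE j true I K :=
  ⟨⟨hI, hK.node, Or.inl s⟩, hK⟩

theorem HE.reach {b : Bool} {I K : Set S} (h : E.HE j b I K) : Reach (E.HE j) I K :=
  ⟨b, SP.single h⟩

theorem he_cod {D A B a : Term S} (c : Conv D (.pi A B)) (ha : Ty P E.Θ a A)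
    (hB : E.Rr j (prof P E.Θ (B.inst a))) (hD : E.Node (prof P E.Θ D)) :
    E.HE j true (prof P E.Θ D) (prof P E.Θ (B.inst a)) := by
  have r := pr_pi_inst E.valid ha B
  rw [← c.prof_eq] at r
  exact he_true_of_pr hD (node_prof (pr_nonempty r hD.1).1) hB r

theorem Below.path {A' D : Term S} (h : E.Below j A' D) (hD : E.Node (prof P E.Θ D)) :
    ∃ I, Reach (E.HE j) (prof P E.Θ D) I ∧ E.HE j false I (prof P E.Θ A') := by
  induction h with
  | @left D A B a A' c ha hB hA c' =>
    have r := pr_pi_inst E.valid ha B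
    rw [← c.prof_eq] at r
    rw [c'.prof_eq]
    exact ⟨_, Reach.refl _, he_false_of_pr hD hA hB r⟩
  | @right D A B a A' c ha hB _ ih =>
    obtain ⟨I, p, e⟩ := ih hB.node
    exact ⟨I, (he_cod c ha hB hD).reach.trans p, e⟩

theorem acc_conv {D D' : Term S} (h : Acc (E.Prec j) D) (c : Conv D D') :
    Acc (E.Prec j) D' := by
  refine ⟨_, fun A' k => h.inv ⟨?_, k.2.conv c.symm Conv.rfl⟩⟩
  rw [c.prof_eq]; exact k.1

theorem acc_of_not_pi {D : Term S} (h : ∀ A B, ¬ Conv D (.pi A B)) : Acc (E.Prec j) D := by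
  refine ⟨_, fun A' k => ?_⟩
  cases k.2 with
  | left c => exact (h _ _ c).elim
  | right c => exact (h _ _ c).elim

omit [Finite S] in
/-- following the codomains from the type of the head variable -/
theorem head_path {G τ : ℕ → Term S} (hG : Valid P G) (hτ : TS P G E.Θ τ) {x : ℕ}
    {M : Term S} (hx : HeadVar x M) : ∀ {T : Term S}, Ty P G M T →
      (prof P G T).Nonempty ∧
        Relation.ReflTransGen (E.Edge true) (prof P G (G x)) (prof P G T) := by
  induction hx with
  | var =>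
    intro T h
    rw [h.gen_var.prof_eq]
    obtain ⟨s, hs⟩ := hG x
    exact ⟨⟨s, mem_prof hs⟩, .refl⟩
  | app N _ ih =>
    intro T h
    obtain ⟨A, B, a, b, c⟩ := h.gen_app
    obtain ⟨h1, h2⟩ := ih a
    have r := pr_pi_inst hG b B
    obtain ⟨n1, n2⟩ := pr_nonempty r h1
    rw [c.prof_eq]
    exact ⟨n2, h2.tail ⟨node_prof_of hτ h1, node_prof_of hτ n2,
      Or.inr ⟨_, node_prof_of hτ n1, r⟩⟩⟩

variable (E j) in
/-- profiles with both signs in the component of index `h` -/
def RR (h : ℕ) (I : Set S) : Prop := E.R2 j I ∧ idxOf (E.HE j) I = h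

variable (E j) in
/-- profiles of types that can become kinds ending in a sort of the component `h` -/
def RK (h : ℕ) (V : Set S) : Prop := ∃ (t : S) (J' : Set S), E.RR j h {t} ∧
  Relation.ReflTransGen (E.Edge true) V J' ∧ E.Node J' ∧ ∀ s ∈ J', P.ax t s

theorem RK.of_subset {h : ℕ} {V V' : Set S} (k : E.RK j h V) (hV' : E.Node V') (s : V' ⊆ V) :
    E.RK j h V' := by
  obtain ⟨t, J', a, p, n, b⟩ := k
  have hV : E.Node V := by
    rcases p.cases_head with rfl | ⟨c, e, -⟩
    · exact n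
    · exact e.src
  exact ⟨t, J', a, p.head ⟨hV', hV, Or.inl s⟩, n, b⟩

theorem acc_inner {h : ℕ}
    (out : ∀ D, idxOf (E.HE j) (prof P E.Θ D) < h → Acc (E.Prec j) D)
    (no : ∀ Vp Kp Ip, E.Node Vp → E.RR j h Kp → E.RR j h Ip → PR P Vp Kp Ip → ¬ E.RK j h Vp)
    (D₀ : Term S) : Normal D₀ → ∀ (G τ : ℕ → Term S), Valid P G → TS P G E.Θ τ →
      (∀ x, (∃ y, τ x = var y) ∨ ¬ E.RK j h (prof P G (G x))) → E.RR j h (prof P G D₀) →
      Acc (E.Prec j) (D₀.subst τ) := by
  have neutral : ∀ (D₀ : Term S) (x : ℕ), HeadVar x D₀ → Normal D₀ →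
      ∀ (G τ : ℕ → Term S), Valid P G → TS P G E.Θ τ →
      (∀ x, (∃ y, τ x = var y) ∨ ¬ E.RK j h (prof P G (G x))) → E.RR j h (prof P G D₀) →
      Acc (E.Prec j) (D₀.subst τ) := by
    intro D₀ x hx hn G τ hG hτ hv hR
    obtain ⟨t, ht⟩ := hR.1.node.1
    have hT := has_prof_normal hG hn t ht
    rw [prof_neutral hG hx hT] at hR
    obtain ⟨n, p⟩ := head_path hG hτ hx hT
    rcases hv x with ⟨y, hy⟩ | hv
    · have : HeadVar y (D₀.subst τ) := hx.subst (by rw [hy]; exact .var)
      exact acc_of_not_pi (fun A B c => this.not_conv_pi c)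
    · refine (hv ⟨t, _, hR, p, node_prof_of hτ n, fun s hs => ?_⟩).elim
      rwa [prof_sort hG] at hs
  induction D₀ with
  | var x => intro hn; exact neutral _ x .var hn
  | sort s => intro _ G τ _ _ _ _; exact acc_of_not_pi (fun A B c => c.sort_pi)
  | app M N _ _ =>
    intro hn G τ hG hτ hv hR
    obtain ⟨t, ht⟩ := hR.1.node.1
    have hT := has_prof_normal hG hn t ht
    rcases hT.normal_shape hn with ⟨s, e⟩ | ⟨A, B, e⟩ | ⟨A, B, e⟩ | ⟨x, hx⟩
    · cases e
    · cases e
    · cases e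
    · exact neutral _ x hx hn G τ hG hτ hv hR
  | lam A M _ _ =>
    intro hn G τ hG hτ hv hR
    obtain ⟨t, ht⟩ := hR.1.node.1
    obtain ⟨B, s, -, -, c⟩ := (has_prof_normal hG hn t ht).gen_lam
    exact c.sort_pi.elim
  | pi A₀ B₀ ihA ihB =>
    intro hn G τ hG hτ hv hR
    obtain ⟨nA, nB⟩ := normal_pi.1 hn
    have hD := hR.1.node
    obtain ⟨t, ht⟩ := hD.1
    obtain ⟨s₁, s₂, tA, tB, -⟩ := (has_prof_normal hG hn t ht).gen_pi_sort
    have r := pr_pi hG A₀ B₀
    have nodeA : E.Node (prof P G A₀) := node_prof_of hτ ⟨s₁, mem_prof tA⟩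
    have key : ∀ {A B a : Term S}, Conv ((Term.pi A₀ B₀).subst τ) (.pi A B) → Ty P E.Θ a A →
        E.Rr j (prof P E.Θ (B.inst a)) →
        Conv (A₀.subst τ) A ∧ Conv (B₀.subst (scons a τ)) (B.inst a) ∧
          TS P (ccons A₀ G) E.Θ (scons a τ) ∧ E.Rr j (prof P (ccons A₀ G) B₀) := by
      intro A B a c ha hB
      obtain ⟨c1, c2⟩ := Conv.pi_inj c
      have ha' : Ty P E.Θ a (A₀.subst τ) := .conv ha (tA.subst hτ) c1.symm
      have hσ := hτ.scons ha'
      have c3 : Conv (B₀.subst (scons a τ)) (B.inst a) := by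
        have := c2.inst (Conv.rfl (M := a))
        rwa [upSub_inst] at this
      refine ⟨c1, c3, hσ, hB.of_subset (node_prof_of hσ ⟨s₂, mem_prof tB⟩) ?_⟩
      rw [← c3.prof_eq]
      exact prof_subst hσ B₀
    refine ⟨_, fun A' k => ?_⟩
    obtain ⟨k1, k2⟩ := k
    cases k2 with
    | @left _ A B a _ c ha hB hA c' =>
      obtain ⟨c1, -, -, hK⟩ := key c ha hB
      rw [← c1.prof_eq] at hA
      have hJ : E.Rr j (prof P G A₀) := hA.of_subset nodeA (prof_subst hτ A₀)
      have e := (he_false_of_pr hD hJ hK r).reach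
      refine acc_conv ?_ (c1.trans c'.symm)
      rcases (e.idx_le.trans_eq hR.2).eq_or_lt with l | l
      · exact ihA nA G τ hG hτ hv ⟨hR.1.reach e, l⟩
      · exact out _ ((he_true_of_subset nodeA hA (prof_subst hτ A₀)).reach.idx_le.trans_lt l)
    | @right _ A B a _ c ha hB hbel =>
      obtain ⟨c1, c3, hσ, hK⟩ := key c ha hB
      have e := (he_true_of_pr hD nodeA hK r).reach
      have pre : E.Prec j A' (B₀.subst (scons a τ)) := by
        refine ⟨?_, hbel.conv c3.symm Conv.rfl⟩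
        rw [c3.prof_eq]
        exact k1.reach (he_cod c ha hB k1.node).reach
      refine Acc.inv ?_ pre
      rcases (e.idx_le.trans_eq hR.2).eq_or_lt with l | l
      · have hK' : E.RR j h (prof P (ccons A₀ G) B₀) := ⟨hR.1.reach e, l⟩
        have hno := no _ _ _ nodeA hK' hR r
        refine ihB nB _ _ (hG.ccons tA) hσ (fun x => ?_) hK'
        cases x with
        | zero => exact Or.inr (fun q => hno (q.of_subset nodeA (prof_weak A₀ A₀)))
        | succ x =>
          rcases hv x with hy | hy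
          · exact Or.inl hy
          · obtain ⟨s, hs⟩ := hG x
            exact Or.inr (fun q => hy (q.of_subset (node_prof_of hτ ⟨s, mem_prof hs⟩)
              (prof_weak (G x) A₀)))
      · rw [← c3.prof_eq] at hB
        exact out _ ((he_true_of_subset hK.node hB (prof_subst hσ B₀)).reach.idx_le.trans_lt l)

theorem wf_prec' (hF : ¬ E.Forb j) : WellFounded (E.Prec j) := by
  have main : ∀ h D, idxOf (E.HE j) (prof P E.Θ D) = h → Acc (E.Prec j) D := by
    intro h
    induction h using Nat.strong_induction_on with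
    | _ h ih =>
      have out : ∀ D, idxOf (E.HE j) (prof P E.Θ D) < h → Acc (E.Prec j) D :=
        fun D l => ih _ l D rfl
      intro D hD
      by_cases hR : E.R2 j (prof P E.Θ D)
      swap
      · exact ⟨_, fun A' k => (hR k.1).elim⟩
      by_cases hc : ∃ I J, E.RR j h I ∧ E.RR j h J ∧ E.HE j false I J
      · obtain ⟨I, J, hI, hJ, e⟩ := hc
        have no : ∀ Vp Kp Ip, E.Node Vp → E.RR j h Kp → E.RR j h Ip → PR P Vp Kp Ip →
            ¬ E.RK j h Vp := by
          rintro Vp Kp Ip nV hK hIp r ⟨t, J', ht, p, n, a⟩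
          exact hF ⟨t, Vp, Kp, Ip, I, J, J', ht.1, reach_of_idx_eq (ht.2.trans hIp.2.symm),
            reach_of_idx_eq (hK.2.trans ht.2.symm), reach_of_idx_eq (ht.2.trans hI.2.symm), e,
            reach_of_idx_eq (hJ.2.trans ht.2.symm), nV, hK.1.node, hIp.1.node, r, p, n, a⟩
        have hw : WN D := wn_of_prof hR.node.1
        have := acc_inner out no (nf D) hw.normal_nf E.Θ var E.valid (TS.id _)
          (fun x => Or.inl ⟨x, rfl⟩) (by rw [← (conv_nf D).prof_eq]; exact ⟨hR, hD⟩)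
        rw [subst_id] at this
        exact acc_conv this (conv_nf D).symm
      · refine ⟨_, fun A' k => out _ ?_⟩
        obtain ⟨I, p, e⟩ := k.2.path hR.node
        have l1 := p.idx_le
        have l2 := e.reach.idx_le
        by_contra hlt
        exact hc ⟨I, _, ⟨hR.reach p, by omega⟩, ⟨(hR.reach p).reach e.reach, by omega⟩, e⟩
  exact ⟨fun D => main _ D rfl⟩

end Amb
end Vale.Agent.P340
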