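import Vale.Agent.P340.NJ

/-! Abstract models at level `j` and the fundamental lemma: `NJ (j+1)` terms reduce to `NJ j`
terms. -/

namespace Vale.Agent.P340

universe u
variable {S : Type u} {P : Spec S} [Finite S]

namespace Amb

structure Model (E : Amb P) (j : ℕ) where
  D : Type u
  null : D
  ok : ℕ → D → Prop
  ok_null : ∀ p, ok p null
  I : (ℕ → Term S) → (ℕ → D) → Term S → Set (MT S)
  cand : ∀ σ v T, E.Cand j (T.subst σ) (I σ v T)
  out : ∀ σ v T, ¬ E.NN j (prof P E.Θ (T.subst σ)) → I σ v T = E.WNc j (T.subst σ)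
  conv : ∀ σ v T T', Conv T T' → I σ v T = I σ v T'
  coin : ∀ σ v σ' v' T, WN T → (∀ x, Free x T → σ x = σ' x ∧ v x = v' x) → I σ v T = I σ' v' T
  sort : ∀ σ v s, I σ v (.sort s) = E.WNc j (.sort s)
  lam : ∀ σ v A B s p t, TS P E.Θ E.Θ σ → (∀ x, ok x (v x)) → Ty P E.Θ (.pi A B) (.sort s) →
    E.idx (prof P E.Θ (.pi A B)) ≤ j → E.NN j (prof P E.Θ ((Term.pi A B).subst σ)) →
    FVlt p (.pi A B) → E.Θ p = A → t ∈ E.WNc j ((Term.pi A B).subst σ) →
    (∀ u ∈ I σ v A, ∀ d, ok p d → ∃ σ' v', (∀ x < p, σ' x = σ x ∧ v' x = v x) ∧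
      σ' p = u.er ∧ v' p = d ∧ MT.app t u ∈ I σ' v' (B.inst (.var p))) →
    t ∈ I σ v (.pi A B)
  app : ∀ σ v A B s N t u, TS P E.Θ E.Θ σ → (∀ x, ok x (v x)) → Ty P E.Θ (.pi A B) (.sort s) →
    E.idx (prof P E.Θ (.pi A B)) ≤ j → E.NN j (prof P E.Θ ((Term.pi A B).subst σ)) →
    Ty P E.Θ N A → t ∈ I σ v (.pi A B) → u ∈ I σ v A → u.er = N.subst σ →
    MT.app t u ∈ I σ v (B.inst N)

variable {E : Amb P} {j : ℕ}

/-- good environments: variables of high type are sent to variables -/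
structure Model.Env (m : E.Model j) (σ : ℕ → MT S) (v : ℕ → m.D) : Prop where
  ts : TS P E.Θ E.Θ (fun x => (σ x).er)
  ok : ∀ x, m.ok x (v x)
  hi : ∀ x, ¬ E.NH j (prof P E.Θ (E.Θ x)) → ∃ q, σ x = .var q
  lo : ∀ x, E.NH j (prof P E.Θ (E.Θ x)) → σ x ∈ m.I (fun x => (σ x).er) v (E.Θ x)

/-- Extension at `p` (use `E.ext (p+1)`; above `p` take variables and `m.null`; they are in the
interpretations by `var_neu`, `Ty.gen_var`; below use `m.coin` and `E.lower`). -/
theorem Model.Env.extend {m : E.Model j} {σ : ℕ → MT S} {v : ℕ → m.D} (h : m.Env σ v) (p : ℕ)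
    (u : MT S) (d : m.D) (hd : m.ok p d)
    (hty : Ty P E.Θ u.er ((E.Θ p).subst (fun x => (σ x).er)))
    (hhi : ¬ E.NH j (prof P E.Θ (E.Θ p)) → ∃ q, u = .var q)
    (hlo : E.NH j (prof P E.Θ (E.Θ p)) → u ∈ m.I (fun x => (σ x).er) v (E.Θ p)) :
    ∃ σ' v', m.Env σ' v' ∧ (∀ x < p, σ' x = σ x ∧ v' x = v x) ∧ σ' p = u ∧ v' p = d := by
  classical
  have hcongr : ∀ y ≤ p, (E.Θ y).subst (fun y => if y = p then u.er else (σ y).er)
      = (E.Θ y).subst (fun x => (σ x).er) := by
    intro y hy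
    refine subst_congr_free (fun x hx => ?_)
    have := E.lower y x hx
    rw [if_neg (by omega)]
  obtain ⟨τ, hτ, hlow, hhigh⟩ := E.ext (p + 1) (fun y => if y = p then u.er else (σ y).er)
    (fun y hy => by
      rw [hcongr y (by omega)]
      by_cases hyp : y = p
      · subst hyp; rw [if_pos rfl]; exact hty
      · rw [if_neg hyp]; exact h.ts y)
  have hq : ∀ y, ∃ q, p + 1 ≤ y → τ y = Term.var q := fun y => by
    by_cases hy : p + 1 ≤ y
    · obtain ⟨q, hq⟩ := hhigh y hy; exact ⟨q, fun _ => hq⟩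
    · exact ⟨0, fun h => (hy h).elim⟩
  choose q hq using hq
  let σ' : ℕ → MT S := fun y => if y < p then σ y else if y = p then u else MT.var (q y)
  let v' : ℕ → m.D := fun y => if y < p then v y else if y = p then d else m.null
  have h1 : ∀ x < p, σ' x = σ x ∧ v' x = v x := fun x hx => by
    simp only [σ', v', if_pos hx, and_self]
  have h2 : σ' p = u ∧ v' p = d := by
    simp only [σ', v', lt_irrefl, if_false, if_true, and_self]
  have h3 : ∀ x, p < x → σ' x = MT.var (q x) ∧ v' x = m.null := fun x hx => by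
    simp only [σ', v', if_neg (show ¬ x < p by omega), if_neg (show ¬ x = p by omega), and_self]
  have he : (fun x => (σ' x).er) = τ := by
    funext x
    rcases lt_trichotomy x p with hx | hx | hx
    · rw [(h1 x hx).1, hlow x (by omega), if_neg (by omega)]
    · subst hx; rw [h2.1, hlow x (by omega), if_pos rfl]
    · rw [(h3 x hx).1, hq x (by omega)]; rfl
  have hcoin : ∀ y ≤ p, m.I (fun x => (σ x).er) v (E.Θ y)
      = m.I (fun x => (σ' x).er) v' (E.Θ y) := by
    intro y hy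
    obtain ⟨s, hs⟩ := E.valid y
    refine m.coin _ _ _ _ _ (E.wn _ _ hs) (fun x hx => ?_)
    have hx' : x < p := lt_of_lt_of_le (E.lower y x hx) hy
    rw [(h1 x hx').1, (h1 x hx').2]
    exact ⟨rfl, rfl⟩
  refine ⟨σ', v', ⟨he ▸ hτ, fun x => ?_, fun x hx => ?_, fun x hx => ?_⟩, h1, h2.1, h2.2⟩
  · rcases lt_trichotomy x p with hx | hx | hx
    · rw [(h1 x hx).2]; exact h.ok x
    · subst hx; rw [h2.2]; exact hd
    · rw [(h3 x hx).2]; exact m.ok_null x
  · rcases lt_trichotomy x p with hy | hy | hy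
    · rw [(h1 x hy).1]; exact h.hi x hx
    · subst hy; rw [h2.1]; exact hhi hx
    · exact ⟨_, (h3 x hy).1⟩
  · rcases lt_trichotomy x p with hy | hy | hy
    · rw [← hcoin x hy.le, (h1 x hy).1]; exact h.lo x hx
    · subst hy; rw [← hcoin x le_rfl, h2.1]; exact hlo hx
    · rw [(h3 x hy).1]
      refine (m.cand _ _ _).neu ?_
      have ht := hτ x
      rw [hq x (by omega)] at ht
      rw [he, neu_conv ht.gen_var]
      exact E.var_neu j _

theorem Model.env_id (m : E.Model j) : m.Env MT.var (fun _ => m.null) := by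
  refine ⟨TS.id _, fun x => m.ok_null x, fun x _ => ⟨x, rfl⟩, fun x _ => ?_⟩
  refine (m.cand _ _ _).neu ?_
  have : (E.Θ x).subst (fun x => (MT.var x : MT S).er) = E.Θ x := subst_id _
  rw [this]
  exact E.var_neu j x

/-- both alternatives of the fundamental lemma give `WNc` -/
theorem Model.wnc_of (m : E.Model j) {t : MT S} {T : Term S} {σ : ℕ → Term S} {v : ℕ → m.D}
    {Q : Prop}
    (h : (E.NH j (prof P E.Θ T) → t ∈ m.I σ v T) ∧
      (¬ E.NH j (prof P E.Θ T) → t ∈ E.WNc j (T.subst σ) ∧ Q)) :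
    t ∈ E.WNc j (T.subst σ) := by
  by_cases hn : E.NH j (prof P E.Θ T)
  · exact (m.cand _ _ _).sub (h.1 hn)
  · exact (h.2 hn).1

/-- open a binder with a fresh parameter whose type is the reduced domain -/
theorem Model.Env.openb {m : E.Model j} {σ : ℕ → MT S} {v : ℕ → m.D} (he : m.Env σ v)
    {A : MT S} {p : ℕ} {s₁ : S} (hp : E.Θ p = A.er)
    (hA : A.subst σ ∈ E.WNc j (.sort s₁)) (n : ℕ) :
    ∃ A' q σ' v', MT.Red (A.subst σ) A' ∧ E.NJ j A' (.sort s₁) ∧ n ≤ q ∧ E.Θ q = A'.er ∧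
      m.Env σ' v' ∧ (∀ x < p, σ' x = σ x) ∧ σ' p = MT.var q := by
  obtain ⟨hty, A', hred, hnj⟩ := hA
  obtain ⟨q, hnq, hq⟩ := E.sat A'.er s₁ n hnj.tyc.ty_sort
  have hc : Conv (E.Θ q) ((E.Θ p).subst (fun x => (σ x).er)) := by
    rw [hq, hp, ← MT.er_subst]; exact hred.er.conv.symm
  have hs : Ty P E.Θ ((E.Θ p).subst (fun x => (σ x).er)) (.sort s₁) := by
    rw [hp, ← MT.er_subst]; exact hty.ty_sort
  obtain ⟨σ', v', he', h1, h2, -⟩ := he.extend p (MT.var q) m.null (m.ok_null p)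
    (Ty.conv (Ty.var q) hs hc) (fun _ => ⟨q, rfl⟩) (fun _ => by
      refine (m.cand _ _ _).neu ?_
      rw [← neu_conv hc]
      exact E.var_neu j q)
  exact ⟨A', q, σ', v', hred, hnj, hnq, hq, he', fun x hx => (h1 x hx).1, h2⟩

/-- reduction of an opened body -/
theorem wnc_open {M : MT S} {q : ℕ} {T : Term S} (h : M.inst (MT.var q) ∈ E.WNc j T) :
    ∃ M', MT.Red M M' ∧ E.NJ j (M'.inst (MT.var q)) T := by
  obtain ⟨-, M'', hred, hnj⟩ := h
  rw [MT.inst_var_eq_rename] at hred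
  obtain ⟨M', h1, rfl⟩ := hred.of_rename
  exact ⟨M', h1, by rw [MT.inst_var_eq_rename]; exact hnj⟩

/-- the components of a typed product have smaller index -/
theorem idx_comp {A B a : Term S} {s : S} (h : Ty P E.Θ (.pi A B) (.sort s))
    (ha : Ty P E.Θ a A) :
    E.Node (prof P E.Θ (.pi A B)) ∧ E.Node (prof P E.Θ A) ∧ E.Node (prof P E.Θ (B.inst a)) ∧
      E.idx (prof P E.Θ A) ≤ E.idx (prof P E.Θ (.pi A B)) ∧
      E.idx (prof P E.Θ (B.inst a)) ≤ E.idx (prof P E.Θ (.pi A B)) := by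
  have hne : (prof P E.Θ (.pi A B)).Nonempty := ⟨s, mem_prof h⟩
  have hpr := pr_pi_inst E.valid ha B
  obtain ⟨h1, h2⟩ := pr_nonempty hpr hne
  exact ⟨node_prof hne, node_prof h1, node_prof h2,
    idx_le_of_pr (node_prof hne) (node_prof h1) (node_prof h2) hpr⟩

/-- Fundamental lemma, by induction on `NJ (j+1) t T`.
* `var`: by the environment (`var_neu` when the type is high).
* `app`, `pi A B` not high: `B.inst N` is not high (`pr_pi_inst`, `idx_le_of_pr`). If the
  instance of `pi A B` is in `NN j` use `m.app`; otherwise it is low (`prof_subst`,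
  `idx_le_of_subset`), so is the instance of `B.inst N`; use `wnc_app_low` and `m.out`.
  If `pi A B` is high, the function is neutral, use the second part, `neu_app` and `Cand.neu`.
* `lam`: first get `WNc`: normalize the domain to `A'`, choose `q` by `E.sat` with
  `E.Θ q = A'.er` above all free variables, extend the environment at `p` by `var q`, and use
  `MT.open_subst`, `MT.inst_var_eq_rename`, `MT.Red.of_rename`, subject reduction. If the type is
  not high and its instance is in `NN j`, use `m.lam`, `Env.extend`, `Cand.back` with the `beta`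
  step and `Cand.mem` twice. Otherwise `m.out`.
* `pi`, `sort`: as for `lam`, with `m.sort`. `mem`: `Cand.mem`. `conv`: `m.conv`. -/
theorem Model.fund (m : E.Model j) {t : MT S} {T : Term S} (h : E.NJ (j + 1) t T)
    {σ : ℕ → MT S} {v : ℕ → m.D} (he : m.Env σ v) :
    (E.NH j (prof P E.Θ T) → t.subst σ ∈ m.I (fun x => (σ x).er) v T) ∧
    (¬ E.NH j (prof P E.Θ T) → t.subst σ ∈ E.WNc j (T.subst (fun x => (σ x).er)) ∧
      ((∃ x, MT.Head x t) → t.subst σ ∈ E.Neu j (T.subst (fun x => (σ x).er)))) := by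
  induction h generalizing σ v with
  | var x =>
    refine ⟨he.lo x, fun hn => ?_⟩
    obtain ⟨q, hq⟩ := he.hi x hn
    have ht : Ty P E.Θ (Term.var q) ((E.Θ x).subst (fun x => (σ x).er)) := by
      have := he.ts x
      simp only [hq] at this
      exact this
    have hneu : (MT.var x).subst σ ∈ E.Neu j ((E.Θ x).subst (fun x => (σ x).er)) := by
      rw [MT.subst_var, hq, neu_conv ht.gen_var]
      exact E.var_neu j q
    exact ⟨(E.cand_wnc j _).neu hneu, fun _ => hneu⟩
  | @sort s₁ s₂ hax =>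
    have hw : (MT.sort s₁ : MT S) ∈ E.WNc j (.sort s₂) :=
      ⟨⟨_, Conv.rfl, Ty.ax hax⟩, _, .refl, NJ.sort hax⟩
    refine ⟨fun _ => ?_, fun _ => ⟨hw, ?_⟩⟩
    · rw [m.sort]; exact hw
    · rintro ⟨x, hx⟩; cases hx
  | @pi A B s₁ s₂ s₃ p hfv hp _ _ hty ih1 ih2 =>
    have hA : A.subst σ ∈ E.WNc j (.sort s₁) := m.wnc_of (ih1 he)
    obtain ⟨n, hn⟩ := MT.exists_fvlt ((MT.pi A B).subst σ)
    obtain ⟨A', q, σ', v', hred, hnj, hnq, hq, he', h1, h2⟩ := he.openb hp hA n
    have hB : (B.inst (MT.var p)).subst σ' ∈ E.WNc j (.sort s₂) := m.wnc_of (ih2 he')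
    rw [MT.open_subst (fun x hx => hfv x (Or.inr hx)) h1, h2] at hB
    obtain ⟨B', hredB, hnjB⟩ := wnc_open hB
    have hR : MT.Red ((MT.pi A B).subst σ) (MT.pi A' B') := MT.Red.pi hred hredB
    have hT : Ty P E.Θ ((MT.pi A B).subst σ).er (.sort s₃) := by
      rw [MT.er_subst]; exact hty.subst he.ts
    have hw : (MT.pi A B).subst σ ∈ E.WNc j (.sort s₃) :=
      ⟨⟨_, Conv.rfl, hT⟩, _, hR, NJ.pi q (fun x hx => lt_of_lt_of_le (hn x (hR.free hx)) hnq) hq
        hnj hnjB (hT.red E.valid hR.er)⟩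
    refine ⟨fun _ => ?_, fun _ => ⟨hw, ?_⟩⟩
    · rw [m.sort]; exact hw
    · rintro ⟨x, hx⟩; cases hx
  | @lam A M B s₁ s p hfv hfvT hp _ _ hty hlam ih1 ih2 =>
    have hA : A.subst σ ∈ E.WNc j (.sort s₁) := m.wnc_of (ih1 he)
    have hT : Ty P E.Θ ((MT.lam A M).subst σ).er
        ((Term.pi A.er B).subst (fun x => (σ x).er)) := by
      rw [MT.er_subst]; exact hlam.subst he.ts
    have hopen : ∀ σ' : ℕ → MT S, (∀ x < p, σ' x = σ x) →
        (B.inst (Term.var p)).subst (fun x => (σ' x).er)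
          = (B.subst (upSub (fun x => (σ x).er))).inst (σ' p).er := by
      intro σ' h1
      rw [open_subst (σ := fun x => (σ x).er) (fun x hx => hfvT x (Or.inr hx))
        (fun x hx => by rw [h1 x hx]), upSub_inst]
    have hw : (MT.lam A M).subst σ ∈ E.WNc j ((Term.pi A.er B).subst (fun x => (σ x).er)) := by
      obtain ⟨n₁, hn₁⟩ := MT.exists_fvlt ((MT.lam A M).subst σ)
      obtain ⟨n₂, hn₂⟩ := exists_fvlt ((Term.pi A.er B).subst (fun x => (σ x).er))
      obtain ⟨A', q, σ', v', hred, hnj, hnq, hq, he', h1, h2⟩ := he.openb hp hA (n₁ + n₂)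
      have hM := m.wnc_of (ih2 he')
      rw [MT.open_subst (fun x hx => hfv x (Or.inr hx)) h1, hopen σ' h1, h2] at hM
      obtain ⟨M', hredM, hnjM⟩ := wnc_open hM
      have hR : MT.Red ((MT.lam A M).subst σ) (MT.lam A' M') := MT.Red.lam hred hredM
      have hRT : Red ((Term.pi A.er B).subst (fun x => (σ x).er))
          (Term.pi A'.er (B.subst (upSub (fun x => (σ x).er)))) := by
        rw [subst_pi, ← MT.er_subst]
        exact Red.pi hred.er .refl
      refine ⟨⟨_, Conv.rfl, hT⟩, _, hR, NJ.conv (NJ.lam (s := s) q ?_ ?_ hq hnj hnjM ?_ ?_)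
        hRT.conv.symm⟩
      · intro x hx; have := hn₁ x (hR.free hx); omega
      · intro x hx; have := hn₂ x (hRT.free hx); omega
      · exact (hty.subst he.ts).red E.valid hRT
      · exact (hT.red E.valid hR.er).red_type E.valid hRT
    refine ⟨fun hNH => ?_, fun _ => ⟨hw, ?_⟩⟩
    · by_cases hNN : E.NN j (prof P E.Θ ((Term.pi A.er B).subst (fun x => (σ x).er)))
      · refine m.lam _ v A.er B s p _ he.ts he.ok hty hNH.2 hNN hfvT hp hw (fun u hu d hd => ?_)
        obtain ⟨-, n1, n2, i1, i2⟩ := idx_comp hty (hp ▸ Ty.var p : Ty P E.Θ (.var p) A.er)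
        have huw : u ∈ E.WNc j (A.er.subst (fun x => (σ x).er)) := (m.cand _ _ _).sub hu
        have hAs : Ty P E.Θ (A.er.subst (fun x => (σ x).er)) (.sort s₁) := by
          rw [← MT.er_subst]; exact hA.1.ty_sort
        have huty : Ty P E.Θ u.er (A.er.subst (fun x => (σ x).er)) := huw.1.ty hAs
        obtain ⟨σ', v', he', h1, h2, h3⟩ := he.extend p u d hd (by rw [hp]; exact huty)
          (fun hn => (hn (by rw [hp]; exact ⟨n1, i1.trans hNH.2⟩)).elim)
          (fun _ => by rw [hp]; exact hu)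
        refine ⟨fun x => (σ' x).er, v', fun x hx => ⟨congrArg MT.er (h1 x hx).1, (h1 x hx).2⟩,
          congrArg MT.er h2, h3, ?_⟩
        have hM := (ih2 he').1 ⟨n2, i2.trans hNH.2⟩
        rw [MT.open_subst (fun x hx => hfv x (Or.inr hx)) (fun x hx => (h1 x hx).1), h2] at hM
        have hc := m.cand (fun x => (σ' x).er) v' (B.inst (Term.var p))
        refine hc.back _ _ (MT.Step.beta _ _ _) ?_ (hc.mem _ _ _ (hc.mem _ _ _ hM huw) hA)
        rw [hopen σ' (fun x hx => (h1 x hx).1), h2]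
        exact ⟨_, Conv.rfl, Ty.app hT huty⟩
      · rw [m.out _ _ _ hNN]; exact hw
    · rintro ⟨x, hx⟩; cases hx
  | @app t u A B s _ hu hty hside ih1 ih2 =>
    obtain ⟨s₁, s₂, hAs, -, -⟩ := hty.gen_pi_sort
    have huty : Ty P E.Θ u.er A := hu.tyc.ty hAs
    obtain ⟨n0, n1, n2, i1, i2⟩ := idx_comp hty huty
    have hinst : (B.inst u.er).subst (fun x => (σ x).er)
        = (B.subst (upSub (fun x => (σ x).er))).inst (u.subst σ).er := by
      rw [inst_subst, MT.er_subst]
    have huw : u.subst σ ∈ E.WNc j (A.subst (fun x => (σ x).er)) := m.wnc_of (ih2 he)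
    by_cases hNH : E.NH j (prof P E.Θ (.pi A B))
    · refine ⟨fun _ => ?_, fun hn => (hn ⟨n2, i2.trans hNH.2⟩).elim⟩
      by_cases hNN : E.NN j (prof P E.Θ ((Term.pi A B).subst (fun x => (σ x).er)))
      · exact m.app _ v A B s u.er _ _ he.ts he.ok hty hNH.2 hNN huty ((ih1 he).1 hNH)
          ((ih2 he).1 ⟨n1, i1.trans hNH.2⟩) (MT.er_subst _ _)
      · have hty' := hty.subst he.ts
        have huty' : Ty P E.Θ (u.subst σ).er (A.subst (fun x => (σ x).er)) := by
          rw [MT.er_subst]; exact huty.subst he.ts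
        obtain ⟨k0, -, -, -, k2⟩ := idx_comp hty' huty'
        have hle : E.idx (prof P E.Θ ((Term.pi A B).subst (fun x => (σ x).er))) ≤ j :=
          (idx_le_of_subset n0 k0 (prof_subst he.ts _)).trans hNH.2
        have hlt : E.idx (prof P E.Θ ((Term.pi A B).subst (fun x => (σ x).er))) < j :=
          lt_of_le_of_ne hle (fun h => hNN ⟨k0, h⟩)
        rw [m.out, hinst]
        · exact wnc_app_low (m.wnc_of (ih1 he)) huw hlt
        · rw [hinst]
          intro h
          exact absurd (h.2 ▸ k2) (not_le.2 hlt)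
    · have hhead : ∃ x, MT.Head x t := by
        rcases hside with h | h
        · exact h
        · exact (hNH ⟨n0, Nat.lt_succ_iff.1 h⟩).elim
      have hneu : (MT.app t u).subst σ ∈ E.Neu j ((B.inst u.er).subst (fun x => (σ x).er)) := by
        rw [hinst]
        exact neu_app (((ih1 he).2 hNH).2 hhead) huw
      exact ⟨fun _ => (m.cand _ _ _).neu hneu, fun _ => ⟨(E.cand_wnc j _).neu hneu, fun _ => hneu⟩⟩
  | @mem t u T U _ _ ih1 ih2 =>
    have huw := m.wnc_of (ih2 he)
    refine ⟨fun hn => (m.cand _ _ _).mem _ _ _ ((ih1 he).1 hn) huw, fun hn =>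
      ⟨(E.cand_wnc j _).mem _ _ _ ((ih1 he).2 hn).1 huw, ?_⟩⟩
    rintro ⟨x, hx⟩; cases hx
  | @conv t T T' _ c ih =>
    rw [← Conv.prof_eq c, ← m.conv _ _ _ _ c, ← wnc_conv (c.subst _), ← neu_conv (c.subst _)]
    exact ih he

theorem Model.descend (m : E.Model j) {t : MT S} {T : Term S} (h : E.NJ (j + 1) t T) :
    t ∈ E.WNc j T := by
  have := m.wnc_of (m.fund h m.env_id)
  have e : T.subst (fun x => (MT.var x : MT S).er) = T := subst_id _
  rwa [MT.subst_id, e] at this

/-- `nj_top`, descending induction on the level, `NJ.normal`, `MT.sn_of_normal`. -/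
theorem sn_of_models (hm : ∀ j, Nonempty (E.Model j)) {M A : Term S} (h : Ty P E.Θ M A) :
    SN M := by
  have key : ∀ k (t : MT S), E.NJ k t A → ∃ t', MT.Red t t' ∧ E.NJ 0 t' A := by
    intro k
    induction k with
    | zero => exact fun t ht => ⟨t, .refl, ht⟩
    | succ k ih =>
      intro t ht
      obtain ⟨m⟩ := hm k
      obtain ⟨-, t', h1, h2⟩ := m.descend ht
      obtain ⟨t'', h3, h4⟩ := ih t' h2
      exact ⟨t'', h1.trans h3, h4⟩
  obtain ⟨k, hk⟩ := idx_bounded E.Edge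
  obtain ⟨t', h1, h2⟩ := key k _ (nj_top hk h)
  exact MT.sn_of_normal h1 h2.normal

end Amb
end Vale.Agent.P340
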