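import Vale.Agent.P340.BInv
import Vale.Agent.P340.BWf
import Vale.Agent.P340.Fund

/-! Case B: the model when the configuration is not forbidden.

PLAN. Take `W : E.BV j` from `wf_prec`, `wf_tlt`, `exists_valSys`. `D = W.V`, `null = W.null`,
`Pr x := ¬ E.Q j true (prof P E.Θ (E.Θ x))`, `ok p d := Pr p → W.tag d = .null`,
`I σ v T := W.O (nf T) σ v []`. Then `CtxOK E.Θ Pr`, and `EO E.Θ Pr σ v` for typed `σ` and ok `v`
(`Q.of_subset`, `prof_subst`). `cand`, `out`: `O_cand`, `O_out`; `coin`: `O_congr`, `WN.free_nf`.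
Let `A₀ = nf A`, `B₀ = nf B`, so `nf (pi A B) = pi A₀ B₀` is typed (`nf_ty`), and the generic
profile of `pi A B` is in `NN j` (it is `≤ j` and included in the profile of the instance).
* `app`: put `N₀ = nf N`, `d = W.canon (A₀.subst σ) (W.O N₀ σ v)`, so
  `app t u ∈ W.O B₀ (scons u.er σ) (scons d v) []`. If the instance of `B.inst N` is not in
  `NN j`, conclude by `O_out` twice. Otherwise `prof P (ccons A₀ E.Θ) B₀` is in `NN j`, so
  `prof P E.Θ A₀` is `Entry` or not in `Rr`; `safe_normal` gives `Safe .. B₀ none` and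
  `Safe .. N₀ (some A₀)`; use `O_inst`, `Safe.inst` and `O_red` along
  `Red (B₀.inst N₀) (nf (B.inst N))`.
* `lam`: given `u` and `d` with `TagOK`. If the instance of the codomain is not in `NN j`, use the
  hypothesis with `W.null` and `O_out`. Otherwise `ok p d` (if `prof A` has no sign plus it is not
  in `Rr`, nor is its instance, so the tag of `d` is null); then
  `nf (B.inst (var p)) = B₀.inst (var p)` (`WN.nf_rename`), `O_rename`, `O_congr`. -/

namespace Vale.Agent.P340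

universe u
variable {S : Type u} {P : Spec S} [Finite S]

theorem Amb.entry_of {E : Amb P} {j : ℕ} {A B a : Term S} {s : S} {σ : ℕ → Term S}
    (hT : Ty P E.Θ (.pi A B) (.sort s)) (hi : E.idx (prof P E.Θ (.pi A B)) ≤ j)
    (hσ : TS P E.Θ E.Θ σ) (hn : E.NN j (prof P E.Θ ((Term.pi A B).subst σ)))
    (ha : Ty P E.Θ a (A.subst σ)) (hB : E.NN j (prof P E.Θ (B.subst (scons a σ)))) :
    E.NN j (prof P (ccons A E.Θ) B) ∧ (E.Rr j (prof P E.Θ A) → E.Q j true (prof P E.Θ A)) := by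
  obtain ⟨s₁, s₂, hA₀, hB₀, -⟩ := hT.gen_pi_sort
  have nI : E.Node (prof P E.Θ (.pi A B)) := Amb.node_prof ⟨s, mem_prof hT⟩
  have nJ : E.Node (prof P E.Θ A) := Amb.node_prof ⟨s₁, mem_prof hA₀⟩
  have nK : E.Node (prof P (ccons A E.Θ) B) :=
    Amb.node_prof_of (hσ.scons ha) ⟨s₂, mem_prof hB₀⟩
  have pr := pr_pi E.valid A B
  have i1 := Amb.idx_le_of_subset nI hn.1 (prof_subst hσ _)
  have i2 := Amb.idx_le_of_subset nK hB.1 (prof_subst (hσ.scons ha) _)
  have i3 := (Amb.idx_le_of_pr nI nJ nK pr).2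
  rw [hn.2] at i1
  rw [hB.2] at i2
  have hI : E.NN j (prof P E.Θ (.pi A B)) := ⟨nI, le_antisymm hi i1⟩
  have hK : E.NN j (prof P (ccons A E.Θ) B) := ⟨nK, le_antisymm (i3.trans hi) i2⟩
  exact ⟨hK, fun hr => Amb.Entry.q ⟨hr, _, _, hK, hI, pr⟩⟩

theorem Amb.model_B (E : Amb P) (j : ℕ) (h : ¬ E.Forb j) : Nonempty (E.Model j) := by
  obtain ⟨W⟩ : Nonempty (E.BV j) := exists_valSys _ (Amb.wf_tlt (Amb.wf_prec' h)) _ _
  let Pr : ℕ → Prop := fun x => ¬ E.Q j true (prof P E.Θ (E.Θ x))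
  have hk : E.CtxOK j E.Θ Pr := fun x hx _ => Or.inl (not_not.1 hx)
  have heo : ∀ (σ : ℕ → Term S) (v : ℕ → W.V), TS P E.Θ E.Θ σ →
      (∀ x, Pr x → W.tag (v x) = .null) → W.EO E.Θ Pr σ v := by
    intro σ v hσ hv
    refine ⟨hσ, hv, fun x hm => ⟨0, Or.inl (hv x (fun hq => hm.1 ?_))⟩⟩
    exact hq.of_subset (prof_subst hσ _) hm.2.rr
  refine ⟨{
    D := W.V
    null := W.null
    ok := fun p d => Pr p → W.tag d = .null
    ok_null := fun _ _ => Amb.BV.tag_null
    I := fun σ v T => W.O (nf T) σ v []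
    cand := fun σ v T => (W.O_cand (nf T) σ v []).conv ((conv_nf T).subst σ).symm
    out := fun σ v T hT => ?_
    conv := fun σ v T T' c => by rw [c.nf_eq]
    coin := fun σ v σ' v' T w k => by
      rw [Amb.BV.O_congr (fun x hx =>
        ⟨Conv.of_eq (k x (w.free_nf hx)).1, (k x (w.free_nf hx)).2⟩)]
    sort := fun σ v s => by rw [nf_sort]; rfl
    lam := ?_
    app := ?_ }⟩
  · have c := (conv_nf T).subst σ
    rw [Amb.BV.O_out (p := []) (by rwa [apps_nil, ← c.prof_eq]), Amb.wnc_conv c]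
    rfl
  · intro σ v A B s p t hσ _ hT hi hn hfv hp ht k
    have w : WN (Term.pi A B) := E.wn _ _ hT
    have wB : WN B := (wn_pi.1 w).2
    have c : Conv (Term.pi A B) (.pi (nf A) (nf B)) := (conv_nf A).pi (conv_nf B)
    have hT₀ : Ty P E.Θ (.pi (nf A) (nf B)) (.sort s) := w.nf_pi ▸ E.nf_ty hT
    obtain ⟨s₁, s₂, hA₀, -, -⟩ := hT₀.gen_pi_sort
    rw [c.prof_eq] at hi
    rw [(c.subst σ).prof_eq] at hn
    show t ∈ W.O (nf (.pi A B)) σ v []
    rw [w.nf_pi]
    simp only [Amb.BV.O]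
    rw [if_pos hn]
    refine ⟨by rwa [← Amb.wnc_conv (c.subst σ)], ?_⟩
    rintro u Y ⟨hu, d, hd, rfl⟩
    have ha : Ty P E.Θ u.er ((nf A).subst σ) :=
      ((W.O_cand (nf A) σ v []).sub hu).1.ty (hA₀.subst hσ)
    have key : ∀ d', (Pr p → W.tag d' = .null) →
        MT.app t u ∈ W.O (nf B) (scons u.er σ) (scons d' v) [] := by
      intro d' hd'
      obtain ⟨σ', v', h1, h2, h3, h4⟩ := k u hu d' hd'
      have h5 : MT.app t u ∈ W.O (nf (B.inst (.var p))) σ' v' [] := h4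
      rw [inst_var_eq_rename, wB.nf_rename, Amb.BV.O_rename,
        Amb.BV.O_congr (σ' := scons u.er σ) (v' := scons d' v)] at h5
      · exact h5
      · intro x hx
        cases x with
        | zero => exact ⟨Conv.of_eq h2, h3⟩
        | succ x =>
          have := h1 x (hfv x (Or.inr (wB.free_nf hx)))
          exact ⟨Conv.of_eq this.1, this.2⟩
    by_cases hB : E.NN j (prof P E.Θ ((nf B).subst (scons u.er σ)))
    · refine key d (fun hP => hd.1 (fun hq => hP ?_))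
      rw [hp, (conv_nf A).prof_eq]
      exact (Amb.entry_of hT₀ hi hσ hn ha hB).2
        (hq.rr.of_subset (Amb.node_prof ⟨s₁, mem_prof hA₀⟩) (prof_subst hσ _))
    · rw [Amb.BV.O_out_eq (v' := scons W.null v) Conv.rfl hB]
      exact key _ (fun _ => Amb.BV.tag_null)
  · intro σ v A B s N t u hσ hv hT hi hn hN ht hu e
    have w : WN (Term.pi A B) := E.wn _ _ hT
    have wA : WN A := (wn_pi.1 w).1
    have wB : WN B := (wn_pi.1 w).2
    have wN : WN N := E.wn _ _ hN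
    have c : Conv (Term.pi A B) (.pi (nf A) (nf B)) := (conv_nf A).pi (conv_nf B)
    have hT₀ : Ty P E.Θ (.pi (nf A) (nf B)) (.sort s) := w.nf_pi ▸ E.nf_ty hT
    obtain ⟨s₁, s₂, hA₀, hB₀, -⟩ := hT₀.gen_pi_sort
    obtain ⟨t₁, t₂, -, hB₁, -⟩ := hT.gen_pi_sort
    have wI : WN (B.inst N) := E.wn _ _ (hB₁.inst hN)
    rw [c.prof_eq] at hi
    rw [(c.subst σ).prof_eq] at hn
    have hN₀ : Ty P E.Θ N (nf A) := hN.conv hA₀ (conv_nf A)
    have ha : Ty P E.Θ u.er ((nf A).subst σ) := by rw [e]; exact hN₀.subst hσ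
    have ht' : t ∈ W.O (nf (.pi A B)) σ v [] := ht
    rw [w.nf_pi] at ht'
    simp only [Amb.BV.O] at ht'
    rw [if_pos hn] at ht'
    have h1 := ht'.2 u _ ⟨hu, W.canon ((nf A).subst σ) (W.O (nf N) σ v), W.canon_tagOK _ _, rfl⟩
    show MT.app t u ∈ W.O (nf (B.inst N)) σ v []
    by_cases hB : E.NN j (prof P E.Θ ((nf B).subst (scons u.er σ)))
    · obtain ⟨hK, hQ⟩ := Amb.entry_of hT₀ hi hσ hn ha hB
      have hq : E.Fine j (prof P E.Θ (nf A)) := fun hr => Or.inl (hQ hr)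
      have sB : E.Safe j (ccons (nf A) E.Θ) (upPr Pr) (nf B) none :=
        (Amb.safe_normal (E.emb_theta.ccons hA₀) (hk.ccons E.emb_theta hA₀ hq)
          wB.normal_nf).2 hK.1.1 hK.2.le
      have sN : E.Safe j E.Θ Pr (nf N) (some (nf A)) :=
        (Amb.safe_normal E.emb_theta hk wN.normal_nf).1 _ (E.nf_ty hN₀)
          (Or.inl ⟨⟨s₁, mem_prof hA₀⟩, hq⟩)
      have he := heo σ v hσ hv
      rw [← Amb.BV.O_inst sB E.valid hk hA₀ hq sN he ha
        (by rw [e]; exact (conv_nf N).subst σ) Conv.rfl rfl] at h1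
      have r : Red ((nf B).inst (nf N)) (nf (B.inst N)) :=
        wI.normal_nf.red_of_conv (((conv_nf B).inst (conv_nf N)).symm.trans (conv_nf _))
      rw [← Amb.BV.O_red (sB.inst E.emb_theta hk hA₀ hq sN) E.emb_theta hk he r rfl]
      exact h1
    · rw [Amb.BV.O_out_eq ?_ hB]
      · exact h1
      · rw [e, ← inst_subst']
        exact ((conv_nf _).symm.trans ((conv_nf B).inst Conv.rfl)).subst σ

end Vale.Agent.P340
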