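import Vale.Agent.P340.Fund
import Mathlib.Order.FixedPoints

/-! Case P: no odd closed walk in the component `NN j`.

PLAN. Colour the component: `col : Set S → Bool` with `col J = (b == col I)` for every edge
`E.Edge b I J` between elements of `NN j` (fix `I₀` in the component if there is one, put
`col I = true` iff `SP E.Edge true I₀ I`; `NN.reach`). For `X : Term S → Set (MT S)` put
`Φ X T := ` if `¬ NN j (prof T)` then `WNc j T`; else if `nf T = pi A B` then
`Arr j T (fun u Y => u ∈ X A ∧ Y = X (B.inst u.er))`; else `WNc j T`.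
We want `X = Φ X` with all `X T` candidates. Let `tw T Z := if col (prof T) then Z else Zᶜ`,
`X_Y T := if NN j (prof T) then cl j T (tw T (Y T)) else WNc j T` and
`F Y T := tw T (Φ X_Y T)`; `F` is monotone on the complete lattice `Term S → Set (MT S)`:
for `u ∈ X A ⊆ WNc j A` the term `u.er` has type `A` (`has_nf`, generation, `Tyc.ty`), the domain
has the opposite colour and `B.inst u.er` the same colour whenever they are in `NN j`
(`pr_pi_inst`, `node_prof`). For `Y = lfp F`, `X := X_Y` satisfies `X T = Φ X T` by `cand_arr`,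
`Cand.cl_eq`. `Φ X T` only depends on the conversion class of `T`, hence so does `X`.
The model has `D = PUnit` and `I σ v T = X (T.subst σ)`; use `WN.nf_pi`, `open_subst`,
`upSub_inst`, `inst_subst`. -/

namespace Vale.Agent.P340

universe u
variable {S : Type u} {P : Spec S} [Finite S]

namespace Amb

theorem exists_col (E : Amb P) (j : ℕ) (h : ∀ I, E.NN j I → ¬ SP E.Edge false I I) :
    ∃ col : Set S → Bool, ∀ b I J, E.NN j I → E.NN j J → E.Edge b I J →
      col J = (col I == b) := by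
  classical
  by_cases h0 : ∃ I₀, E.NN j I₀
  · obtain ⟨I₀, h0⟩ := h0
    have uniq : ∀ I, E.NN j I → SP E.Edge true I₀ I → SP E.Edge false I₀ I → False := by
      intro I hI a b
      obtain ⟨c, hc⟩ := hI.reach h0
      cases c
      · exact h I₀ h0 (a.trans hc)
      · exact h I₀ h0 (b.trans hc)
    have key : ∀ I b, E.NN j I → SP E.Edge b I₀ I → decide (SP E.Edge true I₀ I) = b := by
      intro I b hI hb
      cases b
      · exact decide_eq_false (fun a => uniq I hI a hb)
      · exact decide_eq_true hb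
    refine ⟨fun I => decide (SP E.Edge true I₀ I), fun b I J hI hJ e => ?_⟩
    obtain ⟨c, hc⟩ := h0.reach hI
    show decide (SP E.Edge true I₀ J) = (decide (SP E.Edge true I₀ I) == b)
    rw [key I c hI hc]
    exact key J _ hJ (hc.tail e)
  · exact ⟨fun _ => true, fun b I J hI => (h0 ⟨I, hI⟩).elim⟩

/-- the operator whose fixed point is the model -/
def phi (E : Amb P) (j : ℕ) (X : Term S → Set (MT S)) (T : Term S) : Set (MT S) :=
  E.Arr j T (fun u Y => E.NN j (prof P E.Θ T) ∧
    ∃ A B, nf T = .pi A B ∧ u ∈ X A ∧ Y = X (B.inst u.er))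

variable {E : Amb P} {j : ℕ}

theorem phi_conv (X : Term S → Set (MT S)) {T T' : Term S} (c : Conv T T') :
    E.phi j X T = E.phi j X T' := by
  unfold phi Arr
  rw [wnc_conv c, c.prof_eq, c.nf_eq]

theorem phi_eq_wnc (X : Term S → Set (MT S)) {T : Term S}
    (h : ¬ E.NN j (prof P E.Θ T) ∨ ¬ ∃ A B, nf T = .pi A B) : E.phi j X T = E.WNc j T := by
  ext t
  refine ⟨fun a => a.1, fun a => ⟨a, ?_⟩⟩
  rintro u Y ⟨h1, A, B, h2, -⟩
  rcases h with h | h
  · exact (h h1).elim
  · exact (h ⟨A, B, h2⟩).elim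

theorem cand_phi {X : Term S → Set (MT S)} (hX : ∀ T, E.Cand j T (X T)) (T : Term S) :
    E.Cand j T (E.phi j X T) := by
  by_cases h : ∃ A B, nf T = .pi A B
  · obtain ⟨A, B, h⟩ := h
    refine cand_arr (A := A) (B := B) (h ▸ conv_nf T) ?_
    rintro u Y ⟨-, A', B', h2, hu, rfl⟩
    rw [h] at h2
    cases h2
    exact ⟨(hX A).sub hu, hX _⟩
  · rw [phi_eq_wnc X (Or.inr h)]
    exact cand_wnc E j T

theorem edges_of_nf {T A B a : Term S} (hT : E.NN j (prof P E.Θ T)) (h : nf T = .pi A B)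
    (ha : E.Tyc a A) : E.Edge false (prof P E.Θ T) (prof P E.Θ A) ∧
      E.Edge true (prof P E.Θ T) (prof P E.Θ (B.inst a)) := by
  obtain ⟨s, hs⟩ := hT.1.1
  have h1 := E.has_nf T s hs
  rw [h] at h1
  obtain ⟨s₁, s₂, hA, -, -⟩ := h1.gen_pi_sort
  have h2 := pr_pi_inst E.valid (ha.ty hA) B
  have c : Conv T (.pi A B) := h ▸ conv_nf T
  rw [← c.prof_eq] at h2
  obtain ⟨n1, n2⟩ := pr_nonempty h2 hT.1.1
  exact ⟨⟨hT.1, node_prof n1, _, node_prof n2, h2⟩,
    ⟨hT.1, node_prof n2, Or.inr ⟨_, node_prof n1, h2⟩⟩⟩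

theorem phi_mono {col : Set S → Bool}
    (hcol : ∀ b I J, E.NN j I → E.NN j J → E.Edge b I J → col J = (col I == b))
    {X X' : Term S → Set (MT S)} (hX' : ∀ T, E.Cand j T (X' T)) (T : Term S)
    (hA : ∀ A, (E.NN j (prof P E.Θ A) → col (prof P E.Θ A) = (col (prof P E.Θ T) == false)) →
      X' A ⊆ X A)
    (hB : ∀ B, (E.NN j (prof P E.Θ B) → col (prof P E.Θ B) = (col (prof P E.Θ T) == true)) →
      X B ⊆ X' B) :
    E.phi j X T ⊆ E.phi j X' T := by
  rintro t ⟨ht, k⟩
  refine ⟨ht, ?_⟩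
  rintro u Y ⟨hT, A, B, h, hu, rfl⟩
  obtain ⟨e1, e2⟩ := edges_of_nf hT h ((hX' A).sub hu).1
  exact hB _ (fun hn => hcol _ _ _ hT hn e2)
    (k u _ ⟨hT, A, B, h, hA A (fun hn => hcol _ _ _ hT hn e1) hu, rfl⟩)

/-- twisting by the colour -/
def tw (b : Bool) (Z : Set (MT S)) : Set (MT S) := bif b then Z else Zᶜ

omit [Finite S] in
theorem tw_tw (b : Bool) (Z : Set (MT S)) : tw b (tw b Z) = Z := by
  cases b <;> simp [tw]

open Classical in
/-- the family of candidates coded by `Y` -/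
noncomputable def xy (E : Amb P) (j : ℕ) (col : Set S → Bool) (Y : Term S → Set (MT S))
    (T : Term S) : Set (MT S) :=
  if E.NN j (prof P E.Θ T) then E.cl j T (tw (col (prof P E.Θ T)) (Y T)) else E.WNc j T

theorem cand_xy (col : Set S → Bool) (Y : Term S → Set (MT S)) (T : Term S) :
    E.Cand j T (E.xy j col Y T) := by
  unfold xy
  split_ifs
  · exact cand_cl E j T _
  · exact cand_wnc E j T

theorem xy_pos {col : Set S → Bool} {Y Y' : Term S → Set (MT S)} (h : Y ≤ Y') {T : Term S}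
    (hT : E.NN j (prof P E.Θ T) → col (prof P E.Θ T) = true) :
    E.xy j col Y T ⊆ E.xy j col Y' T := by
  unfold xy
  split_ifs with h1
  · rw [hT h1]
    exact cl_mono (h T)
  · exact subset_rfl

theorem xy_neg {col : Set S → Bool} {Y Y' : Term S → Set (MT S)} (h : Y ≤ Y') {T : Term S}
    (hT : E.NN j (prof P E.Θ T) → col (prof P E.Θ T) = false) :
    E.xy j col Y' T ⊆ E.xy j col Y T := by
  unfold xy
  split_ifs with h1
  · rw [hT h1]
    exact cl_mono (Set.compl_subset_compl.2 (h T))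
  · exact subset_rfl

theorem exists_fix (E : Amb P) (j : ℕ) (h : ∀ I, E.NN j I → ¬ SP E.Edge false I I) :
    ∃ X : Term S → Set (MT S), (∀ T, E.Cand j T (X T)) ∧ ∀ T, X T = E.phi j X T := by
  obtain ⟨col, hcol⟩ := E.exists_col j h
  have mono : Monotone (fun (Y : Term S → Set (MT S)) (T : Term S) =>
      tw (col (prof P E.Θ T)) (E.phi j (E.xy j col Y) T)) := by
    intro Y Y' hY T
    show tw _ _ ⊆ tw _ _
    cases hc : col (prof P E.Θ T)
    · refine Set.compl_subset_compl.2 (phi_mono hcol (cand_xy col Y) T ?_ ?_)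
      · intro A hA
        exact xy_pos hY (fun hn => by rw [hA hn, hc]; rfl)
      · intro B hB
        exact xy_neg hY (fun hn => by rw [hB hn, hc]; rfl)
    · refine phi_mono hcol (cand_xy col Y') T ?_ ?_
      · intro A hA
        exact xy_neg hY (fun hn => by rw [hA hn, hc]; rfl)
      · intro B hB
        exact xy_pos hY (fun hn => by rw [hB hn, hc]; rfl)
  obtain ⟨Y, hY⟩ : ∃ Y : Term S → Set (MT S), ∀ T,
      tw (col (prof P E.Θ T)) (E.phi j (E.xy j col Y) T) = Y T :=
    ⟨OrderHom.lfp ⟨_, mono⟩, fun T => congrFun (OrderHom.map_lfp ⟨_, mono⟩) T⟩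
  refine ⟨E.xy j col Y, cand_xy col Y, fun T => ?_⟩
  by_cases hT : E.NN j (prof P E.Θ T)
  · have : E.xy j col Y T = E.cl j T (tw (col (prof P E.Θ T)) (Y T)) := by
      unfold xy; rw [if_pos hT]
    rw [this, ← hY T, tw_tw]
    exact (cand_phi (cand_xy col Y) T).cl_eq
  · rw [phi_eq_wnc _ (Or.inl hT)]
    unfold xy; rw [if_neg hT]

end Amb

theorem Amb.model_P (E : Amb P) (j : ℕ) (h : ∀ I, E.NN j I → ¬ SP E.Edge false I I) :
    Nonempty (E.Model j) := by
  obtain ⟨X, hX, hf⟩ := E.exists_fix j h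
  have hc : ∀ T T', Conv T T' → X T = X T' := fun T T' c => by
    rw [hf T, hf T', Amb.phi_conv X c]
  refine ⟨{
    D := PUnit
    null := PUnit.unit
    ok := fun _ _ => True
    ok_null := fun _ => trivial
    I := fun σ _ T => X (T.subst σ)
    cand := fun σ _ T => hX _
    out := fun σ _ T hT => by rw [hf, Amb.phi_eq_wnc X (Or.inl hT)]
    conv := fun σ _ T T' c => hc _ _ (c.subst σ)
    coin := fun σ v σ' v' T _ k => by rw [subst_congr_free (fun x hx => (k x hx).1)]
    sort := fun σ _ s => ?_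
    lam := ?_
    app := ?_ }⟩
  · show X (.sort s) = _
    rw [hf, Amb.phi_eq_wnc X (Or.inr _)]
    rintro ⟨A, B, e⟩
    rw [(normal_sort s).nf_eq] at e
    cases e
  · intro σ v A B s p t _ _ _ _ _ hp _ ht k
    show t ∈ X ((Term.pi A B).subst σ)
    rw [hf]
    refine ⟨ht, ?_⟩
    rintro u Y ⟨-, A', B', e, hu, rfl⟩
    have c : Conv (Term.pi (A.subst σ) (B.subst (upSub σ))) (.pi A' B') :=
      e ▸ conv_nf ((Term.pi A B).subst σ)
    obtain ⟨cA, cB⟩ := c.pi_inj
    obtain ⟨σ', v', h1, h2, -, h3⟩ := k u (by rw [hc _ _ cA]; exact hu) PUnit.unit trivial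
    have e2 : (B.inst (.var p)).subst σ' = (B.subst (upSub σ)).inst u.er := by
      rw [open_subst (fun x hx => hp x (Or.inr hx)) (fun x hx => (h1 x hx).1), upSub_inst, h2]
    rw [← hc _ _ (cB.inst Conv.rfl), ← e2]
    exact h3
  · intro σ v A B s N t u _ _ _ _ hT _ ht hu e
    have w : WN (Term.pi (A.subst σ) (B.subst (upSub σ))) := Amb.wn_of_prof hT.1.1
    have ht' : t ∈ E.phi j X ((Term.pi A B).subst σ) := hf _ ▸ ht
    have := ht'.2 u _ ⟨hT, _, _, w.nf_pi, by rw [← hc _ _ (conv_nf _)]; exact hu, rfl⟩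
    show MT.app t u ∈ X ((B.inst N).subst σ)
    rw [inst_subst, ← e, hc _ _ ((conv_nf (B.subst (upSub σ))).inst Conv.rfl)]
    exact this

end Vale.Agent.P340
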