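import Vale.Agent.P340.Fund

/-! Case U: no product has its profile and the profiles of both components in `NN j`.

PLAN. `D = ULift Bool`, every datum is allowed. Define `W σ ρ T` by structural recursion on the
raw term `T`, always `WNc j (T.subst σ)` when `¬ NN j (prof (T.subst σ))`, and otherwise:
* `W σ ρ (pi A B) = Arr j ((pi A B).subst σ)
     (fun u Y => u ∈ W σ ρ A ∧ ∃ b, Y = W (scons u.er σ) (scons b ρ) B)`;
* if `T` has head variable `x` (write a function `hd : Term S → Option ℕ`):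
  `WNc j (T.subst σ)` if `ρ x = true`, and `cl j (T.subst σ) ∅` if `ρ x = false`;
* `WNc j (T.subst σ)` in the other cases.
`W σ ρ T` is always a candidate at `T.subst σ` (`cand_arr`, `upSub_inst`); it commutes with
renaming, `W σ ρ (T.rename ξ) = W (σ ∘ ξ) (ρ ∘ ξ) T`, and only depends on the free variables.
`I σ ρ T := W σ ρ (nf T)`.

KEY LEMMA (induction on the normal term `T₀`, generalizing `G`, `K`). If `Valid P G`,
`Normal T₀`, `(prof P G T₀).Nonempty`, `E.idx (prof P G T₀) ≤ j`, `K : ℕ → Prop`, then there is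
`b₀ : Bool` such that for all `τ σ' ρ' ρ` with `TS P G E.Θ (fun x => (τ x).subst σ')`,
`WN (T₀.subst τ)` and `∀ x, ¬ K x → ∃ y, τ x = var y ∧ ρ x = ρ' y`, writing
`σ x = (τ x).subst σ'`:
  `(∀ x, K x → ρ x = b₀) → W σ ρ T₀ ⊆ W σ' ρ' (nf (T₀.subst τ))` and
  `(∀ x, K x → ρ x = !b₀) → W σ' ρ' (nf (T₀.subst τ)) ⊆ W σ ρ T₀`.
If no `σ` with `TS P G E.Θ σ` exists there is nothing to prove; otherwise profiles over `G` are
nodes (`node_prof_of`). If `prof P G T₀` is low, all instances are low and both sides are `WNc`.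
Neutral `T₀` with head in `K`: `b₀ = false` (least and greatest candidates); head not in `K`: the
normal form has head `y`, both sides are equal. `T₀ = pi A B` with profile in `NN j`: by `pr_pi`
and the hypothesis of the case, `prof P G A` or `prof P (ccons A G) B` is low, so that side is
`WNc` in all instances. If the domain is low take `b₀` from `B` (context `ccons A G`, `K` shifted,
`upSub τ`, `scons u.er σ'`, `scons b ρ'`), else take the negation of `b₀` from `A`.
`nf ((pi A B).subst τ) = pi (nf ..) (nf ..)` by `WN.nf_pi`.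

`app`: apply the key lemma to `G = ccons (nf A) E.Θ`, `T₀ = nf B`, `K = (· = 0)`,
`τ = single N`. `lam`: `nf (B.inst (var p)) = (nf B).inst (var p)` by `WN.nf_rename`, then the
renaming and coincidence lemmas. -/

namespace Vale.Agent.P340

universe u
variable {S : Type u} {P : Spec S} [Finite S]

namespace CaseU

open Amb

open Classical in
/-- the interpretation of terms that are not products -/
noncomputable def base (E : Amb P) (j : ℕ) (T : Term S) (σ : ℕ → Term S) (ρ : ℕ → Bool) :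
    Set (MT S) :=
  if E.NN j (prof P E.Θ (T.subst σ)) ∧ ∃ x, HeadVar x T ∧ ρ x = false then
    E.cl j (T.subst σ) ∅ else E.WNc j (T.subst σ)

open Classical in
/-- the interpretation of raw terms -/
noncomputable def W (E : Amb P) (j : ℕ) : Term S → (ℕ → Term S) → (ℕ → Bool) → Set (MT S)
  | .pi A B, σ, ρ =>
    if E.NN j (prof P E.Θ ((Term.pi A B).subst σ)) then
      E.Arr j ((Term.pi A B).subst σ)
        (fun u Y => u ∈ W E j A σ ρ ∧ ∃ b, Y = W E j B (scons u.er σ) (scons b ρ))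
    else E.WNc j ((Term.pi A B).subst σ)
  | .var n, σ, ρ => base E j (.var n) σ ρ
  | .sort s, σ, ρ => base E j (.sort s) σ ρ
  | .app M N, σ, ρ => base E j (.app M N) σ ρ
  | .lam M N, σ, ρ => base E j (.lam M N) σ ρ

variable {E : Amb P} {j : ℕ}

theorem base_cand (T : Term S) (σ : ℕ → Term S) (ρ : ℕ → Bool) :
    E.Cand j (T.subst σ) (base E j T σ ρ) := by
  unfold base
  split_ifs
  · exact cand_cl E j _ _
  · exact cand_wnc E j _

theorem W_pi_pos {A B : Term S} {σ : ℕ → Term S} (ρ : ℕ → Bool)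
    (h : E.NN j (prof P E.Θ ((Term.pi A B).subst σ))) :
    W E j (.pi A B) σ ρ = E.Arr j ((Term.pi A B).subst σ)
      (fun u Y => u ∈ W E j A σ ρ ∧ ∃ b, Y = W E j B (scons u.er σ) (scons b ρ)) := by
  rw [W, if_pos h]

theorem W_cand (T : Term S) (σ : ℕ → Term S) (ρ : ℕ → Bool) :
    E.Cand j (T.subst σ) (W E j T σ ρ) := by
  induction T generalizing σ ρ with
  | var n => exact base_cand _ _ _
  | sort s => exact base_cand _ _ _
  | app M N => exact base_cand _ _ _
  | lam M N => exact base_cand _ _ _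
  | pi A B ih1 ih2 =>
    rw [W]
    split_ifs
    · refine cand_arr (A := A.subst σ) (B := B.subst (upSub σ)) Conv.rfl ?_
      rintro u Y ⟨hu, b, rfl⟩
      refine ⟨(ih1 σ ρ).sub hu, ?_⟩
      rw [upSub_inst]
      exact ih2 _ _
    · exact cand_wnc E j _

theorem W_out {T : Term S} {σ : ℕ → Term S} (ρ : ℕ → Bool)
    (h : ¬ E.NN j (prof P E.Θ (T.subst σ))) : W E j T σ ρ = E.WNc j (T.subst σ) := by
  have hb : base E j T σ ρ = E.WNc j (T.subst σ) := by
    unfold base
    rw [if_neg (fun k => h k.1)]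
  cases T with
  | var n => exact hb
  | sort s => exact hb
  | app M N => exact hb
  | lam M N => exact hb
  | pi A B => rw [W, if_neg h]

theorem W_sort (s : S) (σ : ℕ → Term S) (ρ : ℕ → Bool) :
    W E j (.sort s) σ ρ = E.WNc j (.sort s) := by
  rw [W, base, if_neg]
  · rfl
  · rintro ⟨-, x, hx, -⟩
    cases hx

theorem W_head {T : Term S} {x : ℕ} (hx : HeadVar x T) (σ : ℕ → Term S) (ρ : ℕ → Bool) :
    W E j T σ ρ = base E j T σ ρ := by
  cases hx <;> rfl

omit [Finite S] in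
theorem headVar_of_rename {T : Term S} {ξ : ℕ → ℕ} {y : ℕ} (h : HeadVar y (T.rename ξ)) :
    ∃ x, HeadVar x T ∧ ξ x = y := by
  induction T with
  | var n => cases h; exact ⟨n, .var, rfl⟩
  | sort s => cases h
  | app M N ih _ =>
    cases h with
    | app _ h =>
      obtain ⟨x, hx, e⟩ := ih h
      exact ⟨x, .app _ hx, e⟩
  | lam M N => cases h
  | pi M N => cases h

theorem base_rename (T : Term S) (ξ : ℕ → ℕ) (σ : ℕ → Term S) (ρ : ℕ → Bool) :
    base E j (T.rename ξ) σ ρ = base E j T (fun n => σ (ξ n)) (fun n => ρ (ξ n)) := by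
  have e : (∃ x, HeadVar x (T.rename ξ) ∧ ρ x = false) ↔ ∃ x, HeadVar x T ∧ ρ (ξ x) = false := by
    constructor
    · rintro ⟨y, hy, e⟩
      obtain ⟨x, hx, rfl⟩ := headVar_of_rename hy
      exact ⟨x, hx, e⟩
    · rintro ⟨x, hx, e⟩
      exact ⟨ξ x, hx.rename ξ, e⟩
  unfold base
  rw [subst_rename, e]

theorem scons_upRen {α : Type*} (a : α) (f : ℕ → α) (ξ : ℕ → ℕ) :
    (fun n => scons a f (upRen ξ n)) = scons a (fun n => f (ξ n)) := by
  funext n; cases n <;> rfl

theorem W_rename (T : Term S) (ξ : ℕ → ℕ) (σ : ℕ → Term S) (ρ : ℕ → Bool) :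
    W E j (T.rename ξ) σ ρ = W E j T (fun n => σ (ξ n)) (fun n => ρ (ξ n)) := by
  induction T generalizing ξ σ ρ with
  | var n => exact base_rename (.var n) ξ σ ρ
  | sort s => exact base_rename (.sort s) ξ σ ρ
  | app M N => exact base_rename (.app M N) ξ σ ρ
  | lam M N => exact base_rename (.lam M N) ξ σ ρ
  | pi A B ih1 ih2 =>
    have e : (Term.pi (A.rename ξ) (B.rename (upRen ξ))).subst σ =
        (Term.pi A B).subst (fun n => σ (ξ n)) := subst_rename (.pi A B) ξ σ
    rw [rename_pi, W, W, e]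
    simp only [ih1, ih2, scons_upRen]

theorem base_coin {T : Term S} {σ σ' : ℕ → Term S} {ρ ρ' : ℕ → Bool}
    (h : ∀ x, Free x T → σ x = σ' x ∧ ρ x = ρ' x) : base E j T σ ρ = base E j T σ' ρ' := by
  have e : (∃ x, HeadVar x T ∧ ρ x = false) ↔ ∃ x, HeadVar x T ∧ ρ' x = false := by
    constructor
    · rintro ⟨x, hx, e⟩
      exact ⟨x, hx, (h x hx.free).2 ▸ e⟩
    · rintro ⟨x, hx, e⟩
      exact ⟨x, hx, (h x hx.free).2.trans e⟩
  unfold base
  rw [subst_congr_free (fun x hx => (h x hx).1), e]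

theorem W_coin {T : Term S} {σ σ' : ℕ → Term S} {ρ ρ' : ℕ → Bool}
    (h : ∀ x, Free x T → σ x = σ' x ∧ ρ x = ρ' x) : W E j T σ ρ = W E j T σ' ρ' := by
  induction T generalizing σ σ' ρ ρ' with
  | var n => exact base_coin h
  | sort s => exact base_coin h
  | app M N => exact base_coin h
  | lam M N => exact base_coin h
  | pi A B ih1 ih2 =>
    have e1 : W E j A σ ρ = W E j A σ' ρ' := ih1 (fun x hx => h x (Or.inl hx))
    have e2 : ∀ (a : Term S) (b : Bool),
        W E j B (scons a σ) (scons b ρ) = W E j B (scons a σ') (scons b ρ') := by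
      intro a b
      refine ih2 (fun x hx => ?_)
      cases x with
      | zero => exact ⟨rfl, rfl⟩
      | succ x => exact h x (Or.inr hx)
    rw [W, W, subst_congr_free (M := .pi A B) (fun x hx => (h x hx).1)]
    simp only [e1, e2]

/-- the conclusion of the key lemma -/
def Good (E : Amb P) (j : ℕ) (G : ℕ → Term S) (K : ℕ → Prop) (T : Term S) (b : Bool) : Prop :=
  ∀ (τ σ' : ℕ → Term S) (ρ' ρ : ℕ → Bool), TS P G E.Θ (fun x => (τ x).subst σ') →
    WN (T.subst τ) → (∀ x, ¬ K x → ∃ y, τ x = .var y ∧ ρ x = ρ' y) →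
    ((∀ x, K x → ρ x = b) →
      W E j T (fun x => (τ x).subst σ') ρ ⊆ W E j (nf (T.subst τ)) σ' ρ') ∧
    ((∀ x, K x → ρ x = !b) →
      W E j (nf (T.subst τ)) σ' ρ' ⊆ W E j T (fun x => (τ x).subst σ') ρ)

omit [Finite S] in
theorem conv_inst (T : Term S) (τ σ' : ℕ → Term S) :
    Conv (T.subst (fun x => (τ x).subst σ')) ((nf (T.subst τ)).subst σ') := by
  rw [← subst_subst]
  exact (conv_nf _).subst σ'

theorem eq_of_out {T : Term S} {τ σ' : ℕ → Term S} (ρ' ρ : ℕ → Bool)
    (h : ¬ E.NN j (prof P E.Θ (T.subst (fun x => (τ x).subst σ')))) :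
    W E j T (fun x => (τ x).subst σ') ρ = W E j (nf (T.subst τ)) σ' ρ' := by
  have c := conv_inst T τ σ'
  rw [W_out ρ h, W_out ρ' (by rw [← c.prof_eq]; exact h), wnc_conv c]

theorem good_low {G : ℕ → Term S} {K : ℕ → Prop} {T : Term S} (b : Bool)
    (hne : (prof P G T).Nonempty) (hle : E.idx (prof P G T) ≤ j)
    (hl : ¬ E.NN j (prof P G T)) : Good E j G K T b := by
  intro τ σ' ρ' ρ hσ _ _
  have hn : E.Node (prof P G T) := node_prof_of hσ hne
  have hsub := prof_subst hσ T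
  have h : ¬ E.NN j (prof P E.Θ (T.subst (fun x => (τ x).subst σ'))) := by
    intro k
    have := idx_le_of_subset hn k.1 hsub
    exact hl ⟨hn, le_antisymm hle (k.2 ▸ this)⟩
  rw [eq_of_out ρ' ρ h]
  exact ⟨fun _ => subset_rfl, fun _ => subset_rfl⟩

theorem good_sort (G : ℕ → Term S) (K : ℕ → Prop) (s : S) (b : Bool) :
    Good E j G K (.sort s) b := by
  intro τ σ' ρ' ρ _ _ _
  rw [subst_sort, nf_sort, W_sort, W_sort]
  exact ⟨fun _ => subset_rfl, fun _ => subset_rfl⟩

theorem good_head (G : ℕ → Term S) (K : ℕ → Prop) {T : Term S} {x : ℕ} (hx : HeadVar x T) :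
    Good E j G K T false := by
  intro τ σ' ρ' ρ _ hw hK
  have c := conv_inst T τ σ'
  by_cases hN : E.NN j (prof P E.Θ (T.subst (fun x => (τ x).subst σ')))
  swap
  · rw [eq_of_out ρ' ρ hN]
    exact ⟨fun _ => subset_rfl, fun _ => subset_rfl⟩
  by_cases hk : K x
  · constructor
    · intro hρ
      rw [W_head hx, base, if_pos ⟨hN, x, hx, hρ x hk⟩]
      exact cl_empty_sub ((W_cand _ σ' ρ').conv c.symm)
    · intro hρ
      rw [W_head hx, base, if_neg]
      · exact ((W_cand _ σ' ρ').conv c.symm).sub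
      · rintro ⟨-, y, hy, e⟩
        obtain rfl := hx.unique hy
        rw [hρ x hk] at e
        cases e
  · obtain ⟨y, e1, e2⟩ := hK x hk
    have hy : HeadVar y (nf (T.subst τ)) :=
      hw.headVar_nf (hx.subst (by rw [e1]; exact .var))
    have e : W E j T (fun x => (τ x).subst σ') ρ = W E j (nf (T.subst τ)) σ' ρ' := by
      have e3 : (∃ z, HeadVar z T ∧ ρ z = false) ↔
          ∃ z, HeadVar z (nf (T.subst τ)) ∧ ρ' z = false := by
        constructor
        · rintro ⟨z, hz, e⟩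
          obtain rfl := hx.unique hz
          exact ⟨y, hy, e2 ▸ e⟩
        · rintro ⟨z, hz, e⟩
          obtain rfl := hy.unique hz
          exact ⟨x, hx, e2.trans e⟩
      rw [W_head hx, W_head hy, base, base, ← c.prof_eq, e3, ← cl_conv c, ← wnc_conv c]
    rw [e]
    exact ⟨fun _ => subset_rfl, fun _ => subset_rfl⟩

omit [Finite S] in
theorem upSub_scons (τ σ' : ℕ → Term S) (a : Term S) :
    (fun x => (upSub τ x).subst (scons a σ')) = scons a (fun x => (τ x).subst σ') := by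
  funext x
  cases x <;> simp

theorem good_pi {G : ℕ → Term S} {K : ℕ → Prop} {A B : Term S} {s₁ : S} {b : Bool}
    (hA : Ty P G A (.sort s₁)) (h1 : Good E j G K A (!b))
    (h2 : Good E j (ccons A G) (scons False K) B b) : Good E j G K (.pi A B) b := by
  intro τ σ' ρ' ρ hσ hw hK
  have c := conv_inst (.pi A B) τ σ'
  by_cases hN : E.NN j (prof P E.Θ ((Term.pi A B).subst (fun x => (τ x).subst σ')))
  swap
  · rw [eq_of_out ρ' ρ hN]
    exact ⟨fun _ => subset_rfl, fun _ => subset_rfl⟩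
  have hw' : WN (Term.pi (A.subst τ) (B.subst (upSub τ))) := hw
  have enf : nf ((Term.pi A B).subst τ) = .pi (nf (A.subst τ)) (nf (B.subst (upSub τ))) :=
    hw'.nf_pi
  rw [enf] at c ⊢
  have hN' : E.NN j (prof P E.Θ
      ((Term.pi (nf (A.subst τ)) (nf (B.subst (upSub τ)))).subst σ')) := by
    rw [← c.prof_eq]; exact hN
  obtain ⟨a1, a2⟩ := h1 τ σ' ρ' ρ hσ (wn_pi.1 hw').1 hK
  have hB : ∀ u ∈ W E j A (fun x => (τ x).subst σ') ρ, ∀ d : Bool,
      ((∀ x, K x → ρ x = b) →
        W E j B (scons u.er (fun x => (τ x).subst σ')) (scons d ρ) ⊆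
          W E j (nf (B.subst (upSub τ))) (scons u.er σ') (scons d ρ')) ∧
      ((∀ x, K x → ρ x = !b) →
        W E j (nf (B.subst (upSub τ))) (scons u.er σ') (scons d ρ') ⊆
          W E j B (scons u.er (fun x => (τ x).subst σ')) (scons d ρ)) := by
    intro u hu d
    have hty : Ty P E.Θ u.er (A.subst (fun x => (τ x).subst σ')) :=
      ((W_cand A _ ρ).sub hu).1.ty (hA.subst hσ)
    have key := h2 (upSub τ) (scons u.er σ') (scons d ρ') (scons d ρ) ?_ (wn_pi.1 hw').2 ?_
    · rw [upSub_scons] at key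
      refine ⟨fun hρ => key.1 (fun x hx => ?_), fun hρ => key.2 (fun x hx => ?_)⟩
      · cases x with
        | zero => exact hx.elim
        | succ x => exact hρ x hx
      · cases x with
        | zero => exact hx.elim
        | succ x => exact hρ x hx
    · rw [upSub_scons]
      exact hσ.scons hty
    · intro x hx
      cases x with
      | zero => exact ⟨0, rfl, rfl⟩
      | succ x =>
        obtain ⟨y, e1, e2⟩ := hK x hx
        exact ⟨y + 1, by rw [upSub_succ, e1]; rfl, e2⟩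
  rw [W_pi_pos ρ hN, W_pi_pos ρ' hN']
  constructor
  · rintro hρ t ⟨t1, t2⟩
    refine ⟨by rw [← wnc_conv c]; exact t1, ?_⟩
    rintro u Y ⟨hu, d, rfl⟩
    have hu' := a2 (fun x hx => by rw [hρ x hx, Bool.not_not]) hu
    exact (hB u hu' d).1 hρ (t2 u _ ⟨hu', d, rfl⟩)
  · rintro hρ t ⟨t1, t2⟩
    refine ⟨by rw [wnc_conv c]; exact t1, ?_⟩
    rintro u Y ⟨hu, d, rfl⟩
    exact (hB u hu d).2 hρ (t2 u _ ⟨a1 hρ hu, d, rfl⟩)

/-- the key lemma -/
theorem key (h : ∀ J K I, E.NN j J → E.NN j K → E.NN j I → ¬ PR P J K I) (T : Term S) :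
    ∀ (G : ℕ → Term S) (K : ℕ → Prop), Valid P G → Normal T → (prof P G T).Nonempty →
      E.idx (prof P G T) ≤ j → ∃ b, Good E j G K T b := by
  have neu : ∀ (T : Term S) (G : ℕ → Term S) (K : ℕ → Prop), Valid P G → Normal T →
      (prof P G T).Nonempty → (∀ s, T ≠ .sort s) → (∀ A B, T ≠ .pi A B) →
      ∃ b, Good E j G K T b := by
    rintro T G K hG hn ⟨s, hs⟩ n1 n2
    have hT := has_prof_normal hG hn s hs
    rcases hT.normal_shape hn with ⟨s, e⟩ | ⟨A, B, e⟩ | ⟨A, N, rfl⟩ | ⟨x, hx⟩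
    · exact (n1 s e).elim
    · exact (n2 A B e).elim
    · obtain ⟨B, s', -, -, c⟩ := hT.gen_lam
      exact c.sort_pi.elim
    · exact ⟨false, good_head G K hx⟩
  induction T with
  | var n =>
    intro G K hG hn hne _
    exact neu _ G K hG hn hne (fun _ e => by cases e) (fun _ _ e => by cases e)
  | sort s => exact fun G K _ _ _ _ => ⟨true, good_sort G K s true⟩
  | app M N =>
    intro G K hG hn hne _
    exact neu _ G K hG hn hne (fun _ e => by cases e) (fun _ _ e => by cases e)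
  | lam M N =>
    intro G K hG hn hne _
    exact neu _ G K hG hn hne (fun _ e => by cases e) (fun _ _ e => by cases e)
  | pi A B ih1 ih2 =>
    intro G K hG hn hne hle
    by_cases hex : ∃ σ, TS P G E.Θ σ
    swap
    · exact ⟨true, fun τ σ' _ _ hσ => (hex ⟨_, hσ⟩).elim⟩
    obtain ⟨σ, hσ⟩ := hex
    by_cases hI : E.NN j (prof P G (.pi A B))
    swap
    · exact ⟨true, good_low true hne hle hI⟩
    obtain ⟨s, hs⟩ := hne
    obtain ⟨s₁, s₂, hA, hB, -⟩ := (has_prof_normal hG hn s hs).gen_pi_sort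
    have hpr := pr_pi hG A B
    have nA : (prof P G A).Nonempty := ⟨s₁, mem_prof hA⟩
    have nB : (prof P (ccons A G) B).Nonempty := ⟨s₂, mem_prof hB⟩
    obtain ⟨p, -, hp⟩ := E.sat _ s₁ 0 (hA.subst hσ)
    have hσ' : TS P (ccons A G) E.Θ (scons (.var p) σ) :=
      hσ.scons (by rw [← hp]; exact .var p)
    obtain ⟨l1, l2⟩ := idx_le_of_pr hI.1 (node_prof_of hσ nA) (node_prof_of hσ' nB) hpr
    have lA := l1.trans hle
    have lB := l2.trans hle
    by_cases hJ : E.NN j (prof P G A)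
    · have hK : ¬ E.NN j (prof P (ccons A G) B) := fun k => h _ _ _ hJ k hI hpr
      obtain ⟨b, hb⟩ := ih1 G K hG (normal_pi.1 hn).1 nA lA
      exact ⟨!b, good_pi hA (by rw [Bool.not_not]; exact hb) (good_low _ nB lB hK)⟩
    · obtain ⟨b, hb⟩ := ih2 (ccons A G) (scons False K) (hG.ccons hA) (normal_pi.1 hn).2 nB lB
      exact ⟨b, good_pi hA (good_low _ nA lA hJ) hb⟩

theorem W_lam {σ : ℕ → Term S} {ρ : ℕ → Bool} {A B : Term S} {s : S} {p : ℕ} {t : MT S}
    (hT : Ty P E.Θ (.pi A B) (.sort s)) (hN : E.NN j (prof P E.Θ ((Term.pi A B).subst σ)))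
    (hp : FVlt p (.pi A B)) (ht : t ∈ E.WNc j ((Term.pi A B).subst σ))
    (h : ∀ u ∈ W E j (nf A) σ ρ, ∀ d : Bool, ∃ σ' ρ', (∀ x < p, σ' x = σ x ∧ ρ' x = ρ x) ∧
      σ' p = u.er ∧ ρ' p = d ∧ MT.app t u ∈ W E j (nf (B.inst (.var p))) σ' ρ') :
    t ∈ W E j (nf (.pi A B)) σ ρ := by
  have hw := E.wn _ _ hT
  have c := (conv_nf (Term.pi A B)).subst σ
  rw [hw.nf_pi] at c ⊢
  rw [W_pi_pos ρ (by rw [← c.prof_eq]; exact hN)]
  refine ⟨by rw [← wnc_conv c]; exact ht, ?_⟩
  rintro u Y ⟨hu, d, rfl⟩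
  obtain ⟨σ', ρ', h1, h2, h3, h4⟩ := h u hu d
  rw [inst_var_eq_rename, (wn_pi.1 hw).2.nf_rename, W_rename] at h4
  rw [W_coin (σ' := fun n => σ' (scons p (fun n => n) n))
    (ρ' := fun n => ρ' (scons p (fun n => n) n))]
  · exact h4
  · intro x hx
    cases x with
    | zero => exact ⟨h2.symm, h3.symm⟩
    | succ x =>
      have := h1 x (hp x (Or.inr ((wn_pi.1 hw).2.free_nf hx)))
      exact ⟨this.1.symm, this.2.symm⟩

theorem W_app (h : ∀ J K I, E.NN j J → E.NN j K → E.NN j I → ¬ PR P J K I)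
    {σ : ℕ → Term S} {ρ : ℕ → Bool} {A B N : Term S} {s : S} {t u : MT S}
    (hσ : TS P E.Θ E.Θ σ) (hT : Ty P E.Θ (.pi A B) (.sort s))
    (hle : E.idx (prof P E.Θ (.pi A B)) ≤ j)
    (hN : E.NN j (prof P E.Θ ((Term.pi A B).subst σ))) (hty : Ty P E.Θ N A)
    (ht : t ∈ W E j (nf (.pi A B)) σ ρ) (hu : u ∈ W E j (nf A) σ ρ) (e : u.er = N.subst σ) :
    MT.app t u ∈ W E j (nf (B.inst N)) σ ρ := by
  have hw := E.wn _ _ hT
  have c0 := conv_nf (Term.pi A B)
  have c := c0.subst σ
  have hT' := E.nf_ty hT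
  rw [hw.nf_pi] at c0 c ht hT'
  rw [W_pi_pos ρ (by rw [← c.prof_eq]; exact hN)] at ht
  obtain ⟨s₁, s₂, hA, hB, -⟩ := hT'.gen_pi_sort
  have hty' : Ty P E.Θ N (nf A) := .conv hty hA (conv_nf A)
  have nA : (prof P E.Θ (nf A)).Nonempty := ⟨s₁, mem_prof hA⟩
  have nB : (prof P (ccons (nf A) E.Θ) (nf B)).Nonempty := ⟨s₂, mem_prof hB⟩
  have nI : (prof P E.Θ (.pi (nf A) (nf B))).Nonempty := ⟨s, mem_prof hT'⟩
  have lB := (idx_le_of_pr (node_prof nI) (node_prof nA) (node_prof_of (TS.single hty') nB)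
    (pr_pi E.valid (nf A) (nf B))).2
  rw [← c0.prof_eq] at lB
  obtain ⟨b, hb⟩ := key h (nf B) (ccons (nf A) E.Θ) (fun x => x = 0) (E.valid.ccons hA)
    (wn_pi.1 hw).2.normal_nf nB (lB.trans hle)
  have k := (hb (single N) σ ρ (scons b ρ) ((TS.single hty').comp hσ) (E.wn _ _ (hB.inst hty'))
    (fun x hx => by
      cases x with
      | zero => exact (hx rfl).elim
      | succ x => exact ⟨x, rfl, rfl⟩)).1 (fun x hx => by subst hx; rfl)
  have e1 : (fun x => (single N x).subst σ) = scons u.er σ := by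
    funext x
    cases x with
    | zero => exact e.symm
    | succ x => rfl
  have e2 : nf ((nf B).subst (single N)) = nf (B.inst N) :=
    ((conv_nf B).symm.inst Conv.rfl).nf_eq
  rw [e1, e2] at k
  exact k (ht.2 u _ ⟨hu, b, rfl⟩)

end CaseU

open CaseU in
theorem Amb.model_U (E : Amb P) (j : ℕ)
    (h : ∀ J K I, E.NN j J → E.NN j K → E.NN j I → ¬ PR P J K I) :
    Nonempty (E.Model j) := by
  refine ⟨{
    D := ULift.{u} Bool
    null := ⟨true⟩
    ok := fun _ _ => True
    ok_null := fun _ => trivial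
    I := fun σ v T => W E j (nf T) σ (fun x => (v x).down)
    cand := fun σ v T => (W_cand _ σ _).conv ((conv_nf T).subst σ).symm
    out := fun σ v T hT => ?_
    conv := fun σ v T T' c => by rw [c.nf_eq]
    coin := fun σ v σ' v' T hw hx => W_coin (fun x k => ?_)
    sort := fun σ v s => by rw [nf_sort, W_sort]
    lam := fun σ v A B s p t _ _ hT _ hN hp _ ht hu => W_lam hT hN hp ht (fun u k d => ?_)
    app := fun σ v A B s N t u hσ _ hT hle hN hty ht hu e =>
      W_app h hσ hT hle hN hty ht hu e }⟩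
  · have c := (conv_nf T).subst σ
    rw [W_out _ (by rw [← c.prof_eq]; exact hT), Amb.wnc_conv c]
  · have := hx x (hw.free_nf k)
    exact ⟨this.1, by rw [this.2]⟩
  · obtain ⟨σ', v', h1, h2, h3, h4⟩ := hu u k ⟨d⟩ trivial
    exact ⟨σ', fun x => (v' x).down,
      fun x hx => ⟨(h1 x hx).1, congrArg ULift.down (h1 x hx).2⟩, h2,
      congrArg ULift.down h3, h4⟩

end Vale.Agent.P340
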