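import Vale.Agent.P340.Kit

/-! Coders along the signed paths of the graph of kinds. For a kind `Z` of node `Y`, `W γ Z` is a
kind of node `X`. From a predicate `ψ` on `Z` (a formula under a binder of type `Z`) and a point
`z : Z` one gets an element `el` of `W γ Z` and a predicate `pr` on `W γ Z`. For `b = true`, `el`
only depends on `z` and `pr` on `ψ`; for `b = false` it is the converse. -/

namespace Vale.Agent.P340

universe u
variable {S : Type u} {P : Spec S} [Finite S]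

namespace Amb
variable {E : Amb P} {j : ℕ}

def CArg (k : E.Kit j) : Bool → (ℕ → Term S) → Term S → LT S → LT S → Prop
  | true, G, Z, _, z => Ty P G z.tm Z
  | false, G, Z, ψ, _ => Has P (ccons Z G) k.F ψ.tm

def CSame : Bool → LT S → LT S → LT S → LT S → Prop
  | true, _, z, _, z' => z = z'
  | false, ψ, _, ψ', _ => ψ = ψ'

structure Coder (k : E.Kit j) (b : Bool) (X Y : Set S) where
  W : (ℕ → Term S) → Term S → Term S
  el : (ℕ → Term S) → Term S → LT S → LT S → LT S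
  pr : (ℕ → Term S) → Term S → LT S → LT S → LT S
  natW : ∀ γ Z σ, (W γ Z).subst σ = W (gsub γ σ) (Z.subst σ)
  natEl : ∀ γ Z ψ z θ, (el γ Z ψ z).subst θ =
    el (gsub γ (tmS θ)) (Z.subst (tmS θ)) (ψ.subst (LT.up θ)) (z.subst θ)
  natPr : ∀ γ Z ψ z θ, (pr γ Z ψ z).subst (LT.up θ) =
    pr (gsub γ (tmS θ)) (Z.subst (tmS θ)) (ψ.subst (LT.up θ)) (z.subst θ)
  tyW : ∀ G γ Z, TS P E.Θ G γ → Has P G Y Z → Has P G X (W γ Z)
  tyEl : ∀ G γ Z ψ z, TS P E.Θ G γ → Has P G Y Z → CArg k b G Z ψ z →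
    Ty P G (el γ Z ψ z).tm (W γ Z)
  tyPr : ∀ G γ Z ψ z, TS P E.Θ G γ → Has P G Y Z → CArg k (!b) G Z ψ z →
    Has P (ccons (W γ Z) G) k.F (pr γ Z ψ z).tm
  indEl : ∀ γ Z ψ z ψ' z', CSame b ψ z ψ' z' → el γ Z ψ z = el γ Z ψ' z'
  indPr : ∀ γ Z ψ z ψ' z', CSame (!b) ψ z ψ' z' → pr γ Z ψ z = pr γ Z ψ' z'
  law : ∀ (w : E.World) Z ψ z, Has P w.G Y Z → Ty P w.G z.tm Z → Has P (ccons Z w.G) k.F ψ.tm →
    w.Eqv j ((pr w.γ Z ψ z).inst (el w.γ Z ψ z)) (ψ.inst z)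

variable {k : E.Kit j} {X Y Z : Set S}

/-- `el = C₁.el γ (C₂.W γ T) (C₂.pr γ T ψ z) (C₂.el γ T ψ z)` and the same for `pr`. -/
theorem Coder.comp {b₁ b₂ : Bool} (C₁ : Coder k b₁ X Y) (C₂ : Coder k b₂ Y Z) :
    ∃ C : Coder k (b₁ == b₂) X Z, ∀ γ T, C.W γ T = C₁.W γ (C₂.W γ T) := by
  refine ⟨{
    W := fun γ T => C₁.W γ (C₂.W γ T)
    el := fun γ T ψ z => C₁.el γ (C₂.W γ T) (C₂.pr γ T ψ z) (C₂.el γ T ψ z)
    pr := fun γ T ψ z => C₁.pr γ (C₂.W γ T) (C₂.pr γ T ψ z) (C₂.el γ T ψ z)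
    natW := ?_, natEl := ?_, natPr := ?_, tyW := ?_, tyEl := ?_, tyPr := ?_
    indEl := ?_, indPr := ?_, law := ?_ }, fun _ _ => rfl⟩
  · intro γ T σ; rw [C₁.natW, C₂.natW]
  · intro γ T ψ z θ; rw [C₁.natEl, C₂.natW, C₂.natPr, C₂.natEl]
  · intro γ T ψ z θ; rw [C₁.natPr, C₂.natW, C₂.natPr, C₂.natEl]
  · intro G γ T h hT; exact C₁.tyW _ _ _ h (C₂.tyW _ _ _ h hT)
  · intro G γ T ψ z h hT ha
    refine C₁.tyEl _ _ _ _ _ h (C₂.tyW _ _ _ h hT) ?_
    cases b₁ <;> cases b₂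
    exacts [C₂.tyPr _ _ _ _ _ h hT ha, C₂.tyPr _ _ _ _ _ h hT ha,
      C₂.tyEl _ _ _ _ _ h hT ha, C₂.tyEl _ _ _ _ _ h hT ha]
  · intro G γ T ψ z h hT ha
    refine C₁.tyPr _ _ _ _ _ h (C₂.tyW _ _ _ h hT) ?_
    cases b₁ <;> cases b₂
    exacts [C₂.tyEl _ _ _ _ _ h hT ha, C₂.tyEl _ _ _ _ _ h hT ha,
      C₂.tyPr _ _ _ _ _ h hT ha, C₂.tyPr _ _ _ _ _ h hT ha]
  · intro γ T ψ z ψ' z' ha
    refine C₁.indEl _ _ _ _ _ _ ?_
    cases b₁ <;> cases b₂
    exacts [C₂.indPr _ _ _ _ _ _ ha, C₂.indPr _ _ _ _ _ _ ha,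
      C₂.indEl _ _ _ _ _ _ ha, C₂.indEl _ _ _ _ _ _ ha]
  · intro γ T ψ z ψ' z' ha
    refine C₁.indPr _ _ _ _ _ _ ?_
    cases b₁ <;> cases b₂
    exacts [C₂.indEl _ _ _ _ _ _ ha, C₂.indEl _ _ _ _ _ _ ha,
      C₂.indPr _ _ _ _ _ _ ha, C₂.indPr _ _ _ _ _ _ ha]
  · intro w T ψ z hT hz hψ
    have a1 : ∀ b, CArg k b w.G T ψ z := fun b => by cases b; exacts [hψ, hz]
    exact (C₁.law w _ _ _ (C₂.tyW _ _ _ w.ts hT) (C₂.tyEl _ _ _ _ _ w.ts hT (a1 _))
      (C₂.tyPr _ _ _ _ _ w.ts hT (a1 _))).trans (C₂.law w T ψ z hT hz hψ)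

/-- `W γ T = T`, `el = z`, `pr = ψ`. -/
theorem coder_incl (k : E.Kit j) (h : X ⊆ Y) : Nonempty (Coder k true X Y) :=
  ⟨{ W := fun _ T => T
     el := fun _ _ _ z => z
     pr := fun _ _ ψ _ => ψ
     natW := fun _ _ _ => rfl
     natEl := fun _ _ _ _ _ => rfl
     natPr := fun _ _ _ _ _ => rfl
     tyW := fun _ _ _ _ hT s hs => hT s (h hs)
     tyEl := fun _ _ _ _ _ _ _ ha => ha
     tyPr := fun _ _ _ _ _ _ _ ha => ha
     indEl := fun _ _ _ _ _ _ ha => ha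
     indPr := fun _ _ _ _ _ _ ha => ha
     law := fun w _ _ _ _ _ _ => World.Eqv.refl w j _ }⟩

theorem eqv_conv_k {w : E.World} {a b : LT S} (c : LT.Conv a b)
    (ha : Has P w.G k.F a.tm) (hb : Has P w.G k.F b.tm) : w.Eqv j a b := by
  obtain ⟨s, hs⟩ := k.hF.1.1
  exact World.eqv_of_conv c (ha s hs) (hb s hs)

/-- With `Has Θ J C` and a parameter `p` of type `C`: `W γ T = pi (C.subst γ) T.shift`,
`el = lam (C.subst γ) z.shift`,
`pr = ψ.subst (scons (app (var 0) (glob (γ p).shift)) (fun n => var (n+1)))`. -/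
theorem coder_right (k : E.Kit j) {J : Set S} (hX : X.Nonempty) (hJ : E.Node J) (h : PR P J Y X) :
    Nonempty (Coder k true X Y) := by
  obtain ⟨⟨s₁, hs₁⟩, C, hC⟩ := hJ
  obtain ⟨p, -, hp⟩ := E.sat C s₁ 0 (hC s₁ hs₁)
  obtain ⟨s₀, hs₀⟩ := hX
  have tyW : ∀ G γ T, TS P E.Θ G γ → Has P G Y T → Has P G X (Term.pi (C.subst γ) T.shift) :=
    fun G γ T hγ hT => Has.pi h (hC.subst hγ) (fun s hs => (hT s hs).weak _)
  have tyEl : ∀ G γ T (z : LT S), TS P E.Θ G γ → Has P G Y T → Ty P G z.tm T →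
      Ty P G (LT.lam (C.subst γ) z.shift).tm (Term.pi (C.subst γ) T.shift) :=
    fun G γ T z hγ hT hz => Ty.lam (hz.weak _) (tyW G γ T hγ hT s₀ hs₀)
  have tyPr : ∀ G γ T (ψ : LT S), TS P E.Θ G γ → Has P (ccons T G) k.F ψ.tm →
      Has P (ccons (Term.pi (C.subst γ) T.shift) G) k.F
        (ψ.subst (scons (.app (.var 0) (LT.glob (γ p)).shift) (fun n => .var (n + 1)))).tm := by
    intro G γ T ψ hγ hψ
    have ts : TS P (ccons T G) (ccons (Term.pi (C.subst γ) T.shift) G)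
        (scons (.app (.var 0) (γ p).shift) (fun n => .var (n + 1))) := by
      refine TS.scons (TS.shift G _) ?_
      have h0 : Ty P (ccons (Term.pi (C.subst γ) T.shift) G) (.var 0)
          (Term.pi (C.subst γ).shift T.shift.shift) := by
        have := Ty.var (P := P) (G := ccons (Term.pi (C.subst γ) T.shift) G) 0
        simpa [Term.shift, rename_rename] using this
      have h1 := (hγ p).weak (Term.pi (C.subst γ) T.shift)
      rw [hp] at h1
      have := Ty.app h0 h1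
      rw [shift_inst] at this
      have e : T.subst (fun n => Term.var (n + 1)) = T.shift := (rename_eq_subst T Nat.succ).symm
      rw [e]; exact this
    have := hψ.subst ts
    rw [LT.subst_tm, LT.tmS_scons]
    exact this
  refine ⟨{
    W := fun γ T => .pi (C.subst γ) T.shift
    el := fun γ _ _ z => .lam (C.subst γ) z.shift
    pr := fun γ _ ψ _ =>
      ψ.subst (scons (.app (.var 0) (LT.glob (γ p)).shift) (fun n => .var (n + 1)))
    natW := ?_, natEl := ?_, natPr := ?_, tyW := tyW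
    tyEl := fun G γ T _ z hγ hT ha => tyEl G γ T z hγ hT ha
    tyPr := fun G γ T ψ _ hγ _ ha => tyPr G γ T ψ hγ ha
    indEl := fun _ _ _ _ _ _ ha => by cases ha; rfl
    indPr := fun _ _ _ _ _ _ ha => by cases ha; rfl
    law := ?_ }⟩
  · intro γ T σ; simp [subst_gsub]
  · intro γ T ψ z θ; simp [subst_gsub]
  · intro γ T ψ z θ
    rw [LT.subst_subst, LT.up_subst_scons]
    congr 1; funext n; cases n
    · simp [gsub]
    · simp only [scons_succ, LT.var_subst, LT.up_succ]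
      exact LT.ren_eq_subst _ _
  · intro w T ψ z hT hz hψ
    refine eqv_conv_k (k := k) ?_ (fun s hs => ?_) (fun s hs => ?_)
    · rw [LT.inst, LT.subst_subst]
      have e : (fun n => (scons (LT.app (.var 0) (LT.glob (w.γ p)).shift)
          (fun n => LT.var (n + 1)) n).subst (scons (LT.lam (C.subst w.γ) z.shift) LT.var)) =
          scons (LT.app (LT.lam (C.subst w.γ) z.shift) (LT.glob (w.γ p))) LT.var := by
        funext n; cases n <;> simp
      rw [e]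
      have := LT.Conv.beta (C.subst w.γ) z.shift (LT.glob (w.γ p))
      rw [LT.shift_inst] at this
      exact LT.Conv.rfl.inst this
    · rw [LT.inst_tm]; exact (tyPr _ _ _ ψ w.ts hψ s hs).inst (tyEl _ _ _ z w.ts hT hz)
    · rw [LT.inst_tm]; exact (hψ s hs).inst hz

/-- With `o : Obsv k K`: `W γ T = pi T (o.T.subst γ).shift`, `el = lam T (o.enc (gsh γ) ψ)`,
`pr = o.dec (gsh γ) (app (var 0) z.shift)` (`conv_of_nat`, `eqv_of_conv`, `o.law`). -/
theorem coder_left (k : E.Kit j) {K : Set S} (hX : X.Nonempty) (hK : E.Rr j K) (h : PR P Y K X) :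
    Nonempty (Coder k false X Y) := by
  obtain ⟨o⟩ := exists_obsv k hK
  obtain ⟨s₀, hs₀⟩ := hX
  have tyW : ∀ G γ T, TS P E.Θ G γ → Has P G Y T → Has P G X (Term.pi T (o.T.subst γ).shift) :=
    fun G γ T hγ hT => Has.pi h hT (fun s hs => (o.has.subst hγ s hs).weak _)
  have tyEl : ∀ G γ T (ψ : LT S), TS P E.Θ G γ → Has P G Y T → Has P (ccons T G) k.F ψ.tm →
      Ty P G (LT.lam T (o.enc (gsh γ) ψ)).tm (Term.pi T (o.T.subst γ).shift) := by
    intro G γ T ψ hγ hT hψ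
    refine Ty.lam ?_ (tyW G γ T hγ hT s₀ hs₀)
    rw [← subst_gsh]; exact o.ty_enc _ _ _ (hγ.weak _) hψ
  have tyPr : ∀ G γ T (z : LT S), TS P E.Θ G γ → Ty P G z.tm T →
      Has P (ccons (Term.pi T (o.T.subst γ).shift) G) k.F
        (o.dec (gsh γ) (.app (.var 0) z.shift)).tm := by
    intro G γ T z hγ hz
    refine o.ty_dec _ _ _ (hγ.weak _) ?_
    have h0 : Ty P (ccons (Term.pi T (o.T.subst γ).shift) G) (.var 0)
        (Term.pi T.shift (o.T.subst γ).shift.shift) := by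
      have := Ty.var (P := P) (G := ccons (Term.pi T (o.T.subst γ).shift) G) 0
      simpa [Term.shift, rename_rename] using this
    have := Ty.app h0 (hz.weak _)
    rw [shift_inst] at this
    rw [subst_gsh]; exact this
  refine ⟨{
    W := fun γ T => .pi T (o.T.subst γ).shift
    el := fun γ T ψ _ => .lam T (o.enc (gsh γ) ψ)
    pr := fun γ _ _ z => o.dec (gsh γ) (.app (.var 0) z.shift)
    natW := ?_, natEl := ?_, natPr := ?_, tyW := tyW
    tyEl := fun G γ T ψ _ hγ hT ha => tyEl G γ T ψ hγ hT ha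
    tyPr := fun G γ T _ z hγ _ ha => tyPr G γ T z hγ ha
    indEl := fun _ _ _ _ _ _ ha => by cases ha; rfl
    indPr := fun _ _ _ _ _ _ ha => by cases ha; rfl
    law := ?_ }⟩
  · intro γ T σ; simp [subst_gsub]
  · intro γ T ψ z θ; simp [o.nat_enc]
  · intro γ T ψ z θ; simp [o.nat_dec]
  · intro w T ψ z hT hz hψ
    have hψz : Has P w.G k.F (ψ.inst z).tm := fun s hs => by
      rw [LT.inst_tm]; exact (hψ s hs).inst hz
    refine World.Eqv.trans (eqv_conv_k (k := k) ?_ (fun s hs => ?_) ?_) (o.law w (ψ.inst z) hψz)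
    · have e : (o.dec (gsh w.γ) (.app (.var 0) z.shift)).inst (LT.lam T (o.enc (gsh w.γ) ψ)) =
          o.dec w.γ (.app (LT.lam T (o.enc (gsh w.γ) ψ)) z) := by
        rw [LT.inst, o.nat_dec]; simp
      rw [e]
      refine conv_of_nat o.nat_dec _ ?_
      have := LT.Conv.beta T (o.enc (gsh w.γ) ψ) z
      rw [LT.inst, o.nat_enc] at this
      simpa [LT.inst] using this
    · rw [LT.inst_tm]; exact (tyPr _ _ _ z w.ts hz s hs).inst (tyEl _ _ _ ψ w.ts hT hψ)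
    · exact o.ty_dec _ _ _ w.ts (o.ty_enc _ _ _ w.ts hψz)

theorem exists_coder (k : E.Kit j) {b : Bool} (h : SP (E.HE j) b X Y) :
    Nonempty (Coder k b X Y) := by
  induction h with
  | refl a => exact coder_incl k subset_rfl
  | @step b b' a c d e _ ih =>
    obtain ⟨C₂⟩ := ih
    have : Nonempty (Coder k b a c) := by
      cases b
      · obtain ⟨ha, -, -, K, -, hK, hr⟩ := e
        exact coder_left k ha.1 hK hr
      · obtain ⟨⟨ha, -, hs | ⟨J, hJ, hr⟩⟩, -⟩ := e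
        · exact coder_incl k hs
        · exact coder_right k ha.1 hJ hr
    obtain ⟨C₁⟩ := this
    obtain ⟨C, -⟩ := C₁.comp C₂
    exact ⟨C⟩

/-- odd coder: `W γ T` represents the predicates on `T` -/
structure OC (k : E.Kit j) (X Y : Set S) where
  W : (ℕ → Term S) → Term S → Term S
  lam : (ℕ → Term S) → Term S → LT S → LT S
  app : (ℕ → Term S) → Term S → LT S → LT S → LT S
  natW : ∀ γ Z σ, (W γ Z).subst σ = W (gsub γ σ) (Z.subst σ)
  natLam : ∀ γ Z ψ θ, (lam γ Z ψ).subst θ =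
    lam (gsub γ (tmS θ)) (Z.subst (tmS θ)) (ψ.subst (LT.up θ))
  natApp : ∀ γ Z m z θ, (app γ Z m z).subst θ =
    app (gsub γ (tmS θ)) (Z.subst (tmS θ)) (m.subst θ) (z.subst θ)
  tyW : ∀ G γ Z, TS P E.Θ G γ → Has P G Y Z → Has P G X (W γ Z)
  tyLam : ∀ G γ Z ψ, TS P E.Θ G γ → Has P G Y Z → Has P (ccons Z G) k.F ψ.tm →
    Ty P G (lam γ Z ψ).tm (W γ Z)
  tyApp : ∀ G γ Z m z, TS P E.Θ G γ → Has P G Y Z → Ty P G m.tm (W γ Z) → Ty P G z.tm Z →
    Has P G k.F (app γ Z m z).tm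
  convApp : ∀ γ Z m m' z, LT.Conv m m' → LT.Conv (app γ Z m z) (app γ Z m' z)
  law : ∀ (w : E.World) Z ψ z, Has P w.G Y Z → Ty P w.G z.tm Z → Has P (ccons Z w.G) k.F ψ.tm →
    w.Eqv j (app w.γ Z (lam w.γ Z ψ) z) (ψ.inst z)

/-- even coder: `T` injects into `W γ T`, predicates extend -/
structure EC (k : E.Kit j) (X Y : Set S) where
  W : (ℕ → Term S) → Term S → Term S
  inj : (ℕ → Term S) → Term S → LT S → LT S
  ext : (ℕ → Term S) → Term S → LT S → LT S → LT S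
  natW : ∀ γ Z σ, (W γ Z).subst σ = W (gsub γ σ) (Z.subst σ)
  natInj : ∀ γ Z z θ, (inj γ Z z).subst θ = inj (gsub γ (tmS θ)) (Z.subst (tmS θ)) (z.subst θ)
  natExt : ∀ γ Z ψ m θ, (ext γ Z ψ m).subst θ =
    ext (gsub γ (tmS θ)) (Z.subst (tmS θ)) (ψ.subst (LT.up θ)) (m.subst θ)
  tyW : ∀ G γ Z, TS P E.Θ G γ → Has P G Y Z → Has P G X (W γ Z)
  tyInj : ∀ G γ Z z, TS P E.Θ G γ → Has P G Y Z → Ty P G z.tm Z → Ty P G (inj γ Z z).tm (W γ Z)
  tyExt : ∀ G γ Z ψ m, TS P E.Θ G γ → Has P G Y Z → Has P (ccons Z G) k.F ψ.tm →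
    Ty P G m.tm (W γ Z) → Has P G k.F (ext γ Z ψ m).tm
  law : ∀ (w : E.World) Z ψ z, Has P w.G Y Z → Ty P w.G z.tm Z → Has P (ccons Z w.G) k.F ψ.tm →
    w.Eqv j (ext w.γ Z ψ (inj w.γ Z z)) (ψ.inst z)

/-- `lam γ T ψ = C.el γ T ψ (glob ..)`-like dummy; take the closed dummy `⟨T, fBot⟩` or use
`indEl`, `indPr` to change the dummy. `app γ T m z = (C.pr γ T dummy z).inst m`. -/
theorem Coder.oc (C : Coder k false X Y) : ∃ O : OC k X Y, O.W = C.W := by
  refine ⟨{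
    W := C.W
    lam := fun γ T ψ => C.el γ T ψ (.var 0)
    app := fun γ T m z => (C.pr γ T (.var 0) z).inst m
    natW := C.natW, natLam := ?_, natApp := ?_, tyW := C.tyW
    tyLam := fun G γ T ψ h hT hψ => C.tyEl _ _ _ _ _ h hT hψ
    tyApp := ?_
    convApp := fun γ T m m' z c => LT.Conv.rfl.inst c
    law := ?_ }, rfl⟩
  · intro γ T ψ θ; rw [C.natEl]; exact C.indEl _ _ _ _ _ _ rfl
  · intro γ T m z θ; rw [LT.inst_subst, C.natPr]; rfl
  · intro G γ T m z h hT hm hz s hs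
    rw [LT.inst_tm]; exact (C.tyPr _ _ _ (.var 0) z h hT hz s hs).inst hm
  · intro w T ψ z hT hz hψ
    have := C.law w T ψ z hT hz hψ
    rw [C.indEl _ _ ψ z ψ (.var 0) rfl, C.indPr _ _ ψ z (.var 0) z rfl] at this
    exact this

theorem Coder.ec (C : Coder k true X Y) : ∃ O : EC k X Y, O.W = C.W := by
  refine ⟨{
    W := C.W
    inj := fun γ T z => C.el γ T (.var 0) z
    ext := fun γ T ψ m => (C.pr γ T ψ (.var 0)).inst m
    natW := C.natW, natInj := ?_, natExt := ?_, tyW := C.tyW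
    tyInj := fun G γ T z h hT hz => C.tyEl _ _ _ _ _ h hT hz
    tyExt := ?_
    law := ?_ }, rfl⟩
  · intro γ T z θ; rw [C.natEl]; rfl
  · intro γ T ψ m θ; rw [LT.inst_subst, C.natPr, C.indPr _ _ _ _ _ (.var 0) rfl]
  · intro G γ T ψ m h hT hψ hm s hs
    rw [LT.inst_tm]; exact (C.tyPr _ _ _ ψ (.var 0) h hT hψ s hs).inst hm
  · intro w T ψ z hT hz hψ
    have := C.law w T ψ z hT hz hψ
    rw [C.indEl _ _ ψ z (.var 0) z rfl, C.indPr _ _ ψ z ψ (.var 0) rfl] at this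
    exact this

end Amb
end Vale.Agent.P340
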