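import Vale.Agent.P340.Syntax
import Mathlib.Data.Finite.Defs
import Mathlib.Data.Set.Finite.Basic

/-! Reduction to finitely many sorts. Idea: `Term.map (r : S → S')` commutes with renaming and
substitution, preserves `Step`, and reflects `Step` (a step of `M.map r` comes from a step
of `M`). A derivation `Typed P Γ M A` uses a finite set `F` of sorts: for every `r`, `P'` with
`P.ax a b → P'.ax (r a) (r b)` and the same for rules on elements of `F`, the mapped judgment is
derivable in `P'`. Take `S' = ↥F'` for a finite nonempty `F' ⊇ F`, `P'` the restriction of `P`,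
`r` a retraction. `P'` is weakly normalizing via the coercion map; SN of `M.map r` gives SN
of `M`. -/

namespace Vale.Agent.P340

universe u

namespace FinRed

variable {S S' : Type u}

/-- Rename the sorts. -/
def smap (r : S → S') : Term S → Term S'
  | .var n => .var n
  | .sort s => .sort (r s)
  | .app M N => .app (smap r M) (smap r N)
  | .lam A M => .lam (smap r A) (smap r M)
  | .pi A B => .pi (smap r A) (smap r B)

theorem smap_rename (r : S → S') (M : Term S) (ξ : ℕ → ℕ) :
    smap r (M.rename ξ) = (smap r M).rename ξ := by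
  induction M generalizing ξ <;> simp only [smap, Term.rename, *]

theorem smap_shift (r : S → S') (M : Term S) : smap r M.shift = (smap r M).shift :=
  smap_rename r M _

theorem smap_subst (r : S → S') (M : Term S) (σ : ℕ → Term S) :
    smap r (M.subst σ) = (smap r M).subst fun n => smap r (σ n) := by
  have h : ∀ σ : ℕ → Term S, (fun n => smap r (upSub σ n)) = upSub fun n => smap r (σ n) := by
    intro σ
    funext n
    cases n with
    | zero => rfl
    | succ n => exact smap_shift r _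
  induction M generalizing σ <;> simp only [smap, Term.subst, *]

theorem smap_inst (r : S → S') (M N : Term S) : smap r (M.inst N) = (smap r M).inst (smap r N) := by
  rw [Term.inst, Term.inst, smap_subst]
  congr 1
  funext n
  cases n <;> rfl

theorem step_smap (r : S → S') {M N : Term S} (h : Step M N) : Step (smap r M) (smap r N) := by
  induction h with
  | beta A M N => rw [smap_inst]; exact Step.beta _ _ _
  | appL N _ ih => exact Step.appL _ ih
  | appR M _ ih => exact Step.appR _ ih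
  | lamL M _ ih => exact Step.lamL _ ih
  | lamR A _ ih => exact Step.lamR _ ih
  | piL B _ ih => exact Step.piL _ ih
  | piR A _ ih => exact Step.piR _ ih

theorem step_of_smap (r : S → S') (M : Term S) {N' : Term S'} (h : Step (smap r M) N') :
    ∃ N, Step M N ∧ N' = smap r N := by
  induction M generalizing N' with
  | var n => cases h
  | sort s => cases h
  | app M N ihM ihN =>
    have key : (∃ M', Step (smap r M) M' ∧ N' = .app M' (smap r N)) ∨
        (∃ M', Step (smap r N) M' ∧ N' = .app (smap r M) M') ∨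
        ∃ A B, smap r M = .lam A B ∧ N' = B.inst (smap r N) := by
      simp only [smap] at h
      generalize smap r M = X at h
      cases h with
      | beta A B _ => exact Or.inr (Or.inr ⟨A, B, rfl, rfl⟩)
      | appL _ h => exact Or.inl ⟨_, h, rfl⟩
      | appR _ h => exact Or.inr (Or.inl ⟨_, h, rfl⟩)
    rcases key with ⟨M', h1, rfl⟩ | ⟨M', h1, rfl⟩ | ⟨A, B, h1, rfl⟩
    · obtain ⟨X, h2, rfl⟩ := ihM h1
      exact ⟨_, Step.appL _ h2, rfl⟩
    · obtain ⟨X, h2, rfl⟩ := ihN h1
      exact ⟨_, Step.appR _ h2, rfl⟩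
    · cases M with
      | lam A' B' =>
        cases h1
        exact ⟨_, Step.beta _ _ _, (smap_inst r _ _).symm⟩
      | _ => cases h1
  | lam A M ihA ihM =>
    cases h with
    | lamL _ h =>
      obtain ⟨X, h2, rfl⟩ := ihA h
      exact ⟨_, Step.lamL _ h2, rfl⟩
    | lamR _ h =>
      obtain ⟨X, h2, rfl⟩ := ihM h
      exact ⟨_, Step.lamR _ h2, rfl⟩
  | pi A M ihA ihM =>
    cases h with
    | piL _ h =>
      obtain ⟨X, h2, rfl⟩ := ihA h
      exact ⟨_, Step.piL _ h2, rfl⟩
    | piR _ h =>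
      obtain ⟨X, h2, rfl⟩ := ihM h
      exact ⟨_, Step.piR _ h2, rfl⟩

theorem steps_of_smap (r : S → S') (M : Term S) {N' : Term S'}
    (h : Relation.ReflTransGen Step (smap r M) N') :
    ∃ N, Relation.ReflTransGen Step M N ∧ N' = smap r N := by
  induction h with
  | refl => exact ⟨M, .refl, rfl⟩
  | tail _ h ih =>
    obtain ⟨N, h1, rfl⟩ := ih
    obtain ⟨X, h2, rfl⟩ := step_of_smap r N h
    exact ⟨X, h1.tail h2, rfl⟩

theorem eqv_smap (r : S → S') {M N : Term S} (h : Relation.EqvGen Step M N) :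
    Relation.EqvGen Step (smap r M) (smap r N) := by
  induction h with
  | rel _ _ h => exact .rel _ _ (step_smap r h)
  | refl _ => exact .refl _
  | symm _ _ _ ih => exact .symm _ _ ih
  | trans _ _ _ _ _ ih ih' => exact .trans _ _ _ ih ih'

/-- `r` respects axioms and rules on the set `F`. -/
def HomOn (P : Spec S) (P' : Spec S') (r : S → S') (F : Set S) : Prop :=
  (∀ a ∈ F, ∀ b ∈ F, P.ax a b → P'.ax (r a) (r b)) ∧
    ∀ a ∈ F, ∀ b ∈ F, ∀ c ∈ F, P.rule a b c → P'.rule (r a) (r b) (r c)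

theorem HomOn.mono {P : Spec S} {P' : Spec S'} {r : S → S'} {F G : Set S} (h : HomOn P P' r G)
    (hFG : F ⊆ G) : HomOn P P' r F :=
  ⟨fun a ha b hb => h.1 a (hFG ha) b (hFG hb),
    fun a ha b hb c hc => h.2 a (hFG ha) b (hFG hb) c (hFG hc)⟩

theorem typed_fin {P : Spec S} {Γ : List (Term S)} {M A : Term S} (h : Typed P Γ M A) :
    ∃ F : Set S, F.Finite ∧ F.Nonempty ∧ ∀ (S' : Type u) (P' : Spec S') (r : S → S'),
      HomOn P P' r F → Typed P' (Γ.map (smap r)) (smap r M) (smap r A) := by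
  induction h with
  | @ax s₁ s₂ h =>
    exact ⟨{s₁, s₂}, Set.toFinite _, ⟨s₁, Or.inl rfl⟩, fun S' P' r hr =>
      Typed.ax (hr.1 _ (Or.inl rfl) _ (Or.inr rfl) h)⟩
  | var _ ih =>
    obtain ⟨F, h1, h2, h3⟩ := ih
    refine ⟨F, h1, h2, fun S' P' r hr => ?_⟩
    rw [smap_shift]
    exact Typed.var (h3 S' P' r hr)
  | weak _ _ ih ih' =>
    obtain ⟨F, h1, h2, h3⟩ := ih
    obtain ⟨G, k1, -, k3⟩ := ih'
    refine ⟨F ∪ G, h1.union k1, h2.inl, fun S' P' r hr => ?_⟩
    rw [smap_shift, smap_shift]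
    exact Typed.weak (h3 S' P' r (hr.mono Set.subset_union_left))
      (k3 S' P' r (hr.mono Set.subset_union_right))
  | @pi _ _ _ s₁ s₂ s₃ _ _ h ih ih' =>
    obtain ⟨F, h1, h2, h3⟩ := ih
    obtain ⟨G, k1, -, k3⟩ := ih'
    refine ⟨F ∪ G ∪ {s₁, s₂, s₃}, (h1.union k1).union (Set.toFinite _), h2.inl.inl,
      fun S' P' r hr => ?_⟩
    exact Typed.pi (h3 S' P' r (hr.mono (Set.subset_union_left.trans Set.subset_union_left)))
      (k3 S' P' r (hr.mono (Set.subset_union_right.trans Set.subset_union_left)))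
      (hr.2 _ (Or.inr (Or.inl rfl)) _ (Or.inr (Or.inr (Or.inl rfl))) _
        (Or.inr (Or.inr (Or.inr rfl))) h)
  | lam _ _ ih ih' =>
    obtain ⟨F, h1, h2, h3⟩ := ih
    obtain ⟨G, k1, -, k3⟩ := ih'
    exact ⟨F ∪ G, h1.union k1, h2.inl, fun S' P' r hr =>
      Typed.lam (h3 S' P' r (hr.mono Set.subset_union_left))
        (k3 S' P' r (hr.mono Set.subset_union_right))⟩
  | app _ _ ih ih' =>
    obtain ⟨F, h1, h2, h3⟩ := ih
    obtain ⟨G, k1, -, k3⟩ := ih'
    refine ⟨F ∪ G, h1.union k1, h2.inl, fun S' P' r hr => ?_⟩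
    rw [smap_inst]
    exact Typed.app (h3 S' P' r (hr.mono Set.subset_union_left))
      (k3 S' P' r (hr.mono Set.subset_union_right))
  | conv _ _ h ih ih' =>
    obtain ⟨F, h1, h2, h3⟩ := ih
    obtain ⟨G, k1, -, k3⟩ := ih'
    exact ⟨F ∪ G, h1.union k1, h2.inl, fun S' P' r hr =>
      Typed.conv (h3 S' P' r (hr.mono Set.subset_union_left))
        (k3 S' P' r (hr.mono Set.subset_union_right)) (eqv_smap r h)⟩

theorem legal_fin {P : Spec S} {M : Term S} (h : Legal P M) :
    ∃ F : Set S, F.Finite ∧ F.Nonempty ∧ ∀ (S' : Type u) (P' : Spec S') (r : S → S'),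
      HomOn P P' r F → Legal P' (smap r M) := by
  obtain ⟨Γ, A, h | h⟩ := h
  · obtain ⟨F, h1, h2, h3⟩ := typed_fin h
    exact ⟨F, h1, h2, fun S' P' r hr => ⟨_, _, Or.inl (h3 S' P' r hr)⟩⟩
  · obtain ⟨F, h1, h2, h3⟩ := typed_fin h
    exact ⟨F, h1, h2, fun S' P' r hr => ⟨_, _, Or.inr (h3 S' P' r hr)⟩⟩

end FinRed

open FinRed in
theorem sn_of_finite_case
    (h : ∀ (S : Type u) [Finite S] (P : Spec S), WeaklyNormalizing P → StronglyNormalizing P)
    (S : Type u) (P : Spec S) (hwn : WeaklyNormalizing P) : StronglyNormalizing P := by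
  classical
  rintro M hM ⟨f, hf0, hf⟩
  obtain ⟨F, h1, ⟨a0, ha0⟩, h3⟩ := legal_fin hM
  have : Finite F := h1
  let P' : Spec F := ⟨fun a b => P.ax a b, fun a b c => P.rule a b c⟩
  have hwn' : WeaklyNormalizing P' := by
    intro M' hM'
    obtain ⟨G, -, -, k3⟩ := legal_fin hM'
    obtain ⟨N, k4, k5⟩ := hwn _ (k3 S P Subtype.val ⟨fun _ _ _ _ h => h, fun _ _ _ _ _ _ h => h⟩)
    obtain ⟨N', k6, rfl⟩ := steps_of_smap _ _ k4
    exact ⟨N', k6, fun X hX => k5 _ (step_smap _ hX)⟩
  let r : S → F := fun a => if ha : a ∈ F then ⟨a, ha⟩ else ⟨a0, ha0⟩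
  have hr : ∀ a ∈ F, (r a : S) = a := fun a ha => by simp only [r, dif_pos ha]
  refine h F P' hwn' (smap r M) (h3 F P' r ⟨fun a ha b hb hab => ?_, fun a ha b hb c hc habc => ?_⟩)
    ⟨fun n => smap r (f n), congrArg (smap r) hf0, fun n => step_smap r (hf n)⟩
  · change P.ax (r a) (r b)
    rwa [hr a ha, hr b hb]
  · change P.rule (r a) (r b) (r c)
    rwa [hr a ha, hr b hb, hr c hc]

end Vale.Agent.P340
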