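import Vale.Agent.P340.Amb
import Mathlib.Data.Set.Finite.Basic
import Mathlib.Data.Set.Card

/-! Signed paths, the index of strongly connected components, profiles of types and the
profile graph. -/

namespace Vale.Agent.P340

universe u v

/-- Signed paths; `true` is positive (even), `false` is negative (odd). -/
inductive SP {α : Type v} (R : Bool → α → α → Prop) : Bool → α → α → Prop
  | refl (a : α) : SP R true a a
  | step {b b' : Bool} {a c d : α} : R b a c → SP R b' c d → SP R (b == b') a d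

section SP
variable {α : Type v} {R : Bool → α → α → Prop}

theorem SP.single {b : Bool} {a c : α} (h : R b a c) : SP R b a c := by
  have := SP.step h (SP.refl c)
  simpa using this

theorem SP.trans {b b' : Bool} {a c d : α} (h : SP R b a c) (k : SP R b' c d) :
    SP R (b == b') a d := by
  induction h with
  | refl a => simpa using k
  | @step b₁ b₂ a c e h1 _ ih =>
    have := SP.step h1 (ih k)
    have e : (b₁ == (b₂ == b')) = ((b₁ == b₂) == b') := by
      cases b₁ <;> cases b₂ <;> cases b' <;> rfl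
    rwa [e] at this

theorem SP.tail {b b' : Bool} {a c d : α} (h : SP R b a c) (k : R b' c d) :
    SP R (b == b') a d := by
  exact h.trans (SP.single k)

theorem SP.mono {R' : Bool → α → α → Prop} (hR : ∀ b a c, R b a c → R' b a c) {b : Bool} {a c : α}
    (h : SP R b a c) : SP R' b a c := by
  induction h with
  | refl a => exact .refl a
  | step h1 _ ih => exact .step (hR _ _ _ h1) ih

/-- reachability, forgetting the signs -/
def Reach (R : Bool → α → α → Prop) (a c : α) : Prop := ∃ b, SP R b a c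

theorem Reach.refl (a : α) : Reach R a a := ⟨true, .refl a⟩
theorem Reach.trans {a c d : α} (h : Reach R a c) (k : Reach R c d) : Reach R a d := by
  obtain ⟨b, h⟩ := h
  obtain ⟨b', k⟩ := k
  exact ⟨_, h.trans k⟩

/-- An index that decreases along paths and separates strongly connected components.
Idea: `idx a = card (reach a) * M + enc (reach a)` for an injection `enc : Set α → Fin M`. -/
theorem exists_idx [Finite α] (R : Bool → α → α → Prop) : ∃ idx : α → ℕ,
    (∀ a c, Reach R a c → idx c ≤ idx a) ∧ (∀ a c, idx a = idx c → Reach R a c) := by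
  obtain ⟨M, ⟨e⟩⟩ := Finite.exists_equiv_fin (Set α)
  let r : α → Set α := fun a => {c | Reach R a c}
  refine ⟨fun a => (r a).ncard * M + (e (r a) : ℕ), fun a c h => ?_, fun a c h => ?_⟩
  · have hs : r c ⊆ r a := fun d hd => h.trans hd
    by_cases he : r c = r a
    · simp only [he]; exact le_rfl
    · have hlt : (r c).ncard < (r a).ncard :=
        Set.ncard_lt_ncard (hs.ssubset_of_ne he) (Set.toFinite _)
      have h1 : (e (r c) : ℕ) < M := (e (r c)).2
      have h2 : ((r c).ncard + 1) * M ≤ (r a).ncard * M := Nat.mul_le_mul_right M hlt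
      rw [Nat.add_mul, Nat.one_mul] at h2
      show (r c).ncard * M + (e (r c) : ℕ) ≤ (r a).ncard * M + (e (r a) : ℕ)
      omega
  · have h1 : ((r a).ncard * M + (e (r a) : ℕ)) % M = ((r c).ncard * M + (e (r c) : ℕ)) % M :=
      congrArg (· % M) h
    rw [Nat.mul_add_mod_of_lt (e (r a)).2, Nat.mul_add_mod_of_lt (e (r c)).2] at h1
    have h2 : r a = r c := e.injective (Fin.ext h1)
    have h3 : c ∈ r c := Reach.refl c
    rw [← h2] at h3
    exact h3

noncomputable def idxOf [Finite α] (R : Bool → α → α → Prop) : α → ℕ :=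
  Classical.choose (exists_idx R)

theorem Reach.idx_le [Finite α] {a c : α} (h : Reach R a c) : idxOf R c ≤ idxOf R a :=
  (Classical.choose_spec (exists_idx R)).1 a c h

theorem reach_of_idx_eq [Finite α] {a c : α} (h : idxOf R a = idxOf R c) : Reach R a c :=
  (Classical.choose_spec (exists_idx R)).2 a c h

theorem idx_bounded [Finite α] (R : Bool → α → α → Prop) : ∃ m, ∀ a, idxOf R a < m := by
  classical
  have := Fintype.ofFinite α
  exact ⟨Finset.univ.sup (idxOf R) + 1,
    fun a => Nat.lt_succ_of_le (Finset.le_sup (f := idxOf R) (Finset.mem_univ a))⟩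

end SP

variable {S : Type u} {P : Spec S}

open Term

/-- the sorts of the terms convertible with `T` -/
def prof (P : Spec S) (G : ℕ → Term S) (T : Term S) : Set S :=
  {s | ∃ T', Conv T T' ∧ Ty P G T' (.sort s)}

/-- `T` has all the sorts of `I` -/
def Has (P : Spec S) (G : ℕ → Term S) (I : Set S) (T : Term S) : Prop :=
  ∀ s ∈ I, Ty P G T (.sort s)

/-- a product with domain profile `J` and codomain profile `K` has all the sorts of `I` -/
def PR (P : Spec S) (J K I : Set S) : Prop := ∀ s₃ ∈ I, ∃ s₁ ∈ J, ∃ s₂ ∈ K, P.rule s₁ s₂ s₃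

theorem PR.mono {J K I J' K' I' : Set S} (h : PR P J K I) (hJ : J ⊆ J') (hK : K ⊆ K')
    (hI : I' ⊆ I) : PR P J' K' I' := by
  intro s₃ hs
  obtain ⟨s₁, h1, s₂, h2, r⟩ := h s₃ (hI hs)
  exact ⟨s₁, hJ h1, s₂, hK h2, r⟩

theorem Has.pi {G : ℕ → Term S} {J K I : Set S} {A B : Term S} (h : PR P J K I)
    (hA : Has P G J A) (hB : Has P (ccons A G) K B) : Has P G I (.pi A B) := by
  intro s₃ hs
  obtain ⟨s₁, h1, s₂, h2, r⟩ := h s₃ hs
  exact .pi (hA s₁ h1) (hB s₂ h2) r

theorem Has.subst {G G' : ℕ → Term S} {I : Set S} {T : Term S} {σ : ℕ → Term S}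
    (h : Has P G I T) (hσ : TS P G G' σ) : Has P G' I (T.subst σ) := by
  intro s hs
  exact (h s hs).subst hσ

section prof
variable {G G' : ℕ → Term S} {A B T T' a : Term S} {s : S}

theorem Conv.prof_eq (h : Conv T T') : prof P G T = prof P G T' := by
  ext t
  constructor
  · rintro ⟨U, c, k⟩; exact ⟨U, h.symm.trans c, k⟩
  · rintro ⟨U, c, k⟩; exact ⟨U, h.trans c, k⟩

theorem mem_prof (h : Ty P G T (.sort s)) : s ∈ prof P G T := ⟨T, Conv.rfl, h⟩

theorem prof_subst {σ : ℕ → Term S} (hσ : TS P G G' σ) (T : Term S) :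
    prof P G T ⊆ prof P G' (T.subst σ) := by
  rintro t ⟨U, c, k⟩
  exact ⟨U.subst σ, c.subst σ, k.subst hσ⟩

theorem prof_weak (T C : Term S) : prof P G T ⊆ prof P (ccons C G) T.shift := by
  rintro t ⟨U, c, k⟩
  exact ⟨U.shift, c.shift, k.weak C⟩

theorem prof_sort (hG : Valid P G) (s : S) : prof P G (.sort s) = {t | P.ax s t} := by
  ext t
  constructor
  · rintro ⟨U, c, k⟩
    obtain ⟨s₂, h1, h2⟩ := (k.red hG c.symm.sort_red).gen_sort
    obtain rfl := h2.sort_inj
    exact h1
  · intro h
    exact mem_prof (.ax h)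

/-- a normal term has all the sorts of its profile -/
theorem has_prof_normal (hG : Valid P G) (hn : Normal T) : Has P G (prof P G T) T := by
  rintro t ⟨U, c, k⟩
  exact k.red hG (hn.red_of_conv c.symm)

theorem prof_neutral (hG : Valid P G) {x : ℕ} (hx : HeadVar x T) (h : Ty P G T (.sort s)) :
    prof P G T = {s} := by
  ext t
  constructor
  · rintro ⟨U, c, k⟩
    obtain ⟨L, r1, r2⟩ := c.join
    exact (Ty.unique_neutral (hx.red r1) (k.red hG r2) (h.red hG r1)).sort_inj
  · rintro rfl
    exact mem_prof h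

/-- join, subject reduction, generation, and `Ty.ctx_conv` -/
theorem pr_pi (hG : Valid P G) (A B : Term S) :
    PR P (prof P G A) (prof P (ccons A G) B) (prof P G (.pi A B)) := by
  rintro s₃ ⟨U, c, k⟩
  obtain ⟨L, r1, r2⟩ := c.join
  obtain ⟨A', B', rfl, a, b⟩ := r1.pi_inv
  obtain ⟨s₁, s₂, h1, h2, r⟩ := (k.red hG r2).gen_pi_sort
  exact ⟨s₁, ⟨A', a.conv, h1⟩, s₂, ⟨B', b.conv, h2.ctx_conv h1 a.conv.symm⟩, r⟩

theorem pr_pi_inst (hG : Valid P G) (ha : Ty P G a A) (B : Term S) :
    PR P (prof P G A) (prof P G (B.inst a)) (prof P G (.pi A B)) := by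
  exact (pr_pi hG A B).mono subset_rfl (prof_subst (TS.single ha) B) subset_rfl

end prof

namespace Amb
variable (E : Amb P)

/-- nodes: nonempty sets of sorts of some type of `Θ` -/
def Node (I : Set S) : Prop := I.Nonempty ∧ ∃ T, Has P E.Θ I T

/-- Edges of the profile graph: positive from a product to its codomain and along inclusion,
negative from a product to its domain. -/
def Edge : Bool → Set S → Set S → Prop
  | true, I, K => E.Node I ∧ E.Node K ∧ (I ⊆ K ∨ ∃ J, E.Node J ∧ PR P J K I)
  | false, I, J => E.Node I ∧ E.Node J ∧ ∃ K, E.Node K ∧ PR P J K I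

variable {E}

theorem Edge.src {b : Bool} {I J : Set S} (h : E.Edge b I J) : E.Node I := by
  cases b <;> exact h.1
theorem Edge.tgt {b : Bool} {I J : Set S} (h : E.Edge b I J) : E.Node J := by
  cases b <;> exact h.2.1

theorem has_nf (E : Amb P) (T : Term S) : Has P E.Θ (prof P E.Θ T) (nf T) := by
  rintro t ⟨U, c, k⟩
  rw [c.nf_eq]
  exact E.nf_ty k

theorem wn_of_prof {T : Term S} (h : (prof P E.Θ T).Nonempty) : WN T := by
  obtain ⟨t, U, c, k⟩ := h
  exact (E.wn _ _ k).of_conv c.symm

theorem Node.subset {I J : Set S} (h : E.Node I) (hJ : J ⊆ I) (hne : J.Nonempty) : E.Node J := by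
  obtain ⟨-, T, hT⟩ := h
  exact ⟨hne, T, fun s hs => hT s (hJ hs)⟩

theorem node_prof {T : Term S} (h : (prof P E.Θ T).Nonempty) : E.Node (prof P E.Θ T) := by
  exact ⟨h, nf T, E.has_nf T⟩

/-- profiles in a context that maps to `Θ` are nodes -/
theorem node_prof_of {G σ : ℕ → Term S} (hσ : TS P G E.Θ σ) {T : Term S}
    (h : (prof P G T).Nonempty) : E.Node (prof P G T) := by
  exact (node_prof (h.mono (prof_subst hσ T))).subset (prof_subst hσ T) h

theorem pr_nonempty {J K I : Set S} (h : PR P J K I) (hI : I.Nonempty) :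
    J.Nonempty ∧ K.Nonempty := by
  obtain ⟨s₃, hs⟩ := hI
  obtain ⟨s₁, h1, s₂, h2, -⟩ := h s₃ hs
  exact ⟨⟨s₁, h1⟩, ⟨s₂, h2⟩⟩

variable (E) [Finite S]

/-- the level of a profile -/
noncomputable def idx (I : Set S) : ℕ := idxOf E.Edge I

/-- the strongly connected component of level `j` -/
def NN (j : ℕ) (I : Set S) : Prop := E.Node I ∧ E.idx I = j

/-- not high: a node of level at most `j` -/
def NH (j : ℕ) (I : Set S) : Prop := E.Node I ∧ E.idx I ≤ j

/-- low: a node of level less than `j` -/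
def Low (j : ℕ) (I : Set S) : Prop := E.Node I ∧ E.idx I < j

variable {E}

theorem Edge.idx_le {b : Bool} {I J : Set S} (h : E.Edge b I J) : E.idx J ≤ E.idx I :=
  Reach.idx_le ⟨b, SP.single h⟩

theorem idx_le_of_subset {I J : Set S} (hI : E.Node I) (hJ : E.Node J) (h : I ⊆ J) :
    E.idx J ≤ E.idx I := Edge.idx_le (b := true) ⟨hI, hJ, Or.inl h⟩

theorem idx_le_of_pr {J K I : Set S} (hI : E.Node I) (hJ : E.Node J) (hK : E.Node K)
    (h : PR P J K I) : E.idx J ≤ E.idx I ∧ E.idx K ≤ E.idx I :=
  ⟨Edge.idx_le (b := false) ⟨hI, hJ, K, hK, h⟩, Edge.idx_le (b := true) ⟨hI, hK, Or.inr ⟨J, hJ, h⟩⟩⟩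

theorem NN.reach {j : ℕ} {I J : Set S} (hI : E.NN j I) (hJ : E.NN j J) : Reach E.Edge I J :=
  reach_of_idx_eq (hI.2.trans hJ.2.symm)

/-- a node between two nodes of the component is in the component -/
theorem NN.between {j : ℕ} {I J K : Set S} (hI : E.NN j I) (hK : E.NN j K) (hJ : E.Node J)
    (h1 : Reach E.Edge I J) (h2 : Reach E.Edge J K) : E.NN j J := by
  have a : E.idx J ≤ E.idx I := h1.idx_le
  have b : E.idx K ≤ E.idx J := h2.idx_le
  have c := hI.2
  have d := hK.2
  exact ⟨hJ, by omega⟩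

end Amb
end Vale.Agent.P340
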