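import Vale.Agent.P340.Tower

/-! Higher-order logic inside the type system: four levels `e`, `a`, `n`, `r`. The last three
depend on a parameter `x : V`; `u : V` is the distinguished parameter. Quantifiers range over
the elements `bt l γ x q` for `q : Qd l γ x`. -/

namespace Vale.Agent.P340

universe u
variable {S : Type u} {P : Spec S} [Finite S]

inductive Lv
  | e
  | a
  | n
  | r
  deriving DecidableEq

namespace Amb
variable {E : Amb P} {j : ℕ}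

structure Hol (k : E.Kit j) where
  V : (ℕ → Term S) → Term S
  u : (ℕ → Term S) → LT S
  D : Lv → (ℕ → Term S) → LT S → Term S
  Qd : Lv → (ℕ → Term S) → LT S → Term S
  bt : Lv → (ℕ → Term S) → LT S → LT S → LT S
  J : Lv → Set S
  ent : ∀ l, E.Entry j (J l)
  memE : (ℕ → Term S) → LT S → LT S → LT S
  memA : (ℕ → Term S) → LT S → LT S → LT S → LT S
  memN : (ℕ → Term S) → LT S → LT S → LT S → LT S
  pin : (ℕ → Term S) → LT S → LT S → LT S → LT S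
  natV : ∀ γ σ, (V γ).subst σ = V (gsub γ σ)
  natU : ∀ γ θ, (u γ).subst θ = u (gsub γ (tmS θ))
  natD : ∀ l γ x θ, (D l γ x).subst (tmS θ) = D l (gsub γ (tmS θ)) (x.subst θ)
  natQd : ∀ l γ x θ, (Qd l γ x).subst (tmS θ) = Qd l (gsub γ (tmS θ)) (x.subst θ)
  natBt : ∀ l γ x q θ, (bt l γ x q).subst θ = bt l (gsub γ (tmS θ)) (x.subst θ) (q.subst θ)
  natMemE : ∀ γ a b θ, (memE γ a b).subst θ = memE (gsub γ (tmS θ)) (a.subst θ) (b.subst θ)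
  natMemA : ∀ γ x a b θ, (memA γ x a b).subst θ =
    memA (gsub γ (tmS θ)) (x.subst θ) (a.subst θ) (b.subst θ)
  natMemN : ∀ γ x a b θ, (memN γ x a b).subst θ =
    memN (gsub γ (tmS θ)) (x.subst θ) (a.subst θ) (b.subst θ)
  natPin : ∀ γ x a b θ, (pin γ x a b).subst θ =
    pin (gsub γ (tmS θ)) (x.subst θ) (a.subst θ) (b.subst θ)
  tyU : ∀ G γ, TS P E.Θ G γ → Ty P G (u γ).tm (V γ)
  tyQd : ∀ l G γ x, TS P E.Θ G γ → Ty P G x.tm (V γ) → Has P G (J l) (Qd l γ x)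
  tyBt : ∀ l G γ x q, TS P E.Θ G γ → Ty P G x.tm (V γ) → Ty P G q.tm (Qd l γ x) →
    Ty P G (bt l γ x q).tm (D l γ x)
  tyMemE : ∀ G γ a b, TS P E.Θ G γ → Ty P G a.tm (D .e γ (u γ)) → Ty P G b.tm (D .a γ (u γ)) →
    Has P G k.F (memE γ a b).tm
  tyMemA : ∀ G γ x a b, TS P E.Θ G γ → Ty P G x.tm (V γ) → Ty P G a.tm (D .a γ x) →
    Ty P G b.tm (D .n γ x) → Has P G k.F (memA γ x a b).tm
  tyMemN : ∀ G γ x a b, TS P E.Θ G γ → Ty P G x.tm (V γ) → Ty P G a.tm (D .n γ x) →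
    Ty P G b.tm (D .r γ x) → Has P G k.F (memN γ x a b).tm
  tyPin : ∀ G γ x a b, TS P E.Θ G γ → Ty P G x.tm (V γ) → Ty P G a.tm (D .e γ (u γ)) →
    Ty P G b.tm (D .r γ x) → Has P G k.F (pin γ x a b).tm
  compA : ∀ (w : E.World) (ψ : LT S), Has P (ccons (D .e w.γ (u w.γ)) w.G) k.F ψ.tm →
    ∃ q : LT S, Ty P w.G q.tm (Qd .a w.γ (u w.γ)) ∧ ∀ (w' : E.World) ξ (z : LT S), w.Ext w' ξ →
      Ty P w'.G z.tm (D .e w'.γ (u w'.γ)) →
      w'.Eqv j (memE w'.γ z (bt .a w'.γ (u w'.γ) (q.ren ξ))) ((ψ.ren (upRen ξ)).inst z)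
  compN : ∀ (w : E.World) (ψ : LT S), Has P (ccons (D .a w.γ (u w.γ)) w.G) k.F ψ.tm →
    ∃ q : LT S, Ty P w.G q.tm (Qd .n w.γ (u w.γ)) ∧ ∀ (w' : E.World) ξ (z : LT S), w.Ext w' ξ →
      Ty P w'.G z.tm (D .a w'.γ (u w'.γ)) →
      w'.Eqv j (memA w'.γ (u w'.γ) z (bt .n w'.γ (u w'.γ) (q.ren ξ))) ((ψ.ren (upRen ξ)).inst z)
  compR : ∀ (w : E.World) (ψ : LT S), Has P (ccons (D .n w.γ (u w.γ)) w.G) k.F ψ.tm →
    ∃ q : LT S, Ty P w.G q.tm (Qd .r w.γ (u w.γ)) ∧ ∀ (w' : E.World) ξ (z : LT S), w.Ext w' ξ →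
      Ty P w'.G z.tm (D .n w'.γ (u w'.γ)) →
      w'.Eqv j (memN w'.γ (u w'.γ) z (bt .r w'.γ (u w'.γ) (q.ren ξ))) ((ψ.ren (upRen ξ)).inst z)
  compE : ∀ (w : E.World) (ψ : LT S),
    Has P (ccons (D .r (gsh w.γ) (.var 0)) (ccons (V w.γ) w.G)) k.F ψ.tm →
    ∃ q : LT S, Ty P w.G q.tm (Qd .e w.γ (u w.γ)) ∧ ∀ (w' : E.World) ξ (z : LT S), w.Ext w' ξ →
      Ty P w'.G z.tm (D .r w'.γ (u w'.γ)) →
      w'.Eqv j (pin w'.γ (u w'.γ) (bt .e w'.γ (u w'.γ) (q.ren ξ)) z)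
        (ψ.subst (scons z (scons (u w'.γ) (LT.rs ξ))))

theorem ts_gsh {G γ : ℕ → Term S} (h : TS P E.Θ G γ) (A : Term S) :
    TS P E.Θ (ccons A G) (gsh γ) := h.weak A

omit [Finite S] in
theorem has_weak {G : ℕ → Term S} {I : Set S} {T : Term S} (h : Has P G I T) (A : Term S) :
    Has P (ccons A G) I T.shift := fun s hs => (h s hs).weak A

omit [Finite S] in
theorem has_inst {G : ℕ → Term S} {I : Set S} {A T N : Term S} (h : Has P (ccons A G) I T)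
    (hN : Ty P G N A) : Has P G I (T.inst N) := fun s hs => (h s hs).inst hN

omit [Finite S] in
theorem has_up_shift {G : ℕ → Term S} {I : Set S} {A T : Term S} (h : Has P (ccons A G) I T)
    (C : Term S) : Has P (ccons A.shift (ccons C G)) I (T.rename (upRen Nat.succ)) := by
  intro s hs
  refine (h s hs).rename (G' := ccons A.shift (ccons C G)) (ξ := upRen Nat.succ) ?_
  intro x
  cases x <;> simp [Term.shift, rename_rename]

theorem eqv_conv_F {k : E.Kit j} {w : E.World} {a b : LT S} (c : LT.Conv a b)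
    (ha : Has P w.G k.F a.tm) (hb : Has P w.G k.F b.tm) : w.Eqv j a b := by
  obtain ⟨s, hs⟩ := k.hF.1.1
  exact World.eqv_of_conv c (ha s hs) (hb s hs)

section bt0
variable {k : E.Kit j} {X Y J : Set S} (Pc : OC k X Y) (Qc : OC k J Y)

def bt0 (γ : ℕ → Term S) (Z : Term S) (q : LT S) : LT S :=
  Pc.lam γ Z (Qc.app (gsh γ) Z.shift q.shift (.var 0))

theorem bt0_nat (γ : ℕ → Term S) (Z : Term S) (q : LT S) (θ : ℕ → LT S) :
    (bt0 Pc Qc γ Z q).subst θ = bt0 Pc Qc (gsub γ (tmS θ)) (Z.subst (tmS θ)) (q.subst θ) := by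
  simp [bt0, Pc.natLam, Qc.natApp]

theorem oc_shift (γ : ℕ → Term S) (Z : Term S) : (Qc.W γ Z).shift = Qc.W (gsh γ) Z.shift := by
  have := Qc.natW γ Z (tmS (LT.rs Nat.succ))
  rw [gsub_shift] at this
  simpa [Term.shift, rename_eq_subst, LT.tmS_rs] using this

theorem bt0_body_ty {G γ : ℕ → Term S} {Z : Term S} {q : LT S} (hγ : TS P E.Θ G γ)
    (hZ : Has P G Y Z) (hq : Ty P G q.tm (Qc.W γ Z)) :
    Has P (ccons Z G) k.F (Qc.app (gsh γ) Z.shift q.shift (.var 0)).tm := by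
  refine Qc.tyApp _ _ _ _ _ (ts_gsh hγ _) (has_weak hZ _) ?_ (Ty.var 0)
  rw [← oc_shift]; exact hq.weak _

theorem bt0_ty {G γ : ℕ → Term S} {Z : Term S} {q : LT S} (hγ : TS P E.Θ G γ)
    (hZ : Has P G Y Z) (hq : Ty P G q.tm (Qc.W γ Z)) :
    Ty P G (bt0 Pc Qc γ Z q).tm (Pc.W γ Z) :=
  Pc.tyLam _ _ _ _ hγ hZ (bt0_body_ty Qc hγ hZ hq)

theorem bt0_law (w : E.World) {Z : Term S} {χ z : LT S} (hZ : Has P w.G Y Z)
    (hχ : Has P (ccons Z w.G) k.F χ.tm) (hz : Ty P w.G z.tm Z) :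
    w.Eqv j (Pc.app w.γ Z (bt0 Pc Qc w.γ Z (Qc.lam w.γ Z χ)) z) (χ.inst z) := by
  have hq := Qc.tyLam _ _ _ _ w.ts hZ hχ
  have h1 := Pc.law w Z _ z hZ hz (bt0_body_ty Qc w.ts hZ hq)
  have e : (Qc.app (gsh w.γ) Z.shift (Qc.lam w.γ Z χ).shift (.var 0)).inst z =
      Qc.app w.γ Z (Qc.lam w.γ Z χ) z := by
    simp [LT.inst, Qc.natApp]
  rw [e] at h1
  exact h1.trans (Qc.law w Z χ z hZ hz hχ)

end bt0

namespace Tower
variable {k : E.Kit j} (T : Tower k)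

def V (γ : ℕ → Term S) : Term S := T.sp.T.subst γ
def Z0 (γ : ℕ → Term S) (x : LT S) : Term S := T.B0 γ (T.sp.dn γ x).tm
def Z1 (γ : ℕ → Term S) (x : LT S) : Term S := T.P1.W γ (T.Z0 γ x)
def Z2 (γ : ℕ → Term S) (x : LT S) : Term S := T.P2.W γ (T.Z1 γ x)
def Z3 (γ : ℕ → Term S) (x : LT S) : Term S := T.P3.W γ (T.Z2 γ x)
def ET (γ : ℕ → Term S) : Term S := .pi (T.V γ) (T.Kc.W (gsh γ) (T.Z3 (gsh γ) (.var 0)))
def u (γ : ℕ → Term S) : LT S := T.sp.up γ (.glob (T.Um γ (T.ET γ)))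
def pin (γ : ℕ → Term S) (x e s : LT S) : LT S := T.Kc.app γ (T.Z3 γ x) (.app e x) s
def Lam (γ : ℕ → Term S) (ψ : LT S) : LT S :=
  .lam (T.V γ) (T.Kc.lam (gsh γ) (T.Z3 (gsh γ) (.var 0)) ψ)
def btBody (γ : ℕ → Term S) (q : LT S) : LT S :=
  T.QE.ext (gsh (gsh γ)) (T.ET (gsh (gsh γ)))
    (T.pin (gsh (gsh (gsh γ))) (.var 2) (.var 0) (.var 1)) q.shift.shift
def btE (γ : ℕ → Term S) (q : LT S) : LT S := T.Lam γ (T.btBody γ q)
def memE (γ : ℕ → Term S) (e y : LT S) : LT S :=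
  T.P1.app γ (T.Z0 γ (T.u γ)) y (T.M.inj γ (T.ET γ) e)
def chiA (γ : ℕ → Term S) (ψ : LT S) : LT S :=
  T.M.ext (gsh γ) (T.ET (gsh γ)) (ψ.ren (upRen Nat.succ)) (.var 0)

variable (γ : ℕ → Term S) (x : LT S) (θ : ℕ → LT S)

theorem natV (σ : ℕ → Term S) : (T.V γ).subst σ = T.V (gsub γ σ) := subst_gsub _ _ _
theorem nat0 : (T.Z0 γ x).subst (tmS θ) = T.Z0 (gsub γ (tmS θ)) (x.subst θ) := by
  simp only [Z0, T.natB0, ← T.sp.nat_dn, LT.subst_tm]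
theorem nat1 : (T.Z1 γ x).subst (tmS θ) = T.Z1 (gsub γ (tmS θ)) (x.subst θ) := by
  simp only [Z1, T.P1.natW, nat0]
theorem nat2 : (T.Z2 γ x).subst (tmS θ) = T.Z2 (gsub γ (tmS θ)) (x.subst θ) := by
  simp only [Z2, T.P2.natW, nat1]
theorem nat3 : (T.Z3 γ x).subst (tmS θ) = T.Z3 (gsub γ (tmS θ)) (x.subst θ) := by
  simp only [Z3, T.P3.natW, nat2]
theorem nat3_up : (T.Z3 (gsh γ) (.var 0)).subst (upSub (tmS θ)) =
    T.Z3 (gsh (gsub γ (tmS θ))) (.var 0) := by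
  have := T.nat3 (gsh γ) (.var 0) (LT.up θ)
  simpa using this
theorem natET : (T.ET γ).subst (tmS θ) = T.ET (gsub γ (tmS θ)) := by
  simp [ET, natV, T.Kc.natW, nat3_up]
theorem natU : (T.u γ).subst θ = T.u (gsub γ (tmS θ)) := by
  simp [u, T.sp.nat_up, T.natUm, natET]
theorem natPin (e s : LT S) : (T.pin γ x e s).subst θ =
    T.pin (gsub γ (tmS θ)) (x.subst θ) (e.subst θ) (s.subst θ) := by
  simp only [pin, T.Kc.natApp, nat3, LT.app_subst]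
theorem natLam (ψ : LT S) : (T.Lam γ ψ).subst θ =
    T.Lam (gsub γ (tmS θ)) (ψ.subst (LT.up (LT.up θ))) := by
  simp [Lam, natV, T.Kc.natLam, nat3_up]
theorem natBody' (q : LT S) : (T.btBody γ q).subst θ =
    T.QE.ext (gsub (gsh (gsh γ)) (tmS θ)) (T.ET (gsub (gsh (gsh γ)) (tmS θ)))
      (T.pin (gsh (gsub (gsh (gsh γ)) (tmS θ))) (θ 1).shift (.var 0) (θ 0).shift)
      (q.shift.shift.subst θ) := by
  rw [btBody, T.QE.natExt, natET, natPin]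
  simp
theorem natBody (q : LT S) : (T.btBody γ q).subst (LT.up (LT.up θ)) =
    T.btBody (gsub γ (tmS θ)) (q.subst θ) := by
  rw [natBody']; simp [btBody]
theorem natBtE (q : LT S) : (T.btE γ q).subst θ = T.btE (gsub γ (tmS θ)) (q.subst θ) := by
  simp only [btE, natLam, natBody]
theorem natMemE (e y : LT S) : (T.memE γ e y).subst θ =
    T.memE (gsub γ (tmS θ)) (e.subst θ) (y.subst θ) := by
  simp only [memE, T.P1.natApp, nat0, natU, T.M.natInj, natET]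
theorem natChiA' (ψ : LT S) : (T.chiA γ ψ).subst θ =
    T.M.ext (gsub (gsh γ) (tmS θ)) (T.ET (gsub (gsh γ) (tmS θ)))
      (ψ.subst (LT.up (fun n => θ (n + 1)))) (θ 0) := by
  rw [chiA, T.M.natExt, natET, LT.ren_eq_subst, LT.subst_subst]
  congr 2
  funext n; cases n <;> rfl
theorem natChiA (ψ : LT S) : (T.chiA γ ψ).subst (LT.up θ) =
    T.chiA (gsub γ (tmS θ)) (ψ.subst (LT.up θ)) := by
  rw [natChiA', chiA, LT.ren_eq_subst, LT.subst_subst]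
  simp only [LT.tmS_up, gsub_gsh_upSub, LT.up_zero]
  congr 2
  funext n; cases n
  · rfl
  · simp only [LT.up_succ, ← LT.up_rs, LT.shift_subst_up]
    congr 1
    exact LT.ren_eq_subst _ _

theorem ET_shift : (T.ET γ).shift = T.ET (gsh γ) := by
  have := T.natET γ (LT.rs Nat.succ)
  rw [gsub_shift] at this
  simpa [Term.shift, rename_eq_subst, LT.tmS_rs] using this
theorem V_shift : (T.V γ).shift = T.V (gsh γ) := (subst_gsh _ _).symm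
theorem Z0_shift : (T.Z0 γ x).shift = T.Z0 (gsh γ) x.shift := by
  have := T.nat0 γ x (LT.rs Nat.succ)
  rw [gsub_shift, ← LT.ren_eq_subst] at this
  simpa [Term.shift, rename_eq_subst, LT.tmS_rs, LT.shift] using this
theorem Z3_shift : (T.Z3 γ x).shift = T.Z3 (gsh γ) x.shift := by
  have := T.nat3 γ x (LT.rs Nat.succ)
  rw [gsub_shift, ← LT.ren_eq_subst] at this
  simpa [Term.shift, rename_eq_subst, LT.tmS_rs, LT.shift] using this
theorem u_shift : (T.u γ).shift = T.u (gsh γ) := by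
  rw [LT.shift, LT.ren_eq_subst, natU, gsub_shift]

variable {γ x} {G : ℕ → Term S}

theorem has0 (hγ : TS P E.Θ G γ) (hx : Ty P G x.tm (T.V γ)) : Has P G T.Y0 (T.Z0 γ x) :=
  T.tyB0 _ _ _ hγ (T.sp.ty_dn _ _ _ hγ hx)
theorem has1 (hγ : TS P E.Θ G γ) (hx : Ty P G x.tm (T.V γ)) : Has P G T.Y1 (T.Z1 γ x) :=
  T.P1.tyW _ _ _ hγ (T.has0 hγ hx)
theorem has2 (hγ : TS P E.Θ G γ) (hx : Ty P G x.tm (T.V γ)) : Has P G T.Y2 (T.Z2 γ x) :=
  T.P2.tyW _ _ _ hγ (T.has1 hγ hx)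
theorem has3 (hγ : TS P E.Θ G γ) (hx : Ty P G x.tm (T.V γ)) : Has P G T.Y3 (T.Z3 γ x) :=
  T.P3.tyW _ _ _ hγ (T.has2 hγ hx)
theorem ty_v0 (G γ : ℕ → Term S) :
    Ty P (ccons (T.V γ) G) (LT.var 0 : LT S).tm (T.V (gsh γ)) := by
  rw [← V_shift]; exact Ty.var 0
theorem hasET (hγ : TS P E.Θ G γ) : Has P G T.Ip (T.ET γ) :=
  Has.pi T.rule (T.sp.has.subst hγ)
    (T.Kc.tyW _ _ _ (ts_gsh hγ _) (T.has3 (ts_gsh hγ _) (T.ty_v0 G γ)))
theorem tyU (hγ : TS P E.Θ G γ) : Ty P G (T.u γ).tm (T.V γ) :=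
  T.sp.ty_up _ _ _ hγ (T.tyUm _ _ _ hγ (T.hasET hγ))
theorem conv_Z0_u (γ : ℕ → Term S) : Conv (T.Z0 γ (T.u γ)) (T.M.W γ (T.ET γ)) := by
  rw [T.fac, Z0]
  have e : ∀ Z, T.B0 γ Z = (T.B0 (gsh γ) (.var 0)).inst Z := by
    intro Z; rw [inst_eq, T.natB0]; simp
  rw [e, e (T.Um γ (T.ET γ))]
  exact Conv.rfl.inst (T.sp.law γ _).1
theorem Kc_inst (γ : ℕ → Term S) (x : LT S) :
    (T.Kc.W (gsh γ) (T.Z3 (gsh γ) (.var 0))).inst x.tm = T.Kc.W γ (T.Z3 γ x) := by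
  have h := T.nat3 (gsh γ) (.var 0) (scons x LT.var)
  simp only [LT.tmS_scons, LT.tmS_var, gsub_gsh_scons, gsub_var, LT.var_subst, scons_zero] at h
  rw [inst_eq, T.Kc.natW, h]; simp
theorem tyPin {e s : LT S} (hγ : TS P E.Θ G γ) (hx : Ty P G x.tm (T.V γ))
    (he : Ty P G e.tm (T.ET γ)) (hs : Ty P G s.tm (T.Z3 γ x)) :
    Has P G k.F (T.pin γ x e s).tm := by
  refine T.Kc.tyApp _ _ _ _ _ hγ (T.has3 hγ hx) ?_ hs
  rw [← Kc_inst]; exact Ty.app he hx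
theorem tyLam {ψ : LT S} (hγ : TS P E.Θ G γ)
    (hψ : Has P (ccons (T.Z3 (gsh γ) (.var 0)) (ccons (T.V γ) G)) k.F ψ.tm) :
    Ty P G (T.Lam γ ψ).tm (T.ET γ) := by
  obtain ⟨s, hs⟩ := T.neI
  exact Ty.lam (T.Kc.tyLam _ _ _ _ (ts_gsh hγ _) (T.has3 (ts_gsh hγ _) (T.ty_v0 G γ)) hψ)
    (T.hasET hγ s hs)
theorem ec_shift {X Y : Set S} (C : EC k X Y) (γ : ℕ → Term S) (Z : Term S) :
    (C.W γ Z).shift = C.W (gsh γ) Z.shift := by
  have := C.natW γ Z (tmS (LT.rs Nat.succ))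
  rw [gsub_shift] at this
  simpa [Term.shift, rename_eq_subst, LT.tmS_rs] using this
theorem tyPinBody {s : LT S} (hγ : TS P E.Θ G γ) (hx : Ty P G x.tm (T.V γ))
    (hs : Ty P G s.tm (T.Z3 γ x)) :
    Has P (ccons (T.ET γ) G) k.F (T.pin (gsh γ) x.shift (.var 0) s.shift).tm := by
  refine T.tyPin (ts_gsh hγ _) ?_ ?_ ?_
  · rw [← V_shift]; exact hx.weak _
  · rw [← ET_shift]; exact Ty.var 0
  · rw [← Z3_shift]; exact hs.weak _
theorem tyBody {q : LT S} (hγ : TS P E.Θ G γ) (hq : Ty P G q.tm (T.QE.W γ (T.ET γ))) :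
    Has P (ccons (T.Z3 (gsh γ) (.var 0)) (ccons (T.V γ) G)) k.F (T.btBody γ q).tm := by
  have h2 := ts_gsh (ts_gsh hγ (T.V γ)) (T.Z3 (gsh γ) (.var 0))
  refine T.QE.tyExt _ _ _ _ _ h2 (T.hasET h2) ?_ ?_
  · refine T.tyPinBody (x := .var 1) (s := .var 0) h2 ?_ ?_
    · rw [← V_shift]; exact (T.ty_v0 G γ).weak _
    · have := T.Z3_shift (gsh γ) (.var 0)
      rw [LT.var_shift] at this
      rw [← this]; exact Ty.var 0
  · rw [← ET_shift, ← ET_shift, ← ec_shift, ← ec_shift]; exact (hq.weak _).weak _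
theorem tyBtE {q : LT S} (hγ : TS P E.Θ G γ) (hq : Ty P G q.tm (T.QE.W γ (T.ET γ))) :
    Ty P G (T.btE γ q).tm (T.ET γ) := T.tyLam hγ (T.tyBody hγ hq)
theorem tyInj {e : LT S} (hγ : TS P E.Θ G γ) (he : Ty P G e.tm (T.ET γ)) :
    Ty P G (T.M.inj γ (T.ET γ) e).tm (T.Z0 γ (T.u γ)) := by
  obtain ⟨s, hs⟩ := T.ne0
  exact (T.M.tyInj _ _ _ _ hγ (T.hasET hγ) he).conv (T.has0 hγ (T.tyU hγ) s hs)
    (T.conv_Z0_u γ).symm
theorem tyMemE {e y : LT S} (hγ : TS P E.Θ G γ) (he : Ty P G e.tm (T.ET γ))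
    (hy : Ty P G y.tm (T.Z1 γ (T.u γ))) : Has P G k.F (T.memE γ e y).tm :=
  T.P1.tyApp _ _ _ _ _ hγ (T.has0 hγ (T.tyU hγ)) hy (T.tyInj hγ he)
theorem tyChiA {ψ : LT S} (hγ : TS P E.Θ G γ) (hψ : Has P (ccons (T.ET γ) G) k.F ψ.tm) :
    Has P (ccons (T.Z0 γ (T.u γ)) G) k.F (T.chiA γ ψ).tm := by
  have h1 := ts_gsh hγ (T.Z0 γ (T.u γ))
  obtain ⟨s, hs⟩ := T.ne0
  refine T.M.tyExt _ _ _ _ _ h1 (T.hasET h1) ?_ ?_
  · rw [← ET_shift]; exact has_up_shift hψ _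
  · refine (Ty.var 0).conv (T.M.tyW _ _ _ h1 (T.hasET h1) s hs) ?_
    rw [ccons_zero, Z0_shift, u_shift]; exact T.conv_Z0_u _

theorem lawA (w : E.World) {ψ z : LT S} (hψ : Has P (ccons (T.ET w.γ) w.G) k.F ψ.tm)
    (hz : Ty P w.G z.tm (T.ET w.γ)) :
    w.Eqv j (T.memE w.γ z (bt0 T.P1 T.Q0 w.γ (T.Z0 w.γ (T.u w.γ))
      (T.Q0.lam w.γ (T.Z0 w.γ (T.u w.γ)) (T.chiA w.γ ψ)))) (ψ.inst z) := by
  have h1 := bt0_law T.P1 T.Q0 w (T.has0 w.ts (T.tyU w.ts)) (T.tyChiA w.ts hψ) (T.tyInj w.ts hz)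
  have e : (T.chiA w.γ ψ).inst (T.M.inj w.γ (T.ET w.γ) z) =
      T.M.ext w.γ (T.ET w.γ) ψ (T.M.inj w.γ (T.ET w.γ) z) := by
    rw [LT.inst, natChiA']
    have : LT.up (fun n => (LT.var n : LT S)) = LT.var := by funext n; cases n <;> rfl
    simp [this]
  rw [e] at h1
  exact h1.trans (T.M.law w _ ψ z (T.hasET w.ts) hz hψ)

theorem pin_Lam (w : E.World) {ψ x z : LT S}
    (hψ : Has P (ccons (T.Z3 (gsh w.γ) (.var 0)) (ccons (T.V w.γ) w.G)) k.F ψ.tm)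
    (hx : Ty P w.G x.tm (T.V w.γ)) (hz : Ty P w.G z.tm (T.Z3 w.γ x)) :
    w.Eqv j (T.pin w.γ x (T.Lam w.γ ψ) z) (ψ.subst (scons z (scons x LT.var))) := by
  have h3 := T.nat3 (gsh w.γ) (.var 0) (scons x LT.var)
  simp only [LT.tmS_scons, LT.tmS_var, gsub_gsh_scons, gsub_var, LT.var_subst, scons_zero] at h3
  have hψ' : Has P (ccons (T.Z3 w.γ x) w.G) k.F (ψ.subst (LT.up (scons x LT.var))).tm := by
    have ts : TS P (ccons (T.V w.γ) w.G) w.G (scons x.tm Term.var) :=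
      TS.scons (TS.id _) (by simpa using hx)
    have := hψ.subst (ts.up (T.Z3 (gsh w.γ) (.var 0)))
    rw [h3] at this
    simpa using this
  have c : LT.Conv (.app (T.Lam w.γ ψ) x)
      (T.Kc.lam w.γ (T.Z3 w.γ x) (ψ.subst (LT.up (scons x LT.var)))) := by
    have := LT.Conv.beta (T.V w.γ) (T.Kc.lam (gsh w.γ) (T.Z3 (gsh w.γ) (.var 0)) ψ) x
    rw [LT.inst, T.Kc.natLam] at this
    simp only [LT.tmS_scons, LT.tmS_var, gsub_gsh_scons, gsub_var, h3] at this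
    exact this
  have e1 := eqv_conv_F (T.Kc.convApp w.γ (T.Z3 w.γ x) _ _ z c)
    (T.tyPin w.ts hx (T.tyLam w.ts hψ) hz)
    (T.Kc.tyApp _ _ _ _ _ w.ts (T.has3 w.ts hx) (T.Kc.tyLam _ _ _ _ w.ts (T.has3 w.ts hx) hψ') hz)
  have e2 := T.Kc.law w _ _ z (T.has3 w.ts hx) hz hψ'
  rw [LT.up_inst] at e2
  exact e1.trans e2

theorem lawE (w : E.World) {ψ z : LT S}
    (hψ : Has P (ccons (T.Z3 (gsh w.γ) (.var 0)) (ccons (T.V w.γ) w.G)) k.F ψ.tm)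
    (hz : Ty P w.G z.tm (T.Z3 w.γ (T.u w.γ))) :
    w.Eqv j (T.pin w.γ (T.u w.γ) (T.btE w.γ (T.QE.inj w.γ (T.ET w.γ) (T.Lam w.γ ψ))) z)
      (ψ.subst (scons z (scons (T.u w.γ) LT.var))) := by
  have hL := T.tyLam w.ts hψ
  have hq := T.QE.tyInj _ _ _ _ w.ts (T.hasET w.ts) hL
  have e1 := T.pin_Lam w (T.tyBody w.ts hq) (T.tyU w.ts) hz
  rw [natBody'] at e1
  simp only [LT.tmS_scons, LT.tmS_var, gsub_gsh_scons, gsub_var, scons_zero, scons_succ,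
    LT.shift_subst_scons, LT.subst_var] at e1
  have e2 := T.QE.law w _ _ _ (T.hasET w.ts) hL (T.tyPinBody w.ts (T.tyU w.ts) hz)
  have e : (T.pin (gsh w.γ) (T.u w.γ).shift (.var 0) z.shift).inst (T.Lam w.γ ψ) =
      T.pin w.γ (T.u w.γ) (T.Lam w.γ ψ) z := by
    rw [LT.inst, natPin]; simp
  rw [e] at e2
  exact (e1.trans e2).trans (T.pin_Lam w hψ (T.tyU w.ts) hz)

end Tower

theorem ext_tm {w w' : E.World} {ξ : ℕ → ℕ} (h : w.Ext w' ξ) {F : (ℕ → Term S) → Term S}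
    (hF : ∀ γ θ, (F γ).subst (tmS θ) = F (gsub γ (tmS θ))) : (F w.γ).rename ξ = F w'.γ := by
  rw [h.gam, ← hF, rename_eq_subst]; rfl

theorem exists_hol {k : E.Kit j} (T : Tower k) : Nonempty (Hol k) := by
  refine ⟨{
    V := T.V
    u := T.u
    D := fun l γ x => match l with
      | .e => T.ET γ | .a => T.Z1 γ x | .n => T.Z2 γ x | .r => T.Z3 γ x
    Qd := fun l γ x => match l with
      | .e => T.QE.W γ (T.ET γ) | .a => T.Q0.W γ (T.Z0 γ x) | .n => T.Q1.W γ (T.Z1 γ x)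
      | .r => T.Q2.W γ (T.Z2 γ x)
    bt := fun l γ x q => match l with
      | .e => T.btE γ q | .a => bt0 T.P1 T.Q0 γ (T.Z0 γ x) q | .n => bt0 T.P2 T.Q1 γ (T.Z1 γ x) q
      | .r => bt0 T.P3 T.Q2 γ (T.Z2 γ x) q
    J := fun l => match l with | .e => T.JE | .a => T.J0 | .n => T.J1 | .r => T.J2
    ent := fun l => match l with | .e => T.eE | .a => T.e0 | .n => T.e1 | .r => T.e2
    memE := T.memE
    memA := fun γ x a y => T.P2.app γ (T.Z1 γ x) y a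
    memN := fun γ x a y => T.P3.app γ (T.Z2 γ x) y a
    pin := T.pin
    natV := T.natV
    natU := T.natU
    natD := ?_, natQd := ?_, natBt := ?_
    natMemE := fun γ a b θ => T.natMemE γ θ a b
    natMemA := ?_, natMemN := ?_
    natPin := fun γ x a b θ => T.natPin γ x θ a b
    tyU := fun G γ h => T.tyU h
    tyQd := ?_, tyBt := ?_
    tyMemE := fun G γ a b h ha hb => T.tyMemE h ha hb
    tyMemA := fun G γ x a b h hx ha hb => T.P2.tyApp _ _ _ _ _ h (T.has1 h hx) hb ha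
    tyMemN := fun G γ x a b h hx ha hb => T.P3.tyApp _ _ _ _ _ h (T.has2 h hx) hb ha
    tyPin := fun G γ x a b h hx ha hb => T.tyPin h hx ha hb
    compA := ?_, compN := ?_, compR := ?_, compE := ?_ }⟩
  · intro l γ x θ; cases l
    exacts [T.natET γ θ, T.nat1 γ x θ, T.nat2 γ x θ, T.nat3 γ x θ]
  · intro l γ x θ; cases l <;> simp only [EC.natW, OC.natW, T.natET, T.nat0, T.nat1, T.nat2]
  · intro l γ x q θ; cases l <;> simp only [T.natBtE, bt0_nat, T.nat0, T.nat1, T.nat2]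
  · intro γ x a b θ; simp only [OC.natApp, T.nat1]
  · intro γ x a b θ; simp only [OC.natApp, T.nat2]
  · intro l G γ x h hx; cases l
    exacts [T.QE.tyW _ _ _ h (T.hasET h), T.Q0.tyW _ _ _ h (T.has0 h hx),
      T.Q1.tyW _ _ _ h (T.has1 h hx), T.Q2.tyW _ _ _ h (T.has2 h hx)]
  · intro l G γ x q h hx hq; cases l
    exacts [T.tyBtE h hq, bt0_ty _ _ h (T.has0 h hx) hq, bt0_ty _ _ h (T.has1 h hx) hq,
      bt0_ty _ _ h (T.has2 h hx) hq]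
  · intro w ψ hψ
    refine ⟨T.Q0.lam w.γ (T.Z0 w.γ (T.u w.γ)) (T.chiA w.γ ψ),
      T.Q0.tyLam _ _ _ _ w.ts (T.has0 w.ts (T.tyU w.ts)) (T.tyChiA w.ts hψ), ?_⟩
    intro w' ξ z h hz
    have hψ' := h.has_up hψ
    rw [ext_tm h (F := T.ET) T.natET] at hψ'
    have := T.lawA w' (ψ := ψ.ren (upRen ξ)) hψ' hz
    rw [LT.ren_eq_subst (T.Q0.lam _ _ _), T.Q0.natLam, T.nat0, T.natU, T.natChiA, ← h.gam,
      LT.up_rs, ← LT.ren_eq_subst]
    exact this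
  · intro w ψ hψ
    refine ⟨T.Q1.lam w.γ (T.Z1 w.γ (T.u w.γ)) ψ,
      T.Q1.tyLam _ _ _ _ w.ts (T.has1 w.ts (T.tyU w.ts)) hψ, ?_⟩
    intro w' ξ z h hz
    have hψ' := h.has_up hψ
    rw [ext_tm h (F := fun γ => T.Z1 γ (T.u γ)) (fun γ θ => by rw [T.nat1, T.natU])] at hψ'
    have := bt0_law T.P2 T.Q1 w' (χ := ψ.ren (upRen ξ)) (T.has1 w'.ts (T.tyU w'.ts)) hψ' hz
    rw [LT.ren_eq_subst (T.Q1.lam _ _ _), T.Q1.natLam, T.nat1, T.natU, ← h.gam,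
      LT.up_rs, ← LT.ren_eq_subst]
    exact this
  · intro w ψ hψ
    refine ⟨T.Q2.lam w.γ (T.Z2 w.γ (T.u w.γ)) ψ,
      T.Q2.tyLam _ _ _ _ w.ts (T.has2 w.ts (T.tyU w.ts)) hψ, ?_⟩
    intro w' ξ z h hz
    have hψ' := h.has_up hψ
    rw [ext_tm h (F := fun γ => T.Z2 γ (T.u γ)) (fun γ θ => by rw [T.nat2, T.natU])] at hψ'
    have := bt0_law T.P3 T.Q2 w' (χ := ψ.ren (upRen ξ)) (T.has2 w'.ts (T.tyU w'.ts)) hψ' hz
    rw [LT.ren_eq_subst (T.Q2.lam _ _ _), T.Q2.natLam, T.nat2, T.natU, ← h.gam,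
      LT.up_rs, ← LT.ren_eq_subst]
    exact this
  · intro w ψ hψ
    refine ⟨T.QE.inj w.γ (T.ET w.γ) (T.Lam w.γ ψ),
      T.QE.tyInj _ _ _ _ w.ts (T.hasET w.ts) (T.tyLam w.ts hψ), ?_⟩
    intro w' ξ z h hz
    have hψ' : Has P (ccons (T.Z3 (gsh w'.γ) (.var 0)) (ccons (T.V w'.γ) w'.G)) k.F
        (ψ.subst (LT.up (LT.up (LT.rs ξ)))).tm := by
      have ts : TS P w.G w'.G (tmS (LT.rs ξ)) := by
        intro x
        have := Ty.var (P := P) (G := w'.G) (ξ x)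
        rw [h.ctx, rename_eq_subst] at this
        exact this
      have := hψ.subst ((ts.up (T.V w.γ)).up _)
      rw [T.nat3_up, T.natV, ← h.gam] at this
      simpa using this
    have := T.lawE w' hψ' hz
    rw [LT.up_subst_scons, LT.ren_eq_subst] at *
    rw [T.QE.natInj, T.natET, T.natLam, ← h.gam]
    convert this using 3
    funext n; cases n <;> rfl

end Amb
end Vale.Agent.P340
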