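import Mathlib.Tactic.Common
import Mathlib.Data.List.Basic
import Mathlib.Data.Countable.Basic
import Mathlib.Data.Nat.Pairing
import Mathlib.Logic.Equiv.List
import Mathlib.Tactic.Push
import Mathlib.Tactic.Tauto

/-! A small many-sorted logic and its inconsistency (a Burali-Forti argument).

Sorts: `e`, and three levels `a g`, `n g`, `r g` (`g = true`: generic level over a type
variable, `g = false`: level over the fixed type `U`). Variables are pairs (sort, de Bruijn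
index among the variables of that sort). A sequent is a list of closures (formula,
environment); an environment sends variables to constants (natural numbers); a variable of
sort `σ` gets a constant of sort `σ.spec`. `Ctr Γ` means that `Γ` is contradictory.

PLAN for `Calc.paradox`. Suppose `¬ Ctr []`.
1. Henkin construction. Enumerate all closures `ψ k`. `Γ 0 = []`; if `¬ Ctr (ψ k :: Γ k)` then
   `Γ (k+1) = ψ k :: Γ k`; otherwise if `ψ k = (none σ φ, ρ)` then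
   `Γ (k+1) = (φ, (σ, c) :: ρ) :: Γ k` with `c` fresh (consistent by `noneR`), else
   `Γ (k+1) = Γ k`. `T x := ∃ k, x ∈ Γ k`. Every finite list of `T` elements is not `Ctr`; if
   `¬ T x` then `Ctr (x :: Γ k)` for some `k`.
2. Truth lemma: `T (nand a b, ρ) ↔ ¬ (T (a, ρ) ∧ T (b, ρ))`,
   `T (none σ φ, ρ) ↔ ∀ c, ¬ T (φ, (σ, c) :: ρ)`, and atoms only depend on `atomOf`. So `T (φ, ρ)`
   is Tarski satisfaction in the model with all domains `ℕ` and relations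
   `memE x y, memA x y, memN x y, pin x y` (no dependence on the flag `g`), and the four
   comprehension schemes hold in the model.
3. In the model put
   `sub n' n := ∀ a, memA a n' → memA a n`, `lt n' n := sub n' n ∧ ¬ sub n n'`,
   `Is x χ := ∀ r', pin x r' ↔ ∀ w, (∀ s', (∀ n', memN n' s' ↔ χ n') → pin w s') → pin w r'`,
   `Φ x r := ∃ n, memN n r ∧ Is x (fun n' => memN n' r ∧ lt n' n)`,
   `el x e := ∃ r, pin e r ∧ Φ x r`, `eqv x y := ∀ r, pin x r ↔ pin y r`,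
   `W e := ∀ p, (∀ x, (∀ y, el y x → memE y p) → memE x p) → memE e p`,
   `Code c e := ∀ p, memA p c ↔ ∀ e', memE e' p → el e' e ∨ eqv e' e`,
   `D r0 x e := ∃ c, Code c e ∧ Is x (fun n' => memN n' r0 ∧ lt n' c)`.
   Comprehension instances (write the formulas, `simp` the satisfaction):
   C1 `∀ x, ∃ w, ∀ r, pin w r ↔ ¬ Φ x r` (by `cE`; in the formula `r, n, n', s'` and the `a` of
   `sub` have generic sorts, `r'` has sort `r false`);
   C2 `∀ s, ∃ o, Is o (fun n' => memN n' s)` (by `cE`; only the bound `r'` is generic);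
   C3 `∀ r n, ∃ s, ∀ n', memN n' s ↔ memN n' r ∧ lt n' n`; C4 `∀ e, ∃ c, Code c e`;
   C4' `∀ e, ∃ p, ∀ e', memE e' p ↔ el e' e ∨ eqv e' e`;
   C5 `∃ r0, ∀ n, memN n r0 ↔ ∃ e, W e ∧ Code n e`;
   C6 sets `p` of sort `a false` for the predicates `∀ y, el y e → W y`, `¬ el e e`,
   `∀ x, D r0 x e → W x`, `W e → ∀ x, D r0 x e → ¬ el x e`.
   Lemma A: if `Is o χ` and `∀ n, memN n s ↔ χ n` then
   `el x o ↔ ∃ n, χ n ∧ Is x (fun n' => χ n' ∧ lt n' n)` (`pin o s` holds; conversely use C1,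
   `Φ x` only depends on the members of `r`). `el` is transitive (Lemma A, C3, `lt` transitive)
   and invariant under `eqv` on both sides. `W x ↔ ∀ y, el y x → W y`; `W e → ¬ el e e`.
   `Code c e → Code c' e' → (sub c' c ↔ el e' e ∨ eqv e' e)` (C4'), hence for `W e'`:
   `lt c' c ↔ el e' e`. So `D r0 x e → (el y x ↔ ∃ e', W e' ∧ el e' e ∧ D r0 y e')`, and
   `∀ e, ∃ x, D r0 x e`. Induction: `W e → D r0 x e → W x`. For `Ω` with `Is Ω (· ∈ r0)`:
   `el y Ω ↔ ∃ e, W e ∧ D r0 y e`, so `W Ω`, and `el x0 Ω` for `D r0 x0 Ω`. Induction: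
   `W e → D r0 x e → ¬ el x e` (if `el x e`, take `D r0 z x`; then `el z x`, against the
   hypothesis at `x`). Contradiction at `Ω`. -/

namespace Vale.Agent.P340.Logic

inductive Srt
  | e
  | a (g : Bool)
  | n (g : Bool)
  | r (g : Bool)
  deriving DecidableEq

def Srt.spec : Srt → Srt
  | .e => .e
  | .a _ => .a false
  | .n _ => .n false
  | .r _ => .r false

def Srt.gen : Srt → Bool
  | .e => false
  | .a g => g
  | .n g => g
  | .r g => g

inductive Fm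
  | memE (x y : ℕ)
  | memA (g : Bool) (x y : ℕ)
  | memN (g : Bool) (x y : ℕ)
  | pin (g : Bool) (x y : ℕ)
  | nand (φ ψ : Fm)
  | none (σ : Srt) (φ : Fm)

namespace Fm

def neg (φ : Fm) : Fm := nand φ φ
def all (σ : Srt) (φ : Fm) : Fm := none σ (neg φ)
def iff (φ ψ : Fm) : Fm := nand (nand φ ψ) (nand (neg φ) (neg ψ))

/-- `Free σ k φ`: the variable number `k` of sort `σ` occurs free in `φ`. -/
def Free : Srt → ℕ → Fm → Prop
  | σ, k, memE x y => (σ = .e ∧ k = x) ∨ (σ = .a false ∧ k = y)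
  | σ, k, memA g x y => (σ = .a g ∧ k = x) ∨ (σ = .n g ∧ k = y)
  | σ, k, memN g x y => (σ = .n g ∧ k = x) ∨ (σ = .r g ∧ k = y)
  | σ, k, pin g x y => (σ = .e ∧ k = x) ∨ (σ = .r g ∧ k = y)
  | σ, k, nand φ ψ => Free σ k φ ∨ Free σ k ψ
  | σ, k, none τ φ => if σ = τ then Free σ (k + 1) φ else Free σ k φ

end Fm

abbrev Env := List (Srt × ℕ)
abbrev Cl := Fm × Env

/-- value of the variable number `k` of sort `σ` (default 0) -/
def look : Env → Srt → ℕ → ℕ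
  | [], _, _ => 0
  | (τ, c) :: ρ, σ, k =>
    if σ = τ then (match k with | 0 => c | k + 1 => look ρ σ k) else look ρ σ k

/-- the atomic fact (relation number and two constants) stated by an atomic closure -/
def atomOf : Cl → Option (ℕ × ℕ × ℕ)
  | (.memE x y, ρ) => some (0, look ρ .e x, look ρ (.a false) y)
  | (.memA g x y, ρ) => some (1, look ρ (.a g) x, look ρ (.n g) y)
  | (.memN g x y, ρ) => some (2, look ρ (.n g) x, look ρ (.r g) y)
  | (.pin g x y, ρ) => some (3, look ρ .e x, look ρ (.r g) y)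
  | _ => Option.none

def Fresh (c : ℕ) (ρ : Env) : Prop := 0 < c ∧ ∀ p ∈ ρ, p.2 < c

structure Calc (Ctr : List Cl → Prop) : Prop where
  mono : ∀ Γ Γ', (∀ x ∈ Γ, x ∈ Γ') → Ctr Γ → Ctr Γ'
  atom : ∀ Γ x y t, atomOf x = some t → atomOf y = some t → x ∈ Γ → Ctr (y :: Γ) → Ctr Γ
  nandL : ∀ Γ φ ψ ρ, (Fm.nand φ ψ, ρ) ∈ Γ → (φ, ρ) ∈ Γ → (ψ, ρ) ∈ Γ → Ctr Γ
  nandR : ∀ Γ φ ψ ρ, Ctr ((φ, ρ) :: (ψ, ρ) :: Γ) → Ctr ((Fm.nand φ ψ, ρ) :: Γ) → Ctr Γ
  noneL : ∀ Γ σ φ ρ c, (Fm.none σ φ, ρ) ∈ Γ → (φ, (σ, c) :: ρ) ∈ Γ → Ctr Γ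
  noneR : ∀ Γ σ φ ρ c, Fresh c ρ → (∀ x ∈ Γ, Fresh c x.2) →
    Ctr ((φ, (σ, c) :: ρ) :: Γ) → Ctr ((Fm.none σ φ, ρ) :: Γ) → Ctr Γ
  cE : ∀ φ ρ, ¬ Fm.Free .e 0 φ →
    (∀ σ k, Fm.Free σ k φ → σ.gen = true → σ = .r true ∧ k = 0) →
    Ctr [(.none .e (.all (.r true) (.iff (.pin true 0 0) φ)), ρ)]
  cA : ∀ φ ρ, ¬ Fm.Free (.a false) 0 φ →
    Ctr [(.none (.a false) (.all .e (.iff (.memE 0 0) φ)), ρ)]
  cN : ∀ φ ρ, ¬ Fm.Free (.n false) 0 φ →
    Ctr [(.none (.n false) (.all (.a false) (.iff (.memA false 0 0) φ)), ρ)]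
  cR : ∀ φ ρ, ¬ Fm.Free (.r false) 0 φ →
    Ctr [(.none (.r false) (.all (.n false) (.iff (.memN false 0 0) φ)), ρ)]

/-! ### Countability -/

def Srt.code : Srt → ℕ
  | .e => 0
  | .a false => 1
  | .a true => 2
  | .n false => 3
  | .n true => 4
  | .r false => 5
  | .r true => 6

theorem Srt.code_inj : Function.Injective Srt.code := by
  intro x y h
  rcases x with _ | (_ | _) | (_ | _) | (_ | _) <;>
    rcases y with _ | (_ | _) | (_ | _) | (_ | _) <;>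
    first
    | rfl
    | exact absurd h (by decide)

def Fm.code : Fm → ℕ
  | .memE x y => Nat.pair 0 (Nat.pair x y)
  | .memA g x y => Nat.pair 1 (Nat.pair (Srt.a g).code (Nat.pair x y))
  | .memN g x y => Nat.pair 2 (Nat.pair (Srt.a g).code (Nat.pair x y))
  | .pin g x y => Nat.pair 3 (Nat.pair (Srt.a g).code (Nat.pair x y))
  | .nand φ ψ => Nat.pair 4 (Nat.pair φ.code ψ.code)
  | .none σ φ => Nat.pair 5 (Nat.pair σ.code φ.code)

theorem Fm.code_inj : ∀ φ ψ : Fm, φ.code = ψ.code → φ = ψ := by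
  intro φ
  induction φ with
  | memE x y =>
    intro ψ h
    cases ψ <;> simp_all [Fm.code, Nat.pair_eq_pair]
  | memA g x y =>
    intro ψ h
    cases ψ <;> simp_all [Fm.code, Nat.pair_eq_pair, Srt.code_inj.eq_iff]
  | memN g x y =>
    intro ψ h
    cases ψ <;> simp_all [Fm.code, Nat.pair_eq_pair, Srt.code_inj.eq_iff]
  | pin g x y =>
    intro ψ h
    cases ψ <;> simp_all [Fm.code, Nat.pair_eq_pair, Srt.code_inj.eq_iff]
  | nand a b iha ihb =>
    intro ψ h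
    cases ψ with
    | nand c d =>
      simp only [Fm.code, Nat.pair_eq_pair, true_and] at h
      rw [iha c h.1, ihb d h.2]
    | _ => simp [Fm.code, Nat.pair_eq_pair] at h
  | none σ a iha =>
    intro ψ h
    cases ψ with
    | none τ c =>
      simp only [Fm.code, Nat.pair_eq_pair, true_and, Srt.code_inj.eq_iff] at h
      rw [iha c h.2, h.1]
    | _ => simp [Fm.code, Nat.pair_eq_pair] at h

theorem exists_enum : ∃ ψ : ℕ → Cl, Function.Surjective ψ := by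
  have : Countable Srt := Srt.code_inj.countable
  have : Countable Fm :=
    Function.Injective.countable (f := Fm.code) (fun a b h => Fm.code_inj a b h)
  have : Nonempty Cl := ⟨(.memE 0 0, [])⟩
  exact exists_surjective_nat Cl

/-! ### The Henkin construction -/

theorem exists_fresh (ρ : Env) : ∃ c0, ∀ c, c0 ≤ c → Fresh c ρ := by
  induction ρ with
  | nil => exact ⟨1, fun c hc => ⟨hc, by simp⟩⟩
  | cons p ρ ih =>
    obtain ⟨c0, h0⟩ := ih
    refine ⟨max c0 (p.2 + 1), fun c hc => ?_⟩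
    have h1 := h0 c (le_trans (le_max_left _ _) hc)
    refine ⟨h1.1, fun q hq => ?_⟩
    rcases List.mem_cons.1 hq with rfl | hq
    · exact lt_of_lt_of_le (Nat.lt_succ_self _) (le_trans (le_max_right _ _) hc)
    · exact h1.2 q hq

theorem exists_fresh_all (Γ : List Cl) : ∃ c, ∀ x ∈ Γ, ∀ c', c ≤ c' → Fresh c' x.2 := by
  induction Γ with
  | nil => exact ⟨0, by simp⟩
  | cons x Γ ih =>
    obtain ⟨c, hc⟩ := ih
    obtain ⟨c0, h0⟩ := exists_fresh x.2
    refine ⟨max c c0, fun y hy c' hc' => ?_⟩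
    rcases List.mem_cons.1 hy with rfl | hy
    · exact h0 c' (le_trans (le_max_right _ _) hc')
    · exact hc y hy c' (le_trans (le_max_left _ _) hc')

theorem Calc.step {Ctr : List Cl → Prop} (h : Calc Ctr) (Γ : List Cl) (x : Cl) (hΓ : ¬ Ctr Γ) :
    ∃ Γ', ¬ Ctr Γ' ∧ (∀ y ∈ Γ, y ∈ Γ') ∧ (x ∈ Γ' ∨ Ctr (x :: Γ')) ∧
      ∀ σ φ ρ, x = (Fm.none σ φ, ρ) → x ∈ Γ' ∨ ∃ c, (φ, (σ, c) :: ρ) ∈ Γ' := by
  by_cases h1 : Ctr (x :: Γ)
  · by_cases h2 : ∃ σ φ ρ, x = (Fm.none σ φ, ρ)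
    · obtain ⟨σ, φ, ρ, rfl⟩ := h2
      obtain ⟨c, hc⟩ := exists_fresh_all ((Fm.none σ φ, ρ) :: Γ)
      refine ⟨(φ, (σ, c) :: ρ) :: Γ, fun h3 => hΓ ?_, fun y hy => List.mem_cons_of_mem _ hy,
        Or.inr (h.mono _ _ ?_ h1), ?_⟩
      · exact h.noneR Γ σ φ ρ c (hc _ List.mem_cons_self c le_rfl)
          (fun y hy => hc y (List.mem_cons_of_mem _ hy) c le_rfl) h3 h1
      · intro y hy
        rcases List.mem_cons.1 hy with rfl | hy
        · exact List.mem_cons_self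
        · exact List.mem_cons_of_mem _ (List.mem_cons_of_mem _ hy)
      · intro σ' φ' ρ' e
        simp only [Prod.mk.injEq, Fm.none.injEq] at e
        obtain ⟨⟨rfl, rfl⟩, rfl⟩ := e
        exact Or.inr ⟨c, List.mem_cons_self⟩
    · exact ⟨Γ, hΓ, fun y hy => hy, Or.inr h1, fun σ φ ρ e => absurd ⟨σ, φ, ρ, e⟩ h2⟩
  · exact ⟨x :: Γ, h1, fun y hy => List.mem_cons_of_mem _ hy, Or.inl List.mem_cons_self,
      fun _ _ _ _ => Or.inl List.mem_cons_self⟩

/-- A maximal consistent set with witnesses. -/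
theorem Calc.henkin {Ctr : List Cl → Prop} (h : Calc Ctr) (h0 : ¬ Ctr []) :
    ∃ T : Cl → Prop, (∀ Γ : List Cl, (∀ x ∈ Γ, T x) → ¬ Ctr Γ) ∧
      (∀ x, ¬ T x → ∃ Γ : List Cl, (∀ y ∈ Γ, T y) ∧ Ctr (x :: Γ)) ∧
      ∀ σ φ ρ, ¬ T (Fm.none σ φ, ρ) → ∃ c, T (φ, (σ, c) :: ρ) := by
  obtain ⟨ψ, hψ⟩ := exists_enum
  choose f hf1 hf2 hf3 hf4 using h.step
  let G : ℕ → {Γ : List Cl // ¬ Ctr Γ} := fun k =>
    Nat.rec ⟨[], h0⟩ (fun k Γ => ⟨f Γ.1 (ψ k) Γ.2, hf1 _ _ _⟩) k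
  have hG : ∀ k, (G (k + 1)).1 = f (G k).1 (ψ k) (G k).2 := fun k => rfl
  have hmono : ∀ j k, j ≤ k → ∀ x ∈ (G j).1, x ∈ (G k).1 := by
    intro j k hjk
    induction hjk with
    | refl => exact fun x hx => hx
    | step _ ih => exact fun x hx => by rw [hG]; exact hf2 _ _ _ x (ih x hx)
  have hfin : ∀ Γ : List Cl, (∀ x ∈ Γ, ∃ k, x ∈ (G k).1) → ∃ k, ∀ x ∈ Γ, x ∈ (G k).1 := by
    intro Γ
    induction Γ with
    | nil => exact fun _ => ⟨0, by simp⟩
    | cons x Γ ih =>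
      intro hx
      obtain ⟨k, hk⟩ := ih (fun y hy => hx y (List.mem_cons_of_mem _ hy))
      obtain ⟨j, hj⟩ := hx x List.mem_cons_self
      refine ⟨max j k, fun y hy => ?_⟩
      rcases List.mem_cons.1 hy with rfl | hy
      · exact hmono _ _ (le_max_left _ _) _ hj
      · exact hmono _ _ (le_max_right _ _) _ (hk y hy)
  refine ⟨fun x => ∃ k, x ∈ (G k).1, fun Γ hΓ hc => ?_, fun x hx => ?_, fun σ φ ρ hx => ?_⟩
  · obtain ⟨k, hk⟩ := hfin Γ hΓ
    exact (G k).2 (h.mono _ _ hk hc)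
  · obtain ⟨k, rfl⟩ := hψ x
    rcases hf3 (G k).1 (ψ k) (G k).2 with h1 | h1
    · exact absurd ⟨k + 1, h1⟩ hx
    · exact ⟨(G (k + 1)).1, fun y hy => ⟨k + 1, hy⟩, h1⟩
  · obtain ⟨k, hk⟩ := hψ (Fm.none σ φ, ρ)
    rcases hf4 (G k).1 (ψ k) (G k).2 σ φ ρ hk with h1 | ⟨c, h1⟩
    · exact absurd ⟨k + 1, hk ▸ h1⟩ hx
    · exact ⟨c, k + 1, h1⟩

/-! ### Satisfaction -/

/-- Tarski satisfaction in a model with all domains `ℕ`. -/
def Sat (R : ℕ → ℕ → ℕ → Prop) : Fm → Env → Prop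
  | .memE x y, ρ => R 0 (look ρ .e x) (look ρ (.a false) y)
  | .memA g x y, ρ => R 1 (look ρ (.a g) x) (look ρ (.n g) y)
  | .memN g x y, ρ => R 2 (look ρ (.n g) x) (look ρ (.r g) y)
  | .pin g x y, ρ => R 3 (look ρ .e x) (look ρ (.r g) y)
  | .nand φ ψ, ρ => ¬ (Sat R φ ρ ∧ Sat R ψ ρ)
  | .none σ φ, ρ => ∀ c, ¬ Sat R φ ((σ, c) :: ρ)

theorem Calc.model {Ctr : List Cl → Prop} (h : Calc Ctr) (h0 : ¬ Ctr []) :
    ∃ R : ℕ → ℕ → ℕ → Prop, ∀ φ ρ, Ctr [(φ, ρ)] → ¬ Sat R φ ρ := by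
  obtain ⟨T, h1, h2, h3⟩ := h.henkin h0
  let R : ℕ → ℕ → ℕ → Prop := fun i x y => ∃ z, T z ∧ atomOf z = some (i, x, y)
  have hat : ∀ z i x y, atomOf z = some (i, x, y) → (T z ↔ R i x y) := by
    intro z i x y hz
    refine ⟨fun hT => ⟨z, hT, hz⟩, fun ⟨w, hw, hw'⟩ => ?_⟩
    by_contra hT
    obtain ⟨Γ, hΓ, hc⟩ := h2 z hT
    refine h1 (w :: Γ) ?_ (h.atom _ w z _ hw' hz List.mem_cons_self (h.mono _ _ ?_ hc))
    · intro v hv
      rcases List.mem_cons.1 hv with rfl | hv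
      · exact hw
      · exact hΓ v hv
    · intro v hv
      rcases List.mem_cons.1 hv with rfl | hv
      · exact List.mem_cons_self
      · exact List.mem_cons_of_mem _ (List.mem_cons_of_mem _ hv)
  have truth : ∀ φ ρ, T (φ, ρ) ↔ Sat R φ ρ := by
    intro φ
    induction φ with
    | memE x y => exact fun ρ => hat _ _ _ _ rfl
    | memA g x y => exact fun ρ => hat _ _ _ _ rfl
    | memN g x y => exact fun ρ => hat _ _ _ _ rfl
    | pin g x y => exact fun ρ => hat _ _ _ _ rfl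
    | nand a b iha ihb =>
      intro ρ
      show _ ↔ ¬ (Sat R a ρ ∧ Sat R b ρ)
      rw [← iha, ← ihb]
      constructor
      · rintro hT ⟨ha, hb⟩
        refine h1 [(Fm.nand a b, ρ), (a, ρ), (b, ρ)] ?_
          (h.nandL _ a b ρ (by simp) (by simp) (by simp))
        intro v hv
        simp only [List.mem_cons, List.not_mem_nil, or_false] at hv
        rcases hv with rfl | rfl | rfl <;> assumption
      · intro hn
        by_contra hT
        obtain ⟨Γ, hΓ, hc⟩ := h2 _ hT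
        have key : ∀ z, (z = (a, ρ) ∨ z = (b, ρ)) → T z := by
          intro z hz
          by_contra hz'
          obtain ⟨Δ, hΔ, hd⟩ := h2 _ hz'
          refine h1 (Γ ++ Δ) ?_ (h.nandR _ a b ρ (h.mono _ _ ?_ hd) (h.mono _ _ ?_ hc))
          · intro v hv
            rcases List.mem_append.1 hv with hv | hv
            · exact hΓ v hv
            · exact hΔ v hv
          · intro v hv
            rcases List.mem_cons.1 hv with rfl | hv
            · rcases hz with rfl | rfl <;> simp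
            · simp [hv]
          · intro v hv
            rcases List.mem_cons.1 hv with rfl | hv
            · simp
            · simp [hv]
        exact hn ⟨key _ (Or.inl rfl), key _ (Or.inr rfl)⟩
    | none σ a iha =>
      intro ρ
      show _ ↔ ∀ c, ¬ Sat R a ((σ, c) :: ρ)
      constructor
      · intro hT c hc
        rw [← iha] at hc
        refine h1 [(Fm.none σ a, ρ), (a, (σ, c) :: ρ)] ?_
          (h.noneL _ σ a ρ c (by simp) (by simp))
        intro v hv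
        simp only [List.mem_cons, List.not_mem_nil, or_false] at hv
        rcases hv with rfl | rfl <;> assumption
      · intro hn
        by_contra hT
        obtain ⟨c, hc⟩ := h3 σ a ρ hT
        exact hn c ((iha _).1 hc)
  refine ⟨R, fun φ ρ hc hs => h1 [(φ, ρ)] ?_ hc⟩
  intro v hv
  rw [List.mem_singleton.1 hv]
  exact (truth φ ρ).2 hs

/-! ### The paradox in a model -/

section Model

variable (R : ℕ → ℕ → ℕ → Prop)

def sub (n' n : ℕ) : Prop := ∀ a, R 1 a n' → R 1 a n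
def lt (n' n : ℕ) : Prop := sub R n' n ∧ ¬ sub R n n'
def Is (x : ℕ) (χ : ℕ → Prop) : Prop :=
  ∀ r', R 3 x r' ↔ ∀ w, (∀ s', (∀ n', R 2 n' s' ↔ χ n') → R 3 w s') → R 3 w r'
def Phi (x r : ℕ) : Prop := ∃ n, R 2 n r ∧ Is R x (fun n' => R 2 n' r ∧ lt R n' n)
def el (x e : ℕ) : Prop := ∃ r, R 3 e r ∧ Phi R x r
def eqv (x y : ℕ) : Prop := ∀ r, R 3 x r ↔ R 3 y r
def W (e : ℕ) : Prop := ∀ p, (∀ x, (∀ y, el R y x → R 0 y p) → R 0 x p) → R 0 e p
def Code (c e : ℕ) : Prop := ∀ p, R 1 p c ↔ ∀ e', R 0 e' p → el R e' e ∨ eqv R e' e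
def D (r0 x e : ℕ) : Prop := ∃ c, Code R c e ∧ Is R x (fun n' => R 2 n' r0 ∧ lt R n' c)

/-- The comprehension instances used by the paradox. -/
structure Compr : Prop where
  c1 : ∀ x, ∃ w, ∀ r, R 3 w r ↔ ¬ Phi R x r
  c2 : ∀ s, ∃ o, Is R o (fun n' => R 2 n' s)
  c3 : ∀ r n, ∃ s, ∀ n', R 2 n' s ↔ R 2 n' r ∧ lt R n' n
  c4 : ∀ e, ∃ c, Code R c e
  c4' : ∀ e, ∃ p, ∀ e', R 0 e' p ↔ el R e' e ∨ eqv R e' e
  c5 : ∃ r0, ∀ n, R 2 n r0 ↔ ∃ e, W R e ∧ Code R n e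
  c6a : ∃ p, ∀ e, R 0 e p ↔ ∀ y, el R y e → W R y
  c6b : ∃ p, ∀ e, R 0 e p ↔ ¬ el R e e
  c6c : ∀ r0, ∃ p, ∀ e, R 0 e p ↔ ∀ x, D R r0 x e → W R x
  c6d : ∀ r0, ∃ p, ∀ e, R 0 e p ↔ (W R e → ∀ x, D R r0 x e → ¬ el R x e)

variable {R}

theorem lt_trans' {a b c : ℕ} (h1 : lt R a b) (h2 : lt R b c) : lt R a c :=
  ⟨fun x hx => h2.1 x (h1.1 x hx), fun h => h2.2 (fun x hx => h1.1 x (h x hx))⟩

theorem Is.congr {x : ℕ} {χ χ' : ℕ → Prop} (h : Is R x χ) (e : ∀ n, χ n ↔ χ' n) :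
    Is R x χ' := by
  have : χ = χ' := funext fun n => propext (e n)
  exact this ▸ h

theorem Compr.el_of (h : Compr R) {x o : ℕ} {χ : ℕ → Prop} (ho : Is R o χ) (hx : el R x o) :
    ∃ n, χ n ∧ Is R x (fun n' => χ n' ∧ lt R n' n) := by
  obtain ⟨r, hr, hp⟩ := hx
  obtain ⟨w, hw⟩ := h.c1 x
  by_contra hn
  refine (hw r).1 ((ho r).1 hr w (fun s' hs' => (hw s').2 ?_)) hp
  rintro ⟨n, hn1, hn2⟩
  exact hn ⟨n, (hs' n).1 hn1, hn2.congr (fun m => by rw [hs' m])⟩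

theorem el_intro {x o s n : ℕ} {χ : ℕ → Prop} (ho : Is R o χ) (hs : ∀ n, R 2 n s ↔ χ n)
    (hn : χ n) (hx : Is R x (fun n' => χ n' ∧ lt R n' n)) : el R x o :=
  ⟨s, (ho s).2 (fun _ hw => hw s hs), n, (hs n).2 hn, hx.congr (fun m => by rw [hs m])⟩

theorem Compr.el_trans (h : Compr R) {x y z : ℕ} (h1 : el R x y) (h2 : el R y z) :
    el R x z := by
  obtain ⟨r, hr, n, -, hy⟩ := h2
  obtain ⟨m, hm, hx⟩ := h.el_of hy h1
  exact ⟨r, hr, m, hm.1, hx.congr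
    (fun k => ⟨fun hk => ⟨hk.1.1, hk.2⟩, fun hk => ⟨⟨hk.1, lt_trans' hk.2 hm.2⟩, hk.2⟩⟩)⟩

theorem el_eqv_right {x y y' : ℕ} (h1 : el R x y) (h2 : eqv R y y') : el R x y' := by
  obtain ⟨r, hr, hp⟩ := h1
  exact ⟨r, (h2 r).1 hr, hp⟩

theorem el_eqv_left {x x' y : ℕ} (h2 : eqv R x' x) (h1 : el R x y) : el R x' y := by
  obtain ⟨r, hr, n, hn, hx⟩ := h1
  exact ⟨r, hr, n, hn, fun r' => (h2 r').trans (hx r')⟩

theorem W_intro {x : ℕ} (h : ∀ y, el R y x → W R y) : W R x :=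
  fun p hp => hp x (fun y hy => h y hy p hp)

theorem Compr.W_elim (h : Compr R) {x y : ℕ} (hx : W R x) (hy : el R y x) : W R y := by
  obtain ⟨p, hp⟩ := h.c6a
  refine (hp x).1 (hx p (fun z hz => (hp z).2 (fun u hu => W_intro ((hp u).1 (hz u hu))))) y hy

theorem Compr.W_irrefl (h : Compr R) {x : ℕ} (hx : W R x) : ¬ el R x x := by
  obtain ⟨p, hp⟩ := h.c6b
  exact (hp x).1 (hx p (fun z hz => (hp z).2 (fun hzz => (hp z).1 (hz z hzz) hzz)))

theorem Compr.sub_iff (h : Compr R) {c e c' e' : ℕ} (hc : Code R c e) (hc' : Code R c' e') :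
    sub R c' c ↔ el R e' e ∨ eqv R e' e := by
  constructor
  · intro hs
    obtain ⟨p, hp⟩ := h.c4' e'
    exact (hc p).1 (hs p ((hc' p).2 (fun z hz => (hp z).1 hz))) e'
      ((hp e').2 (Or.inr (fun _ => Iff.rfl)))
  · intro he p hp
    refine (hc p).2 (fun z hz => ?_)
    rcases (hc' p).1 hp z hz with h1 | h1 <;> rcases he with h2 | h2
    · exact Or.inl (h.el_trans h1 h2)
    · exact Or.inl (el_eqv_right h1 h2)
    · exact Or.inl (el_eqv_left h1 h2)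
    · exact Or.inr (fun r => (h1 r).trans (h2 r))

theorem Compr.lt_iff (h : Compr R) {c e c' e' : ℕ} (hc : Code R c e) (hc' : Code R c' e')
    (hw : W R e') : lt R c' c ↔ el R e' e := by
  unfold lt
  rw [h.sub_iff hc hc', h.sub_iff hc' hc]
  constructor
  · rintro ⟨h1 | h1, h2⟩
    · exact h1
    · exact absurd (Or.inr (fun r => (h1 r).symm)) h2
  · intro h1
    refine ⟨Or.inl h1, ?_⟩
    rintro (h2 | h2)
    · exact h.W_irrefl hw (h.el_trans h1 h2)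
    · exact h.W_irrefl hw (el_eqv_right h1 h2)

theorem Compr.false (h : Compr R) : False := by
  obtain ⟨r0, hr0⟩ := h.c5
  have hD : ∀ x e y, D R r0 x e → (el R y x ↔ ∃ e', W R e' ∧ el R e' e ∧ D R r0 y e') := by
    rintro x e y ⟨c, hc, hx⟩
    constructor
    · intro hy
      obtain ⟨n, ⟨hn1, hn2⟩, hn3⟩ := h.el_of hx hy
      obtain ⟨e', he', hn⟩ := (hr0 n).1 hn1
      exact ⟨e', he', (h.lt_iff hc hn he').1 hn2, n, hn, hn3.congr
        (fun k => ⟨fun hk => ⟨hk.1.1, hk.2⟩, fun hk => ⟨⟨hk.1, lt_trans' hk.2 hn2⟩, hk.2⟩⟩)⟩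
    · rintro ⟨e', he', hee, c', hc', hy⟩
      obtain ⟨s, hs⟩ := h.c3 r0 c
      have hlt := (h.lt_iff hc hc' he').2 hee
      exact el_intro hx hs (n := c') ⟨(hr0 c').2 ⟨e', he', hc'⟩, hlt⟩ (hy.congr
        (fun k => ⟨fun hk => ⟨⟨hk.1, lt_trans' hk.2 hlt⟩, hk.2⟩, fun hk => ⟨hk.1.1, hk.2⟩⟩))
  have hex : ∀ e, ∃ x, D R r0 x e := by
    intro e
    obtain ⟨c, hc⟩ := h.c4 e
    obtain ⟨s, hs⟩ := h.c3 r0 c
    obtain ⟨o, ho⟩ := h.c2 s
    exact ⟨o, c, hc, ho.congr hs⟩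
  have hW : ∀ e, W R e → ∀ x, D R r0 x e → W R x := by
    intro e he
    obtain ⟨p, hp⟩ := h.c6c r0
    refine (hp e).1 (he p (fun z hz => (hp z).2 (fun x hx => W_intro (fun y hy => ?_))))
    obtain ⟨e', -, h1, h2⟩ := (hD x z y hx).1 hy
    exact (hp e').1 (hz e' h1) y h2
  have hN : ∀ e, W R e → ∀ x, D R r0 x e → ¬ el R x e := by
    intro e he
    obtain ⟨p, hp⟩ := h.c6d r0
    refine (hp e).1 (he p (fun z hz => (hp z).2 (fun hz' x hx hxz => ?_))) he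
    obtain ⟨u, hu⟩ := hex x
    have hwx := h.W_elim hz' hxz
    exact (hp x).1 (hz x hxz) hwx u hu ((hD x z u hx).2 ⟨x, hwx, hxz, hu⟩)
  obtain ⟨o, ho⟩ := h.c2 r0
  have hWo : W R o := by
    refine W_intro (fun y hy => ?_)
    obtain ⟨n, hn, hy'⟩ := h.el_of ho hy
    obtain ⟨e, he, hc⟩ := (hr0 n).1 hn
    exact hW e he y ⟨n, hc, hy'⟩
  obtain ⟨x, c, hc, hx⟩ := hex o
  exact hN o hWo x ⟨c, hc, hx⟩
    (el_intro ho (fun _ => Iff.rfl) ((hr0 c).2 ⟨o, hWo, hc⟩) hx)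

end Model

/-! ### The formulas -/

namespace Fm

def and (φ ψ : Fm) : Fm := neg (nand φ ψ)
def or (φ ψ : Fm) : Fm := nand (neg φ) (neg ψ)
def imp (φ ψ : Fm) : Fm := nand φ (neg ψ)
def ex (σ : Srt) (φ : Fm) : Fm := neg (none σ φ)

def subF (g : Bool) (i j : ℕ) : Fm := all (.a g) (imp (memA g 0 i) (memA g 0 j))
def ltF (g : Bool) (i j : ℕ) : Fm := and (subF g i j) (neg (subF g j i))
def isF (g : Bool) (x r n : ℕ) : Fm :=
  all (.r g) (iff (pin g x 0) (all .e (imp (all (.r g) (imp (all (.n g)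
    (iff (memN g 0 0) (and (memN g 0 (r + 2)) (ltF g 0 (n + 1))))) (pin g 0 0))) (pin g 0 0))))
def phiF (g : Bool) (x r : ℕ) : Fm := ex (.n g) (and (memN g 0 r) (isF g x r 0))
def elF (x y : ℕ) : Fm := ex (.r true) (and (pin true y 0) (phiF true x 0))
def eqvF (x y : ℕ) : Fm := all (.r true) (iff (pin true x 0) (pin true y 0))
def wF (e : ℕ) : Fm :=
  all (.a false) (imp (all .e (imp (all .e (imp (elF 0 1) (memE 0 0))) (memE 0 0))) (memE e 0))
def belowF (e : ℕ) : Fm := all .e (imp (memE 0 0) (or (elF 0 (e + 1)) (eqvF 0 (e + 1))))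
def codeF (c e : ℕ) : Fm := all (.a false) (iff (memA false 0 c) (belowF e))
def dF (r0 x e : ℕ) : Fm := ex (.n false) (and (codeF 0 e) (isF false x r0 0))

/-- the list of free variables -/
def fv : Fm → List (Srt × ℕ)
  | memE x y => [(.e, x), (.a false, y)]
  | memA g x y => [(.a g, x), (.n g, y)]
  | memN g x y => [(.n g, x), (.r g, y)]
  | pin g x y => [(.e, x), (.r g, y)]
  | nand φ ψ => (fv φ ++ fv ψ).eraseDups
  | none τ φ => (fv φ).filterMap
      (fun p => if p.1 = τ then (match p.2 with | 0 => Option.none | k + 1 => some (p.1, k))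
        else some p)

theorem mem_fv (φ : Fm) : ∀ σ k, Free σ k φ → (σ, k) ∈ fv φ := by
  induction φ with
  | memE x y => intro σ k h; simpa [Free, fv] using h
  | memA g x y => intro σ k h; simpa [Free, fv] using h
  | memN g x y => intro σ k h; simpa [Free, fv] using h
  | pin g x y => intro σ k h; simpa [Free, fv] using h
  | nand a b iha ihb =>
    intro σ k h
    simp only [fv, List.mem_eraseDups, List.mem_append]
    exact h.imp (iha σ k) (ihb σ k)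
  | none τ a iha =>
    intro σ k h
    simp only [fv, List.mem_filterMap]
    by_cases e : σ = τ
    · simp only [Free, e, if_true] at h
      exact ⟨(τ, k + 1), iha _ _ h, by simp [e]⟩
    · simp only [Free, e, if_false] at h
      exact ⟨(σ, k), iha _ _ h, by simp [e]⟩

end Fm

section SatLemmas

variable {R : ℕ → ℕ → ℕ → Prop}

theorem sat_neg (φ : Fm) (ρ : Env) : Sat R φ.neg ρ ↔ ¬ Sat R φ ρ := by
  simp [Fm.neg, Sat]

theorem sat_all (σ : Srt) (φ : Fm) (ρ : Env) :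
    Sat R (Fm.all σ φ) ρ ↔ ∀ c, Sat R φ ((σ, c) :: ρ) := by
  simp [Fm.all, Sat, sat_neg]

theorem sat_ex (σ : Srt) (φ : Fm) (ρ : Env) :
    Sat R (Fm.ex σ φ) ρ ↔ ∃ c, Sat R φ ((σ, c) :: ρ) := by
  simp [Fm.ex, Sat, sat_neg]

theorem sat_iff (φ ψ : Fm) (ρ : Env) : Sat R (φ.iff ψ) ρ ↔ (Sat R φ ρ ↔ Sat R ψ ρ) := by
  simp only [Fm.iff, Sat, sat_neg]
  tauto

theorem sat_and (φ ψ : Fm) (ρ : Env) : Sat R (φ.and ψ) ρ ↔ (Sat R φ ρ ∧ Sat R ψ ρ) := by
  simp only [Fm.and, Sat, sat_neg, not_not]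

theorem sat_or (φ ψ : Fm) (ρ : Env) : Sat R (φ.or ψ) ρ ↔ (Sat R φ ρ ∨ Sat R ψ ρ) := by
  simp only [Fm.or, Sat, sat_neg]
  tauto

theorem sat_imp (φ ψ : Fm) (ρ : Env) : Sat R (φ.imp ψ) ρ ↔ (Sat R φ ρ → Sat R ψ ρ) := by
  simp only [Fm.imp, Sat, sat_neg]
  tauto

theorem look_zero (σ : Srt) (c : ℕ) (ρ : Env) : look ((σ, c) :: ρ) σ 0 = c := by
  simp [look]

theorem look_succ (σ : Srt) (c k : ℕ) (ρ : Env) : look ((σ, c) :: ρ) σ (k + 1) = look ρ σ k := by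
  simp [look]

theorem sat_sub (g : Bool) (i j : ℕ) (ρ : Env) :
    Sat R (Fm.subF g i j) ρ ↔ sub R (look ρ (.n g) i) (look ρ (.n g) j) := by
  simp [Fm.subF, sat_all, sat_imp, Sat, sub, look]

theorem sat_lt (g : Bool) (i j : ℕ) (ρ : Env) :
    Sat R (Fm.ltF g i j) ρ ↔ lt R (look ρ (.n g) i) (look ρ (.n g) j) := by
  simp only [Fm.ltF, sat_and, sat_neg, sat_sub, lt]

theorem sat_is (g : Bool) (x r n : ℕ) (ρ : Env) :
    Sat R (Fm.isF g x r n) ρ ↔
      Is R (look ρ .e x) (fun n' => R 2 n' (look ρ (.r g) r) ∧ lt R n' (look ρ (.n g) n)) := by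
  simp [Fm.isF, sat_all, sat_imp, sat_iff, sat_and, sat_lt, Sat, Is, look]

theorem sat_phi (g : Bool) (x r : ℕ) (ρ : Env) :
    Sat R (Fm.phiF g x r) ρ ↔ Phi R (look ρ .e x) (look ρ (.r g) r) := by
  simp [Fm.phiF, sat_ex, sat_and, sat_is, Sat, Phi, look]

theorem sat_el (x y : ℕ) (ρ : Env) :
    Sat R (Fm.elF x y) ρ ↔ el R (look ρ .e x) (look ρ .e y) := by
  simp [Fm.elF, sat_ex, sat_and, sat_phi, Sat, el, look]

theorem sat_eqv (x y : ℕ) (ρ : Env) :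
    Sat R (Fm.eqvF x y) ρ ↔ eqv R (look ρ .e x) (look ρ .e y) := by
  simp [Fm.eqvF, sat_all, sat_iff, Sat, eqv, look]

theorem sat_w (e : ℕ) (ρ : Env) : Sat R (Fm.wF e) ρ ↔ W R (look ρ .e e) := by
  simp [Fm.wF, sat_all, sat_imp, sat_el, Sat, W, look]

theorem sat_below (e : ℕ) (ρ : Env) :
    Sat R (Fm.belowF e) ρ ↔ ∀ e', R 0 e' (look ρ (.a false) 0) →
      el R e' (look ρ .e e) ∨ eqv R e' (look ρ .e e) := by
  simp [Fm.belowF, sat_all, sat_imp, sat_or, sat_el, sat_eqv, Sat, look]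

theorem sat_code (c e : ℕ) (ρ : Env) :
    Sat R (Fm.codeF c e) ρ ↔ Code R (look ρ (.n false) c) (look ρ .e e) := by
  simp [Fm.codeF, sat_all, sat_iff, sat_below, Sat, Code, look]

theorem sat_d (r0 x e : ℕ) (ρ : Env) :
    Sat R (Fm.dF r0 x e) ρ ↔ D R (look ρ (.r false) r0) (look ρ .e x) (look ρ .e e) := by
  simp [Fm.dF, sat_ex, sat_and, sat_code, sat_is, D, look]

end SatLemmas

theorem Calc.paradox {Ctr : List Cl → Prop} (h : Calc Ctr) : Ctr [] := by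
  by_contra h0
  obtain ⟨R, hR⟩ := h.model h0
  have cE : ∀ (φ : Fm) (ρ : Env), (Srt.e, 0) ∉ φ.fv →
      (∀ p ∈ φ.fv, p.1.gen = true → p = (.r true, 0)) →
      ∃ c, ∀ r, R 3 c r ↔ Sat R φ ((.r true, r) :: (.e, c) :: ρ) := by
    intro φ ρ h1 h2
    have := hR _ ρ (h.cE φ ρ (fun hf => h1 (φ.mem_fv _ _ hf))
      (fun σ k hf hg => by simpa using h2 _ (φ.mem_fv _ _ hf) hg))
    simpa [Sat, sat_all, sat_iff, look] using this
  have cA : ∀ (φ : Fm) (ρ : Env), (Srt.a false, 0) ∉ φ.fv →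
      ∃ c, ∀ r, R 0 r c ↔ Sat R φ ((.e, r) :: (.a false, c) :: ρ) := by
    intro φ ρ h1
    have := hR _ ρ (h.cA φ ρ (fun hf => h1 (φ.mem_fv _ _ hf)))
    simpa [Sat, sat_all, sat_iff, look] using this
  have cN : ∀ (φ : Fm) (ρ : Env), (Srt.n false, 0) ∉ φ.fv →
      ∃ c, ∀ r, R 1 r c ↔ Sat R φ ((.a false, r) :: (.n false, c) :: ρ) := by
    intro φ ρ h1
    have := hR _ ρ (h.cN φ ρ (fun hf => h1 (φ.mem_fv _ _ hf)))
    simpa [Sat, sat_all, sat_iff, look] using this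
  have cR : ∀ (φ : Fm) (ρ : Env), (Srt.r false, 0) ∉ φ.fv →
      ∃ c, ∀ r, R 2 r c ↔ Sat R φ ((.n false, r) :: (.r false, c) :: ρ) := by
    intro φ ρ h1
    have := hR _ ρ (h.cR φ ρ (fun hf => h1 (φ.mem_fv _ _ hf)))
    simpa [Sat, sat_all, sat_iff, look] using this
  refine Compr.false (R := R) ⟨fun x => ?_, fun s => ?_, fun r n => ?_, fun e => ?_,
    fun e => ?_, ?_, ?_, ?_, fun r0 => ?_, fun r0 => ?_⟩
  · simpa [sat_neg, sat_phi, look] using
      cE (Fm.phiF true 1 0).neg [(.e, x)] (by decide) (by decide)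
  · simpa [sat_all, sat_imp, sat_iff, Sat, look, Is] using
      cE (.all .e (.imp (.all (.r false) (.imp (.all (.n false)
        (.iff (.memN false 0 0) (.memN false 0 1))) (.pin false 0 0))) (.pin true 0 0)))
        [(.r false, s)] (by decide) (by decide)
  · simpa [sat_and, sat_lt, Sat, look] using
      cR (.and (.memN false 0 1) (.ltF false 0 1)) [(.r false, r), (.n false, n)] (by decide)
  · simpa [sat_below, look, Code] using cN (.belowF 0) [(.e, e)] (by decide)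
  · simpa [sat_or, sat_el, sat_eqv, look] using
      cA (.or (.elF 0 1) (.eqvF 0 1)) [(.e, e)] (by decide)
  · simpa [sat_ex, sat_and, sat_w, sat_code, look] using
      cR (.ex .e (.and (.wF 0) (.codeF 0 0))) [] (by decide)
  · simpa [sat_all, sat_imp, sat_w, sat_el, look] using
      cA (.all .e (.imp (.elF 0 1) (.wF 0))) [] (by decide)
  · simpa [sat_neg, sat_el, look] using cA (Fm.elF 0 0).neg [] (by decide)
  · simpa [sat_all, sat_imp, sat_w, sat_d, look] using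
      cA (.all .e (.imp (.dF 0 0 1) (.wF 0))) [(.r false, r0)] (by decide)
  · simpa [sat_all, sat_imp, sat_neg, sat_w, sat_d, sat_el, look] using
      cA (.imp (.wF 0) (.all .e (.imp (.dF 0 0 1) (Fm.elF 0 1).neg))) [(.r false, r0)]
        (by decide)

end Vale.Agent.P340.Logic
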