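import Vale.Agent.P340.Hol
import Vale.Agent.P340.Logic

/-! Interpretation of the logic of `Logic.lean` and the contradiction.

PLAN. Choose `N l : Quant k (H.J l)` (`exists_quant`). `lv : Srt → Lv` forgets the flag,
`xs σ γ x = if σ.gen then x else H.u γ`. For `env : Srt → ℕ → LT S` put
`upd σ a env τ i = if τ = σ then scons a (env τ) i else env τ i` and define `den φ γ x env` by
recursion on `φ`: atoms by `H.memE γ`, `H.memA γ (xs (.a g) γ x)`, `H.memN γ (xs ..)`,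
`H.pin γ (xs (.r g) γ x)` applied to the values of the two variables; `nand` by `k.nand γ`;
`none σ φ ↦ (N (lv σ)).none γ (H.Qd (lv σ) γ (xs σ γ x))
   (den φ γ⁺ x.shift (upd σ (H.bt (lv σ) γ⁺ (xs σ γ x).shift (var 0)) (shift of env)))`.
Lemmas: naturality `(den φ γ x env).subst θ = den φ (gsub γ (tmS θ)) (x.subst θ) (env.subst θ)`;
coincidence on `Fm.Free`; typing: if `x : V γ` and `env σ i : H.D (lv σ) γ (xs σ γ x)` for the
free variables `(σ, i)` of `φ` then `Has G k.F (den ..).tm`.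
For `κ : Lv → ℕ → LT S` put
`denC γ κ (φ, ρ) = den φ γ (H.u γ) (fun σ i => H.bt (lv σ) γ (H.u γ) (κ (lv σ) (look ρ σ i)))`,
`Good w κ := ∀ l c, Ty w.G (κ l c).tm (H.Qd l w.γ (H.u w.γ))` and
`Ctr Γ := ∀ w κ, Good w κ → (∀ x ∈ Γ, w.Pf (denC w.γ κ x)) → w.Held j`. Prove `Calc Ctr`:
`atom`: equal denotations. `nandL`, `noneL`: `elim`. `nandR`, `noneR`: `intro`, moving to the
extended world with `κ` renamed (and updated at the fresh constant, which `look` never returns on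
the old environments). Comprehension: `elim` of the outer `none` at the `q` given by `H.compA`
(etc.) for `ψ = den φ γ⁺ (H.u γ⁺) (upd σ (var 0) (shift of upd τ junk env))` (for `cE`:
`ψ = den φ γ⁺⁺ (var 1) env₂` with `env₂ (.r true) 0 = var 0` and the non generic values shifted
twice), then `intro` of the inner `none`, and the lemma: `w.Eqv j a b` gives a proof of
`nand (nand a b) (nand (nand a a) (nand b b))`. Finally `Calc.paradox` in `E.world0`, with
`κ l c = var p` for a parameter `p` of type `H.Qd l var (H.u var)` (`E.sat`), contradicts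
`not_held0`. -/

namespace Vale.Agent.P340

universe u
variable {S : Type u} {P : Spec S} [Finite S]

open Logic

namespace Interp

/-- the level of a sort -/
def lv : Srt → Lv
  | .e => .e
  | .a _ => .a
  | .n _ => .n
  | .r _ => .r

/-- push a value for the sort `σ` -/
def upd (σ : Srt) (a : LT S) (env : Srt → ℕ → LT S) : Srt → ℕ → LT S :=
  fun τ i => if τ = σ then scons a (env τ) i else env τ i

def esub (env : Srt → ℕ → LT S) (θ : ℕ → LT S) : Srt → ℕ → LT S := fun σ i => (env σ i).subst θ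

def esh (env : Srt → ℕ → LT S) : Srt → ℕ → LT S := fun σ i => (env σ i).shift

section
omit [Finite S]

theorem upd_self_zero (σ : Srt) (a : LT S) (env : Srt → ℕ → LT S) : upd σ a env σ 0 = a := by
  simp [upd]

theorem upd_self_succ (σ : Srt) (a : LT S) (env : Srt → ℕ → LT S) (i : ℕ) :
    upd σ a env σ (i + 1) = env σ i := by
  simp [upd]

theorem upd_ne {σ τ : Srt} (h : τ ≠ σ) (a : LT S) (env : Srt → ℕ → LT S) (i : ℕ) :
    upd σ a env τ i = env τ i := by
  simp [upd, h]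

theorem esub_upd (σ : Srt) (a : LT S) (env : Srt → ℕ → LT S) (θ : ℕ → LT S) :
    esub (upd σ a env) θ = upd σ (a.subst θ) (esub env θ) := by
  funext τ i
  by_cases h : τ = σ
  · cases i <;> simp [esub, upd, h]
  · simp [esub, upd, h]

theorem esub_esh_up (env : Srt → ℕ → LT S) (θ : ℕ → LT S) :
    esub (esh env) (LT.up θ) = esh (esub env θ) := by
  funext τ i; simp [esub, esh]

theorem esub_esh_scons (env : Srt → ℕ → LT S) (a : LT S) (θ : ℕ → LT S) :
    esub (esh env) (scons a θ) = esub env θ := by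
  funext τ i; simp [esub, esh]

theorem esub_var (env : Srt → ℕ → LT S) : esub env LT.var = env := by
  funext τ i; simp [esub]

theorem shift_eq_subst (A : Term S) : A.shift = A.subst (tmS (LT.rs Nat.succ)) :=
  rename_eq_subst _ _

theorem lt_shift_eq_subst (a : LT S) : a.shift = a.subst (LT.rs Nat.succ) :=
  LT.ren_eq_subst _ _

theorem rename_eq_rs (A : Term S) (ξ : ℕ → ℕ) : A.rename ξ = A.subst (tmS (LT.rs ξ)) :=
  rename_eq_subst _ _

/-- two pushes of different sorts, the value of the inner one being irrelevant -/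
theorem upd_upd_agree {σ τ : Srt} (hne : σ ≠ τ) {φ : Fm} (hφ : ¬ Fm.Free σ 0 φ)
    (z b b' : LT S) (env : Srt → ℕ → LT S) (μ : Srt) (i : ℕ) (h : Fm.Free μ i φ) :
    upd τ z (upd σ b env) μ i = upd τ z (upd σ b' env) μ i := by
  by_cases h1 : μ = σ
  · subst h1
    rw [upd_ne hne, upd_ne hne]
    cases i with
    | zero => exact absurd h hφ
    | succ i => rw [upd_self_succ, upd_self_succ]
  · by_cases h2 : μ = τ
    · subst h2
      cases i with
      | zero => rw [upd_self_zero, upd_self_zero]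
      | succ i => rw [upd_self_succ, upd_self_succ, upd_ne h1, upd_ne h1]
    · rw [upd_ne h2, upd_ne h2, upd_ne h1, upd_ne h1]

end

theorem look_lt {c : ℕ} {ρ : Env} (h : Fresh c ρ) (σ : Srt) (i : ℕ) : look ρ σ i < c := by
  obtain ⟨h0, h1⟩ := h
  induction ρ generalizing i with
  | nil => exact h0
  | cons p ρ ih =>
    obtain ⟨τ, d⟩ := p
    have ih' := fun i => ih i (fun p hp => h1 p (List.mem_cons_of_mem _ hp))
    by_cases e : σ = τ
    · cases i with
      | zero => simpa [look, e] using h1 (τ, d) (List.mem_cons_self ..)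
      | succ i => simpa [look, e] using ih' i
    · simpa [look, e] using ih' i

open Amb Amb.World

variable {E : Amb P} {j : ℕ} {k : E.Kit j}

theorem nand_ren {w w' : E.World} {ξ : ℕ → ℕ} (h : w.Ext w' ξ) (a b : LT S) :
    (k.nand w.γ a b).ren ξ = k.nand w'.γ (a.ren ξ) (b.ren ξ) := by
  simp only [LT.ren_eq_subst, k.nat, h.gam]

theorem has_ren {w w' : E.World} {ξ : ℕ → ℕ} (h : w.Ext w' ξ) {a : LT S}
    (ha : Has P w.G k.F a.tm) : Has P w'.G k.F (a.ren ξ).tm := h.has ha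

/-- one half of the equivalence lemma -/
theorem pf_neg_of {w : E.World} {a b : LT S} (ha : Has P w.G k.F a.tm)
    (he : w.Eqv j a b) (hn : ∀ w' ξ, w.Ext w' ξ → w'.Pf (a.ren ξ) → w'.Pf (b.ren ξ) → w'.Held j) :
    w.Pf (k.nand w.γ a a) := by
  refine k.intro w a a ha ha (fun w' ξ h pa _ => ?_)
  refine (he.ext h).elim pa (fun w'' ζ h' pb => ?_)
  refine hn w'' _ (h.trans h') ?_ ?_
  · rw [← LT.ren_ren]; exact pa.ext h'
  · rw [← LT.ren_ren]; exact pb

theorem pf_iff {w : E.World} {a b : LT S} (ha : Has P w.G k.F a.tm) (hb : Has P w.G k.F b.tm)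
    (he : w.Eqv j a b) :
    w.Pf (k.nand w.γ (k.nand w.γ a b) (k.nand w.γ (k.nand w.γ a a) (k.nand w.γ b b))) := by
  refine k.intro w _ _ (k.ty _ _ _ _ w.ts ha hb)
    (k.ty _ _ _ _ w.ts (k.ty _ _ _ _ w.ts ha ha) (k.ty _ _ _ _ w.ts hb hb)) (fun w' ξ h p1 p2 => ?_)
  simp only [nand_ren h] at p1 p2
  have ha' := has_ren h ha
  have hb' := has_ren h hb
  have key : ∀ w'' ζ, w'.Ext w'' ζ → w''.Pf ((a.ren ξ).ren ζ) → w''.Pf ((b.ren ξ).ren ζ) →
      w''.Held j := by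
    intro w'' ζ h' pa pb
    have p := p1.ext h'
    rw [nand_ren h'] at p
    exact k.elim w'' _ _ (has_ren h' ha') (has_ren h' hb') p pa pb
  exact k.elim w' _ _ (k.ty _ _ _ _ w'.ts ha' ha') (k.ty _ _ _ _ w'.ts hb' hb') p2
    (pf_neg_of ha' (he.ext h) key)
    (pf_neg_of hb' (he.ext h).symm (fun w'' ζ h' pb pa => key w'' ζ h' pa pb))

variable (H : Hol k)

/-- the parameter of a sort -/
def xs (g : Bool) (γ : ℕ → Term S) (x : LT S) : LT S := cond g x (H.u γ)

theorem xs_u (g : Bool) (γ : ℕ → Term S) : xs H g γ (H.u γ) = H.u γ := by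
  cases g <;> rfl

theorem xs_subst (g : Bool) (γ : ℕ → Term S) (x : LT S) (θ : ℕ → LT S) :
    (xs H g γ x).subst θ = xs H g (gsub γ (tmS θ)) (x.subst θ) := by
  cases g
  · exact H.natU γ θ
  · rfl

theorem xs_shift (g : Bool) (γ : ℕ → Term S) (x : LT S) :
    (xs H g γ x).shift = xs H g (gsh γ) x.shift := by
  rw [lt_shift_eq_subst, xs_subst, gsub_shift, ← lt_shift_eq_subst]

theorem xs_ty {G γ : ℕ → Term S} (hγ : TS P E.Θ G γ) {x : LT S} (hx : Ty P G x.tm (H.V γ))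
    (g : Bool) : Ty P G (xs H g γ x).tm (H.V γ) := by
  cases g
  · exact H.tyU G γ hγ
  · exact hx

theorem V_shift (γ : ℕ → Term S) : (H.V γ).shift = H.V (gsh γ) := by
  rw [shift_eq_subst, H.natV, gsub_shift]

theorem u_shift (γ : ℕ → Term S) : (H.u γ).shift = H.u (gsh γ) := by
  rw [lt_shift_eq_subst, H.natU, gsub_shift]

theorem D_shift (l : Lv) (γ : ℕ → Term S) (x : LT S) :
    (H.D l γ x).shift = H.D l (gsh γ) x.shift := by
  rw [shift_eq_subst, H.natD, gsub_shift, ← lt_shift_eq_subst]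

theorem Qd_shift (l : Lv) (γ : ℕ → Term S) (x : LT S) :
    (H.Qd l γ x).shift = H.Qd l (gsh γ) x.shift := by
  rw [shift_eq_subst, H.natQd, gsub_shift, ← lt_shift_eq_subst]

theorem u_ren {w w' : E.World} {ξ : ℕ → ℕ} (h : w.Ext w' ξ) :
    (H.u w.γ).subst (LT.rs ξ) = H.u w'.γ := by
  rw [H.natU, h.gam]

theorem Qd_ren {w w' : E.World} {ξ : ℕ → ℕ} (h : w.Ext w' ξ) (l : Lv) :
    (H.Qd l w.γ (H.u w.γ)).rename ξ = H.Qd l w'.γ (H.u w'.γ) := by
  rw [rename_eq_rs, H.natQd, u_ren H h, h.gam]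

variable (N : ∀ l, Quant k (H.J l))

/-- denotation of a formula -/
def den : Fm → (ℕ → Term S) → LT S → (Srt → ℕ → LT S) → LT S
  | .memE a b, γ, _, env => H.memE γ (env .e a) (env (.a false) b)
  | .memA g a b, γ, x, env => H.memA γ (xs H g γ x) (env (.a g) a) (env (.n g) b)
  | .memN g a b, γ, x, env => H.memN γ (xs H g γ x) (env (.n g) a) (env (.r g) b)
  | .pin g a b, γ, x, env => H.pin γ (xs H g γ x) (env .e a) (env (.r g) b)
  | .nand φ ψ, γ, x, env => k.nand γ (den φ γ x env) (den ψ γ x env)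
  | .none σ φ, γ, x, env => (N (lv σ)).none γ (H.Qd (lv σ) γ (xs H σ.gen γ x))
      (den φ (gsh γ) x.shift
        (upd σ (H.bt (lv σ) (gsh γ) (xs H σ.gen (gsh γ) x.shift) (.var 0)) (esh env)))

/-- the body of a quantifier -/
def body (σ : Srt) (φ : Fm) (γ : ℕ → Term S) (x : LT S) (env : Srt → ℕ → LT S) : LT S :=
  den H N φ (gsh γ) x.shift
    (upd σ (H.bt (lv σ) (gsh γ) (xs H σ.gen (gsh γ) x.shift) (.var 0)) (esh env))

theorem den_none (σ : Srt) (φ : Fm) (γ : ℕ → Term S) (x : LT S) (env : Srt → ℕ → LT S) :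
    den H N (.none σ φ) γ x env =
      (N (lv σ)).none γ (H.Qd (lv σ) γ (xs H σ.gen γ x)) (body H N σ φ γ x env) := rfl

theorem den_nand (φ ψ : Fm) (γ : ℕ → Term S) (x : LT S) (env : Srt → ℕ → LT S) :
    den H N (.nand φ ψ) γ x env = k.nand γ (den H N φ γ x env) (den H N ψ γ x env) := rfl

theorem den_subst (φ : Fm) : ∀ (γ : ℕ → Term S) (x : LT S) (env : Srt → ℕ → LT S)
    (θ : ℕ → LT S), (den H N φ γ x env).subst θ =
      den H N φ (gsub γ (tmS θ)) (x.subst θ) (esub env θ) := by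
  induction φ with
  | memE a b => intro γ x env θ; exact H.natMemE _ _ _ _
  | memA g a b => intro γ x env θ; simp only [den, H.natMemA, xs_subst, esub]
  | memN g a b => intro γ x env θ; simp only [den, H.natMemN, xs_subst, esub]
  | pin g a b => intro γ x env θ; simp only [den, H.natPin, xs_subst, esub]
  | nand φ ψ ih1 ih2 => intro γ x env θ; simp only [den, k.nat, ih1, ih2]
  | none σ φ ih =>
    intro γ x env θ
    simp only [den, Quant.nat, ih, H.natQd, xs_subst, esub_upd, esub_esh_up, H.natBt, LT.tmS_up,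
      gsub_gsh_upSub, LT.shift_subst_up, LT.var_subst, LT.up_zero]

theorem body_subst (σ : Srt) (φ : Fm) (γ : ℕ → Term S) (x : LT S) (env : Srt → ℕ → LT S)
    (q : LT S) (θ : ℕ → LT S) : (body H N σ φ γ x env).subst (scons q θ) =
      den H N φ (gsub γ (tmS θ)) (x.subst θ)
        (upd σ (H.bt (lv σ) (gsub γ (tmS θ)) (xs H σ.gen (gsub γ (tmS θ)) (x.subst θ)) q)
          (esub env θ)) := by
  simp only [body, den_subst, xs_subst, esub_upd, esub_esh_scons, H.natBt, LT.tmS_scons,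
    gsub_gsh_scons, LT.shift_subst_scons, LT.var_subst, scons_zero]

theorem body_inst (σ : Srt) (φ : Fm) (γ : ℕ → Term S) (x : LT S) (env : Srt → ℕ → LT S)
    (q : LT S) : (body H N σ φ γ x env).inst q =
      den H N φ γ x (upd σ (H.bt (lv σ) γ (xs H σ.gen γ x) q) env) := by
  rw [LT.inst, body_subst]
  simp only [LT.tmS_var, gsub_var, LT.subst_var, esub_var]

omit [Finite S] in
theorem ren_inst (b q : LT S) (ξ : ℕ → ℕ) :
    (b.ren (upRen ξ)).inst q = b.subst (scons q (LT.rs ξ)) := by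
  rw [LT.ren_eq_subst, ← LT.up_rs, LT.up_inst]

theorem den_congr (φ : Fm) : ∀ (γ : ℕ → Term S) (x : LT S) (env env' : Srt → ℕ → LT S),
    (∀ σ i, Fm.Free σ i φ → env σ i = env' σ i) → den H N φ γ x env = den H N φ γ x env' := by
  induction φ with
  | memE a b =>
    intro γ x env env' h
    simp only [den, h _ _ (Or.inl ⟨rfl, rfl⟩), h _ _ (Or.inr ⟨rfl, rfl⟩)]
  | memA g a b =>
    intro γ x env env' h
    simp only [den, h _ _ (Or.inl ⟨rfl, rfl⟩), h _ _ (Or.inr ⟨rfl, rfl⟩)]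
  | memN g a b =>
    intro γ x env env' h
    simp only [den, h _ _ (Or.inl ⟨rfl, rfl⟩), h _ _ (Or.inr ⟨rfl, rfl⟩)]
  | pin g a b =>
    intro γ x env env' h
    simp only [den, h _ _ (Or.inl ⟨rfl, rfl⟩), h _ _ (Or.inr ⟨rfl, rfl⟩)]
  | nand φ ψ ih1 ih2 =>
    intro γ x env env' h
    rw [den_nand, den_nand, ih1 γ x env env' (fun σ i hf => h σ i (Or.inl hf)),
      ih2 γ x env env' (fun σ i hf => h σ i (Or.inr hf))]
  | none σ φ ih =>
    intro γ x env env' h
    rw [den_none, den_none, body, body]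
    congr 1
    refine ih _ _ _ _ (fun τ i hf => ?_)
    by_cases e : τ = σ
    · subst e
      cases i with
      | zero => rw [upd_self_zero, upd_self_zero]
      | succ i =>
        rw [upd_self_succ, upd_self_succ, esh, esh, h τ i (by simpa [Fm.Free] using hf)]
    · rw [upd_ne e, upd_ne e, esh, esh, h τ i (by simpa [Fm.Free, e] using hf)]

theorem body_ty_of {σ : Srt} {φ : Fm}
    (ih : ∀ (G γ : ℕ → Term S) (x : LT S) (env : Srt → ℕ → LT S), TS P E.Θ G γ →
      Ty P G x.tm (H.V γ) →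
      (∀ σ i, Fm.Free σ i φ → Ty P G (env σ i).tm (H.D (lv σ) γ (xs H σ.gen γ x))) →
      Has P G k.F (den H N φ γ x env).tm)
    {G γ : ℕ → Term S} {x : LT S} {env : Srt → ℕ → LT S} (hγ : TS P E.Θ G γ)
    (hx : Ty P G x.tm (H.V γ))
    (h : ∀ τ i, Fm.Free τ i (.none σ φ) → Ty P G (env τ i).tm (H.D (lv τ) γ (xs H τ.gen γ x))) :
    Has P (ccons (H.Qd (lv σ) γ (xs H σ.gen γ x)) G) k.F (body H N σ φ γ x env).tm := by
  have hγ' : TS P E.Θ (ccons (H.Qd (lv σ) γ (xs H σ.gen γ x)) G) (gsh γ) := hγ.weak _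
  have hx' : Ty P (ccons (H.Qd (lv σ) γ (xs H σ.gen γ x)) G) x.shift.tm (H.V (gsh γ)) := by
    rw [← V_shift]; exact hx.weak _
  have hw : ∀ τ i, Fm.Free τ i (.none σ φ) →
      Ty P (ccons (H.Qd (lv σ) γ (xs H σ.gen γ x)) G) (esh env τ i).tm
        (H.D (lv τ) (gsh γ) (xs H τ.gen (gsh γ) x.shift)) := by
    intro τ i hf
    rw [← xs_shift, ← D_shift]; exact (h τ i hf).weak _
  refine ih _ _ _ _ hγ' hx' (fun τ i hf => ?_)
  by_cases e : τ = σ
  · subst e
    cases i with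
    | zero =>
      rw [upd_self_zero]
      refine H.tyBt _ _ _ _ _ hγ' (xs_ty H hγ' hx' _) ?_
      rw [← xs_shift, ← Qd_shift]
      exact Ty.var 0
    | succ i =>
      rw [upd_self_succ]
      exact hw τ i (by simpa [Fm.Free] using hf)
  · rw [upd_ne e]
    exact hw τ i (by simpa [Fm.Free, e] using hf)

theorem den_ty (φ : Fm) : ∀ (G γ : ℕ → Term S) (x : LT S) (env : Srt → ℕ → LT S),
    TS P E.Θ G γ → Ty P G x.tm (H.V γ) →
    (∀ σ i, Fm.Free σ i φ → Ty P G (env σ i).tm (H.D (lv σ) γ (xs H σ.gen γ x))) →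
    Has P G k.F (den H N φ γ x env).tm := by
  induction φ with
  | memE a b =>
    intro G γ x env hγ _ h
    exact H.tyMemE G γ _ _ hγ (h _ _ (Or.inl ⟨rfl, rfl⟩)) (h _ _ (Or.inr ⟨rfl, rfl⟩))
  | memA g a b =>
    intro G γ x env hγ hx h
    exact H.tyMemA G γ _ _ _ hγ (xs_ty H hγ hx g) (h _ _ (Or.inl ⟨rfl, rfl⟩))
      (h _ _ (Or.inr ⟨rfl, rfl⟩))
  | memN g a b =>
    intro G γ x env hγ hx h
    exact H.tyMemN G γ _ _ _ hγ (xs_ty H hγ hx g) (h _ _ (Or.inl ⟨rfl, rfl⟩))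
      (h _ _ (Or.inr ⟨rfl, rfl⟩))
  | pin g a b =>
    intro G γ x env hγ hx h
    exact H.tyPin G γ _ _ _ hγ (xs_ty H hγ hx g) (h _ _ (Or.inl ⟨rfl, rfl⟩))
      (h _ _ (Or.inr ⟨rfl, rfl⟩))
  | nand φ ψ ih1 ih2 =>
    intro G γ x env hγ hx h
    exact k.ty G γ _ _ hγ (ih1 G γ x env hγ hx (fun σ i hf => h σ i (Or.inl hf)))
      (ih2 G γ x env hγ hx (fun σ i hf => h σ i (Or.inr hf)))
  | none σ φ ih =>
    intro G γ x env hγ hx h
    exact (N (lv σ)).ty G γ _ _ hγ (H.tyQd _ G γ _ hγ (xs_ty H hγ hx _))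
      (body_ty_of H N ih hγ hx h)

/-- environments typed over the distinguished parameter -/
def EnvTy (w : E.World) (env : Srt → ℕ → LT S) : Prop :=
  ∀ σ i, Ty P w.G (env σ i).tm (H.D (lv σ) w.γ (H.u w.γ))

variable {H}

theorem EnvTy.upd {w : E.World} {env : Srt → ℕ → LT S} (h : EnvTy H w env) {σ : Srt} {a : LT S}
    (ha : Ty P w.G a.tm (H.D (lv σ) w.γ (H.u w.γ))) : EnvTy H w (upd σ a env) := by
  intro τ i
  by_cases e : τ = σ
  · subst e
    cases i with
    | zero => rw [upd_self_zero]; exact ha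
    | succ i => rw [upd_self_succ]; exact h τ i
  · rw [upd_ne e]; exact h τ i

theorem EnvTy.ext {w w' : E.World} {ξ : ℕ → ℕ} {env : Srt → ℕ → LT S} (h : EnvTy H w env)
    (e : w.Ext w' ξ) : EnvTy H w' (esub env (LT.rs ξ)) := by
  intro σ i
  have := e.ty (h σ i)
  rw [rename_eq_rs (H.D _ _ _), H.natD, u_ren H e, ← e.gam] at this
  rw [esub, ← LT.ren_eq_subst]
  exact this

theorem EnvTy.den {w : E.World} {env : Srt → ℕ → LT S} (h : EnvTy H w env) (φ : Fm) :
    Has P w.G k.F (den H N φ w.γ (H.u w.γ) env).tm :=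
  den_ty H N φ _ _ _ _ w.ts (H.tyU _ _ w.ts) (fun σ i _ => by rw [xs_u]; exact h σ i)

theorem EnvTy.body {w : E.World} {env : Srt → ℕ → LT S} (h : EnvTy H w env) (σ : Srt) (φ : Fm) :
    Has P (ccons (H.Qd (lv σ) w.γ (H.u w.γ)) w.G) k.F (body H N σ φ w.γ (H.u w.γ) env).tm := by
  have := body_ty_of H N (σ := σ) (den_ty H N φ) (env := env) w.ts (H.tyU _ _ w.ts)
    (fun σ i _ => by rw [xs_u]; exact h σ i)
  rwa [xs_u] at this

theorem bt_ty {w : E.World} {l : Lv} {q : LT S} (hq : Ty P w.G q.tm (H.Qd l w.γ (H.u w.γ))) :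
    Ty P w.G (H.bt l w.γ (H.u w.γ) q).tm (H.D l w.γ (H.u w.γ)) :=
  H.tyBt _ _ _ _ _ w.ts (H.tyU _ _ w.ts) hq

theorem none_elim {w : E.World} {env : Srt → ℕ → LT S} (h : EnvTy H w env) {σ : Srt} {φ : Fm}
    {q : LT S} (p : w.Pf (den H N (.none σ φ) w.γ (H.u w.γ) env))
    (hq : Ty P w.G q.tm (H.Qd (lv σ) w.γ (H.u w.γ)))
    (p' : w.Pf (den H N φ w.γ (H.u w.γ) (upd σ (H.bt (lv σ) w.γ (H.u w.γ) q) env))) :
    w.Held j := by
  rw [den_none, xs_u] at p
  refine (N (lv σ)).elim w _ _ q (H.tyQd _ _ _ _ w.ts (H.tyU _ _ w.ts)) (h.body N σ φ) p hq ?_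
  rw [body_inst, xs_u]
  exact p'

theorem none_intro {w : E.World} {env : Srt → ℕ → LT S} (h : EnvTy H w env) {σ : Srt} {φ : Fm}
    (p : ∀ (w' : E.World) ξ (q : LT S), w.Ext w' ξ →
      Ty P w'.G q.tm (H.Qd (lv σ) w'.γ (H.u w'.γ)) →
      w'.Pf (den H N φ w'.γ (H.u w'.γ)
        (upd σ (H.bt (lv σ) w'.γ (H.u w'.γ) q) (esub env (LT.rs ξ)))) → w'.Held j) :
    w.Pf (den H N (.none σ φ) w.γ (H.u w.γ) env) := by
  rw [den_none, xs_u]
  refine (N (lv σ)).intro w _ _ (H.tyQd _ _ _ _ w.ts (H.tyU _ _ w.ts)) (h.body N σ φ)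
    (fun w' ξ q e hq p' => ?_)
  rw [Qd_ren H e] at hq
  rw [ren_inst, body_subst, u_ren H e, ← e.gam, xs_u] at p'
  exact p w' ξ q e hq p'

theorem den_ren {w w' : E.World} {ξ : ℕ → ℕ} (e : w.Ext w' ξ) (φ : Fm)
    (env : Srt → ℕ → LT S) : (den H N φ w.γ (H.u w.γ) env).ren ξ =
      den H N φ w'.γ (H.u w'.γ) (esub env (LT.rs ξ)) := by
  rw [LT.ren_eq_subst, den_subst, u_ren H e, ← e.gam]

/-- the common part of the four comprehension schemes -/
theorem comp_gen {w : E.World} {env : Srt → ℕ → LT S} (h : EnvTy H w env) {σ τ : Srt}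
    {A φ : Fm} {q : LT S} (hq : Ty P w.G q.tm (H.Qd (lv σ) w.γ (H.u w.γ)))
    (he : ∀ (w' : E.World) ξ (z : LT S), w.Ext w' ξ →
      Ty P w'.G z.tm (H.D (lv τ) w'.γ (H.u w'.γ)) →
      w'.Eqv j
        (den H N A w'.γ (H.u w'.γ) (upd τ z
          (upd σ (H.bt (lv σ) w'.γ (H.u w'.γ) (q.ren ξ)) (esub env (LT.rs ξ)))))
        (den H N φ w'.γ (H.u w'.γ) (upd τ z
          (upd σ (H.bt (lv σ) w'.γ (H.u w'.γ) (q.ren ξ)) (esub env (LT.rs ξ))))))
    (p : w.Pf (den H N (.none σ (.all τ (.iff A φ))) w.γ (H.u w.γ) env)) : w.Held j := by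
  refine none_elim N h p hq ?_
  have h1 := h.upd (bt_ty hq)
  refine none_intro N h1 (fun w' ξ q' e hq' p' => ?_)
  have h2 := (h1.ext e).upd (bt_ty hq')
  have e1 := he w' ξ _ e (bt_ty hq')
  rw [esub_upd, H.natBt, u_ren H e, ← e.gam, ← LT.ren_eq_subst] at h2 p'
  have pi := pf_iff (h2.den N A) (h2.den N φ) e1
  exact k.elim w' _ _ (h2.den N (.iff A φ)) (h2.den N (.iff A φ)) p' pi pi

/-- the formula to which comprehension is applied (non generic case) -/
def cf (σ τ : Srt) (φ : Fm) (γ : ℕ → Term S) (env : Srt → ℕ → LT S) : LT S :=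
  den H N φ (gsh γ) (H.u (gsh γ)) (upd τ (.var 0) (esh (upd σ (env σ 0) env)))

theorem cf_ty {w : E.World} {env : Srt → ℕ → LT S} (h : EnvTy H w env) (σ τ : Srt) (φ : Fm) :
    Has P (ccons (H.D (lv τ) w.γ (H.u w.γ)) w.G) k.F (cf N σ τ φ w.γ env).tm := by
  have h1 := (h.upd (h σ 0)).ext (ext_push w (H.D (lv τ) w.γ (H.u w.γ)) .data)
  have e : esub (upd σ (env σ 0) env) (LT.rs Nat.succ) = esh (upd σ (env σ 0) env) := by
    funext μ i; exact (lt_shift_eq_subst _).symm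
  rw [e] at h1
  refine (h1.upd (σ := τ) (a := .var 0) ?_).den N φ
  change Ty P (ccons _ _) _ (H.D (lv τ) (gsh w.γ) (H.u (gsh w.γ)))
  rw [← u_shift, ← D_shift]
  exact Ty.var 0

theorem cf_inst {w w' : E.World} {ξ : ℕ → ℕ} (e : w.Ext w' ξ) {σ τ : Srt} (hne : σ ≠ τ)
    {φ : Fm} (hφ : ¬ Fm.Free σ 0 φ) (env : Srt → ℕ → LT S) (z b : LT S) :
    ((cf N σ τ φ w.γ env).ren (upRen ξ)).inst z =
      den H N φ w'.γ (H.u w'.γ) (upd τ z (upd σ b (esub env (LT.rs ξ)))) := by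
  rw [ren_inst, cf, den_subst, H.natU]
  simp only [LT.tmS_scons, gsub_gsh_scons, ← e.gam, esub_upd, esub_esh_scons, LT.var_subst,
    scons_zero]
  exact den_congr H N φ _ _ _ _ (upd_upd_agree hne hφ _ _ _ _)

/-- the formula to which comprehension is applied (generic case) -/
def cfE (φ : Fm) (γ : ℕ → Term S) (env : Srt → ℕ → LT S) : LT S :=
  den H N φ (gsh (gsh γ)) (.var 1)
    (upd (.r true) (.var 0) (esh (esh (upd .e (env .e 0) env))))

theorem cfE_ty {w : E.World} {env : Srt → ℕ → LT S} (h : EnvTy H w env) {φ : Fm}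
    (hg : ∀ σ i, Fm.Free σ i φ → σ.gen = true → σ = .r true ∧ i = 0) :
    Has P (ccons (H.D .r (gsh w.γ) (.var 0)) (ccons (H.V w.γ) w.G)) k.F
      (cfE N φ w.γ env).tm := by
  refine den_ty H N φ _ _ _ _ ((w.ts.weak _).weak _) ?_ (fun σ i hf => ?_)
  · rw [← V_shift, ← V_shift]
    exact Ty.var 1
  · cases hσ : σ.gen with
    | true =>
      obtain ⟨rfl, rfl⟩ := hg σ i hf hσ
      rw [upd_self_zero]
      change Ty P _ _ (H.D .r (gsh (gsh w.γ)) (LT.var 0).shift)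
      rw [← D_shift]
      exact Ty.var 0
    | false =>
      have hne : σ ≠ .r true := by rintro rfl; cases hσ
      rw [upd_ne hne]
      change Ty P _ _ (H.D (lv σ) (gsh (gsh w.γ)) (H.u (gsh (gsh w.γ))))
      rw [← u_shift, ← D_shift, ← u_shift, ← D_shift]
      exact ((h.upd (h .e 0) σ i).weak _).weak _

theorem cfE_inst {w w' : E.World} {ξ : ℕ → ℕ} (e : w.Ext w' ξ)
    {φ : Fm} (hφ : ¬ Fm.Free .e 0 φ) (env : Srt → ℕ → LT S) (z b : LT S) :
    (cfE N φ w.γ env).subst (scons z (scons (H.u w'.γ) (LT.rs ξ))) =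
      den H N φ w'.γ (H.u w'.γ) (upd (.r true) z (upd .e b (esub env (LT.rs ξ)))) := by
  rw [cfE, den_subst]
  simp only [LT.tmS_scons, gsub_gsh_scons, ← e.gam, esub_upd, esub_esh_scons, LT.var_subst,
    scons_zero, scons_succ]
  exact den_congr H N φ _ _ _ _ (upd_upd_agree (by decide) hφ _ _ _ _)

variable (H)

/-- the environment given by an assignment of the constants -/
def envOf (γ : ℕ → Term S) (κ : Lv → ℕ → LT S) (ρ : Env) : Srt → ℕ → LT S :=
  fun σ i => H.bt (lv σ) γ (H.u γ) (κ (lv σ) (look ρ σ i))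

def denC (γ : ℕ → Term S) (κ : Lv → ℕ → LT S) (x : Cl) : LT S :=
  den H N x.1 γ (H.u γ) (envOf H γ κ x.2)

def Good (w : E.World) (κ : Lv → ℕ → LT S) : Prop :=
  ∀ l c, Ty P w.G (κ l c).tm (H.Qd l w.γ (H.u w.γ))

def Ctr (Γ : List Cl) : Prop :=
  ∀ (w : E.World) κ, Good H w κ → (∀ x ∈ Γ, w.Pf (denC H N w.γ κ x)) → w.Held j

def kren (κ : Lv → ℕ → LT S) (ξ : ℕ → ℕ) : Lv → ℕ → LT S := fun l c => (κ l c).ren ξ

def kupd (κ : Lv → ℕ → LT S) (l : Lv) (c : ℕ) (q : LT S) : Lv → ℕ → LT S :=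
  fun l' c' => if l' = l ∧ c' = c then q else κ l' c'

def atomDen (γ : ℕ → Term S) (κ : Lv → ℕ → LT S) : ℕ × ℕ × ℕ → LT S
  | (0, a, b) => H.memE γ (H.bt .e γ (H.u γ) (κ .e a)) (H.bt .a γ (H.u γ) (κ .a b))
  | (1, a, b) => H.memA γ (H.u γ) (H.bt .a γ (H.u γ) (κ .a a)) (H.bt .n γ (H.u γ) (κ .n b))
  | (2, a, b) => H.memN γ (H.u γ) (H.bt .n γ (H.u γ) (κ .n a)) (H.bt .r γ (H.u γ) (κ .r b))
  | (_ + 3, a, b) => H.pin γ (H.u γ) (H.bt .e γ (H.u γ) (κ .e a)) (H.bt .r γ (H.u γ) (κ .r b))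

variable {H}

theorem denC_atom (γ : ℕ → Term S) (κ : Lv → ℕ → LT S) {x : Cl} {t : ℕ × ℕ × ℕ}
    (h : atomOf x = some t) : denC H N γ κ x = atomDen H γ κ t := by
  obtain ⟨φ, ρ⟩ := x
  cases φ with
  | nand _ _ => cases h
  | none _ _ => cases h
  | _ =>
    cases h
    simp only [denC, den, atomDen, envOf, xs_u, lv]

theorem envOf_cons (γ : ℕ → Term S) (κ : Lv → ℕ → LT S) (σ : Srt) (c : ℕ) (ρ : Env) :
    envOf H γ κ ((σ, c) :: ρ) =
      upd σ (H.bt (lv σ) γ (H.u γ) (κ (lv σ) c)) (envOf H γ κ ρ) := by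
  funext τ i
  by_cases e : τ = σ
  · subst e
    cases i with
    | zero => rw [upd_self_zero, envOf, look_zero]
    | succ i => rw [upd_self_succ, envOf, look_succ, envOf]
  · rw [upd_ne e]; simp only [envOf, look, if_neg e]

theorem envOf_kupd (γ : ℕ → Term S) (κ : Lv → ℕ → LT S) (l : Lv) {c : ℕ} (q : LT S) {ρ : Env}
    (h : Fresh c ρ) : envOf H γ (kupd κ l c q) ρ = envOf H γ κ ρ := by
  funext τ i
  have := (look_lt h τ i).ne
  simp only [envOf, kupd, this, and_false, if_false]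

theorem envOf_ren {w w' : E.World} {ξ : ℕ → ℕ} (e : w.Ext w' ξ) (κ : Lv → ℕ → LT S) (ρ : Env) :
    esub (envOf H w.γ κ ρ) (LT.rs ξ) = envOf H w'.γ (kren κ ξ) ρ := by
  funext τ i
  simp only [esub, envOf, kren, H.natBt, u_ren H e, ← e.gam, LT.ren_eq_subst]

theorem Good.env {w : E.World} {κ : Lv → ℕ → LT S} (h : Good H w κ) (ρ : Env) :
    EnvTy H w (envOf H w.γ κ ρ) := fun _ _ => bt_ty (h _ _)

theorem Good.ext {w w' : E.World} {ξ : ℕ → ℕ} {κ : Lv → ℕ → LT S} (h : Good H w κ)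
    (e : w.Ext w' ξ) : Good H w' (kren κ ξ) := by
  intro l c
  rw [← Qd_ren H e]
  exact e.ty (h l c)

theorem Good.kupd {w : E.World} {κ : Lv → ℕ → LT S} (h : Good H w κ) {l : Lv} (c : ℕ) {q : LT S}
    (hq : Ty P w.G q.tm (H.Qd l w.γ (H.u w.γ))) : Good H w (kupd κ l c q) := by
  intro l' c'
  unfold Interp.kupd
  split_ifs with e
  · rw [e.1]; exact hq
  · exact h l' c'

theorem denC_ren {w w' : E.World} {ξ : ℕ → ℕ} (e : w.Ext w' ξ) (κ : Lv → ℕ → LT S) (x : Cl) :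
    (denC H N w.γ κ x).ren ξ = denC H N w'.γ (kren κ ξ) x := by
  rw [denC, den_ren N e, envOf_ren e, denC]

variable (H)

theorem calc_ctr : Calc (Ctr H N) where
  mono := fun Γ Γ' h c w κ hκ p => c w κ hκ (fun x hx => p x (h x hx))
  atom := by
    intro Γ x y t hx hy hΓ c w κ hκ p
    refine c w κ hκ (fun z hz => ?_)
    rcases List.mem_cons.1 hz with rfl | hz
    · rw [denC_atom N _ _ hy, ← denC_atom N _ _ hx]; exact p x hΓ
    · exact p z hz
  nandL := by
    intro Γ φ ψ ρ h1 h2 h3 w κ hκ p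
    exact k.elim w _ _ ((hκ.env ρ).den N φ) ((hκ.env ρ).den N ψ) (p _ h1) (p _ h2) (p _ h3)
  nandR := by
    intro Γ φ ψ ρ c1 c2 w κ hκ p
    refine c2 w κ hκ (fun z hz => ?_)
    rcases List.mem_cons.1 hz with rfl | hz
    · refine k.intro w _ _ ((hκ.env ρ).den N φ) ((hκ.env ρ).den N ψ) (fun w' ξ e p1 p2 => ?_)
      refine c1 w' _ (hκ.ext e) (fun y hy => ?_)
      rw [← denC_ren N e]
      rcases List.mem_cons.1 hy with rfl | hy
      · exact p1
      rcases List.mem_cons.1 hy with rfl | hy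
      · exact p2
      · exact (p y hy).ext e
    · exact p z hz
  noneL := by
    intro Γ σ φ ρ c h1 h2 w κ hκ p
    have p2 := p _ h2
    rw [denC, envOf_cons] at p2
    exact none_elim N (hκ.env ρ) (p _ h1) (hκ _ c) p2
  noneR := by
    intro Γ σ φ ρ c hc hΓ c1 c2 w κ hκ p
    refine c2 w κ hκ (fun z hz => ?_)
    rcases List.mem_cons.1 hz with rfl | hz
    · refine none_intro N (hκ.env ρ) (fun w' ξ q e hq p1 => ?_)
      refine c1 w' _ ((hκ.ext e).kupd c hq) (fun y hy => ?_)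
      rcases List.mem_cons.1 hy with rfl | hy
      · rw [envOf_ren e] at p1
        rw [denC, envOf_cons, envOf_kupd _ _ _ _ hc]
        simpa only [kupd, and_self, if_true] using p1
      · rw [denC, envOf_kupd _ _ _ _ (hΓ y hy), ← denC, ← denC_ren N e]
        exact (p y hy).ext e
    · exact p z hz
  cE := by
    intro φ ρ h1 h2 w κ hκ p
    obtain ⟨q, hq, he⟩ := H.compE w _ (cfE_ty N (hκ.env ρ) h2)
    refine comp_gen N (hκ.env ρ) (σ := .e) hq (fun w' ξ z e hz => ?_) (p _ (List.mem_cons_self ..))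
    have := he w' ξ z e hz
    rw [cfE_inst N e h1] at this
    exact this
  cA := by
    intro φ ρ h1 w κ hκ p
    obtain ⟨q, hq, he⟩ := H.compA w _ (cf_ty N (hκ.env ρ) (.a false) .e φ)
    refine comp_gen N (hκ.env ρ) (σ := .a false) hq (fun w' ξ z e hz => ?_)
      (p _ (List.mem_cons_self ..))
    have := he w' ξ z e hz
    rw [cf_inst N e (by decide) h1] at this
    exact this
  cN := by
    intro φ ρ h1 w κ hκ p
    obtain ⟨q, hq, he⟩ := H.compN w _ (cf_ty N (hκ.env ρ) (.n false) (.a false) φ)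
    refine comp_gen N (hκ.env ρ) (σ := .n false) hq (fun w' ξ z e hz => ?_)
      (p _ (List.mem_cons_self ..))
    have := he w' ξ z e hz
    rw [cf_inst N e (by decide) h1] at this
    exact this
  cR := by
    intro φ ρ h1 w κ hκ p
    obtain ⟨q, hq, he⟩ := H.compR w _ (cf_ty N (hκ.env ρ) (.r false) (.n false) φ)
    refine comp_gen N (hκ.env ρ) (σ := .r false) hq (fun w' ξ z e hz => ?_)
      (p _ (List.mem_cons_self ..))
    have := he w' ξ z e hz
    rw [cf_inst N e (by decide) h1] at this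
    exact this

theorem exists_good : ∃ κ, Good H E.world0 κ := by
  have : ∀ l, ∃ p, E.Θ p = H.Qd l Term.var (H.u Term.var) := by
    intro l
    obtain ⟨-, K, I, -, hI, hr⟩ := H.ent l
    obtain ⟨s, hs⟩ := (pr_nonempty hr hI.1.1).1
    obtain ⟨p, -, hp⟩ := E.sat _ s 0
      (H.tyQd l E.Θ Term.var _ (TS.id _) (H.tyU _ _ (TS.id _)) s hs)
    exact ⟨p, hp⟩
  choose p hp using this
  refine ⟨fun l _ => .var (p l), fun l _ => ?_⟩
  change Ty P E.Θ (.var (p l)) (H.Qd l Term.var (H.u Term.var))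
  rw [← hp]
  exact Ty.var _

end Interp

theorem Amb.Hol.false {E : Amb P} {j : ℕ} {k : E.Kit j} (H : Amb.Hol k) : False := by
  have N : ∀ l, Amb.Quant k (H.J l) := fun l => (Amb.exists_quant k (H.ent l)).some
  obtain ⟨κ, hκ⟩ := Interp.exists_good H
  exact Amb.World.not_held0 E j
    ((Interp.calc_ctr H N).paradox E.world0 κ hκ (fun _ h => by cases h))

end Vale.Agent.P340
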