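import Vale.Agent.P340.World
import Vale.Agent.P340.BGraph

/-! Connectives: negated conjunction, negated existential quantifier, and observation kinds. -/

namespace Vale.Agent.P340

universe u
variable {S : Type u} {P : Spec S} [Finite S]

namespace Amb

/-- The propositional layer: formulas are the types of node `F`. -/
structure Kit (E : Amb P) (j : ℕ) where
  F : Set S
  hF : E.NN j F
  pw : ∀ b X Y, E.NN j X → E.NN j Y → E.PW j b X Y
  nand : (ℕ → Term S) → LT S → LT S → LT S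
  nat : ∀ γ a b θ, (nand γ a b).subst θ = nand (gsub γ (tmS θ)) (a.subst θ) (b.subst θ)
  ty : ∀ G γ a b, TS P E.Θ G γ → Has P G F a.tm → Has P G F b.tm → Has P G F (nand γ a b).tm
  intro : ∀ (w : E.World) a b, Has P w.G F a.tm → Has P w.G F b.tm →
    (∀ w' ξ, w.Ext w' ξ → w'.Pf (a.ren ξ) → w'.Pf (b.ren ξ) → w'.Held j) → w.Pf (nand w.γ a b)
  elim : ∀ (w : E.World) a b, Has P w.G F a.tm → Has P w.G F b.tm →
    w.Pf (nand w.γ a b) → w.Pf a → w.Pf b → w.Held j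

variable {E : Amb P} {j : ℕ}

theorem sp_any {I₀ X Y : Set S} (h₀ : E.NN j I₀) (hodd : SP E.Edge false I₀ I₀) (b : Bool)
    (hX : E.NN j X) (hY : E.NN j Y) : SP E.Edge b X Y := by
  obtain ⟨α, p⟩ := hX.reach h₀
  obtain ⟨β, q⟩ := h₀.reach hY
  have h1 := p.trans q
  have h2 := (p.trans hodd).trans q
  cases α <;> cases β <;> cases b <;> first | exact h1 | exact h2

omit [Finite S] in
theorem all_ren (D : Term S) (b : LT S) (ξ : ℕ → ℕ) :
    (LT.all D b).ren ξ = LT.all (D.rename ξ) (b.ren (upRen ξ)) := rfl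

omit [Finite S] in
theorem ren_up_inst_var (ψ : LT S) (ζ : ℕ → ℕ) :
    (ψ.ren (upRen fun n => ζ (n + 1))).inst (.var (ζ 0)) = ψ.ren ζ := by
  have e : scons (ζ 0) (fun n => ζ (n + 1)) = ζ := by funext n; cases n <;> rfl
  ext <;> simp [upRen_inst_var, e]

/-- With an odd closed walk both signs are available between any two nodes of the component
(`NN.reach`, `SP.trans`, `exists_pw`). Take `F = I` and
`nand γ a b = imp (W⁺ γ a) (W⁻ γ b).shift` with `W⁺ : PW true J F`, `W⁻ : PW false K F`. -/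
theorem exists_kit {I₀ J K I : Set S} (h₀ : E.NN j I₀) (hodd : SP E.Edge false I₀ I₀)
    (hJ : E.NN j J) (hK : E.NN j K) (hI : E.NN j I) (hr : PR P J K I) : Nonempty (E.Kit j) := by
  have pw : ∀ b X Y, E.NN j X → E.NN j Y → E.PW j b X Y := fun b X Y hX hY =>
    Classical.choice (exists_pw hX hY (sp_any h₀ hodd b hX hY))
  let W₁ := pw true J I hJ hI
  let W₂ := pw false K I hK hI
  obtain ⟨s, hs⟩ := hI.1.1
  have ty : ∀ G γ a b, TS P E.Θ G γ → Has P G I a.tm → Has P G I b.tm →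
      Has P G I (LT.imp (W₁.W γ a) (W₂.W γ b).shift).tm := fun G γ a b h ha hb =>
    Has.pi hr (W₁.ty G γ a h ha) (World.has_weak (W₂.ty G γ b h hb) _)
  refine ⟨⟨I, hI, pw, fun γ a b => .imp (W₁.W γ a) (W₂.W γ b).shift, fun γ a b θ => ?_, ty,
    fun w a b ha hb H => ?_, fun w a b ha hb h pa pb => ?_⟩⟩
  · rw [LT.imp_subst, LT.shift_subst_up, W₁.nat, W₂.nat]
  · refine World.pf_imp (ty _ _ a b w.ts ha hb s hs) ?_
    have e := w.ext_push (W₁.W w.γ a).tm (.prf (W₁.W w.γ a).sh)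
    have h1 := w.pf_hyp (W₁.W w.γ a)
    rw [LT.shift, W₂.ren e]
    refine W₂.intro _ _ (e.has hb) fun w₂ ζ e₂ pb => ?_
    have h2 := h1.ext e₂
    rw [LT.shift, LT.ren_ren, W₁.ren (e.trans e₂)] at h2
    refine W₁.elim w₂ _ ((e.trans e₂).has ha) h2 fun w₃ η e₃ pa => ?_
    have pb' := pb.ext e₃
    rw [LT.ren_ren, LT.ren_ren] at pb'
    rw [LT.ren_ren] at pa
    exact H w₃ _ ((e.trans e₂).trans e₃) pa pb'
  · exact W₂.elim w b hb (h.imp_elim (W₁.intro w a ha pa)) pb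

/-- `none γ D ψ`: no element of `D` satisfies `ψ`. -/
structure Quant (k : E.Kit j) (J : Set S) where
  none : (ℕ → Term S) → Term S → LT S → LT S
  nat : ∀ γ D ψ θ,
    (none γ D ψ).subst θ = none (gsub γ (tmS θ)) (D.subst (tmS θ)) (ψ.subst (LT.up θ))
  ty : ∀ G γ D ψ, TS P E.Θ G γ → Has P G J D → Has P (ccons D G) k.F ψ.tm →
    Has P G k.F (none γ D ψ).tm
  intro : ∀ (w : E.World) D ψ, Has P w.G J D → Has P (ccons D w.G) k.F ψ.tm →
    (∀ w' ξ (q : LT S), w.Ext w' ξ → Ty P w'.G q.tm (D.rename ξ) →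
      w'.Pf ((ψ.ren (upRen ξ)).inst q) → w'.Held j) → w.Pf (none w.γ D ψ)
  elim : ∀ (w : E.World) D ψ (q : LT S), Has P w.G J D → Has P (ccons D w.G) k.F ψ.tm →
    w.Pf (none w.γ D ψ) → Ty P w.G q.tm D → w.Pf (ψ.inst q) → w.Held j

/-- `none γ D ψ = W⁺ γ (all D (W⁻ (gsh γ) ψ))` with `PR J K I`, `W⁻ : PW false K F`,
`W⁺ : PW true F I`. -/
theorem exists_quant (k : E.Kit j) {J : Set S} (h : E.Entry j J) : Nonempty (Quant k J) := by
  obtain ⟨-, K, I, hK, hI, r⟩ := h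
  let W₁ := k.pw true k.F I k.hF hI
  let W₂ := k.pw false K k.F hK k.hF
  obtain ⟨s, hs⟩ := hI.1.1
  have ty : ∀ G γ D ψ, TS P E.Θ G γ → Has P G J D → Has P (ccons D G) k.F ψ.tm →
      Has P G I (LT.all D (W₂.W (gsh γ) ψ)).tm := fun G γ D ψ h hD hψ =>
    Has.pi r hD (W₂.ty _ _ ψ (h.weak D) hψ)
  refine ⟨⟨fun γ D ψ => W₁.W γ (.all D (W₂.W (gsh γ) ψ)), fun γ D ψ θ => ?_,
    fun G γ D ψ h hD hψ => W₁.ty G γ _ h (ty G γ D ψ h hD hψ),
    fun w D ψ hD hψ H => ?_, fun w D ψ q hD hψ h hq pq => ?_⟩⟩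
  · rw [W₁.nat, LT.all_subst, W₂.nat, LT.tmS_up, gsub_gsh_upSub]
  · refine W₁.intro w _ (ty _ _ D ψ w.ts hD hψ) ?_
    refine World.pf_all (ty _ _ D ψ w.ts hD hψ s hs) ?_
    refine W₂.intro (w.push D .data) ψ hψ fun w₂ ζ e₂ p => ?_
    refine H w₂ _ (.var (ζ 0)) ((w.ext_push D .data).trans e₂) ?_ ?_
    · have := Ty.var (P := P) (G := w₂.G) (ζ 0)
      rw [e₂.ctx] at this
      rw [← rename_rename]
      exact this
    · rw [ren_up_inst_var]
      exact p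
  · refine W₁.elim w _ (ty _ _ D ψ w.ts hD hψ) h fun w₂ ζ e p => ?_
    rw [all_ren] at p
    have p' := p.all_elim (q := q.ren ζ) (e.ty hq)
    have e' : (W₂.W (gsh w.γ) ψ).inst q = W₂.W w.γ (ψ.inst q) := by
      rw [LT.inst, W₂.nat, LT.tmS_scons, gsub_gsh_scons, LT.tmS_var, gsub_var]; rfl
    rw [← LT.inst_ren, e', W₂.ren e] at p'
    refine W₂.elim w₂ _ (e.has (I := k.F) ?_) p' (pq.ext e)
    rw [LT.inst_tm]
    exact hψ.subst (TS.single hq)

/-- A type `T` of node `K` of the form `C₁ → ⋯ → Cₙ → t`, with constant functions `up` and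
application `dn` to global parameters. -/
structure Spine (E : Amb P) (K : Set S) (t : S) where
  T : Term S
  has : Has P E.Θ K T
  up : (ℕ → Term S) → LT S → LT S
  dn : (ℕ → Term S) → LT S → LT S
  nat_up : ∀ γ a θ, (up γ a).subst θ = up (gsub γ (tmS θ)) (a.subst θ)
  nat_dn : ∀ γ a θ, (dn γ a).subst θ = dn (gsub γ (tmS θ)) (a.subst θ)
  ty_up : ∀ G γ a, TS P E.Θ G γ → Ty P G a.tm (.sort t) → Ty P G (up γ a).tm (T.subst γ)
  ty_dn : ∀ G γ a, TS P E.Θ G γ → Ty P G a.tm (T.subst γ) → Ty P G (dn γ a).tm (.sort t)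
  law : ∀ γ a, LT.Conv (dn γ (up γ a)) a

/-- Head induction on the path. Base: `T = sort t`. Inclusion: same data. Edge with `PR J K' K`,
`Has Θ J C`, parameter `p` with `Θ p = C`: `T = pi C T'.shift`,
`up γ a = lam (C.subst γ) (up' γ a).shift`, `dn γ m = dn' γ (app m (glob (γ p)))`
(`conv_of_nat`). -/
theorem exists_spine {K J' : Set S} {t : S} (h : Relation.ReflTransGen (E.Edge true) K J')
    (hJ : ∀ s ∈ J', P.ax t s) : Nonempty (E.Spine K t) := by
  induction h using Relation.ReflTransGen.head_induction_on with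
  | refl =>
    exact ⟨⟨.sort t, fun s hs => .ax (hJ s hs), fun _ a => a, fun _ a => a, fun _ _ _ => rfl,
      fun _ _ _ => rfl, fun _ _ _ _ h => h, fun _ _ _ _ h => h, fun _ _ => LT.Conv.rfl⟩⟩
  | @head K K' e _ ih =>
    obtain ⟨sp⟩ := ih
    obtain ⟨⟨⟨s, hs⟩, -⟩, -, i | ⟨J, ⟨⟨s₁, hs₁⟩, C, hC⟩, r⟩⟩ := e
    · exact ⟨⟨sp.T, fun u hu => sp.has u (i hu), sp.up, sp.dn, sp.nat_up, sp.nat_dn, sp.ty_up,
        sp.ty_dn, sp.law⟩⟩
    · obtain ⟨p, -, hp⟩ := E.sat _ s₁ 0 (hC s₁ hs₁)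
      have hT : Has P E.Θ K (.pi C sp.T.shift) := Has.pi r hC (World.has_weak sp.has C)
      refine ⟨⟨.pi C sp.T.shift, hT, fun γ a => .lam (C.subst γ) (sp.up γ a).shift,
        fun γ m => sp.dn γ (.app m (.glob (γ p))), fun γ a θ => ?_, fun γ a θ => ?_,
        fun G γ a h ha => ?_, fun G γ a h ha => ?_, fun γ a => ?_⟩⟩
      · rw [LT.lam_subst, LT.shift_subst_up, subst_gsub, sp.nat_up]
      · rw [sp.nat_dn]; rfl
      · have k := hT.subst h s hs
        rw [subst_pi, shift_subst_upSub] at k ⊢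
        exact .lam ((sp.ty_up G γ a h ha).weak _) k
      · refine sp.ty_dn G γ _ h ?_
        rw [subst_pi, shift_subst_upSub] at ha
        have k := h p
        rw [hp] at k
        have := Ty.app ha k
        rwa [shift_inst] at this
      · refine (conv_of_nat sp.nat_dn γ ?_).trans (sp.law γ a)
        have := LT.Conv.beta (C.subst γ) (sp.up γ a).shift (.glob (γ p))
        rwa [LT.shift_inst] at this

/-- A type of node `K` whose elements encode formulas. -/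
structure Obsv (k : E.Kit j) (K : Set S) where
  T : Term S
  has : Has P E.Θ K T
  enc : (ℕ → Term S) → LT S → LT S
  dec : (ℕ → Term S) → LT S → LT S
  nat_enc : ∀ γ a θ, (enc γ a).subst θ = enc (gsub γ (tmS θ)) (a.subst θ)
  nat_dec : ∀ γ a θ, (dec γ a).subst θ = dec (gsub γ (tmS θ)) (a.subst θ)
  ty_enc : ∀ G γ a, TS P E.Θ G γ → Has P G k.F a.tm → Ty P G (enc γ a).tm (T.subst γ)
  ty_dec : ∀ G γ a, TS P E.Θ G γ → Ty P G a.tm (T.subst γ) → Has P G k.F (dec γ a).tm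
  law : ∀ (w : E.World) a, Has P w.G k.F a.tm → w.Eqv j (dec w.γ (enc w.γ a)) a

/-- From a spine to `s₀` with `NN j {s₀}`: `enc γ a = up γ (W₁ γ a)`, `dec γ m = W₂ γ (dn γ m)`
with `W₁ : PW true {s₀} F`, `W₂ : PW true F {s₀}` (`conv_of_nat`, `eqv_of_conv`, `PW.eqv`). -/
theorem exists_obsv (k : E.Kit j) {K : Set S} (h : E.Rr j K) : Nonempty (Obsv k K) := by
  obtain ⟨J', p, -, s₀, h₀, hJ⟩ := h
  obtain ⟨sp⟩ := exists_spine p hJ
  let W₁ := k.pw true {s₀} k.F h₀ k.hF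
  let W₂ := k.pw true k.F {s₀} k.hF h₀
  have one : ∀ {G : ℕ → Term S} {A : Term S}, Ty P G A (.sort s₀) → Has P G {s₀} A :=
    fun h s hs => by obtain rfl : s = s₀ := hs; exact h
  refine ⟨⟨sp.T, sp.has, fun γ a => sp.up γ (W₁.W γ a), fun γ m => W₂.W γ (sp.dn γ m),
    fun γ a θ => ?_, fun γ a θ => ?_,
    fun G γ a h ha => sp.ty_up G γ _ h (W₁.ty G γ a h ha s₀ rfl),
    fun G γ a h ha => W₂.ty G γ _ h (one (sp.ty_dn G γ a h ha)), fun w a ha => ?_⟩⟩
  · rw [sp.nat_up, W₁.nat]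
  · rw [W₂.nat, sp.nat_dn]
  · have h1 := W₁.ty _ _ a w.ts ha s₀ rfl
    have h2 := sp.ty_dn _ _ _ w.ts (sp.ty_up _ _ _ w.ts h1)
    exact (W₂.eqv w (one h2)).trans
      ((World.eqv_of_conv (sp.law _ _) h2 h1).trans (W₁.eqv w ha))

end Amb
end Vale.Agent.P340
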