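import Vale.Agent.P340.Real

/-! Pairs of a term and its logical shadow, with parallel substitution. -/

namespace Vale.Agent.P340

universe u
variable {S : Type u}

@[ext] structure LT (S : Type u) where
  tm : Term S
  sh : Sh

/-- term part of a substitution -/
def tmS (θ : ℕ → LT S) : ℕ → Term S := fun n => (θ n).tm
/-- shadow part of a substitution -/
def shS (θ : ℕ → LT S) : ℕ → Sh := fun n => (θ n).sh
/-- action of a substitution on the global substitution -/
def gsub (γ σ : ℕ → Term S) : ℕ → Term S := fun x => (γ x).subst σ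
/-- shift of the global substitution -/
def gsh (γ : ℕ → Term S) : ℕ → Term S := fun x => (γ x).shift

namespace LT

def var (n : ℕ) : LT S := ⟨.var n, .var n⟩
def subst (t : LT S) (θ : ℕ → LT S) : LT S := ⟨t.tm.subst (tmS θ), t.sh.subst (shS θ)⟩
def ren (t : LT S) (ξ : ℕ → ℕ) : LT S := ⟨t.tm.rename ξ, t.sh.rename ξ⟩
def shift (t : LT S) : LT S := t.ren Nat.succ
def up (θ : ℕ → LT S) : ℕ → LT S
  | 0 => var 0
  | n + 1 => (θ n).shift
def inst (b a : LT S) : LT S := b.subst (scons a var)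
def lam (A : Term S) (b : LT S) : LT S := ⟨.lam A b.tm, .lam fBot b.sh⟩
def app (a b : LT S) : LT S := ⟨.app a.tm b.tm, .app a.sh b.sh⟩
/-- quantification over data of type `A` -/
def all (A : Term S) (b : LT S) : LT S := ⟨.pi A b.tm, fAll b.sh⟩
/-- implication, `b` is under the binder -/
def imp (a b : LT S) : LT S := ⟨.pi a.tm b.tm, fImp a.sh b.sh⟩
/-- answer types and global data -/
def glob (M : Term S) : LT S := ⟨M, fBot⟩
def Conv (a b : LT S) : Prop := P340.Conv a.tm b.tm ∧ P340.Conv a.sh b.sh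
/-- a renaming as a substitution -/
def rs (ξ : ℕ → ℕ) : ℕ → LT S := fun n => var (ξ n)

@[simp] theorem var_tm (n : ℕ) : (var n : LT S).tm = .var n := rfl
@[simp] theorem var_sh (n : ℕ) : (var n : LT S).sh = .var n := rfl
@[simp] theorem subst_tm (t : LT S) (θ : ℕ → LT S) : (t.subst θ).tm = t.tm.subst (tmS θ) := rfl
@[simp] theorem subst_sh (t : LT S) (θ : ℕ → LT S) : (t.subst θ).sh = t.sh.subst (shS θ) := rfl
@[simp] theorem ren_tm (t : LT S) (ξ : ℕ → ℕ) : (t.ren ξ).tm = t.tm.rename ξ := rfl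
@[simp] theorem ren_sh (t : LT S) (ξ : ℕ → ℕ) : (t.ren ξ).sh = t.sh.rename ξ := rfl
@[simp] theorem shift_tm (t : LT S) : t.shift.tm = t.tm.shift := rfl
@[simp] theorem shift_sh (t : LT S) : t.shift.sh = t.sh.shift := rfl
@[simp] theorem lam_tm (A : Term S) (b : LT S) : (lam A b).tm = .lam A b.tm := rfl
@[simp] theorem lam_sh (A : Term S) (b : LT S) : (lam A b).sh = .lam fBot b.sh := rfl
@[simp] theorem app_tm (a b : LT S) : (app a b).tm = .app a.tm b.tm := rfl
@[simp] theorem app_sh (a b : LT S) : (app a b).sh = .app a.sh b.sh := rfl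
@[simp] theorem all_tm (A : Term S) (b : LT S) : (all A b).tm = .pi A b.tm := rfl
@[simp] theorem all_sh (A : Term S) (b : LT S) : (all A b).sh = fAll b.sh := rfl
@[simp] theorem imp_tm (a b : LT S) : (imp a b).tm = .pi a.tm b.tm := rfl
@[simp] theorem imp_sh (a b : LT S) : (imp a b).sh = fImp a.sh b.sh := rfl
@[simp] theorem glob_tm (M : Term S) : (glob M).tm = M := rfl
@[simp] theorem glob_sh (M : Term S) : (glob M).sh = fBot := rfl
@[simp] theorem up_zero (θ : ℕ → LT S) : up θ 0 = var 0 := rfl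
@[simp] theorem up_succ (θ : ℕ → LT S) (n : ℕ) : up θ (n + 1) = (θ n).shift := rfl

@[simp] theorem tmS_up (θ : ℕ → LT S) : tmS (up θ) = upSub (tmS θ) := by
  funext n; cases n <;> rfl
@[simp] theorem shS_up (θ : ℕ → LT S) : shS (up θ) = upSub (shS θ) := by
  funext n; cases n <;> rfl
@[simp] theorem tmS_scons (a : LT S) (θ : ℕ → LT S) : tmS (scons a θ) = scons a.tm (tmS θ) := by
  funext n; cases n <;> rfl
@[simp] theorem shS_scons (a : LT S) (θ : ℕ → LT S) : shS (scons a θ) = scons a.sh (shS θ) := by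
  funext n; cases n <;> rfl
@[simp] theorem tmS_var : tmS (var : ℕ → LT S) = Term.var := rfl
@[simp] theorem shS_var : shS (var : ℕ → LT S) = Term.var := rfl
theorem tmS_rs (ξ : ℕ → ℕ) : tmS (rs ξ : ℕ → LT S) = fun n => .var (ξ n) := rfl
theorem shS_rs (ξ : ℕ → ℕ) : shS (rs ξ : ℕ → LT S) = fun n => .var (ξ n) := rfl

@[simp] theorem inst_tm (b a : LT S) : (b.inst a).tm = b.tm.inst a.tm := by
  simp [inst, inst_eq]
@[simp] theorem inst_sh (b a : LT S) : (b.inst a).sh = b.sh.inst a.sh := by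
  simp [inst, inst_eq]

theorem ren_eq_subst (t : LT S) (ξ : ℕ → ℕ) : t.ren ξ = t.subst (rs ξ) := by
  ext <;> simp [rename_eq_subst, tmS_rs, shS_rs]

theorem up_rs (ξ : ℕ → ℕ) : up (rs ξ : ℕ → LT S) = rs (upRen ξ) := by
  funext n; cases n <;> rfl

@[simp] theorem var_subst (n : ℕ) (θ : ℕ → LT S) : (var n).subst θ = θ n := rfl
@[simp] theorem subst_var (t : LT S) : t.subst var = t := by ext <;> simp
@[simp] theorem lam_subst (A : Term S) (b : LT S) (θ : ℕ → LT S) :
    (lam A b).subst θ = lam (A.subst (tmS θ)) (b.subst (up θ)) := by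
  ext <;> simp [fBot]
@[simp] theorem app_subst (a b : LT S) (θ : ℕ → LT S) :
    (app a b).subst θ = app (a.subst θ) (b.subst θ) := rfl
@[simp] theorem all_subst (A : Term S) (b : LT S) (θ : ℕ → LT S) :
    (all A b).subst θ = all (A.subst (tmS θ)) (b.subst (up θ)) := by
  ext <;> simp [fAll]
@[simp] theorem imp_subst (a b : LT S) (θ : ℕ → LT S) :
    (imp a b).subst θ = imp (a.subst θ) (b.subst (up θ)) := by
  ext <;> simp [fImp]
@[simp] theorem glob_subst (M : Term S) (θ : ℕ → LT S) :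
    (glob M).subst θ = glob (M.subst (tmS θ)) := rfl
@[simp] theorem shift_subst_up (t : LT S) (θ : ℕ → LT S) :
    t.shift.subst (up θ) = (t.subst θ).shift := by ext <;> simp
@[simp] theorem shift_subst_scons (t a : LT S) (θ : ℕ → LT S) :
    t.shift.subst (scons a θ) = t.subst θ := by ext <;> simp
@[simp] theorem shift_inst (t a : LT S) : t.shift.inst a = t := by ext <;> simp
@[simp] theorem var_zero_inst (a : LT S) : (var 0).inst a = a := rfl
@[simp] theorem var_shift (n : ℕ) : (var n : LT S).shift = var (n + 1) := rfl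
@[simp] theorem ren_id (t : LT S) : t.ren (fun n => n) = t := by ext <;> simp

theorem subst_subst (t : LT S) (θ θ' : ℕ → LT S) :
    (t.subst θ).subst θ' = t.subst (fun n => (θ n).subst θ') := by
  ext <;> simp [P340.subst_subst] <;> rfl

theorem ren_ren (t : LT S) (ξ ζ : ℕ → ℕ) : (t.ren ξ).ren ζ = t.ren (fun n => ζ (ξ n)) := by
  ext <;> simp [rename_rename]

theorem inst_subst (b a : LT S) (θ : ℕ → LT S) :
    (b.inst a).subst θ = (b.subst (up θ)).inst (a.subst θ) := by
  ext <;> simp [P340.inst_subst]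

theorem up_inst (b a : LT S) (θ : ℕ → LT S) : (b.subst (up θ)).inst a = b.subst (scons a θ) := by
  ext <;> simp [upSub_inst]

theorem up_subst_scons (b a : LT S) (θ θ' : ℕ → LT S) :
    (b.subst (up θ)).subst (scons a θ') = b.subst (scons a (fun n => (θ n).subst θ')) := by
  ext <;> simp [upSub_subst_scons] <;> rfl

theorem inst_ren (b a : LT S) (ξ : ℕ → ℕ) :
    (b.inst a).ren ξ = (b.ren (upRen ξ)).inst (a.ren ξ) := by
  ext <;> simp [inst_rename]

theorem Conv.rfl {a : LT S} : Conv a a := ⟨P340.Conv.rfl, P340.Conv.rfl⟩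
theorem Conv.symm {a b : LT S} (h : Conv a b) : Conv b a := ⟨h.1.symm, h.2.symm⟩
theorem Conv.trans {a b c : LT S} (h : Conv a b) (k : Conv b c) : Conv a c :=
  ⟨h.1.trans k.1, h.2.trans k.2⟩
theorem Conv.beta (A : Term S) (b a : LT S) : Conv (app (lam A b) a) (b.inst a) := by
  constructor <;> simp <;> exact P340.Conv.beta _ _ _
theorem Conv.app {a a' b b' : LT S} (h : Conv a a') (k : Conv b b') :
    Conv (app a b) (app a' b') := ⟨h.1.app k.1, h.2.app k.2⟩
theorem Conv.inst {a a' b b' : LT S} (h : Conv b b') (k : Conv a a') :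
    Conv (b.inst a) (b'.inst a') := by
  constructor <;> simp
  exacts [h.1.inst k.1, h.2.inst k.2]
theorem Conv.subst {a a' : LT S} (h : Conv a a') (θ : ℕ → LT S) :
    Conv (a.subst θ) (a'.subst θ) := ⟨h.1.subst _, h.2.subst _⟩
theorem Conv.ren {a a' : LT S} (h : Conv a a') (ξ : ℕ → ℕ) :
    Conv (a.ren ξ) (a'.ren ξ) := ⟨h.1.rename _, h.2.rename _⟩

end LT

@[simp] theorem gsub_gsh_upSub (γ σ : ℕ → Term S) : gsub (gsh γ) (upSub σ) = gsh (gsub γ σ) := by
  funext x; simp [gsub, gsh]
@[simp] theorem gsub_gsh_scons (γ σ : ℕ → Term S) (a : Term S) :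
    gsub (gsh γ) (scons a σ) = gsub γ σ := by
  funext x; simp [gsub, gsh]
@[simp] theorem gsub_var (γ : ℕ → Term S) : gsub γ Term.var = γ := by
  funext x; simp [gsub]
theorem subst_gsub (C : Term S) (γ σ : ℕ → Term S) :
    (C.subst γ).subst σ = C.subst (gsub γ σ) := subst_subst _ _ _
theorem subst_gsh (C : Term S) (γ : ℕ → Term S) : C.subst (gsh γ) = (C.subst γ).shift := by
  simp only [Term.shift, rename_subst]; rfl
theorem gsub_shift (γ : ℕ → Term S) : gsub γ (tmS (LT.rs Nat.succ)) = gsh γ := by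
  funext x; simp only [gsub, gsh, Term.shift, rename_eq_subst]; rfl

/-- A natural unary operation respects conversion. -/
theorem conv_of_nat {F : (ℕ → Term S) → LT S → LT S}
    (hF : ∀ γ a θ, (F γ a).subst θ = F (gsub γ (tmS θ)) (a.subst θ)) (γ : ℕ → Term S)
    {a a' : LT S} (h : LT.Conv a a') : LT.Conv (F γ a) (F γ a') := by
  have e : ∀ a, F γ a = (F (gsh γ) (.var 0)).inst a := by
    intro a; rw [LT.inst, hF]; simp
  rw [e a, e a']; exact LT.Conv.rfl.inst h

end Vale.Agent.P340
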