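import Vale.Agent.P340.CaseP
import Vale.Agent.P340.CaseU
import Vale.Agent.P340.CaseB
import Vale.Agent.P340.Interp
import Vale.Agent.P340.FinRed

/-! Assembly. -/

namespace Vale.Agent.P340

universe u

theorem Amb.model {S : Type u} {P : Spec S} [Finite S] (E : Amb P) (j : ℕ) :
    Nonempty (E.Model j) := by
  by_cases h1 : ∀ I, E.NN j I → ¬ SP E.Edge false I I
  · exact E.model_P j h1
  by_cases h2 : ∀ J K I, E.NN j J → E.NN j K → E.NN j I → ¬ PR P J K I
  · exact E.model_U j h2
  by_cases h3 : E.Forb j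
  · exfalso
    simp only [not_forall, not_not] at h1 h2
    obtain ⟨I₀, h₀, hodd⟩ := h1
    obtain ⟨J, K, I, hJ, hK, hI, hr⟩ := h2
    obtain ⟨k⟩ := Amb.exists_kit h₀ hodd hJ hK hI hr
    obtain ⟨T⟩ := Amb.exists_tower k h3
    obtain ⟨H⟩ := Amb.exists_hol T
    exact H.false
  · exact E.model_B j h3

theorem bgk (S : Type u) (P : Spec S) (h : WeaklyNormalizing P) : StronglyNormalizing P := by
  refine sn_of_finite_case (fun S _ P hwn => ?_) S P h
  exact sn_of_amb hwn (fun E M A hM => Amb.sn_of_models (fun j => E.model j) hM)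

end Vale.Agent.P340
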