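import Vale.Agent.P340.Syntax

/-! Realizability typing (Curry style) of raw terms by formulas, which are terms over one sort.
Terms and formulas use the same de Bruijn indices. It has subject reduction, and no normal term
realizes falsity when there is no proof variable. -/

namespace Vale.Agent.P340

universe u
variable {S : Type u}

abbrev Sh := Term Unit

def fBot : Sh := .sort ()
/-- quantification over data -/
def fAll (B : Sh) : Sh := .pi (.sort ()) B
/-- implication; `B` lives under the binder -/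
def fImp (φ B : Sh) : Sh := .pi (.pi φ (.sort ())) B

inductive Kind
  | glob
  | data
  | prf (φ : Sh)

def Kind.shift : Kind → Kind
  | .glob => .glob
  | .data => .data
  | .prf φ => .prf φ.shift

def kcons (k : Kind) (Ξ : ℕ → Kind) : ℕ → Kind
  | 0 => k.shift
  | n + 1 => (Ξ n).shift

inductive Real : (ℕ → Kind) → Term S → Sh → Prop
  | hyp {Ξ x φ} : Ξ x = .prf φ → Real Ξ (.var x) φ
  | lamD {Ξ A M B} : Real (kcons .data Ξ) M B → Real Ξ (.lam A M) (fAll B)
  | lamP {Ξ A M φ B} : Real (kcons (.prf φ) Ξ) M B → Real Ξ (.lam A M) (fImp φ B)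
  | appD {Ξ M B} (N n) : Real Ξ M (fAll B) → Real Ξ (.app M N) (B.inst n)
  | appP {Ξ M N φ B} (n) : Real Ξ M (fImp φ B) → Real Ξ N φ → Real Ξ (.app M N) (B.inst n)
  | conv {Ξ M φ ψ} : Real Ξ M φ → Conv φ ψ → Real Ξ M ψ
  | holdArg {Ξ g N} : Ξ g = .glob → Real Ξ N fBot → Real Ξ (.app (.var g) N) fBot
  | holdLam {Ξ A M} : Real (kcons .data Ξ) M fBot → Real Ξ (.lam A M) fBot

theorem Kind.shift_eq_prf {k : Kind} {ψ : Sh} (h : k.shift = .prf ψ) :
    ∃ φ, k = .prf φ ∧ ψ = φ.shift := by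
  cases k with
  | glob => cases h
  | data => cases h
  | prf φ => cases h; exact ⟨φ, rfl, rfl⟩

theorem Kind.shift_eq_glob {k : Kind} (h : k.shift = .glob) : k = .glob := by
  cases k with
  | glob => rfl
  | data => cases h
  | prf φ => cases h

theorem kcons_prf_ren {Ξ Ξ' : ℕ → Kind} {ξ : ℕ → ℕ} {k k' : Kind}
    (hk : ∀ ψ, k = .prf ψ → k' = .prf (ψ.rename ξ))
    (hp : ∀ x ψ, Ξ x = .prf ψ → Ξ' (ξ x) = .prf (ψ.rename ξ)) :
    ∀ x ψ, kcons k Ξ x = .prf ψ → kcons k' Ξ' (upRen ξ x) = .prf (ψ.rename (upRen ξ)) := by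
  intro x ψ h
  cases x with
  | zero =>
    obtain ⟨φ, e, rfl⟩ := Kind.shift_eq_prf (k := k) h
    show k'.shift = _
    rw [hk φ e, shift_rename_upRen]; rfl
  | succ x =>
    obtain ⟨φ, e, rfl⟩ := Kind.shift_eq_prf (k := Ξ x) h
    show (Ξ' (ξ x)).shift = _
    rw [hp x φ e, shift_rename_upRen]; rfl

theorem kcons_glob_ren {Ξ Ξ' : ℕ → Kind} {ξ : ℕ → ℕ} {k k' : Kind} (hk : k ≠ .glob)
    (hg : ∀ x, Ξ x = .glob → Ξ' (ξ x) = .glob) :
    ∀ x, kcons k Ξ x = .glob → kcons k' Ξ' (upRen ξ x) = .glob := by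
  intro x h
  cases x with
  | zero => exact (hk (Kind.shift_eq_glob (k := k) h)).elim
  | succ x =>
    have e := Kind.shift_eq_glob (k := Ξ x) h
    show (Ξ' (ξ x)).shift = _
    rw [hg x e]; rfl

theorem Real.rename {Ξ Ξ' : ℕ → Kind} {M : Term S} {φ : Sh} (h : Real Ξ M φ) {ξ : ℕ → ℕ}
    (hp : ∀ x ψ, Ξ x = .prf ψ → Ξ' (ξ x) = .prf (ψ.rename ξ))
    (hg : ∀ x, Ξ x = .glob → Ξ' (ξ x) = .glob) : Real Ξ' (M.rename ξ) (φ.rename ξ) := by
  induction h generalizing Ξ' ξ with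
  | hyp h => exact .hyp (hp _ _ h)
  | lamD _ ih =>
    exact .lamD (ih (kcons_prf_ren (fun ψ e => by cases e) hp)
      (kcons_glob_ren (fun e => by cases e) hg))
  | lamP _ ih =>
    exact .lamP (ih (kcons_prf_ren (fun ψ e => by cases e; rfl) hp)
      (kcons_glob_ren (fun e => by cases e) hg))
  | appD N n _ ih => rw [inst_rename]; exact .appD _ _ (ih hp hg)
  | appP n _ _ ih1 ih2 => rw [inst_rename]; exact .appP _ (ih1 hp hg) (ih2 hp hg)
  | conv _ c ih => exact .conv (ih hp hg) (c.rename ξ)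
  | holdArg h _ ih => exact .holdArg (hg _ h) (ih hp hg)
  | holdLam _ ih =>
    exact .holdLam (ih (kcons_prf_ren (fun ψ e => by cases e) hp)
      (kcons_glob_ren (fun e => by cases e) hg))

theorem Real.weak {Ξ : ℕ → Kind} {M : Term S} {φ : Sh} (h : Real Ξ M φ) (k : Kind) :
    Real (kcons k Ξ) M.shift φ.shift := by
  refine h.rename (ξ := Nat.succ) (fun x ψ e => ?_) (fun x e => ?_)
  · show (Ξ x).shift = _
    rw [e]; rfl
  · show (Ξ x).shift = _
    rw [e]; rfl

theorem kcons_prf_sub {Ξ Ξ' : ℕ → Kind} {σ : ℕ → Term S} {θ : ℕ → Sh} {k k' : Kind}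
    (hk : ∀ ψ, k = .prf ψ → k' = .prf (ψ.subst θ))
    (hp : ∀ x ψ, Ξ x = .prf ψ → Real Ξ' (σ x) (ψ.subst θ)) :
    ∀ x ψ, kcons k Ξ x = .prf ψ → Real (kcons k' Ξ') (upSub σ x) (ψ.subst (upSub θ)) := by
  intro x ψ h
  cases x with
  | zero =>
    obtain ⟨φ, e, rfl⟩ := Kind.shift_eq_prf (k := k) h
    refine .hyp ?_
    show k'.shift = _
    rw [hk φ e, shift_subst_upSub]; rfl
  | succ x =>
    obtain ⟨φ, e, rfl⟩ := Kind.shift_eq_prf (k := Ξ x) h
    rw [upSub_succ, shift_subst_upSub]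
    exact (hp x φ e).weak k'

theorem kcons_glob_sub {Ξ Ξ' : ℕ → Kind} {σ : ℕ → Term S} {k k' : Kind} (hk : k ≠ .glob)
    (hg : ∀ x, Ξ x = .glob → ∃ y, σ x = .var y ∧ Ξ' y = .glob) :
    ∀ x, kcons k Ξ x = .glob → ∃ y, upSub σ x = .var y ∧ kcons k' Ξ' y = .glob := by
  intro x h
  cases x with
  | zero => exact (hk (Kind.shift_eq_glob (k := k) h)).elim
  | succ x =>
    obtain ⟨y, e1, e2⟩ := hg x (Kind.shift_eq_glob (k := Ξ x) h)
    refine ⟨y + 1, by rw [upSub_succ, e1]; rfl, ?_⟩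
    show (Ξ' y).shift = _
    rw [e2]; rfl

theorem Real.subst {Ξ Ξ' : ℕ → Kind} {M : Term S} {φ : Sh} (h : Real Ξ M φ)
    {σ : ℕ → Term S} {θ : ℕ → Sh}
    (hp : ∀ x ψ, Ξ x = .prf ψ → Real Ξ' (σ x) (ψ.subst θ))
    (hg : ∀ x, Ξ x = .glob → ∃ y, σ x = .var y ∧ Ξ' y = .glob) :
    Real Ξ' (M.subst σ) (φ.subst θ) := by
  induction h generalizing Ξ' σ θ with
  | hyp h => exact hp _ _ h
  | lamD _ ih =>
    exact .lamD (ih (kcons_prf_sub (fun ψ e => by cases e) hp)
      (kcons_glob_sub (fun e => by cases e) hg))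
  | lamP _ ih =>
    exact .lamP (ih (kcons_prf_sub (fun ψ e => by cases e; rfl) hp)
      (kcons_glob_sub (fun e => by cases e) hg))
  | appD N n _ ih => rw [inst_subst]; exact .appD _ _ (ih hp hg)
  | appP n _ _ ih1 ih2 => rw [inst_subst]; exact .appP _ (ih1 hp hg) (ih2 hp hg)
  | conv _ c ih => exact .conv (ih hp hg) (c.subst θ)
  | holdArg h _ ih =>
    obtain ⟨y, e1, e2⟩ := hg _ h
    rw [subst_app, subst_var, e1]
    exact .holdArg e2 (ih hp hg)
  | holdLam _ ih =>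
    exact .holdLam (ih (kcons_prf_sub (fun ψ e => by cases e) hp)
      (kcons_glob_sub (fun e => by cases e) hg))

theorem Real.inst {Ξ : ℕ → Kind} {M N : Term S} {B : Sh} {k : Kind} (h : Real (kcons k Ξ) M B)
    (hk : k ≠ .glob) (hN : ∀ φ, k = .prf φ → Real Ξ N φ) (n : Sh) :
    Real Ξ (M.inst N) (B.inst n) := by
  refine h.subst (σ := single N) (θ := single n) (fun x ψ e => ?_) (fun x e => ?_)
  · cases x with
    | zero =>
      obtain ⟨φ, e', rfl⟩ := Kind.shift_eq_prf (k := k) e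
      rw [shift_subst_single]
      exact hN φ e'
    | succ x =>
      obtain ⟨φ, e', rfl⟩ := Kind.shift_eq_prf (k := Ξ x) e
      rw [shift_subst_single]
      exact .hyp e'
  · cases x with
    | zero => exact (hk (Kind.shift_eq_glob (k := k) e)).elim
    | succ x => exact ⟨x, rfl, Kind.shift_eq_glob (k := Ξ x) e⟩

theorem Real.gen_lam {Ξ : ℕ → Kind} {A M : Term S} {χ : Sh} (h : Real Ξ (.lam A M) χ) :
    (∃ B, Real (kcons .data Ξ) M B ∧ Conv (fAll B) χ) ∨
    (∃ φ B, Real (kcons (.prf φ) Ξ) M B ∧ Conv (fImp φ B) χ) ∨ Conv fBot χ := by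
  generalize hL : Term.lam A M = L at h
  induction h with
  | hyp _ => cases hL
  | lamD h _ => cases hL; exact Or.inl ⟨_, h, Conv.rfl⟩
  | lamP h _ => cases hL; exact Or.inr (Or.inl ⟨_, _, h, Conv.rfl⟩)
  | appD => cases hL
  | appP => cases hL
  | conv _ c ih =>
    rcases ih hL with ⟨B, a, b⟩ | ⟨φ, B, a, b⟩ | b
    · exact Or.inl ⟨B, a, b.trans c⟩
    · exact Or.inr (Or.inl ⟨φ, B, a, b.trans c⟩)
    · exact Or.inr (Or.inr (b.trans c))
  | holdArg => cases hL
  | holdLam => exact Or.inr (Or.inr Conv.rfl)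

/-- subject reduction (invert `Real Ξ (lam A M) φ` through `conv`, use `Conv.pi_inj`,
`Conv.sort_pi` and `Real.subst`) -/
theorem Real.step {Ξ : ℕ → Kind} {M M' : Term S} {φ : Sh} (h : Real Ξ M φ) (k : Step M M') :
    Real Ξ M' φ := by
  induction h generalizing M' with
  | hyp _ => cases k
  | lamD h ih =>
    cases k with
    | lamL _ k => exact .lamD h
    | lamR _ k => exact .lamD (ih k)
  | lamP h ih =>
    cases k with
    | lamL _ k => exact .lamP h
    | lamR _ k => exact .lamP (ih k)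
  | appD N n h ih =>
    cases k with
    | beta A₀ M₀ _ =>
      rcases h.gen_lam with ⟨B', a, b⟩ | ⟨φ', B', a, b⟩ | b
      · exact (a.conv (Conv.pi_inj b).2).inst (fun e => by cases e) (fun φ e => by cases e) n
      · exact (Conv.sort_pi (Conv.pi_inj b).1.symm).elim
      · exact (Conv.sort_pi b).elim
    | appL _ k => exact .appD _ _ (ih k)
    | appR _ k => exact .appD _ _ h
  | appP n h1 h2 ih1 ih2 =>
    cases k with
    | beta A₀ M₀ _ =>
      rcases h1.gen_lam with ⟨B', a, b⟩ | ⟨φ', B', a, b⟩ | b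
      · exact (Conv.sort_pi (Conv.pi_inj b).1).elim
      · refine (a.conv (Conv.pi_inj b).2).inst (fun e => by cases e) (fun ψ e => ?_) n
        cases e
        exact h2.conv (Conv.pi_inj (Conv.pi_inj b).1).1.symm
      · exact (Conv.sort_pi b).elim
    | appL _ k => exact .appP _ (ih1 k) h2
    | appR _ k => exact .appP _ h1 (ih2 k)
  | conv _ c ih => exact .conv (ih k) c
  | holdArg h _ ih =>
    cases k with
    | appL _ k => cases k
    | appR _ k => exact .holdArg h (ih k)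
  | holdLam h ih =>
    cases k with
    | lamL _ k => exact .holdLam h
    | lamR _ k => exact .holdLam (ih k)

theorem Real.red {Ξ : ℕ → Kind} {M M' : Term S} {φ : Sh} (h : Real Ξ M φ) (k : Red M M') :
    Real Ξ M' φ := by
  induction k with
  | refl => exact h
  | tail _ h2 ih => exact ih.step h2

theorem Real.normal_lam {Ξ : ℕ → Kind} {M : Term S} {φ : Sh} (h : Real Ξ M φ)
    (hΞ : ∀ x φ, Ξ x ≠ .prf φ) (hn : Normal M) :
    ¬ Conv φ fBot ∧ ∃ A M', M = .lam A M' := by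
  induction h with
  | hyp h => exact (hΞ _ _ h).elim
  | lamD _ _ => exact ⟨fun c => Conv.sort_pi c.symm, _, _, rfl⟩
  | lamP _ _ => exact ⟨fun c => Conv.sort_pi c.symm, _, _, rfl⟩
  | appD N n _ ih =>
    obtain ⟨-, A, M', rfl⟩ := ih hΞ hn.app_left
    exact hn.app_not_lam.elim
  | appP n _ _ ih1 _ =>
    obtain ⟨-, A, M', rfl⟩ := ih1 hΞ hn.app_left
    exact hn.app_not_lam.elim
  | conv _ c ih =>
    obtain ⟨a, b⟩ := ih hΞ hn
    exact ⟨fun d => a (c.trans d), b⟩
  | holdArg _ _ ih => exact ((ih hΞ hn.app_right).1 Conv.rfl).elim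
  | @holdLam Ξ A M _ ih =>
    refine ((ih (fun x φ e => ?_) (Vale.Agent.P340.normal_lam.1 hn).2).1 Conv.rfl).elim
    cases x with
    | zero => cases e
    | succ x =>
      obtain ⟨ψ, e, -⟩ := Kind.shift_eq_prf (k := Ξ x) e
      exact hΞ x ψ e

/-- Induction on the derivation: for normal `M` and no proof variable, `φ` is not convertible
with `fBot` and `M` is an abstraction. -/
theorem Real.not_wn {Ξ : ℕ → Kind} {M : Term S} (hΞ : ∀ x φ, Ξ x ≠ .prf φ)
    (h : Real Ξ M fBot) : ¬ WN M := by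
  rintro ⟨N, r, hn⟩
  exact ((h.red r).normal_lam hΞ hn).1 Conv.rfl

end Vale.Agent.P340
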