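import Vale.Agent.P340.Defs
import Mathlib.Tactic.Common
import Mathlib.Order.Basic
import Mathlib.Logic.Function.Basic
import Mathlib.Data.Set.Basic

/-! Substitution calculus, free variables, Church-Rosser, normal forms. -/

namespace Vale.Agent.P340

universe u v
variable {S : Type u}

open Term

/-- cons of an infinite sequence -/
def scons {α : Type v} (a : α) (f : ℕ → α) : ℕ → α
  | 0 => a
  | n + 1 => f n

@[simp] theorem scons_zero {α : Type v} (a : α) (f : ℕ → α) : scons a f 0 = a := rfl
@[simp] theorem scons_succ {α : Type v} (a : α) (f : ℕ → α) (n : ℕ) :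
    scons a f (n + 1) = f n := rfl

@[simp] theorem upRen_zero (ξ : ℕ → ℕ) : upRen ξ 0 = 0 := rfl
@[simp] theorem upRen_succ (ξ : ℕ → ℕ) (n : ℕ) : upRen ξ (n + 1) = ξ n + 1 := rfl
@[simp] theorem upSub_zero (σ : ℕ → Term S) : upSub σ 0 = var 0 := rfl
@[simp] theorem upSub_succ (σ : ℕ → Term S) (n : ℕ) : upSub σ (n + 1) = (σ n).shift := rfl
@[simp] theorem single_zero (N : Term S) : single N 0 = N := rfl
@[simp] theorem single_succ (N : Term S) (n : ℕ) : single N (n + 1) = var n := rfl

theorem single_eq (N : Term S) : single N = scons N var := by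
  funext n; cases n <;> rfl

@[simp] theorem rename_var (ξ : ℕ → ℕ) (n : ℕ) : (var n : Term S).rename ξ = var (ξ n) := rfl
@[simp] theorem rename_sort (ξ : ℕ → ℕ) (s : S) : (sort s).rename ξ = sort s := rfl
@[simp] theorem rename_app (ξ : ℕ → ℕ) (M N : Term S) :
    (app M N).rename ξ = app (M.rename ξ) (N.rename ξ) := rfl
@[simp] theorem rename_lam (ξ : ℕ → ℕ) (A M : Term S) :
    (lam A M).rename ξ = lam (A.rename ξ) (M.rename (upRen ξ)) := rfl
@[simp] theorem rename_pi (ξ : ℕ → ℕ) (A B : Term S) :
    (pi A B).rename ξ = pi (A.rename ξ) (B.rename (upRen ξ)) := rfl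
@[simp] theorem subst_var (σ : ℕ → Term S) (n : ℕ) : (var n : Term S).subst σ = σ n := rfl
@[simp] theorem subst_sort (σ : ℕ → Term S) (s : S) : (sort s).subst σ = sort s := rfl
@[simp] theorem subst_app (σ : ℕ → Term S) (M N : Term S) :
    (app M N).subst σ = app (M.subst σ) (N.subst σ) := rfl
@[simp] theorem subst_lam (σ : ℕ → Term S) (A M : Term S) :
    (lam A M).subst σ = lam (A.subst σ) (M.subst (upSub σ)) := rfl
@[simp] theorem subst_pi (σ : ℕ → Term S) (A B : Term S) :
    (pi A B).subst σ = pi (A.subst σ) (B.subst (upSub σ)) := rfl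
@[simp] theorem shift_var (n : ℕ) : (var n : Term S).shift = var (n + 1) := rfl
@[simp] theorem shift_sort (s : S) : (sort s).shift = sort s := rfl

theorem rename_rename (M : Term S) (ξ ζ : ℕ → ℕ) :
    (M.rename ξ).rename ζ = M.rename (fun n => ζ (ξ n)) := by
  have h : ∀ ξ ζ : ℕ → ℕ, (fun n => upRen ζ (upRen ξ n)) = upRen (fun n => ζ (ξ n)) := by
    intro ξ ζ; funext n; cases n <;> rfl
  induction M generalizing ξ ζ <;> simp [*]

theorem subst_rename (M : Term S) (ξ : ℕ → ℕ) (σ : ℕ → Term S) :
    (M.rename ξ).subst σ = M.subst (fun n => σ (ξ n)) := by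
  have h : ∀ (ξ : ℕ → ℕ) (σ : ℕ → Term S),
      (fun n => upSub σ (upRen ξ n)) = upSub (fun n => σ (ξ n)) := by
    intro ξ σ; funext n; cases n <;> rfl
  induction M generalizing ξ σ <;> simp [*]

theorem rename_subst (M : Term S) (σ : ℕ → Term S) (ξ : ℕ → ℕ) :
    (M.subst σ).rename ξ = M.subst (fun n => (σ n).rename ξ) := by
  have h : ∀ (ξ : ℕ → ℕ) (σ : ℕ → Term S),
      (fun n => (upSub σ n).rename (upRen ξ)) = upSub (fun n => (σ n).rename ξ) := by
    intro ξ σ; funext n; cases n
    · rfl
    · simp [Term.shift, rename_rename]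
  induction M generalizing ξ σ <;> simp [*]

theorem upSub_comp (σ τ : ℕ → Term S) :
    (fun n => (upSub σ n).subst (upSub τ)) = upSub (fun n => (σ n).subst τ) := by
  funext n; cases n
  · rfl
  · simp [Term.shift, subst_rename, rename_subst]

theorem subst_subst (M : Term S) (σ τ : ℕ → Term S) :
    (M.subst σ).subst τ = M.subst (fun n => (σ n).subst τ) := by
  induction M generalizing σ τ <;> simp [*, upSub_comp]

@[simp] theorem upSub_var : upSub (var : ℕ → Term S) = var := by
  funext n; cases n <;> rfl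

@[simp] theorem subst_id (M : Term S) : M.subst var = M := by
  induction M <;> simp [*]

theorem upSub_ren (ξ : ℕ → ℕ) :
    upSub (fun n => (var (ξ n) : Term S)) = fun n => var (upRen ξ n) := by
  funext n; cases n <;> rfl

theorem rename_eq_subst (M : Term S) (ξ : ℕ → ℕ) :
    M.rename ξ = M.subst (fun n => var (ξ n)) := by
  induction M generalizing ξ <;> simp [*, upSub_ren]

@[simp] theorem rename_id (M : Term S) : M.rename (fun n => n) = M := by
  rw [rename_eq_subst]; exact subst_id M

theorem shift_subst (M : Term S) (σ : ℕ → Term S) :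
    M.shift.subst σ = M.subst (fun n => σ (n + 1)) := subst_rename _ _ _

@[simp] theorem shift_subst_scons (M N : Term S) (σ : ℕ → Term S) :
    M.shift.subst (scons N σ) = M.subst σ := subst_rename _ _ _

@[simp] theorem shift_subst_upSub (M : Term S) (σ : ℕ → Term S) :
    M.shift.subst (upSub σ) = (M.subst σ).shift := by
  simp [Term.shift, subst_rename, rename_subst]

@[simp] theorem shift_rename_upRen (M : Term S) (ξ : ℕ → ℕ) :
    M.shift.rename (upRen ξ) = (M.rename ξ).shift := by
  simp [Term.shift, rename_rename]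

@[simp] theorem shift_inst (M N : Term S) : M.shift.inst N = M := by
  simp [Term.inst, Term.shift, subst_rename]

@[simp] theorem shift_subst_single (M N : Term S) : M.shift.subst (single N) = M :=
  shift_inst M N

theorem inst_eq (B N : Term S) : B.inst N = B.subst (scons N var) := by
  rw [Term.inst, single_eq]

theorem upSub_inst (B N : Term S) (σ : ℕ → Term S) :
    (B.subst (upSub σ)).inst N = B.subst (scons N σ) := by
  rw [Term.inst, subst_subst]; congr 1; funext n; cases n <;> simp

theorem upSub_subst_scons (B N : Term S) (σ τ : ℕ → Term S) :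
    (B.subst (upSub σ)).subst (scons N τ) = B.subst (scons N (fun n => (σ n).subst τ)) := by
  rw [subst_subst]; congr 1; funext n; cases n <;> simp

theorem inst_subst' (B N : Term S) (σ : ℕ → Term S) :
    (B.inst N).subst σ = B.subst (scons (N.subst σ) σ) := by
  rw [Term.inst, subst_subst]; congr 1; funext n; cases n <;> simp

theorem inst_subst (B N : Term S) (σ : ℕ → Term S) :
    (B.inst N).subst σ = (B.subst (upSub σ)).inst (N.subst σ) := by
  rw [inst_subst', upSub_inst]

theorem inst_rename (B N : Term S) (ξ : ℕ → ℕ) :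
    (B.inst N).rename ξ = (B.rename (upRen ξ)).inst (N.rename ξ) := by
  simp only [rename_eq_subst, inst_subst, upSub_ren]

theorem inst_var_eq_rename (B : Term S) (p : ℕ) :
    B.inst (var p) = B.rename (scons p (fun n => n)) := by
  rw [rename_eq_subst, Term.inst]; congr 1; funext n; cases n <;> rfl

theorem upRen_inst_var (B : Term S) (ξ : ℕ → ℕ) (p : ℕ) :
    (B.rename (upRen ξ)).inst (var p) = B.rename (scons p ξ) := by
  rw [inst_var_eq_rename, rename_rename]; congr 1; funext n; cases n <;> rfl

/-! ### Size and free variables -/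

def Term.size : Term S → ℕ
  | .var _ => 1
  | .sort _ => 1
  | .app M N => M.size + N.size + 1
  | .lam A M => A.size + M.size + 1
  | .pi A B => A.size + B.size + 1

@[simp] theorem size_rename (M : Term S) (ξ : ℕ → ℕ) : (M.rename ξ).size = M.size := by
  induction M generalizing ξ <;> simp [Term.size, *]

/-- `Free x M`: the variable `x` occurs free in `M`. -/
def Free : ℕ → Term S → Prop
  | x, .var n => x = n
  | _, .sort _ => False
  | x, .app M N => Free x M ∨ Free x N
  | x, .lam A M => Free x A ∨ Free (x + 1) M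
  | x, .pi A B => Free x A ∨ Free (x + 1) B

@[simp] theorem free_var (x n : ℕ) : Free x (var n : Term S) ↔ x = n := Iff.rfl
@[simp] theorem free_sort (x : ℕ) (s : S) : Free x (sort s) ↔ False := Iff.rfl
@[simp] theorem free_app (x : ℕ) (M N : Term S) : Free x (app M N) ↔ Free x M ∨ Free x N := Iff.rfl
@[simp] theorem free_lam (x : ℕ) (A M : Term S) :
    Free x (lam A M) ↔ Free x A ∨ Free (x + 1) M := Iff.rfl
@[simp] theorem free_pi (x : ℕ) (A B : Term S) :
    Free x (pi A B) ↔ Free x A ∨ Free (x + 1) B := Iff.rfl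

/-- all free variables are below `n` -/
def FVlt (n : ℕ) (M : Term S) : Prop := ∀ x, Free x M → x < n

theorem FVlt.mono {n m : ℕ} {M : Term S} (h : FVlt n M) (hm : n ≤ m) : FVlt m M :=
  fun x hx => lt_of_lt_of_le (h x hx) hm

theorem exists_fvlt (M : Term S) : ∃ n, FVlt n M := by
  induction M with
  | var n => exact ⟨n + 1, fun x hx => by simp at hx; omega⟩
  | sort s => exact ⟨0, fun x hx => by simp at hx⟩
  | app M N ih1 ih2 =>
    obtain ⟨a, ha⟩ := ih1; obtain ⟨b, hb⟩ := ih2
    exact ⟨a + b, fun x hx => by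
      rcases hx with h | h
      · have := ha x h; omega
      · have := hb x h; omega⟩
  | lam M N ih1 ih2 =>
    obtain ⟨a, ha⟩ := ih1; obtain ⟨b, hb⟩ := ih2
    exact ⟨a + b, fun x hx => by
      rcases hx with h | h
      · have := ha x h; omega
      · have := hb _ h; omega⟩
  | pi M N ih1 ih2 =>
    obtain ⟨a, ha⟩ := ih1; obtain ⟨b, hb⟩ := ih2
    exact ⟨a + b, fun x hx => by
      rcases hx with h | h
      · have := ha x h; omega
      · have := hb _ h; omega⟩

theorem subst_congr_free {M : Term S} {σ τ : ℕ → Term S}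
    (h : ∀ x, Free x M → σ x = τ x) : M.subst σ = M.subst τ := by
  induction M generalizing σ τ with
  | var n => exact h n rfl
  | sort s => rfl
  | app M N ih1 ih2 =>
    simp [ih1 (fun x hx => h x (Or.inl hx)), ih2 (fun x hx => h x (Or.inr hx))]
  | lam M N ih1 ih2 =>
    have : N.subst (upSub σ) = N.subst (upSub τ) := ih2 (fun x hx => by
      cases x with
      | zero => rfl
      | succ x => simp [h x (Or.inr hx)])
    simp [ih1 (fun x hx => h x (Or.inl hx)), this]
  | pi M N ih1 ih2 =>
    have : N.subst (upSub σ) = N.subst (upSub τ) := ih2 (fun x hx => by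
      cases x with
      | zero => rfl
      | succ x => simp [h x (Or.inr hx)])
    simp [ih1 (fun x hx => h x (Or.inl hx)), this]

theorem free_rename {x : ℕ} {M : Term S} {ξ : ℕ → ℕ} :
    Free x (M.rename ξ) ↔ ∃ y, Free y M ∧ ξ y = x := by
  have key : ∀ (N : Term S) (ξ : ℕ → ℕ) (x : ℕ),
      (∃ y, Free y N ∧ upRen ξ y = x + 1) ↔ ∃ y, Free (y + 1) N ∧ ξ y = x := by
    intro N ξ x
    constructor
    · rintro ⟨y, h1, h2⟩
      cases y with
      | zero => simp at h2
      | succ y => exact ⟨y, h1, by simpa using h2⟩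
    · rintro ⟨y, h1, h2⟩; exact ⟨y + 1, h1, by simp [h2]⟩
  induction M generalizing x ξ with
  | var n => simp [eq_comm]
  | sort s => simp
  | app M N ih1 ih2 => simp [ih1, ih2, or_and_right, exists_or]
  | lam M N ih1 ih2 => simp [ih1, ih2, or_and_right, exists_or, key]
  | pi M N ih1 ih2 => simp [ih1, ih2, or_and_right, exists_or, key]

theorem free_subst {x : ℕ} {M : Term S} {σ : ℕ → Term S} :
    Free x (M.subst σ) ↔ ∃ y, Free y M ∧ Free x (σ y) := by
  have key : ∀ (N : Term S) (σ : ℕ → Term S) (x : ℕ),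
      (∃ y, Free y N ∧ Free (x + 1) (upSub σ y)) ↔ ∃ y, Free (y + 1) N ∧ Free x (σ y) := by
    intro N σ x
    constructor
    · rintro ⟨y, h1, h2⟩
      cases y with
      | zero => simp at h2
      | succ y =>
        refine ⟨y, h1, ?_⟩
        simp only [upSub_succ, Term.shift, free_rename] at h2
        obtain ⟨z, hz, e⟩ := h2
        obtain rfl : z = x := by simpa using e
        exact hz
    · rintro ⟨y, h1, h2⟩
      exact ⟨y + 1, h1, by simp only [upSub_succ, Term.shift, free_rename]; exact ⟨x, h2, rfl⟩⟩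
  induction M generalizing x σ with
  | var n => simp
  | sort s => simp
  | app M N ih1 ih2 => simp [ih1, ih2, or_and_right, exists_or]
  | lam M N ih1 ih2 => simp [ih1, ih2, or_and_right, exists_or, key]
  | pi M N ih1 ih2 => simp [ih1, ih2, or_and_right, exists_or, key]

theorem free_inst {x : ℕ} {B N : Term S} (h : Free x (B.inst N)) :
    Free (x + 1) B ∨ Free x N := by
  rw [Term.inst, free_subst] at h
  obtain ⟨y, h1, h2⟩ := h
  cases y with
  | zero => exact Or.inr h2
  | succ y => simp at h2; subst h2; exact Or.inl h1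

/-- Opening a binder with a fresh parameter `p` and then substituting. -/
theorem open_subst {B : Term S} {p : ℕ} {σ σ' : ℕ → Term S}
    (hB : ∀ x, Free (x + 1) B → x < p) (h : ∀ x < p, σ' x = σ x) :
    (B.inst (var p)).subst σ' = B.subst (scons (σ' p) σ) := by
  rw [inst_subst']; apply subst_congr_free; intro x hx
  cases x with
  | zero => rfl
  | succ x => exact h x (hB x hx)

/-! ### Reduction and conversion -/

abbrev Red : Term S → Term S → Prop := Relation.ReflTransGen Step
abbrev Conv : Term S → Term S → Prop := Relation.EqvGen Step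

theorem Step.subst {M N : Term S} (h : Step M N) (σ : ℕ → Term S) :
    Step (M.subst σ) (N.subst σ) := by
  induction h generalizing σ with
  | beta A M N => rw [inst_subst]; exact Step.beta _ _ _
  | appL N _ ih => exact Step.appL _ (ih σ)
  | appR M _ ih => exact Step.appR _ (ih σ)
  | lamL M _ ih => exact Step.lamL _ (ih σ)
  | lamR A _ ih => exact Step.lamR _ (ih _)
  | piL B _ ih => exact Step.piL _ (ih σ)
  | piR A _ ih => exact Step.piR _ (ih _)

theorem Step.rename {M N : Term S} (h : Step M N) (ξ : ℕ → ℕ) :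
    Step (M.rename ξ) (N.rename ξ) := by
  simp only [rename_eq_subst]; exact h.subst _

theorem Step.free {M N : Term S} (h : Step M N) {x : ℕ} (hx : Free x N) : Free x M := by
  induction h generalizing x with
  | beta A M N => rcases free_inst hx with h | h <;> simp [h]
  | appL N _ ih => exact hx.imp ih id
  | appR M _ ih => exact hx.imp id ih
  | lamL M _ ih => exact hx.imp ih id
  | lamR A _ ih => exact hx.imp id ih
  | piL B _ ih => exact hx.imp ih id
  | piR A _ ih => exact hx.imp id ih

/-- Reduction is reflected by renamings. -/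
theorem Step.of_rename {M : Term S} {ξ : ℕ → ℕ} {N : Term S} (h : Step (M.rename ξ) N) :
    ∃ M', Step M M' ∧ N = M'.rename ξ := by
  induction M generalizing ξ N with
  | var n => cases h
  | sort s => cases h
  | app M1 M2 ih1 ih2 =>
    simp only [rename_app] at h
    generalize hM : M1.rename ξ = M1' at h
    cases h with
    | beta A M N =>
      cases M1 <;> simp at hM
      obtain ⟨rfl, rfl⟩ := hM
      exact ⟨_, Step.beta _ _ _, by rw [inst_rename]⟩
    | appL N h =>
      subst hM
      obtain ⟨M', h1, rfl⟩ := ih1 h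
      exact ⟨_, Step.appL _ h1, rfl⟩
    | appR M h =>
      subst hM
      obtain ⟨M', h1, rfl⟩ := ih2 h
      exact ⟨_, Step.appR _ h1, rfl⟩
  | lam M1 M2 ih1 ih2 =>
    cases h with
    | lamL N h => obtain ⟨M', h1, rfl⟩ := ih1 h; exact ⟨_, Step.lamL _ h1, rfl⟩
    | lamR N h => obtain ⟨M', h1, rfl⟩ := ih2 h; exact ⟨_, Step.lamR _ h1, rfl⟩
  | pi M1 M2 ih1 ih2 =>
    cases h with
    | piL N h => obtain ⟨M', h1, rfl⟩ := ih1 h; exact ⟨_, Step.piL _ h1, rfl⟩
    | piR N h => obtain ⟨M', h1, rfl⟩ := ih2 h; exact ⟨_, Step.piR _ h1, rfl⟩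

theorem Red.map {f : Term S → Term S} (hf : ∀ a b, Step a b → Step (f a) (f b)) {M N : Term S}
    (h : Red M N) : Red (f M) (f N) := by
  induction h with
  | refl => exact .refl
  | tail _ h2 ih => exact ih.tail (hf _ _ h2)

theorem Red.subst {M N : Term S} (h : Red M N) (σ : ℕ → Term S) :
    Red (M.subst σ) (N.subst σ) := Red.map (f := fun M => M.subst σ) (fun _ _ h => h.subst σ) h
theorem Red.rename {M N : Term S} (h : Red M N) (ξ : ℕ → ℕ) :
    Red (M.rename ξ) (N.rename ξ) := Red.map (f := fun M => M.rename ξ) (fun _ _ h => h.rename ξ) h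
theorem Red.app {M M' N N' : Term S} (h : Red M M') (k : Red N N') :
    Red (app M N) (app M' N') :=
  (Red.map (f := fun M => Term.app M N) (fun _ _ h => Step.appL _ h) h).trans
    (Red.map (f := fun N => Term.app M' N) (fun _ _ h => Step.appR _ h) k)
theorem Red.lam {M M' N N' : Term S} (h : Red M M') (k : Red N N') :
    Red (lam M N) (lam M' N') :=
  (Red.map (f := fun M => Term.lam M N) (fun _ _ h => Step.lamL _ h) h).trans
    (Red.map (f := fun N => Term.lam M' N) (fun _ _ h => Step.lamR _ h) k)
theorem Red.pi {M M' N N' : Term S} (h : Red M M') (k : Red N N') :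
    Red (pi M N) (pi M' N') :=
  (Red.map (f := fun M => Term.pi M N) (fun _ _ h => Step.piL _ h) h).trans
    (Red.map (f := fun N => Term.pi M' N) (fun _ _ h => Step.piR _ h) k)

theorem Red.free {M N : Term S} (h : Red M N) {x : ℕ} (hx : Free x N) : Free x M := by
  induction h with
  | refl => exact hx
  | tail _ h2 ih => exact ih (h2.free hx)

theorem Red.of_rename {M : Term S} {ξ : ℕ → ℕ} {N : Term S} (h : Red (M.rename ξ) N) :
    ∃ M', Red M M' ∧ N = M'.rename ξ := by
  induction h with
  | refl => exact ⟨M, .refl, rfl⟩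
  | tail _ h2 ih =>
    obtain ⟨M', h1, rfl⟩ := ih
    obtain ⟨M'', h3, rfl⟩ := h2.of_rename
    exact ⟨M'', h1.tail h3, rfl⟩

theorem Red.subst_args (M : Term S) {σ τ : ℕ → Term S} (h : ∀ x, Red (σ x) (τ x)) :
    Red (M.subst σ) (M.subst τ) := by
  have up : ∀ {σ τ : ℕ → Term S}, (∀ x, Red (σ x) (τ x)) → ∀ x, Red (upSub σ x) (upSub τ x) := by
    intro σ τ h x; cases x
    · exact .refl
    · exact (h _).rename _
  induction M generalizing σ τ with
  | var n => exact h n
  | sort s => exact .refl
  | app M N ih1 ih2 => exact Red.app (ih1 h) (ih2 h)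
  | lam M N ih1 ih2 => exact Red.lam (ih1 h) (ih2 (up h))
  | pi M N ih1 ih2 => exact Red.pi (ih1 h) (ih2 (up h))

theorem Red.inst {B B' N N' : Term S} (h : Red B B') (k : Red N N') :
    Red (B.inst N) (B'.inst N') :=
  (h.subst _).trans (Red.subst_args _ (fun x => by cases x; exacts [k, .refl]))

theorem Red.sort_inv {s : S} {T : Term S} (h : Red (sort s) T) : T = sort s := by
  induction h with
  | refl => rfl
  | tail _ h2 ih => subst ih; cases h2

theorem Red.pi_inv {A B T : Term S} (h : Red (Term.pi A B) T) :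
    ∃ A' B', T = Term.pi A' B' ∧ Red A A' ∧ Red B B' := by
  induction h with
  | refl => exact ⟨A, B, rfl, .refl, .refl⟩
  | tail _ h2 ih =>
    obtain ⟨A', B', rfl, h3, h4⟩ := ih
    cases h2 with
    | piL _ h => exact ⟨_, _, rfl, h3.tail h, h4⟩
    | piR _ h => exact ⟨_, _, rfl, h3, h4.tail h⟩

theorem Red.lam_inv {A B T : Term S} (h : Red (Term.lam A B) T) :
    ∃ A' B', T = Term.lam A' B' ∧ Red A A' ∧ Red B B' := by
  induction h with
  | refl => exact ⟨A, B, rfl, .refl, .refl⟩
  | tail _ h2 ih =>
    obtain ⟨A', B', rfl, h3, h4⟩ := ih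
    cases h2 with
    | lamL _ h => exact ⟨_, _, rfl, h3.tail h, h4⟩
    | lamR _ h => exact ⟨_, _, rfl, h3, h4.tail h⟩

theorem Conv.rfl {M : Term S} : Conv M M := Relation.EqvGen.refl _
theorem Conv.symm {M N : Term S} (h : Conv M N) : Conv N M := Relation.EqvGen.symm _ _ h
theorem Conv.trans {M N K : Term S} (h : Conv M N) (k : Conv N K) : Conv M K :=
  Relation.EqvGen.trans _ _ _ h k
theorem Conv.of_eq {M N : Term S} (h : M = N) : Conv M N := h ▸ Conv.rfl
theorem Step.conv {M N : Term S} (h : Step M N) : Conv M N := Relation.EqvGen.rel _ _ h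
theorem Red.conv {M N : Term S} (h : Red M N) : Conv M N := by
  induction h with
  | refl => exact Conv.rfl
  | tail _ h2 ih => exact ih.trans h2.conv
theorem Conv.beta (A M N : Term S) : Conv (app (lam A M) N) (M.inst N) := (Step.beta A M N).conv

/-! ### Church-Rosser -/

inductive Par : Term S → Term S → Prop
  | var (n : ℕ) : Par (.var n) (.var n)
  | sort (s : S) : Par (.sort s) (.sort s)
  | app {M M' N N'} : Par M M' → Par N N' → Par (.app M N) (.app M' N')
  | lam {M M' N N'} : Par M M' → Par N N' → Par (.lam M N) (.lam M' N')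
  | pi {M M' N N'} : Par M M' → Par N N' → Par (.pi M N) (.pi M' N')
  | beta (A) {M M' N N'} : Par M M' → Par N N' → Par (.app (.lam A M) N) (M'.inst N')

theorem Par.refl (M : Term S) : Par M M := by
  induction M with
  | var n => exact .var n
  | sort s => exact .sort s
  | app _ _ a b => exact .app a b
  | lam _ _ a b => exact .lam a b
  | pi _ _ a b => exact .pi a b

theorem Step.par {M N : Term S} (h : Step M N) : Par M N := by
  induction h with
  | beta A M N => exact .beta A (.refl _) (.refl _)
  | appL N _ ih => exact .app ih (.refl _)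
  | appR M _ ih => exact .app (.refl _) ih
  | lamL M _ ih => exact .lam ih (.refl _)
  | lamR A _ ih => exact .lam (.refl _) ih
  | piL B _ ih => exact .pi ih (.refl _)
  | piR A _ ih => exact .pi (.refl _) ih

theorem Par.red {M N : Term S} (h : Par M N) : Red M N := by
  induction h with
  | var n => exact .refl
  | sort s => exact .refl
  | app _ _ a b => exact Red.app a b
  | lam _ _ a b => exact Red.lam a b
  | pi _ _ a b => exact Red.pi a b
  | beta A _ _ a b => exact (Red.app (Red.lam .refl a) b).tail (Step.beta _ _ _)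

theorem Par.rename {M N : Term S} (h : Par M N) (ξ : ℕ → ℕ) : Par (M.rename ξ) (N.rename ξ) := by
  induction h generalizing ξ with
  | var n => exact .var _
  | sort s => exact .sort s
  | app _ _ a b => exact .app (a _) (b _)
  | lam _ _ a b => exact .lam (a _) (b _)
  | pi _ _ a b => exact .pi (a _) (b _)
  | beta A _ _ a b => rw [inst_rename]; exact .beta _ (a _) (b _)

theorem Par.subst {M N : Term S} (h : Par M N) {σ τ : ℕ → Term S} (k : ∀ x, Par (σ x) (τ x)) :
    Par (M.subst σ) (N.subst τ) := by
  have up : ∀ {σ τ : ℕ → Term S}, (∀ x, Par (σ x) (τ x)) → ∀ x, Par (upSub σ x) (upSub τ x) := by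
    intro σ τ h x; cases x
    · exact .var _
    · exact (h _).rename _
  induction h generalizing σ τ with
  | var n => exact k n
  | sort s => exact .sort s
  | app _ _ a b => exact .app (a k) (b k)
  | lam _ _ a b => exact .lam (a k) (b (up k))
  | pi _ _ a b => exact .pi (a k) (b (up k))
  | beta A _ _ a b => rw [inst_subst]; exact .beta _ (a (up k)) (b k)

theorem Par.inst {M M' N N' : Term S} (h : Par M M') (k : Par N N') :
    Par (M.inst N) (M'.inst N') :=
  h.subst (fun x => by cases x; exacts [k, .var _])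

/-- complete development -/
def Term.dev : Term S → Term S
  | .var n => .var n
  | .sort s => .sort s
  | .app (.lam _ M) N => M.dev.inst N.dev
  | .app M N => .app M.dev N.dev
  | .lam A M => .lam A.dev M.dev
  | .pi A M => .pi A.dev M.dev

theorem Par.triangle {M N : Term S} (h : Par M N) : Par N M.dev := by
  induction h with
  | var n => exact .var n
  | sort s => exact .sort s
  | @app M M' N N' h1 _ a b =>
    cases h1 with
    | lam h3 h4 =>
      simp only [Term.dev] at a ⊢
      cases a with
      | lam a1 a2 => exact .beta _ a2 b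
    | var n => exact .app a b
    | sort s => exact .app a b
    | app _ _ => simp only [Term.dev]; exact .app a b
    | pi _ _ => exact .app a b
    | beta _ _ _ => simp only [Term.dev]; exact .app a b
  | lam _ _ a b => exact .lam a b
  | pi _ _ a b => exact .pi a b
  | beta A _ _ a b => simp only [Term.dev]; exact a.inst b

theorem Red.confluent {M N K : Term S} (h : Red M N) (k : Red M K) :
    ∃ L, Red N L ∧ Red K L := by
  have e : ∀ {M N : Term S}, Red M N → Relation.ReflTransGen Par M N := by
    intro M N h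
    induction h with
    | refl => exact .refl
    | tail _ h2 ih => exact ih.tail h2.par
  have e' : ∀ {M N : Term S}, Relation.ReflTransGen Par M N → Red M N := by
    intro M N h
    induction h with
    | refl => exact .refl
    | tail _ h2 ih => exact ih.trans h2.red
  have := Relation.church_rosser (r := (Par : Term S → Term S → Prop))
    (fun a b c hb hc => ⟨a.dev, .single hb.triangle, .single hc.triangle⟩) (e h) (e k)
  obtain ⟨L, h1, h2⟩ := this
  exact ⟨L, e' h1, e' h2⟩

theorem Conv.join {M N : Term S} (h : Conv M N) : ∃ L, Red M L ∧ Red N L := by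
  induction h with
  | rel _ _ h => exact ⟨_, .single h, .refl⟩
  | refl => exact ⟨_, .refl, .refl⟩
  | symm _ _ _ ih => obtain ⟨L, a, b⟩ := ih; exact ⟨L, b, a⟩
  | trans _ _ _ _ _ ih1 ih2 =>
    obtain ⟨L, a, b⟩ := ih1; obtain ⟨L', c, d⟩ := ih2
    obtain ⟨K, e, f⟩ := b.confluent c
    exact ⟨K, a.trans e, d.trans f⟩

theorem Conv.of_join {M N L : Term S} (h : Red M L) (k : Red N L) : Conv M N :=
  h.conv.trans k.conv.symm

theorem Conv.subst {M N : Term S} (h : Conv M N) (σ : ℕ → Term S) :
    Conv (M.subst σ) (N.subst σ) := by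
  obtain ⟨L, a, b⟩ := h.join; exact .of_join (a.subst σ) (b.subst σ)
theorem Conv.rename {M N : Term S} (h : Conv M N) (ξ : ℕ → ℕ) :
    Conv (M.rename ξ) (N.rename ξ) := by
  obtain ⟨L, a, b⟩ := h.join; exact .of_join (a.rename ξ) (b.rename ξ)
theorem Conv.shift {M N : Term S} (h : Conv M N) : Conv M.shift N.shift := h.rename _
theorem Conv.app {M M' N N' : Term S} (h : Conv M M') (k : Conv N N') :
    Conv (app M N) (app M' N') := by
  obtain ⟨L, a, b⟩ := h.join; obtain ⟨L', c, d⟩ := k.join
  exact .of_join (a.app c) (b.app d)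
theorem Conv.lam {M M' N N' : Term S} (h : Conv M M') (k : Conv N N') :
    Conv (lam M N) (lam M' N') := by
  obtain ⟨L, a, b⟩ := h.join; obtain ⟨L', c, d⟩ := k.join
  exact .of_join (a.lam c) (b.lam d)
theorem Conv.pi {M M' N N' : Term S} (h : Conv M M') (k : Conv N N') :
    Conv (pi M N) (pi M' N') := by
  obtain ⟨L, a, b⟩ := h.join; obtain ⟨L', c, d⟩ := k.join
  exact .of_join (a.pi c) (b.pi d)

/-- Substitutions that are pointwise convertible on the free variables. -/
theorem Conv.subst_args {M : Term S} {σ τ : ℕ → Term S} (h : ∀ x, Free x M → Conv (σ x) (τ x)) :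
    Conv (M.subst σ) (M.subst τ) := by
  induction M generalizing σ τ with
  | var n => exact h n (by simp)
  | sort s => exact Conv.rfl
  | app M N ih1 ih2 =>
    exact Conv.app (ih1 fun x hx => h x (Or.inl hx)) (ih2 fun x hx => h x (Or.inr hx))
  | lam M N ih1 ih2 =>
    refine Conv.lam (ih1 fun x hx => h x (Or.inl hx)) (ih2 fun x hx => ?_)
    cases x with
    | zero => exact Conv.rfl
    | succ x => exact (h x (Or.inr hx)).shift
  | pi M N ih1 ih2 =>
    refine Conv.pi (ih1 fun x hx => h x (Or.inl hx)) (ih2 fun x hx => ?_)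
    cases x with
    | zero => exact Conv.rfl
    | succ x => exact (h x (Or.inr hx)).shift

theorem Conv.inst {B B' N N' : Term S} (h : Conv B B') (k : Conv N N') :
    Conv (B.inst N) (B'.inst N') := by
  obtain ⟨L, a, b⟩ := h.join; obtain ⟨L', c, d⟩ := k.join
  exact .of_join (a.inst c) (b.inst d)

theorem Conv.pi_inj {A B A' B' : Term S} (h : Conv (Term.pi A B) (Term.pi A' B')) :
    Conv A A' ∧ Conv B B' := by
  obtain ⟨L, a, b⟩ := h.join
  obtain ⟨A1, B1, rfl, a1, a2⟩ := a.pi_inv
  obtain ⟨A2, B2, e, b1, b2⟩ := b.pi_inv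
  cases e
  exact ⟨.of_join a1 b1, .of_join a2 b2⟩

theorem Conv.lam_inj {A B A' B' : Term S} (h : Conv (Term.lam A B) (Term.lam A' B')) :
    Conv A A' ∧ Conv B B' := by
  obtain ⟨L, a, b⟩ := h.join
  obtain ⟨A1, B1, rfl, a1, a2⟩ := a.lam_inv
  obtain ⟨A2, B2, e, b1, b2⟩ := b.lam_inv
  cases e
  exact ⟨.of_join a1 b1, .of_join a2 b2⟩

theorem Conv.sort_inj {s t : S} (h : Conv (sort s) (sort t)) : s = t := by
  obtain ⟨L, a, b⟩ := h.join
  have := a.sort_inv.symm.trans b.sort_inv
  cases this; rfl

theorem Conv.sort_pi {s : S} {A B : Term S} (h : Conv (sort s) (Term.pi A B)) : False := by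
  obtain ⟨L, a, b⟩ := h.join
  obtain ⟨A1, B1, rfl, -, -⟩ := b.pi_inv
  cases a.sort_inv

theorem Conv.sort_red {s : S} {T : Term S} (h : Conv T (sort s)) : Red T (sort s) := by
  obtain ⟨L, a, b⟩ := h.join
  rw [b.sort_inv] at a; exact a

/-! ### Neutral terms and normal forms -/

/-- `HeadVar x M`: `M` is the variable `x` applied to arguments. -/
inductive HeadVar (x : ℕ) : Term S → Prop
  | var : HeadVar x (.var x)
  | app {M : Term S} (N : Term S) : HeadVar x M → HeadVar x (.app M N)

theorem HeadVar.step {x : ℕ} {M N : Term S} (h : HeadVar x M) (k : Step M N) : HeadVar x N := by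
  induction h generalizing N with
  | var => cases k
  | app N h ih =>
    cases k with
    | beta => cases h
    | appL _ k => exact .app _ (ih k)
    | appR _ k => exact .app _ h

theorem HeadVar.red {x : ℕ} {M N : Term S} (h : HeadVar x M) (k : Red M N) : HeadVar x N := by
  induction k with
  | refl => exact h
  | tail _ h2 ih => exact ih.step h2

theorem HeadVar.subst {x y : ℕ} {M : Term S} {σ : ℕ → Term S} (h : HeadVar x M)
    (k : HeadVar y (σ x)) : HeadVar y (M.subst σ) := by
  induction h with
  | var => exact k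
  | app N _ ih => exact .app _ ih

theorem HeadVar.rename {x : ℕ} {M : Term S} (h : HeadVar x M) (ξ : ℕ → ℕ) :
    HeadVar (ξ x) (M.rename ξ) := by
  rw [rename_eq_subst]; exact h.subst .var

theorem HeadVar.unique {x y : ℕ} {M : Term S} (h : HeadVar x M) (k : HeadVar y M) : x = y := by
  induction h with
  | var => cases k; rfl
  | app N _ ih => cases k with | app _ k => exact ih k

theorem HeadVar.free {x : ℕ} {M : Term S} (h : HeadVar x M) : Free x M := by
  induction h with
  | var => simp
  | app N _ ih => exact Or.inl ih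

theorem HeadVar.not_conv_pi {x : ℕ} {M A B : Term S} (h : HeadVar x M)
    (k : Conv M (Term.pi A B)) : False := by
  obtain ⟨L, a, b⟩ := k.join
  obtain ⟨A1, B1, rfl, -, -⟩ := b.pi_inv
  cases h.red a

theorem HeadVar.not_conv_sort {x : ℕ} {M : Term S} {s : S} (h : HeadVar x M)
    (k : Conv M (sort s)) : False := by
  cases h.red k.sort_red

theorem HeadVar.conv_unique {x y : ℕ} {M N : Term S} (h : HeadVar x M) (k : HeadVar y N)
    (c : Conv M N) : x = y := by
  obtain ⟨L, a, b⟩ := c.join
  exact (h.red a).unique (k.red b)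

def Normal (M : Term S) : Prop := ∀ N, ¬ Step M N

def WN (M : Term S) : Prop := ∃ N, Red M N ∧ Normal N

def SN (M : Term S) : Prop := ¬ ∃ f : ℕ → Term S, f 0 = M ∧ ∀ n, Step (f n) (f (n + 1))

theorem Normal.red_eq {M N : Term S} (h : Normal M) (k : Red M N) : N = M := by
  rcases k.cases_head with rfl | ⟨c, h1, -⟩
  · rfl
  · exact (h _ h1).elim

theorem Normal.red_of_conv {M N : Term S} (h : Normal N) (k : Conv M N) : Red M N := by
  obtain ⟨L, a, b⟩ := k.join
  rw [h.red_eq b] at a; exact a

theorem Normal.eq_of_conv {M N : Term S} (h : Normal M) (h' : Normal N) (k : Conv M N) : M = N :=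
  (h.red_eq (h'.red_of_conv k)).symm

theorem normal_var (n : ℕ) : Normal (var n : Term S) := fun _ h => by cases h
theorem normal_sort (s : S) : Normal (sort s) := fun _ h => by cases h
theorem Normal.app_left {M N : Term S} (h : Normal (app M N)) : Normal M :=
  fun _ k => h _ (.appL _ k)
theorem Normal.app_right {M N : Term S} (h : Normal (app M N)) : Normal N :=
  fun _ k => h _ (.appR _ k)
theorem Normal.app_not_lam {A M N : Term S} (h : Normal (app (lam A M) N)) : False :=
  h _ (.beta _ _ _)
theorem normal_lam {A M : Term S} : Normal (lam A M) ↔ Normal A ∧ Normal M :=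
  ⟨fun h => ⟨fun _ k => h _ (.lamL _ k), fun _ k => h _ (.lamR _ k)⟩,
   fun h _ k => by cases k with
     | lamL _ k => exact h.1 _ k
     | lamR _ k => exact h.2 _ k⟩
theorem normal_pi {A M : Term S} : Normal (pi A M) ↔ Normal A ∧ Normal M :=
  ⟨fun h => ⟨fun _ k => h _ (.piL _ k), fun _ k => h _ (.piR _ k)⟩,
   fun h _ k => by cases k with
     | piL _ k => exact h.1 _ k
     | piR _ k => exact h.2 _ k⟩
theorem normal_rename {M : Term S} {ξ : ℕ → ℕ} : Normal (M.rename ξ) ↔ Normal M :=
  ⟨fun h _ k => h _ (k.rename ξ), fun h _ k => by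
    obtain ⟨M', h1, -⟩ := k.of_rename; exact h _ h1⟩

theorem WN.of_conv {M N : Term S} (h : WN M) (k : Conv M N) : WN N := by
  obtain ⟨L, a, b⟩ := h
  exact ⟨L, b.red_of_conv (k.symm.trans a.conv), b⟩

theorem Normal.wn {M : Term S} (h : Normal M) : WN M := ⟨M, .refl, h⟩

theorem wn_rename {M : Term S} {ξ : ℕ → ℕ} : WN (M.rename ξ) ↔ WN M := by
  constructor
  · rintro ⟨L, a, b⟩
    obtain ⟨M', h1, rfl⟩ := a.of_rename
    exact ⟨M', h1, normal_rename.1 b⟩
  · rintro ⟨L, a, b⟩; exact ⟨_, a.rename ξ, normal_rename.2 b⟩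

theorem wn_pi {A B : Term S} : WN (pi A B) ↔ WN A ∧ WN B := by
  constructor
  · rintro ⟨L, a, b⟩
    obtain ⟨A', B', rfl, h1, h2⟩ := a.pi_inv
    exact ⟨⟨_, h1, (normal_pi.1 b).1⟩, ⟨_, h2, (normal_pi.1 b).2⟩⟩
  · rintro ⟨⟨A', a, a'⟩, ⟨B', b, b'⟩⟩
    exact ⟨_, a.pi b, normal_pi.2 ⟨a', b'⟩⟩

theorem SN.of_rename {M : Term S} {ξ : ℕ → ℕ} (h : SN (M.rename ξ)) : SN M := by
  rintro ⟨f, rfl, hf⟩
  exact h ⟨fun n => (f n).rename ξ, rfl, fun n => (hf n).rename ξ⟩

/-- A representative of the conversion class of `M`, normal whenever `M` has a normal form. -/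
noncomputable def nf (M : Term S) : Term S :=
  @Classical.epsilon _ ⟨var 0⟩ (fun N => Conv M N ∧ (WN M → Normal N))

theorem nf_spec (M : Term S) : Conv M (nf M) ∧ (WN M → Normal (nf M)) := by
  have : ∃ N, Conv M N ∧ (WN M → Normal N) := by
    by_cases h : WN M
    · obtain ⟨L, a, b⟩ := h; exact ⟨L, a.conv, fun _ => b⟩
    · exact ⟨M, Conv.rfl, fun h' => (h h').elim⟩
  exact @Classical.epsilon_spec _ (fun N => Conv M N ∧ (WN M → Normal N)) this

theorem conv_nf (M : Term S) : Conv M (nf M) := (nf_spec M).1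
theorem WN.normal_nf {M : Term S} (h : WN M) : Normal (nf M) := (nf_spec M).2 h
theorem WN.red_nf {M : Term S} (h : WN M) : Red M (nf M) := h.normal_nf.red_of_conv (conv_nf M)

theorem Conv.nf_eq {M N : Term S} (h : Conv M N) : nf M = nf N := by
  unfold nf; congr 1; funext L; apply propext
  constructor
  · rintro ⟨a, b⟩; exact ⟨h.symm.trans a, fun w => b (w.of_conv h.symm)⟩
  · rintro ⟨a, b⟩; exact ⟨h.trans a, fun w => b (w.of_conv h)⟩

theorem conv_of_nf_eq {M N : Term S} (h : nf M = nf N) : Conv M N :=
  (conv_nf M).trans (h ▸ (conv_nf N).symm)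

theorem Normal.nf_eq {M : Term S} (h : Normal M) : nf M = M :=
  (h.eq_of_conv h.wn.normal_nf (conv_nf M)).symm

theorem nf_eq_of_conv {M N : Term S} (h : Normal N) (k : Conv M N) : nf M = N :=
  k.nf_eq.trans h.nf_eq

@[simp] theorem nf_nf (M : Term S) : nf (nf M) = nf M := (conv_nf M).nf_eq.symm

@[simp] theorem nf_sort (s : S) : nf (sort s) = sort s := (normal_sort s).nf_eq

theorem WN.nf_pi {A B : Term S} (h : WN (pi A B)) : nf (pi A B) = pi (nf A) (nf B) := by
  have := wn_pi.1 h
  exact nf_eq_of_conv (normal_pi.2 ⟨this.1.normal_nf, this.2.normal_nf⟩)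
    ((conv_nf A).pi (conv_nf B))

theorem WN.nf_rename {M : Term S} (h : WN M) (ξ : ℕ → ℕ) :
    nf (M.rename ξ) = (nf M).rename ξ :=
  nf_eq_of_conv (normal_rename.2 h.normal_nf) ((conv_nf M).rename ξ)

theorem WN.free_nf {M : Term S} (h : WN M) {x : ℕ} (hx : Free x (nf M)) : Free x M :=
  h.red_nf.free hx

theorem WN.headVar_nf {M : Term S} (h : WN M) {x : ℕ} (hx : HeadVar x M) : HeadVar x (nf M) :=
  hx.red h.red_nf

end Vale.Agent.P340
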