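import Vale.Agent.P340.Coder

/-! The data extracted from the forbidden configuration. -/

namespace Vale.Agent.P340

universe u
variable {S : Type u} {P : Spec S} [Finite S]

namespace Amb
variable {E : Amb P} {j : ℕ}

structure Tower (k : E.Kit j) where
  t : S
  Vp : Set S
  Kp : Set S
  Ip : Set S
  Y0 : Set S
  Y1 : Set S
  Y2 : Set S
  Y3 : Set S
  neI : Ip.Nonempty
  ne0 : Y0.Nonempty
  ne1 : Y1.Nonempty
  ne2 : Y2.Nonempty
  ne3 : Y3.Nonempty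
  rule : PR P Vp Kp Ip
  sp : E.Spine Vp t
  B0 : (ℕ → Term S) → Term S → Term S
  natB0 : ∀ γ Z σ, (B0 γ Z).subst σ = B0 (gsub γ σ) (Z.subst σ)
  tyB0 : ∀ G γ Z, TS P E.Θ G γ → Ty P G Z (.sort t) → Has P G Y0 (B0 γ Z)
  P1 : OC k Y1 Y0
  P2 : OC k Y2 Y1
  P3 : OC k Y3 Y2
  Kc : OC k Kp Y3
  Um : (ℕ → Term S) → Term S → Term S
  natUm : ∀ γ Z σ, (Um γ Z).subst σ = Um (gsub γ σ) (Z.subst σ)
  tyUm : ∀ G γ Z, TS P E.Θ G γ → Has P G Ip Z → Ty P G (Um γ Z) (.sort t)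
  M : EC k Y0 Ip
  fac : ∀ γ Z, M.W γ Z = B0 γ (Um γ Z)
  J0 : Set S
  J1 : Set S
  J2 : Set S
  JE : Set S
  e0 : E.Entry j J0
  e1 : E.Entry j J1
  e2 : E.Entry j J2
  eE : E.Entry j JE
  Q0 : OC k J0 Y0
  Q1 : OC k J1 Y1
  Q2 : OC k J2 Y2
  QE : EC k JE Ip

/-- PLAN. All paths are `SP (E.HE j)` paths.
1. There is a node `Im` with odd paths `W₁ : {t} → Im` and `W₂ : Im → {t}`: let `α`, `β` be the
   signs of `{t} → I` and `J → {t}`. If `α = false`, `β = true` take `Im = I`; if `α = true`,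
   `β = false` take `Im = J`; otherwise the closed walk `{t} → I → J → {t}` is odd, take
   `Im = {t}`.
2. `Ip → Kp` is a positive `HE` edge (`Kp` is in `Rr` because it reaches `{t}`, `HE.rr`). Let `m`,
   `n` be the signs of `{t} → Ip` and `Kp → {t}`; if they differ, the closed walk
   `{t} → Ip → Kp → {t}` is odd, append it to the second path. So `m = n`.
3. `Um = Cm.W` for the coder `Cm` of `{t} → Ip`. If `m = true`: `Y0 = Y2 = {t}`, `Y1 = Y3 = Im`,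
   `B0 γ Z = Z`, `P1 = P3` from `W₂`, `P2` from `W₁`, `Kc` from the path `Kp → {t} → Im`,
   `M = Cm.ec`. If `m = false`: `Y0 = Y2 = Im`, `Y1 = Y3 = {t}`, `B0 = C₂.W` for the coder `C₂` of
   `W₂`, `P1 = P3` from `W₁`, `P2` from `W₂`, `Kc` from `Kp → {t}`, `M = (C₂.comp Cm).ec`.
4. `Im`, `{t}`, `Ip` are `R2` (`R2.reach`), which gives the entries and the coders `Q0 Q1 Q2 QE`;
   `exists_spine` gives `sp`. -/
theorem exists_tower (k : E.Kit j) (h : E.Forb j) : Nonempty (Tower k) := by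
  obtain ⟨t, Vp, Kp, Ip, I, J, J', ht, ⟨m, hm⟩, ⟨n, hn⟩, ⟨α, hα⟩, hIJ, ⟨β, hβ⟩, hV, hK, hI, hr,
    hsp, -, hax⟩ := h
  have step1 : ∃ Im, SP (E.HE j) false {t} Im ∧ SP (E.HE j) false Im {t} := by
    cases α <;> cases β
    · exact ⟨{t}, (hα.tail hIJ).trans hβ, (hα.tail hIJ).trans hβ⟩
    · exact ⟨I, hα, (SP.single hIJ).trans hβ⟩
    · exact ⟨J, hα.tail hIJ, hβ⟩
    · exact ⟨{t}, (hα.tail hIJ).trans hβ, (hα.tail hIJ).trans hβ⟩
  obtain ⟨Im, W₁, W₂⟩ := step1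
  have back : ∀ {b : Bool} {a c : Set S}, SP (E.HE j) b a c → E.Rr j c → E.Rr j a := by
    intro b a c p hc
    cases p with
    | refl => exact hc
    | step e _ => exact (HE.rr e).1
  have eIK : E.HE j true Ip Kp := ⟨⟨hI, hK, Or.inr ⟨Vp, hV, hr⟩⟩, back hn ht.1.rr⟩
  have hn' : SP (E.HE j) m Kp {t} := by
    cases m <;> cases n
    · exact hn
    · exact hn.trans ((hm.tail eIK).trans hn)
    · exact hn.trans ((hm.tail eIK).trans hn)
    · exact hn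
  have hIm : E.R2 j Im := ht.reach ⟨_, W₁⟩
  have hIp : E.R2 j Ip := ht.reach ⟨_, hm⟩
  obtain ⟨sp⟩ := exists_spine hsp hax
  have oc : ∀ {X Y}, SP (E.HE j) false X Y → Nonempty (OC k X Y) := by
    intro X Y p
    obtain ⟨C⟩ := exists_coder k p
    obtain ⟨O, -⟩ := C.oc
    exact ⟨O⟩
  obtain ⟨Jt, et, pt⟩ := ht.2
  obtain ⟨Jm, em, pm⟩ := hIm.2
  obtain ⟨JE, eE, pE⟩ := hIp.1
  obtain ⟨Qt⟩ := oc pt
  obtain ⟨Qm⟩ := oc pm
  obtain ⟨CE⟩ := exists_coder k pE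
  obtain ⟨QE, -⟩ := CE.ec
  obtain ⟨O₁⟩ := oc W₁
  obtain ⟨O₂⟩ := oc W₂
  obtain ⟨Cm⟩ := exists_coder k hm
  have net : ({t} : Set S).Nonempty := ⟨t, rfl⟩
  have nem : Im.Nonempty := hIm.1.rr.node.1
  have sing : ∀ {G : ℕ → Term S} {Z : Term S}, Ty P G Z (.sort t) → Has P G {t} Z := by
    intro G Z hZ s hs; cases hs; exact hZ
  cases m
  · obtain ⟨Kc⟩ := oc hn'
    obtain ⟨C₂⟩ := exists_coder k W₂
    obtain ⟨C, hC⟩ := C₂.comp Cm
    obtain ⟨M, hM⟩ := Coder.ec (show Coder k true Im Ip from C)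
    exact ⟨{
      t := t, Vp := Vp, Kp := Kp, Ip := Ip, Y0 := Im, Y1 := {t}, Y2 := Im, Y3 := {t}
      neI := hI.1, ne0 := nem, ne1 := net, ne2 := nem, ne3 := net, rule := hr, sp := sp
      B0 := C₂.W, natB0 := C₂.natW, tyB0 := fun G γ Z hγ hZ => C₂.tyW _ _ _ hγ (sing hZ)
      P1 := O₁, P2 := O₂, P3 := O₁, Kc := Kc
      Um := Cm.W, natUm := Cm.natW, tyUm := fun G γ Z hγ hZ => Cm.tyW _ _ _ hγ hZ t rfl
      M := M, fac := fun γ Z => by rw [hM]; exact hC γ Z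
      J0 := Jm, J1 := Jt, J2 := Jm, JE := JE, e0 := em, e1 := et, e2 := em, eE := eE
      Q0 := Qm, Q1 := Qt, Q2 := Qm, QE := QE }⟩
  · obtain ⟨Kc⟩ := oc (hn'.trans W₁)
    obtain ⟨M, hM⟩ := Cm.ec
    exact ⟨{
      t := t, Vp := Vp, Kp := Kp, Ip := Ip, Y0 := {t}, Y1 := Im, Y2 := {t}, Y3 := Im
      neI := hI.1, ne0 := net, ne1 := nem, ne2 := net, ne3 := nem, rule := hr, sp := sp
      B0 := fun _ Z => Z, natB0 := fun _ _ _ => rfl, tyB0 := fun G γ Z _ hZ => sing hZ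
      P1 := O₂, P2 := O₁, P3 := O₂, Kc := Kc
      Um := Cm.W, natUm := Cm.natW, tyUm := fun G γ Z hγ hZ => Cm.tyW _ _ _ hγ hZ t rfl
      M := M, fac := fun γ Z => by rw [hM]
      J0 := Jt, J1 := Jm, J2 := Jt, JE := JE, e0 := et, e1 := em, e2 := et, eE := eE
      Q0 := Qt, Q1 := Qm, Q2 := Qt, QE := QE }⟩

end Amb
end Vale.Agent.P340
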