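import Vale.Agent.P340.Syntax

/-! Internal typing with infinite contexts `G : ℕ → Term S` (the type of variable `x` is `G x`,
read in the whole context). Basic metatheory. -/

namespace Vale.Agent.P340

universe u
variable {S : Type u}

open Term

/-- Push a declaration: the new variable is index 0. -/
def ccons (A : Term S) (G : ℕ → Term S) : ℕ → Term S
  | 0 => A.shift
  | n + 1 => (G n).shift

@[simp] theorem ccons_zero (A : Term S) (G : ℕ → Term S) : ccons A G 0 = A.shift := rfl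
@[simp] theorem ccons_succ (A : Term S) (G : ℕ → Term S) (n : ℕ) :
    ccons A G (n + 1) = (G n).shift := rfl

inductive Ty (P : Spec S) : (ℕ → Term S) → Term S → Term S → Prop
  | ax {G s₁ s₂} : P.ax s₁ s₂ → Ty P G (.sort s₁) (.sort s₂)
  | var {G} (x : ℕ) : Ty P G (.var x) (G x)
  | pi {G A B s₁ s₂ s₃} : Ty P G A (.sort s₁) → Ty P (ccons A G) B (.sort s₂) →
      P.rule s₁ s₂ s₃ → Ty P G (.pi A B) (.sort s₃)
  | lam {G A M B s} : Ty P (ccons A G) M B → Ty P G (.pi A B) (.sort s) →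
      Ty P G (.lam A M) (.pi A B)
  | app {G M N A B} : Ty P G M (.pi A B) → Ty P G N A → Ty P G (.app M N) (B.inst N)
  | conv {G M A B s} : Ty P G M A → Ty P G B (.sort s) → Conv A B → Ty P G M B

/-- every declared type is a type -/
def Valid (P : Spec S) (G : ℕ → Term S) : Prop := ∀ x, ∃ s, Ty P G (G x) (.sort s)

/-- typed substitution from `G` to `G'` -/
def TS (P : Spec S) (G G' : ℕ → Term S) (σ : ℕ → Term S) : Prop :=
  ∀ x, Ty P G' (σ x) ((G x).subst σ)

variable {P : Spec S} {G G' G'' : ℕ → Term S} {M N A B T : Term S} {s : S}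

theorem ty_upRen {ξ : ℕ → ℕ} (hξ : ∀ x, G' (ξ x) = (G x).rename ξ) (A : Term S) (x : ℕ) :
    ccons (A.rename ξ) G' (upRen ξ x) = (ccons A G x).rename (upRen ξ) := by
  cases x with
  | zero => simp
  | succ x => simp [hξ]

/-- renaming: first prove it for `ξ` with `G' (ξ x) = (G x).rename ξ`. -/
theorem Ty.rename (h : Ty P G M A) {ξ : ℕ → ℕ} (hξ : ∀ x, G' (ξ x) = (G x).rename ξ) :
    Ty P G' (M.rename ξ) (A.rename ξ) := by
  induction h generalizing G' ξ with
  | ax h => exact .ax h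
  | var x => rw [rename_var, ← hξ]; exact .var _
  | pi _ _ r ih1 ih2 => exact .pi (ih1 hξ) (ih2 (ty_upRen hξ _)) r
  | lam _ _ ih1 ih2 => exact .lam (ih1 (ty_upRen hξ _)) (ih2 hξ)
  | app _ _ ih1 ih2 => rw [inst_rename]; exact .app (ih1 hξ) (ih2 hξ)
  | conv _ _ c ih1 ih2 => exact .conv (ih1 hξ) (ih2 hξ) (c.rename ξ)

theorem Ty.weak (h : Ty P G M A) (C : Term S) : Ty P (ccons C G) M.shift A.shift := by
  exact h.rename (ξ := Nat.succ) (fun _ => rfl)

theorem TS.up {σ : ℕ → Term S} (h : TS P G G' σ) (A : Term S) :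
    TS P (ccons A G) (ccons (A.subst σ) G') (upSub σ) := by
  intro x
  cases x with
  | zero =>
    rw [upSub_zero, ccons_zero, shift_subst_upSub]
    exact .var 0
  | succ x =>
    rw [upSub_succ, ccons_succ, shift_subst_upSub]
    exact (h x).weak _

theorem Ty.subst (h : Ty P G M A) {σ : ℕ → Term S} (hσ : TS P G G' σ) :
    Ty P G' (M.subst σ) (A.subst σ) := by
  induction h generalizing G' σ with
  | ax h => exact .ax h
  | var x => exact hσ x
  | pi _ _ r ih1 ih2 => exact .pi (ih1 hσ) (ih2 (hσ.up _)) r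
  | lam _ _ ih1 ih2 => exact .lam (ih1 (hσ.up _)) (ih2 hσ)
  | app _ _ ih1 ih2 => rw [inst_subst]; exact .app (ih1 hσ) (ih2 hσ)
  | conv _ _ c ih1 ih2 => exact .conv (ih1 hσ) (ih2 hσ) (c.subst σ)

theorem TS.id (G : ℕ → Term S) : TS P G G var := by
  intro x
  rw [subst_id]
  exact .var x

theorem TS.comp {σ τ : ℕ → Term S} (h : TS P G G' σ) (k : TS P G' G'' τ) :
    TS P G G'' (fun x => (σ x).subst τ) := by
  intro x
  rw [← subst_subst]
  exact (h x).subst k

theorem TS.scons {σ : ℕ → Term S} (h : TS P G G' σ) (hN : Ty P G' N (A.subst σ)) :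
    TS P (ccons A G) G' (scons N σ) := by
  intro x
  cases x with
  | zero => rw [scons_zero, ccons_zero, shift_subst_scons]; exact hN
  | succ x => rw [scons_succ, ccons_succ, shift_subst_scons]; exact h x

theorem TS.single (hN : Ty P G N A) : TS P (ccons A G) G (single N) := by
  rw [single_eq]
  exact (TS.id G).scons (by rw [subst_id]; exact hN)

/-- the shift is a typed substitution -/
theorem TS.shift (G : ℕ → Term S) (C : Term S) : TS P G (ccons C G) (fun x => var (x + 1)) := by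
  intro x
  rw [← rename_eq_subst (G x) Nat.succ]
  exact .var (x + 1)

theorem TS.weak {σ : ℕ → Term S} (h : TS P G G' σ) (C : Term S) :
    TS P G (ccons C G') (fun x => (σ x).shift) := by
  intro x
  have := (h x).weak C
  rwa [Term.shift, Term.shift, rename_subst] at this

theorem Ty.inst (h : Ty P (ccons A G) M B) (hN : Ty P G N A) :
    Ty P G (M.inst N) (B.inst N) := by
  exact h.subst (TS.single hN)

theorem Valid.ccons (h : Valid P G) (hA : Ty P G A (.sort s)) : Valid P (ccons A G) := by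
  intro x
  cases x with
  | zero => exact ⟨s, hA.weak A⟩
  | succ x => obtain ⟨t, ht⟩ := h x; exact ⟨t, ht.weak A⟩

/-- change the head declaration by a convertible one -/
theorem TS.ctx_conv {A' : Term S} (hA : Ty P G A (.sort s)) (c : Conv A A') :
    TS P (ccons A G) (ccons A' G) var := by
  intro x
  rw [subst_id]
  cases x with
  | zero => exact .conv (.var 0) (hA.weak A') c.symm.shift
  | succ x => exact .var (x + 1)

theorem Ty.ctx_conv {A' : Term S} (h : Ty P (ccons A G) M B) (hA : Ty P G A (.sort s))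
    (c : Conv A A') : Ty P (ccons A' G) M B := by
  simpa using h.subst (TS.ctx_conv hA c)

/-! Generation -/

theorem Ty.gen_sort {s₁ : S} (h : Ty P G (.sort s₁) T) : ∃ s₂, P.ax s₁ s₂ ∧ Conv T (.sort s₂) := by
  generalize hM : Term.sort s₁ = M at h
  induction h with
  | ax h => cases hM; exact ⟨_, h, Conv.rfl⟩
  | conv _ _ c ih _ => obtain ⟨s₂, a, b⟩ := ih hM; exact ⟨s₂, a, c.symm.trans b⟩
  | _ => cases hM

theorem Ty.gen_var {x : ℕ} (h : Ty P G (.var x) T) : Conv T (G x) := by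
  generalize hM : Term.var x = M at h
  induction h with
  | var y => cases hM; exact Conv.rfl
  | conv _ _ c ih _ => exact c.symm.trans (ih hM)
  | _ => cases hM

theorem Ty.gen_pi (h : Ty P G (.pi A B) T) : ∃ s₁ s₂ s₃, Ty P G A (.sort s₁) ∧
    Ty P (ccons A G) B (.sort s₂) ∧ P.rule s₁ s₂ s₃ ∧ Conv T (.sort s₃) := by
  generalize hM : Term.pi A B = M at h
  induction h with
  | pi h1 h2 r => cases hM; exact ⟨_, _, _, h1, h2, r, Conv.rfl⟩
  | conv _ _ c ih _ =>
    obtain ⟨s₁, s₂, s₃, a, b, r, d⟩ := ih hM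
    exact ⟨s₁, s₂, s₃, a, b, r, c.symm.trans d⟩
  | _ => cases hM

theorem Ty.gen_pi_sort {s₃ : S} (h : Ty P G (.pi A B) (.sort s₃)) : ∃ s₁ s₂, Ty P G A (.sort s₁) ∧
    Ty P (ccons A G) B (.sort s₂) ∧ P.rule s₁ s₂ s₃ := by
  obtain ⟨s₁, s₂, s₄, a, b, r, d⟩ := h.gen_pi
  obtain rfl := d.sort_inj
  exact ⟨s₁, s₂, a, b, r⟩

theorem Ty.gen_lam (h : Ty P G (.lam A M) T) : ∃ B s, Ty P (ccons A G) M B ∧
    Ty P G (.pi A B) (.sort s) ∧ Conv T (.pi A B) := by
  generalize hM : Term.lam A M = L at h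
  induction h with
  | lam h1 h2 => cases hM; exact ⟨_, _, h1, h2, Conv.rfl⟩
  | conv _ _ c ih _ =>
    obtain ⟨B, s, a, b, d⟩ := ih hM
    exact ⟨B, s, a, b, c.symm.trans d⟩
  | _ => cases hM

theorem Ty.gen_app (h : Ty P G (.app M N) T) : ∃ A B, Ty P G M (.pi A B) ∧ Ty P G N A ∧
    Conv T (B.inst N) := by
  generalize hM : Term.app M N = L at h
  induction h with
  | app h1 h2 => cases hM; exact ⟨_, _, h1, h2, Conv.rfl⟩
  | conv _ _ c ih _ =>
    obtain ⟨A, B, a, b, d⟩ := ih hM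
    exact ⟨A, B, a, b, c.symm.trans d⟩
  | _ => cases hM

/-- validity of types -/
theorem Ty.type_valid (hG : Valid P G) (h : Ty P G M A) :
    (∃ s, A = .sort s) ∨ ∃ s, Ty P G A (.sort s) := by
  induction h with
  | ax h => exact Or.inl ⟨_, rfl⟩
  | var x => exact Or.inr (hG x)
  | pi => exact Or.inl ⟨_, rfl⟩
  | lam _ h2 => exact Or.inr ⟨_, h2⟩
  | app _ h2 ih1 _ =>
    rcases ih1 hG with ⟨s, hs⟩ | ⟨s, hs⟩
    · cases hs
    · obtain ⟨s₁, s₂, -, b, -⟩ := hs.gen_pi_sort
      exact Or.inr ⟨s₂, b.inst h2⟩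
  | conv _ h2 => exact Or.inr ⟨_, h2⟩

theorem Ty.pi_valid (hG : Valid P G) (h : Ty P G M (.pi A B)) :
    ∃ s, Ty P G (.pi A B) (.sort s) := by
  rcases h.type_valid hG with ⟨s, hs⟩ | hs
  · cases hs
  · exact hs

/-- subject reduction -/
theorem Ty.step (hG : Valid P G) (h : Ty P G M A) {M' : Term S} (k : Step M M') :
    Ty P G M' A := by
  induction h generalizing M' with
  | ax h => cases k
  | var x => cases k
  | pi h1 h2 r ih1 ih2 =>
    cases k with
    | piL _ k => exact .pi (ih1 hG k) (h2.ctx_conv h1 k.conv) r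
    | piR _ k => exact .pi h1 (ih2 (hG.ccons h1) k) r
  | lam h1 h2 ih1 ih2 =>
    obtain ⟨s₁, s₂, a, -, -⟩ := h2.gen_pi_sort
    cases k with
    | lamL _ k =>
      exact .conv (.lam (h1.ctx_conv a k.conv) (ih2 hG (.piL _ k))) h2 (Step.piL _ k).conv.symm
    | lamR _ k => exact .lam (ih1 (hG.ccons a) k) h2
  | app h1 h2 ih1 ih2 =>
    obtain ⟨s, hs⟩ := h1.pi_valid hG
    obtain ⟨s₁, s₂, -, b, -⟩ := hs.gen_pi_sort
    have hB := b.inst h2
    cases k with
    | beta A₀ M₀ _ =>
      obtain ⟨B₀, t, c, d, e⟩ := h1.gen_lam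
      obtain ⟨t₁, t₂, a₀, -, -⟩ := d.gen_pi_sort
      obtain ⟨e1, e2⟩ := e.pi_inj
      exact .conv (c.inst (.conv h2 a₀ e1)) hB (e2.symm.inst Conv.rfl)
    | appL _ k => exact .app (ih1 hG k) h2
    | appR _ k => exact .conv (.app h1 (ih2 hG k)) hB (Conv.inst Conv.rfl k.conv.symm)
  | conv _ h2 c ih1 _ => exact .conv (ih1 hG k) h2 c

theorem Ty.red (hG : Valid P G) (h : Ty P G M A) {M' : Term S} (k : Red M M') :
    Ty P G M' A := by
  induction k with
  | refl => exact h
  | tail _ h2 ih => exact ih.step hG h2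

/-- reduction in the type -/
theorem Ty.red_type (hG : Valid P G) (h : Ty P G M A) {A' : Term S} (k : Red A A') :
    Ty P G M A' := by
  rcases h.type_valid hG with ⟨s, rfl⟩ | ⟨s, hs⟩
  · rw [k.sort_inv]; exact h
  · exact .conv h (hs.red hG k) k.conv

/-- a term whose type is convertible with a sort has that sort as a type -/
theorem Ty.conv_sort (hG : Valid P G) (h : Ty P G M A) (c : Conv A (.sort s)) :
    Ty P G M (.sort s) := by
  exact h.red_type hG c.sort_red

/-- typed normal terms are sorts, products, abstractions or neutral -/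
theorem Ty.normal_shape (h : Ty P G M T) (hn : Normal M) :
    (∃ s, M = .sort s) ∨ (∃ A B, M = .pi A B) ∨ (∃ A N, M = .lam A N) ∨ ∃ x, HeadVar x M := by
  induction h with
  | ax h => exact Or.inl ⟨_, rfl⟩
  | var x => exact Or.inr (Or.inr (Or.inr ⟨x, .var⟩))
  | pi => exact Or.inr (Or.inl ⟨_, _, rfl⟩)
  | lam => exact Or.inr (Or.inr (Or.inl ⟨_, _, rfl⟩))
  | app h1 _ ih1 _ =>
    rcases ih1 hn.app_left with ⟨s, rfl⟩ | ⟨A, B, rfl⟩ | ⟨A, N, rfl⟩ | ⟨x, hx⟩
    · obtain ⟨s₂, -, c⟩ := h1.gen_sort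
      exact c.symm.sort_pi.elim
    · obtain ⟨_, _, _, -, -, -, c⟩ := h1.gen_pi
      exact c.symm.sort_pi.elim
    · exact hn.app_not_lam.elim
    · exact Or.inr (Or.inr (Or.inr ⟨x, .app _ hx⟩))
  | conv _ _ _ ih _ => exact ih hn

/-- neutral terms have a unique type up to conversion -/
theorem Ty.unique_neutral {x : ℕ} {T' : Term S} (hx : HeadVar x M) (h : Ty P G M T)
    (h' : Ty P G M T') : Conv T T' := by
  induction hx generalizing T T' with
  | var => exact h.gen_var.trans h'.gen_var.symm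
  | app N _ ih =>
    obtain ⟨A, B, a, -, c⟩ := h.gen_app
    obtain ⟨A', B', a', -, c'⟩ := h'.gen_app
    exact c.trans (((ih a a').pi_inj.2.inst Conv.rfl).trans c'.symm)

/-- the domain of a product type of a weakly normalizing term is unique up to conversion -/
theorem Ty.dom_unique (hG : Valid P G) {M' A' B' : Term S} (hw : WN M) (c : Conv M M')
    (h : Ty P G M (.pi A B)) (h' : Ty P G M' (.pi A' B')) : Conv A A' := by
  obtain ⟨L, r, hL⟩ := hw
  have r' : Red M' L := hL.red_of_conv (c.symm.trans r.conv)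
  have k := h.red hG r
  have k' := h'.red hG r'
  rcases k.normal_shape hL with ⟨s, rfl⟩ | ⟨A₀, B₀, rfl⟩ | ⟨A₀, N, rfl⟩ | ⟨x, hx⟩
  · obtain ⟨s₂, -, c⟩ := k.gen_sort
    exact c.symm.sort_pi.elim
  · obtain ⟨_, _, _, -, -, -, c⟩ := k.gen_pi
    exact c.symm.sort_pi.elim
  · obtain ⟨_, _, -, -, d⟩ := k.gen_lam
    obtain ⟨_, _, -, -, d'⟩ := k'.gen_lam
    exact d.pi_inj.1.trans d'.pi_inj.1.symm
  · exact (Ty.unique_neutral hx k k').pi_inj.1

/-- context of a list, with a default type for the other variables -/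
def ctxOf (Γ : List (Term S)) (G : ℕ → Term S) : ℕ → Term S :=
  Γ.foldr ccons G

/-- An official derivation gives an internal one under every substitution typed on the list. -/
theorem Typed.ty_subst {Γ : List (Term S)} (h : Typed P Γ M A) {σ : ℕ → Term S}
    (hσ : ∀ x < Γ.length, Ty P G' (σ x) ((ctxOf Γ G x).subst σ)) :
    Ty P G' (M.subst σ) (A.subst σ) := by
  have up : ∀ {Γ : List (Term S)} {G' : ℕ → Term S} {σ : ℕ → Term S} (A : Term S),
      (∀ x < Γ.length, Ty P G' (σ x) ((ctxOf Γ G x).subst σ)) →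
      ∀ x < (A :: Γ).length, Ty P (ccons (A.subst σ) G') (upSub σ x)
        ((ctxOf (A :: Γ) G x).subst (upSub σ)) := by
    intro Γ G' σ A hσ x hx
    cases x with
    | zero =>
      show Ty P _ (Term.var 0) (A.shift.subst (upSub σ))
      rw [shift_subst_upSub]
      exact .var 0
    | succ x =>
      show Ty P _ (σ x).shift ((ctxOf Γ G x).shift.subst (upSub σ))
      rw [shift_subst_upSub]
      exact (hσ x (by simpa using hx)).weak _
  induction h generalizing G' σ with
  | ax h => exact .ax h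
  | var _ _ => exact hσ 0 (by simp)
  | @weak Γ M B A s _ _ ih1 _ =>
    rw [shift_subst, shift_subst]
    refine ih1 fun x hx => ?_
    have := hσ (x + 1) (by simpa using hx)
    rw [← shift_subst]
    exact this
  | pi _ _ r ih1 ih2 => exact .pi (ih1 hσ) (ih2 (up _ hσ)) r
  | lam _ _ ih1 ih2 => exact .lam (ih1 (up _ hσ)) (ih2 hσ)
  | app _ _ ih1 ih2 => rw [inst_subst]; exact .app (ih1 hσ) (ih2 hσ)
  | conv _ _ c ih1 ih2 => exact .conv (ih1 hσ) (ih2 hσ) (Conv.subst c σ)

end Vale.Agent.P340
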