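import Vale.Agent.P340.LT
import Vale.Agent.P340.Graph

/-! Kripke worlds over `Θ`, proofs, contradictions (`Held`), negation, equivalence, and the proof
wrappers along signed paths of the component `NN j`. -/

namespace Vale.Agent.P340

universe u
variable {S : Type u} {P : Spec S} [Finite S]

namespace Amb

structure World (E : Amb P) where
  G : ℕ → Term S
  Ξ : ℕ → Kind
  γ : ℕ → Term S
  ts : TS P E.Θ G γ
  gl : ∀ x, ∃ y, γ x = .var y ∧ Ξ y = .glob

variable {E : Amb P}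

structure World.Ext (w w' : E.World) (ξ : ℕ → ℕ) : Prop where
  ctx : ∀ x, w'.G (ξ x) = (w.G x).rename ξ
  prf : ∀ x ψ, w.Ξ x = .prf ψ → w'.Ξ (ξ x) = .prf (ψ.rename ξ)
  glob : ∀ x, w.Ξ x = .glob → w'.Ξ (ξ x) = .glob
  gam : w'.γ = gsub w.γ (tmS (LT.rs ξ))

def World.push (w : E.World) (A : Term S) (k : Kind) : E.World where
  G := ccons A w.G
  Ξ := kcons k w.Ξ
  γ := gsh w.γ
  ts := w.ts.weak A
  gl := fun x => by
    obtain ⟨y, h1, h2⟩ := w.gl x
    exact ⟨y + 1, by simp [gsh, h1], by simp [kcons, h2, Kind.shift]⟩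

/-- the initial world -/
def world0 (E : Amb P) : E.World where
  G := E.Θ
  Ξ := fun _ => .glob
  γ := Term.var
  ts := TS.id _
  gl := fun x => ⟨x, rfl, rfl⟩

def World.Pf (w : E.World) (φ : LT S) : Prop := ∃ M, Ty P w.G M φ.tm ∧ Real w.Ξ M φ.sh

/-- answer types -/
def Ans (E : Amb P) (j : ℕ) (C : Term S) : Prop :=
  ∃ X Y K, E.NN j X ∧ E.NN j Y ∧ E.Node K ∧ PR P Y K X ∧ Has P E.Θ K C

def World.Held (w : E.World) (j : ℕ) : Prop := ∃ C, E.Ans j C ∧ w.Pf (.glob (C.subst w.γ))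

def World.Neg (w : E.World) (j : ℕ) (φ : LT S) : Prop :=
  ∀ w' ξ, w.Ext w' ξ → w'.Pf (φ.ren ξ) → w'.Held j

def World.Sat (w : E.World) (j : ℕ) : Bool → LT S → Prop
  | true, φ => w.Pf φ
  | false, φ => w.Neg j φ

def World.Eqv (w : E.World) (j : ℕ) (φ ψ : LT S) : Prop :=
  ∀ w' ξ, w.Ext w' ξ → (w'.Pf (φ.ren ξ) → w'.Neg j (ψ.ren ξ) → w'.Held j) ∧
    (w'.Pf (ψ.ren ξ) → w'.Neg j (φ.ren ξ) → w'.Held j)

namespace World
variable {w w' w'' : E.World} {ξ ζ : ℕ → ℕ} {j : ℕ} {φ ψ χ : LT S}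

theorem Ext.refl (w : E.World) : w.Ext w (fun n => n) := by
  refine ⟨fun x => (rename_id _).symm, fun x ψ h => ?_, fun x h => h, ?_⟩
  · rw [rename_id]; exact h
  · exact (gsub_var _).symm

theorem Ext.trans (h : w.Ext w' ξ) (k : w'.Ext w'' ζ) : w.Ext w'' (fun n => ζ (ξ n)) := by
  refine ⟨fun x => ?_, fun x ψ e => ?_, fun x e => k.glob _ (h.glob x e), ?_⟩
  · rw [k.ctx, h.ctx, rename_rename]
  · rw [k.prf _ _ (h.prf x ψ e), rename_rename]
  · rw [k.gam, h.gam]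
    funext x
    simp only [gsub, subst_subst]
    rfl

theorem ext_push (w : E.World) (A : Term S) (k : Kind) : w.Ext (w.push A k) Nat.succ := by
  refine ⟨fun x => rfl, fun x ψ e => ?_, fun x e => ?_, (gsub_shift _).symm⟩
  · show (w.Ξ x).shift = _
    rw [e]; rfl
  · show (w.Ξ x).shift = _
    rw [e]; rfl

theorem Ext.ty (h : w.Ext w' ξ) {M A : Term S} (hM : Ty P w.G M A) :
    Ty P w'.G (M.rename ξ) (A.rename ξ) := by
  exact hM.rename h.ctx

theorem Ext.has (h : w.Ext w' ξ) {I : Set S} {A : Term S} (hA : Has P w.G I A) :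
    Has P w'.G I (A.rename ξ) := by
  exact fun s hs => (hA s hs).rename h.ctx

/-- bodies under one binder -/
theorem Ext.has_up (h : w.Ext w' ξ) {I : Set S} {A B : Term S} (hB : Has P (ccons A w.G) I B) :
    Has P (ccons (A.rename ξ) w'.G) I (B.rename (upRen ξ)) := by
  exact fun s hs => (hB s hs).rename (ty_upRen h.ctx A)

theorem Ext.subst_gam (h : w.Ext w' ξ) (C : Term S) : (C.subst w.γ).rename ξ = C.subst w'.γ := by
  rw [h.gam, rename_eq_subst, subst_gsub]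
  rfl

theorem Ext.glob_ren (h : w.Ext w' ξ) (C : Term S) :
    (LT.glob (C.subst w.γ)).ren ξ = LT.glob (C.subst w'.γ) := by
  rw [← h.subst_gam C]
  rfl

theorem Pf.ext (h : w.Pf φ) (k : w.Ext w' ξ) : w'.Pf (φ.ren ξ) := by
  obtain ⟨M, h1, h2⟩ := h
  exact ⟨M.rename ξ, k.ty h1, h2.rename k.prf k.glob⟩

theorem Held.ext (h : w.Held j) (k : w.Ext w' ξ) : w'.Held j := by
  obtain ⟨C, hC, h⟩ := h
  refine ⟨C, hC, ?_⟩
  have := h.ext k
  rwa [k.glob_ren] at this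

theorem Neg.ext (h : w.Neg j φ) (k : w.Ext w' ξ) : w'.Neg j (φ.ren ξ) := by
  intro w'' ζ k' hp
  rw [LT.ren_ren] at hp
  exact h w'' _ (k.trans k') hp

theorem Sat.ext {b : Bool} (h : w.Sat j b φ) (k : w.Ext w' ξ) : w'.Sat j b (φ.ren ξ) := by
  cases b
  · exact Neg.ext h k
  · exact Pf.ext h k

theorem Neg.elim (h : w.Neg j φ) (k : w.Pf φ) : w.Held j := by
  refine h w _ (Ext.refl w) ?_
  rw [LT.ren_id]
  exact k

theorem Pf.conv {s : S} (h : w.Pf φ) (c : LT.Conv φ ψ) (hψ : Ty P w.G ψ.tm (.sort s)) :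
    w.Pf ψ := by
  obtain ⟨M, h1, h2⟩ := h
  exact ⟨M, .conv h1 hψ c.1, h2.conv c.2⟩

theorem pf_hyp (w : E.World) (φ : LT S) : (w.push φ.tm (.prf φ.sh)).Pf φ.shift := by
  exact ⟨.var 0, Ty.var 0, Real.hyp rfl⟩

theorem pf_imp {s : S} (hT : Ty P w.G (LT.imp φ ψ).tm (.sort s))
    (h : (w.push φ.tm (.prf φ.sh)).Pf ψ) : w.Pf (.imp φ ψ) := by
  obtain ⟨M, h1, h2⟩ := h
  exact ⟨.lam φ.tm M, .lam h1 hT, .lamP h2⟩

theorem Pf.imp_elim (h : w.Pf (.imp φ ψ.shift)) (k : w.Pf φ) : w.Pf ψ := by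
  obtain ⟨M, h1, h2⟩ := h
  obtain ⟨N, k1, k2⟩ := k
  refine ⟨.app M N, ?_, ?_⟩
  · have := Ty.app h1 k1
    rwa [LT.shift_tm, shift_inst] at this
  · have := Real.appP fBot h2 k2
    rwa [LT.shift_sh, shift_inst] at this

theorem pf_all {s : S} {A : Term S} (hT : Ty P w.G (LT.all A ψ).tm (.sort s))
    (h : (w.push A .data).Pf ψ) : w.Pf (.all A ψ) := by
  obtain ⟨M, h1, h2⟩ := h
  exact ⟨.lam A M, .lam h1 hT, .lamD h2⟩

theorem Pf.all_elim {A : Term S} {q : LT S} (h : w.Pf (.all A ψ)) (hq : Ty P w.G q.tm A) :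
    w.Pf (ψ.inst q) := by
  obtain ⟨M, h1, h2⟩ := h
  refine ⟨.app M q.tm, ?_, ?_⟩
  · rw [LT.inst_tm]; exact .app h1 hq
  · rw [LT.inst_sh]; exact .appD _ _ h2

omit [Finite S] in
theorem has_weak {G : ℕ → Term S} {I : Set S} {A : Term S} (h : Has P G I A) (C : Term S) :
    Has P (ccons C G) I A.shift := fun s hs => (h s hs).weak C

/-- apply a global parameter to a held term -/
theorem held_app {X Y K : Set S} {T C : Term S} (hX : X.Nonempty) (r : PR P Y K X)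
    (hT : Has P E.Θ Y T) (hC : Has P E.Θ K C) (w : E.World)
    (h : w.Pf (.glob (T.subst w.γ))) : w.Pf (.glob (C.subst w.γ)) := by
  obtain ⟨s, hs⟩ := hX
  obtain ⟨p, -, hp⟩ := E.sat _ s 0 (Has.pi r hT (has_weak hC T) s hs)
  obtain ⟨M, h1, h2⟩ := h
  have k := w.ts p
  rw [hp, subst_pi, shift_subst_upSub] at k
  obtain ⟨y, e1, e2⟩ := w.gl p
  refine ⟨.app (w.γ p) M, ?_, ?_⟩
  · have := Ty.app k h1
    rwa [shift_inst] at this
  · rw [e1]; exact .holdArg e2 h2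

/-- a constant function on a held term -/
theorem held_lam {X J K : Set S} {T C : Term S} (hX : X.Nonempty) (r : PR P J K X)
    (hC : Has P E.Θ J C) (hT : Has P E.Θ K T) (w : E.World)
    (h : w.Pf (.glob (T.subst w.γ))) : w.Pf (.glob ((Term.pi C T.shift).subst w.γ)) := by
  obtain ⟨s, hs⟩ := hX
  have k := (Has.pi r hC (has_weak hT C)).subst w.ts s hs
  rw [subst_pi, shift_subst_upSub] at k ⊢
  obtain ⟨M, h1, h2⟩ := h
  exact ⟨.lam (C.subst w.γ) M.shift, .lam (h1.weak _) k, .holdLam (h2.weak .data)⟩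

theorem held_path {b : Bool} {Y K : Set S} (p : SP E.Edge b Y K) {U : Term S}
    (hU : Has P E.Θ K U) : ∃ T, Has P E.Θ Y T ∧
      ∀ w : E.World, w.Pf (.glob (U.subst w.γ)) → w.Pf (.glob (T.subst w.γ)) := by
  induction p with
  | refl a => exact ⟨U, hU, fun _ h => h⟩
  | @step b₁ b₂ a c d e p ih =>
    obtain ⟨T, hT, k⟩ := ih hU
    cases b₁ with
    | true =>
      obtain ⟨ha, -, s | ⟨J, ⟨-, C, hC⟩, r⟩⟩ := e
      · exact ⟨T, fun t ht => hT t (s ht), k⟩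
      · exact ⟨.pi C T.shift, Has.pi r hC (has_weak hT C),
          fun w h => held_lam ha.1 r hC hT w (k w h)⟩
    | false =>
      obtain ⟨ha, -, K', ⟨-, C, hC⟩, r⟩ := e
      exact ⟨.pi T C.shift, Has.pi r hT (has_weak hC T),
        fun w h => held_lam ha.1 r hT hC w (held_app ha.1 r hT hC w (k w h))⟩

/-- All the answer types are interconvertible. PLAN: for a path `SP E.Edge b Y K` and `U` with
`Has P E.Θ K U` there is `T` with `Has P E.Θ Y T` such that, in every world,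
`Pf (glob (U.subst γ)) → Pf (glob (T.subst γ))` (induction on the path; inclusion: same type;
codomain edge with `PR J c a`: `pi C T₁.shift` and `holdLam`; domain edge with `PR c K' a`:
`T = pi T₁ C.shift`, take a parameter `h` of type `T` by `E.sat`, and the term
`lam _ (app (γ h) M).shift`, by `holdArg`, `holdLam`). If `C₀` (node `K₀`, `PR Y₀ K₀ X₀`) is held and
`C` has `PR Y K X`, then `Y` reaches `X₀` and `K₀`; apply a parameter of type `pi T C.shift`. -/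
theorem Held.to (h : w.Held j) {C : Term S} (hC : E.Ans j C) : w.Pf (.glob (C.subst w.γ)) := by
  obtain ⟨C₀, ⟨X₀, Y₀, K₀, hX₀, hY₀, hK₀, r₀, h₀⟩, hp⟩ := h
  obtain ⟨X, Y, K, hX, hY, hK, r, hC⟩ := hC
  obtain ⟨b, p⟩ := hY.reach hX₀
  have e : E.Edge true X₀ K₀ := ⟨hX₀.1, hK₀, Or.inr ⟨Y₀, hY₀.1, r₀⟩⟩
  obtain ⟨T, hT, k⟩ := held_path (p.tail e) h₀
  exact held_app hX.1.1 r hT hC w (k w hp)

theorem Eqv.refl (w : E.World) (j : ℕ) (φ : LT S) : w.Eqv j φ φ := by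
  intro w' ξ _
  exact ⟨fun a b => b.elim a, fun a b => b.elim a⟩

theorem Eqv.symm (h : w.Eqv j φ ψ) : w.Eqv j ψ φ := by
  intro w' ξ e
  exact (h w' ξ e).symm

theorem Eqv.trans (h : w.Eqv j φ ψ) (k : w.Eqv j ψ χ) : w.Eqv j φ χ := by
  intro w' ξ e
  refine ⟨fun a b => (h w' ξ e).1 a fun w'' ζ e' c => ?_,
    fun a b => (k w' ξ e).2 a fun w'' ζ e' c => ?_⟩
  · have b' := b.ext e'
    rw [LT.ren_ren] at c b'
    exact (k w'' _ (e.trans e')).1 c b'
  · have b' := b.ext e'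
    rw [LT.ren_ren] at c b'
    exact (h w'' _ (e.trans e')).2 c b'

theorem Eqv.ext (h : w.Eqv j φ ψ) (k : w.Ext w' ξ) : w'.Eqv j (φ.ren ξ) (ψ.ren ξ) := by
  intro w'' ζ e
  rw [LT.ren_ren, LT.ren_ren]
  exact h w'' _ (k.trans e)

theorem Eqv.elim (h : w.Eqv j φ ψ) (k : w.Pf φ) (n : w.Neg j ψ) : w.Held j := by
  have := (h w _ (Ext.refl w)).1
  rw [LT.ren_id, LT.ren_id] at this
  exact this k n

theorem eqv_of_conv {s s' : S} (c : LT.Conv φ ψ) (hφ : Ty P w.G φ.tm (.sort s))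
    (hψ : Ty P w.G ψ.tm (.sort s')) : w.Eqv j φ ψ := by
  intro w' ξ e
  exact ⟨fun a b => b.elim (a.conv (c.ren ξ) (e.ty hψ)),
    fun a b => b.elim (a.conv (c.ren ξ).symm (e.ty hφ))⟩

/-- nothing is held in the initial world (`Real.not_wn`, `E.wn`) -/
theorem not_held0 (E : Amb P) (j : ℕ) : ¬ E.world0.Held j := by
  rintro ⟨C, -, M, h1, h2⟩
  exact Real.not_wn (fun x φ e => by cases e) h2 (E.wn M _ h1)

end World

/-- A proof wrapper turns a formula of node `Y` into a formula of node `X`, equivalent to it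
(`b = true`) or to its negation (`b = false`). -/
structure PW (E : Amb P) (j : ℕ) (b : Bool) (X Y : Set S) where
  W : (ℕ → Term S) → LT S → LT S
  nat : ∀ γ φ θ, (W γ φ).subst θ = W (gsub γ (tmS θ)) (φ.subst θ)
  ty : ∀ G γ φ, TS P E.Θ G γ → Has P G Y φ.tm → Has P G X (W γ φ).tm
  intro : ∀ (w : E.World) φ, Has P w.G Y φ.tm → w.Sat j b φ → w.Pf (W w.γ φ)
  elim : ∀ (w : E.World) φ, Has P w.G Y φ.tm → w.Pf (W w.γ φ) → w.Sat j (!b) φ → w.Held j

theorem PW.ren_aux {j : ℕ} {b : Bool} {X Y : Set S} (p : E.PW j b X Y) {w w' : E.World}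
    {ξ : ℕ → ℕ} (h : w.Ext w' ξ) (φ : LT S) : (p.W w.γ φ).ren ξ = p.W w'.γ (φ.ren ξ) := by
  rw [LT.ren_eq_subst, LT.ren_eq_subst, p.nat, h.gam]

/-- the identity wrapper -/
def PW.id (j : ℕ) (X : Set S) : E.PW j true X X where
  W := fun _ φ => φ
  nat := fun _ _ _ => rfl
  ty := fun _ _ _ _ h => h
  intro := fun _ _ _ h => h
  elim := fun _ _ _ h k => World.Neg.elim k h

/-- wrapper along an inclusion -/
def PW.incl {j : ℕ} {b : Bool} {X X' Y : Set S} (p : E.PW j b X Y) (s : X' ⊆ X) :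
    E.PW j b X' Y where
  W := p.W
  nat := p.nat
  ty := fun G γ φ h k t ht => p.ty G γ φ h k t (s ht)
  intro := p.intro
  elim := p.elim

theorem PW.right {j : ℕ} {b : Bool} {X X' Y J : Set S} (q : E.PW j b X Y) (hX' : X'.Nonempty)
    (hJ : E.Node J) (r : PR P J X X') : Nonempty (E.PW j b X' Y) := by
  obtain ⟨⟨s₁, hs₁⟩, C, hC⟩ := hJ
  obtain ⟨s, hs⟩ := hX'
  obtain ⟨p, -, hp⟩ := E.sat _ s₁ 0 (hC s₁ hs₁)
  have ty : ∀ G γ φ, TS P E.Θ G γ → Has P G Y φ.tm →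
      Has P G X' (LT.all (C.subst γ) (q.W γ φ).shift).tm := fun G γ φ h k =>
    Has.pi r (hC.subst h) (World.has_weak (q.ty G γ φ h k) _)
  refine ⟨⟨fun γ φ => .all (C.subst γ) (q.W γ φ).shift, fun γ φ θ => ?_, ty,
    fun w φ h k => ?_, fun w φ h k n => ?_⟩⟩
  · rw [LT.all_subst, LT.shift_subst_up, subst_gsub, q.nat]
  · exact World.pf_all (ty _ _ φ w.ts h s hs) ((q.intro w φ h k).ext (w.ext_push _ _))
  · have hq : Ty P w.G (LT.glob (w.γ p)).tm (C.subst w.γ) := by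
      have := w.ts p
      rwa [hp] at this
    have := k.all_elim hq
    rw [LT.shift_inst] at this
    exact q.elim w φ h this n

theorem PW.left {j : ℕ} {b : Bool} {X X' Y K : Set S} (q : E.PW j b X Y) (hX' : E.NN j X')
    (hX : E.NN j X) (hK : E.Node K) (r : PR P X K X') : Nonempty (E.PW j (!b) X' Y) := by
  obtain ⟨C, hC⟩ := hK.2
  obtain ⟨s, hs⟩ := hX'.1.1
  have hA : E.Ans j C := ⟨X', X, K, hX', hX, hK, r, hC⟩
  have ty : ∀ G γ φ, TS P E.Θ G γ → Has P G Y φ.tm →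
      Has P G X' (LT.imp (q.W γ φ) (LT.glob (C.subst γ)).shift).tm := fun G γ φ h k =>
    Has.pi r (q.ty G γ φ h k) (World.has_weak (hC.subst h) _)
  refine ⟨⟨fun γ φ => .imp (q.W γ φ) (LT.glob (C.subst γ)).shift, fun γ φ θ => ?_, ty,
    fun w φ h k => ?_, fun w φ h k n => ?_⟩⟩
  · rw [LT.imp_subst, LT.shift_subst_up, LT.glob_subst, subst_gsub, q.nat]
  · refine World.pf_imp (ty _ _ φ w.ts h s hs) ?_
    have e := w.ext_push (q.W w.γ φ).tm (.prf (q.W w.γ φ).sh)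
    have h1 := w.pf_hyp (q.W w.γ φ)
    rw [LT.shift, q.ren_aux e] at h1
    rw [LT.shift, e.glob_ren]
    exact (q.elim _ _ (e.has h) h1 (k.ext e)).to hA
  · rw [Bool.not_not] at n
    exact ⟨C, hA, k.imp_elim (q.intro w φ h n)⟩

/-- Induction on the path, from the front (`NN.between`). Inclusion: same wrapper. Codomain edge
with `PR J c X`, `Has Θ J C`, parameter `p` of type `C`:
`all (C.subst γ) (W γ φ).shift`. Domain edge with `PR c K X`, `Has Θ K C` (an answer type):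
`imp (W γ φ) (glob (C.subst γ)).shift`, using `Held.to`. -/
theorem exists_pw {j : ℕ} {b : Bool} {X Y : Set S} (hX : E.NN j X) (hY : E.NN j Y)
    (h : SP E.Edge b X Y) : Nonempty (E.PW j b X Y) := by
  induction h with
  | refl a => exact ⟨PW.id j a⟩
  | @step b₁ b₂ a c d e p ih =>
    have hc : E.NN j c := hX.between hY e.tgt ⟨_, SP.single e⟩ ⟨_, p⟩
    obtain ⟨q⟩ := ih hc hY
    cases b₁ with
    | true =>
      have eb : (true == b₂) = b₂ := by cases b₂ <;> rfl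
      rw [eb]
      obtain ⟨ha, -, s | ⟨J, hJ, r⟩⟩ := e
      · exact ⟨q.incl s⟩
      · exact q.right ha.1 hJ r
    | false =>
      have eb : (false == b₂) = !b₂ := by cases b₂ <;> rfl
      rw [eb]
      obtain ⟨-, -, K, hK, r⟩ := e
      exact q.left hX hc hK r

theorem PW.ren {j : ℕ} {b : Bool} {X Y : Set S} (p : E.PW j b X Y) {w w' : E.World} {ξ : ℕ → ℕ}
    (h : w.Ext w' ξ) (φ : LT S) : (p.W w.γ φ).ren ξ = p.W w'.γ (φ.ren ξ) := by
  exact p.ren_aux h φ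

theorem PW.eqv {j : ℕ} {X Y : Set S} (p : E.PW j true X Y) (w : E.World) {φ : LT S}
    (h : Has P w.G Y φ.tm) : w.Eqv j (p.W w.γ φ) φ := by
  intro w' ξ e
  rw [p.ren e]
  exact ⟨fun a b => p.elim w' _ (e.has h) a b, fun a b => b.elim (p.intro w' _ (e.has h) a)⟩

end Amb
end Vale.Agent.P340
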